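import Crest.Agent.R176.Mv

/-!
# R176 — the automaton recognising blocks
-/

set_option autoImplicit false

namespace Crest.Agent.R176

variable {C B k : ℕ}

private theorem trans_tok {s s' : AS C B} {x : Cell C B} (hk : x.t.kind = .tok) :
    Trans k s x s' ↔ WFc k x ∧ x.t.src = s.vx ∧ x.v ∉ s.seen ∧
      ((x.t.φ' : ℕ) % 3 = 0 → insert x.v s.seen = Finset.range (nn B k)) ∧
      s' = ⟨x.t.tgt, if (x.t.φ' : ℕ) % 3 = 0 then ∅ else insert x.v s.seen, s.qi, s.ri⟩ := by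
  unfold Trans
  rw [hk, AS.ext_iff]
  by_cases h : (x.t.φ' : ℕ) % 3 = 0 <;> simp only [h, if_true, if_false] <;> tauto

private theorem trans_cnt {s s' : AS C B} {x : Cell C B} (hk : x.t.kind = .cnt) :
    Trans k s x s' ↔ WFc k x ∧ x.t.src = s.vx ∧ x.v = s.seen.card % nn B k ∧
      ((x.t.φ' : ℕ) % 3 = 0 → s.seen = Finset.range (nn B k)) ∧
      s' = ⟨x.t.tgt, if (x.t.φ' : ℕ) % 3 = 0 then ∅ else s.seen, s.qi, s.ri⟩ := by
  unfold Trans
  rw [hk, AS.ext_iff]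
  by_cases h : (x.t.φ' : ℕ) % 3 = 0 <;> simp only [h, if_true, if_false] <;> tauto

private theorem trans_q {s s' : AS C B} {x : Cell C B} (hk : x.t.kind = .q) :
    Trans k s x s' ↔ WFc k x ∧ x.t.src = s.vx ∧ s' = ⟨x.t.tgt, s.seen, some x.a, s.ri⟩ := by
  unfold Trans
  rw [hk, AS.ext_iff]

private theorem trans_r {s s' : AS C B} {x : Cell C B} {g : Bool} {m : Mode}
    (hk : x.t.kind = .r g m) :
    Trans k s x s' ↔ WFc k x ∧ x.t.src = s.vx ∧
      s' = ⟨x.t.tgt, s.seen, s.qi, some (g, m, x.a, x.v)⟩ := by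
  unfold Trans
  rw [hk, AS.ext_iff]

private theorem acc_nil {s s' : AS C B} : Acc k s [] s' ↔ s' = s :=
  ⟨fun h => by cases h; rfl, fun h => h ▸ Acc.nil _⟩

private theorem acc_cons {s s'' : AS C B} {x : Cell C B} {u : List (Cell C B)} :
    Acc k s (x :: u) s'' ↔ ∃ s', Trans k s x s' ∧ Acc k s' u s'' :=
  ⟨fun h => by cases h with | cons h1 h2 => exact ⟨_, h1, h2⟩, fun ⟨_, h1, h2⟩ => Acc.cons h1 h2⟩

private theorem acc_mid {s s'' : AS C B} {x : Cell C B} {p u : List (Cell C B)}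
    (h : Acc k s (p ++ x :: u) s'') :
    ∃ s₁ s₂, Acc k s p s₁ ∧ Trans k s₁ x s₂ ∧ Acc k s₂ u s'' := by
  induction p generalizing s with
  | nil =>
    obtain ⟨s₂, h1, h2⟩ := acc_cons.1 h
    exact ⟨s, s₂, Acc.nil _, h1, h2⟩
  | cons y p ih =>
    obtain ⟨s', h1, h2⟩ := acc_cons.1 h
    obtain ⟨s₁, s₂, h3, h4⟩ := ih h2
    exact ⟨s₁, s₂, Acc.cons h1 h3, h4⟩

theorem Acc.append {s s' s'' : AS C B} {u u' : List (Cell C B)} (h : Acc k s u s')
    (h' : Acc k s' u' s'') : Acc k s (u ++ u') s'' := by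
  induction h with
  | nil => exact h'
  | cons h1 _ ih => exact Acc.cons h1 (ih h')

theorem Acc.split {s s'' : AS C B} {u u' : List (Cell C B)} (h : Acc k s (u ++ u') s'') :
    ∃ s', Acc k s u s' ∧ Acc k s' u' s'' := by
  induction u generalizing s with
  | nil => exact ⟨s, Acc.nil _, h⟩
  | cons y p ih =>
    obtain ⟨s', h1, h2⟩ := acc_cons.1 h
    obtain ⟨s₁, h3, h4⟩ := ih h2
    exact ⟨s₁, Acc.cons h1 h3, h4⟩

theorem Trans.det {s s₁ s₂ : AS C B} {x : Cell C B} (h₁ : Trans k s x s₁) (h₂ : Trans k s x s₂) :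
    s₁ = s₂ := by
  cases hk : x.t.kind with
  | tok => exact ((trans_tok hk).1 h₁).2.2.2.2.trans ((trans_tok hk).1 h₂).2.2.2.2.symm
  | cnt => exact ((trans_cnt hk).1 h₁).2.2.2.2.trans ((trans_cnt hk).1 h₂).2.2.2.2.symm
  | q => exact ((trans_q hk).1 h₁).2.2.trans ((trans_q hk).1 h₂).2.2.symm
  | r g m => exact ((trans_r hk).1 h₁).2.2.trans ((trans_r hk).1 h₂).2.2.symm

theorem Acc.path {s s' : AS C B} {u : List (Cell C B)} (h : Acc k s u s') : Path k s.vx u s'.vx := by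
  induction h with
  | nil => exact Path.nil _
  | cons h1 _ ih =>
    obtain ⟨hw, h2, h3, -⟩ := h1
    rw [← h2]
    rw [h3] at ih
    exact Path.cons hw ih

private def SeenT (n : ℕ) (kd : Kind) (j v : ℕ) (S S' : Finset ℕ) : Prop :=
  match kd with
  | .tok => v ∉ S ∧ if j % 3 = 0 then insert v S = Finset.range n ∧ S' = ∅ else S' = insert v S
  | .cnt => v = S.card % n ∧ if j % 3 = 0 then S = Finset.range n ∧ S' = ∅ else S' = S
  | .q => S' = S
  | .r _ _ => S' = S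

private def nq {α : Type} (kd : Kind) (a : α) (o : Option α) : Option α :=
  match kd with
  | .q => some a
  | _ => o

private def nr {α : Type} (kd : Kind) (a : α) (o : Option (Bool × Mode × α)) :
    Option (Bool × Mode × α) :=
  match kd with
  | .r g m => some (g, m, a)
  | _ => o

private theorem trans_iff {s s' : AS C B} {x : Cell C B} :
    Trans k s x s' ↔ WFc k x ∧ x.t.src = s.vx ∧ s'.vx = x.t.tgt ∧
      SeenT (nn B k) x.t.kind x.t.φ' x.v s.seen s'.seen ∧ s'.qi = nq x.t.kind x.a s.qi ∧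
      s'.ri = nr x.t.kind (x.a, x.v) s.ri := by
  unfold Trans SeenT nq nr
  cases x.t.kind <;> simp only <;> tauto

private theorem two_iff {s s₂ : AS C B} {x y : Cell C B} (hx : WFc k x) (hy : WFc k y)
    (ha : inAdj x.t y.t) :
    (∃ s₁, Trans k s x s₁ ∧ Trans k s₁ y s₂) ↔ x.t.src = s.vx ∧ s₂.vx = y.t.tgt ∧
      (∃ S, SeenT (nn B k) x.t.kind x.t.φ' x.v s.seen S ∧
        SeenT (nn B k) y.t.kind y.t.φ' y.v S s₂.seen) ∧
      s₂.qi = nq y.t.kind y.a (nq x.t.kind x.a s.qi) ∧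
      s₂.ri = nr y.t.kind (y.a, y.v) (nr x.t.kind (x.a, x.v) s.ri) := by
  simp only [trans_iff]
  constructor
  · rintro ⟨s₁, ⟨-, h1, -, h3, h4, h5⟩, -, -, h7, h8, h9, h10⟩
    exact ⟨h1, h7, ⟨_, h3, h8⟩, h4 ▸ h9, h5 ▸ h10⟩
  · rintro ⟨h1, h2, ⟨S, h3, h4⟩, h5, h6⟩
    exact ⟨⟨x.t.tgt, S, _, _⟩, ⟨hx, h1, rfl, h3, rfl, rfl⟩, hy, ha.symm, h2, h4, h5, h6⟩

private theorem seen_cnt {n j j' j₂ v w : ℕ} (hv : v < n) (hj : j % 3 = 2) (hj' : j' + 1 = j)
    {S S₂ : Finset ℕ} :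
    (∃ S₁, SeenT n .cnt j v S S₁ ∧ SeenT n .tok j₂ w S₁ S₂) ↔
      ∃ S₁, SeenT n .tok j' w S S₁ ∧ SeenT n .cnt j₂ ((v + 1) % n) S₁ S₂ := by
  have h1 : ¬ j % 3 = 0 := by omega
  have h2 : ¬ j' % 3 = 0 := by omega
  simp only [SeenT, if_neg h1, if_neg h2]
  constructor
  · rintro ⟨_, ⟨h3, rfl⟩, h4, h5⟩
    refine ⟨_, ⟨h4, rfl⟩, ?_, h5⟩
    rw [Finset.card_insert_of_notMem h4, h3, Nat.mod_add_mod]
  · rintro ⟨_, ⟨h3, rfl⟩, h4, h5⟩
    refine ⟨_, ⟨?_, rfl⟩, h3, h5⟩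
    rw [Finset.card_insert_of_notMem h3] at h4
    have h6 : v % n = S.card % n := Nat.ModEq.add_right_cancel' 1 h4
    rw [← h6, Nat.mod_eq_of_lt hv]

private theorem seen_tt {n j j₂ v w : ℕ} (hj : j % 3 ≠ 0) {S S₂ : Finset ℕ}
    (h : ∃ S₁, SeenT n .tok j v S S₁ ∧ SeenT n .tok j₂ w S₁ S₂) :
    ∃ S₁, SeenT n .tok j w S S₁ ∧ SeenT n .tok j₂ v S₁ S₂ := by
  simp only [SeenT, if_neg hj] at h ⊢
  obtain ⟨_, ⟨h3, rfl⟩, h4, h5⟩ := h
  rw [Finset.mem_insert, not_or] at h4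
  refine ⟨_, ⟨h4.2, rfl⟩, ?_, ?_⟩
  · rw [Finset.mem_insert, not_or]
    exact ⟨Ne.symm h4.1, h3⟩
  · rwa [Finset.insert_comm]

private theorem local_inv {s s₂ : AS C B} {x y x' y' : Cell C B}
    (h : (skel C B k).step x y x' y') :
    (∃ s₁, Trans k s x s₁ ∧ Trans k s₁ y s₂) ↔ (∃ s₁, Trans k s x' s₁ ∧ Trans k s₁ y' s₂) := by
  obtain ⟨hx, hy, hx', hy', inc, hs, h1, h2, h3, h4⟩ := h
  obtain ⟨a1, a2, a3, a4⟩ := hs.vtx hx.1 hy.1
  rw [two_iff hx hy a1, two_iff hx' hy' a2, a3, a4, h1, h2, h3, h4]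
  refine and_congr_right fun _ => and_congr_right fun _ => ?_
  have hyO := hy.1
  have hxv := hx.2.1
  generalize x.t = t at *
  generalize y.t = t' at *
  generalize x'.t = u at *
  generalize y'.t = u' at *
  cases hs with
  | head _ hk =>
    simp only [Bool.false_eq_true, if_false]
    rcases hk with hk | ⟨hk, hk'⟩
    · have hq : t'.kind ≠ .q := by
        intro h
        have h5 : t'.hq = true := by
          have := congrArg (fun v : Vtx => v.2.1) a1
          simpa [Tag.tgt, Tag.src, hk] using this.symm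
        unfold Tag.OK at hyO
        rw [h] at hyO
        simp [h5] at hyO
      rw [hk]
      cases hk' : t'.kind <;> simp [SeenT, nq, nr] at *
      exact absurd hk' hq
    · cases hk2 : t.kind with
      | r g m => rcases hk' with hk' | hk' <;> rw [hk'] <;> simp [SeenT, nq, nr]
      | _ => rw [hk2] at hk; simp [Kind.isR] at hk
  | cnt _ hk hk' h5 h6 =>
    rw [hk] at hxv
    rw [hk, hk', if_pos rfl, seen_cnt (hxv rfl).2 h5 h6]
    simp [nq, nr]
  | tt htt =>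
    obtain ⟨-, hk, hk', h5⟩ := htt
    rw [hk, hk']
    simp only [Bool.false_eq_true, if_false, nq, nr]
    exact and_congr_left' ⟨seen_tt h5, seen_tt h5⟩

/-- Local invariance: for a skeleton rule `x y → x' y'`, `(∃ s₁, Trans s x s₁ ∧ Trans s₁ y s₂) ↔
(∃ s₁, Trans s x' s₁ ∧ Trans s₁ y' s₂)`. -/
theorem Acc.of_skel {s s' : AS C B} {u u' : List (Cell C B)} (h : Acc k s u s')
    (e : (skel C B k).Eqv u u') : Acc k s u' s' := by
  refine e.induction (P := fun w => Acc k s w s') ?_ h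
  intro w w' hw hs
  obtain ⟨p, r, x, y, x', y', hst, rfl, rfl⟩ := RW.sstep_iff.1 hs
  obtain ⟨s₁, s₂, h1, h2, h3⟩ := acc_mid hw
  obtain ⟨s₃, h4, h5⟩ := acc_cons.1 h3
  obtain ⟨s₄, h6, h7⟩ : ∃ s₄, Trans k s₁ x' s₄ ∧ Trans k s₄ y' s₃ := by
    rcases hst with hst | hst
    · exact (local_inv hst).1 ⟨_, h2, h4⟩
    · exact (local_inv hst).2 ⟨_, h2, h4⟩
  exact h1.append (Acc.cons h6 (Acc.cons h7 h5))

private theorem acc_det {s s₁ s₂ : AS C B} {u : List (Cell C B)} (h₁ : Acc k s u s₁)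
    (h₂ : Acc k s u s₂) : s₁ = s₂ := by
  induction h₁ with
  | nil => exact (acc_nil.1 h₂).symm
  | cons h1 _ ih =>
    obtain ⟨s', h3, h4⟩ := acc_cons.1 h₂
    exact ih (h1.det h3 ▸ h4)

theorem Blk.unique {u : List (Cell C B)} {h h' : Hd C B} (h₁ : Blk k u h) (h₂ : Blk k u h') :
    h = h' := by
  have h := acc_det h₁ h₂
  simp only [AS.mk.injEq, Option.some.injEq, Prod.mk.injEq, true_and] at h
  exact Hd.ext h.1 h.2.1 h.2.2.1 h.2.2.2.1 h.2.2.2.2

theorem Blk.path {u : List (Cell C B)} {h : Hd C B} (hb : Blk k u h) : Path k bot u (top C) :=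
  Acc.path hb

private theorem trans_hq {s s' : AS C B} {x : Cell C B} (h : Trans k s x s')
    (hs : s.vx.2.1 = true) : x.t.kind ≠ .q ∧ s'.vx.2.1 = true := by
  obtain ⟨hw, h1, h2, -⟩ := h
  have h3 : x.t.hq = true := by rw [← h1] at hs; exact hs
  refine ⟨fun hk => ?_, by rw [h2]; simp [Tag.tgt, h3]⟩
  have h4 := hw.1
  unfold Tag.OK at h4
  rw [hk] at h4
  simp [h3] at h4

private theorem trans_hr {s s' : AS C B} {x : Cell C B} (h : Trans k s x s')
    (hs : s.vx.2.2 = true) : x.t.kind.isR = false ∧ s'.vx.2.2 = true := by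
  obtain ⟨hw, h1, h2, -⟩ := h
  have h3 : x.t.hr = true := by rw [← h1] at hs; exact hs
  refine ⟨?_, by rw [h2]; simp [Tag.tgt, h3]⟩
  have h4 := hw.1
  unfold Tag.OK at h4
  cases hk : x.t.kind with
  | r g m =>
    rw [hk] at h4
    simp [h3] at h4
  | _ => rfl

private theorem nq_ne {α : Type} {kd : Kind} (h : kd ≠ .q) (a : α) (o : Option α) :
    nq kd a o = o := by
  cases kd <;> first | rfl | exact absurd rfl h

private theorem nr_ne {α : Type} {kd : Kind} (h : kd.isR = false) (a : α)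
    (o : Option (Bool × Mode × α)) : nr kd a o = o := by
  cases kd <;> first | rfl | simp [Kind.isR] at h

private theorem acc_q {s s' : AS C B} {u : List (Cell C B)} (h : Acc k s u s')
    (hs : s.vx.2.1 = true) :
    s'.qi = s.qi ∧ ∀ c, Acc k { s with qi := c } u { s' with qi := c } := by
  induction h with
  | nil => exact ⟨rfl, fun _ => Acc.nil _⟩
  | cons h1 _ ih =>
    obtain ⟨h2, h3⟩ := trans_hq h1 hs
    obtain ⟨h4, h5⟩ := ih h3
    obtain ⟨a1, a2, a3, a4, a5, a6⟩ := trans_iff.1 h1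
    rw [nq_ne h2] at a5
    refine ⟨h4.trans a5, fun c => Acc.cons ?_ (h5 c)⟩
    exact trans_iff.2 ⟨a1, a2, a3, a4, (nq_ne h2 _ _).symm, a6⟩

private theorem acc_r {s s' : AS C B} {u : List (Cell C B)} (h : Acc k s u s')
    (hs : s.vx.2.2 = true) :
    s'.ri = s.ri ∧ ∀ c, Acc k { s with ri := c } u { s' with ri := c } := by
  induction h with
  | nil => exact ⟨rfl, fun _ => Acc.nil _⟩
  | cons h1 _ ih =>
    obtain ⟨h2, h3⟩ := trans_hr h1 hs
    obtain ⟨h4, h5⟩ := ih h3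
    obtain ⟨a1, a2, a3, a4, a5, a6⟩ := trans_iff.1 h1
    rw [nr_ne h2] at a6
    refine ⟨h4.trans a6, fun c => Acc.cons ?_ (h5 c)⟩
    exact trans_iff.2 ⟨a1, a2, a3, a4, a5, (nr_ne h2 _ _).symm⟩

/-- the head `q` of a block (after it the flag `hq` is set, so there is no other `q`) -/
theorem Blk.q_eq {p s : List (Cell C B)} {x : Cell C B} {h : Hd C B} (hb : Blk k (p ++ x :: s) h)
    (hx : x.t.kind = .q) : x.a = h.a := by
  obtain ⟨s₁, s₂, -, h2, h3⟩ := acc_mid hb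
  obtain ⟨-, -, rfl⟩ := (trans_q hx).1 h2
  exact (Option.some.inj (acc_q h3 (by simp [Tag.tgt, hx])).1).symm

theorem Blk.r_eq {p s : List (Cell C B)} {x : Cell C B} {h : Hd C B} {g : Bool} {m : Mode}
    (hb : Blk k (p ++ x :: s) h) (hx : x.t.kind = .r g m) :
    g = h.g ∧ m = h.m ∧ x.a = h.ra ∧ x.v = h.rv := by
  obtain ⟨s₁, s₂, -, h2, h3⟩ := acc_mid hb
  obtain ⟨-, -, rfl⟩ := (trans_r hx).1 h2
  have h4 := (Option.some.inj (acc_r h3 (by simp [Tag.tgt, hx, Kind.isR])).1).symm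
  simpa only [Prod.mk.injEq] using h4

private theorem acc_wf {s s' : AS C B} {u : List (Cell C B)} (h : Acc k s u s')
    (hs : ∀ g m a v, s.ri = some (g, m, a, v) →
      (g = true → a = a0 ∧ v < nn B k) ∧ (g = false → v = 0)) :
    ∀ g m a v, s'.ri = some (g, m, a, v) →
      (g = true → a = a0 ∧ v < nn B k) ∧ (g = false → v = 0) := by
  induction h with
  | nil => exact hs
  | @cons s s' s'' x u h1 _ ih =>
    refine ih fun g m a v h2 => ?_
    obtain ⟨a1, -, -, -, -, a6⟩ := trans_iff.1 h1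
    rw [a6] at h2
    cases hk : x.t.kind with
    | r g' m' =>
      have h3 := a1.2
      rw [hk] at h2 h3
      simp only [nr, Option.some.injEq, Prod.mk.injEq] at h2
      obtain ⟨rfl, rfl, rfl, rfl⟩ := h2
      exact h3
    | _ =>
      rw [hk] at h2
      exact hs g m a v h2

theorem Blk.hd_wf {u : List (Cell C B)} {h : Hd C B} (hb : Blk k u h) : h.WF k := by
  exact acc_wf hb (fun _ _ _ _ h => by simp at h) _ _ _ _ rfl

theorem Blk.set_q {p s : List (Cell C B)} {x x' : Cell C B} {h : Hd C B}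
    (hb : Blk k (p ++ x :: s) h) (hx : x.t.kind = .q) (ht : x'.t = x.t) (hw : WFc k x') :
    Blk k (p ++ x' :: s) { h with a := x'.a } := by
  obtain ⟨s₁, s₂, h1, h2, h3⟩ := acc_mid hb
  obtain ⟨-, h4, rfl⟩ := (trans_q hx).1 h2
  have h5 := (acc_q h3 (by simp [Tag.tgt, hx])).2 (some x'.a)
  refine h1.append (Acc.cons ((trans_q (ht ▸ hx)).2 ⟨hw, ht ▸ h4, ?_⟩) h5)
  rw [ht]

theorem Blk.set_r {p s : List (Cell C B)} {x x' : Cell C B} {h : Hd C B} {g : Bool} {m : Mode}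
    (hb : Blk k (p ++ x :: s) h) (hx : x.t.kind.isR = true) (ht : x'.t = { x.t with kind := .r g m })
    (hw : WFc k x') : Blk k (p ++ x' :: s) { h with g := g, m := m, ra := x'.a, rv := x'.v } := by
  obtain ⟨s₁, s₂, h1, h2, h3⟩ := acc_mid hb
  cases hk : x.t.kind with
  | r g' m' =>
    obtain ⟨-, h4, rfl⟩ := (trans_r hk).1 h2
    have h5 := (acc_r h3 (by simp [Tag.tgt, hx])).2 (some (g, m, x'.a, x'.v))
    have hk' : x'.t.kind = .r g m := by rw [ht]
    refine h1.append (Acc.cons ((trans_r hk').2 ⟨hw, ?_, ?_⟩) h5)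
    · rw [ht, ← h4]; rfl
    · have h6 : x'.t.tgt = x.t.tgt := by rw [ht]; simp [Tag.tgt, hk, Kind.isR]
      rw [h6]
  | _ => rw [hk] at hx; simp [Kind.isR] at hx

/-- two adjacent tokens of the same zone of a block are different -/
theorem Blk.tt_ne {p s : List (Cell C B)} {x y : Cell C B} {h : Hd C B}
    (hb : Blk k (p ++ x :: y :: s) h) (ht : TT x.t y.t) : x.v ≠ y.v := by
  obtain ⟨s₁, s₂, -, h2, h3⟩ := acc_mid hb
  obtain ⟨s₃, h4, -⟩ := acc_cons.1 h3
  obtain ⟨-, -, -, -, rfl⟩ := (trans_tok ht.2.1).1 h2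
  have h5 := ((trans_tok ht.2.2.1).1 h4).2.2.1
  simp only [if_neg ht.2.2.2, Finset.mem_insert, not_or] at h5
  exact Ne.symm h5.1

private theorem acc_seen {s s' : AS C B} {u : List (Cell C B)} (h : Acc k s u s')
    (hs : s.vx.1 % 3 = 0 → s.seen = ∅) : s'.vx.1 % 3 = 0 → s'.seen = ∅ := by
  induction h with
  | nil => exact hs
  | @cons s s' s'' x u h1 _ ih =>
    refine ih fun h2 => ?_
    have h3 := h1.1.1
    unfold Tag.OK at h3
    cases hk : x.t.kind with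
    | tok =>
      obtain ⟨-, -, -, -, rfl⟩ := (trans_tok hk).1 h1
      exact if_pos h2
    | cnt =>
      obtain ⟨-, -, -, -, rfl⟩ := (trans_cnt hk).1 h1
      exact if_pos h2
    | q =>
      obtain ⟨-, h4, rfl⟩ := (trans_q hk).1 h1
      rw [hk] at h3
      refine hs ?_
      rw [← h4, Tag.src, ← h3.1]
      exact h2
    | r g m =>
      obtain ⟨-, h4, rfl⟩ := (trans_r hk).1 h1
      rw [hk] at h3
      refine hs ?_
      rw [← h4, Tag.src, ← h3.1]
      exact h2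

/-- invariant: `seen = ∅` at the phases divisible by `3` -/
theorem Blk.cnt_zero {u : List (Cell C B)} {x : Cell C B} {h : Hd C B} (hb : Blk k u h) (hx : x ∈ u)
    (hk : x.t.kind = .cnt) (h0 : x.t.A0) : x.v = 0 := by
  obtain ⟨p, r, rfl⟩ := List.append_of_mem hx
  obtain ⟨s₁, s₂, h1, h2, -⟩ := acc_mid hb
  obtain ⟨-, h3, h4, h5, -⟩ := (trans_cnt hk).1 h2
  rcases h0 with ⟨-, h6 | h6⟩ | h6
  · rw [h4, acc_seen h1 (fun _ => rfl) (by rw [← h3]; exact h6), Finset.card_empty, Nat.zero_mod]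
  · rw [h4, h5 h6, Finset.card_range, Nat.mod_self]
  · rw [hk] at h6
    cases h6

private theorem acc_bot {s s' : AS C B} {u : List (Cell C B)} (h : Acc k s u s')
    (hs : s'.vx = bot) : u = [] := by
  induction h with
  | nil => rfl
  | cons h1 h2 ih =>
    have h3 := ih hs
    subst h3
    rw [acc_nil.1 h2, h1.2.2.1] at hs
    exact absurd hs h1.1.1.tgt_ne_bot

theorem Blk.start_iff {a b : List (Cell C B)} {c : Cell C B} {h : Hd C B}
    (hb : Blk k (a ++ c :: b) h) : c.t.src = bot ↔ a = [] := by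
  obtain ⟨s₁, s₂, h1, h2, -⟩ := acc_mid hb
  refine ⟨fun h => acc_bot h1 (h2.2.1 ▸ h), fun h => ?_⟩
  subst h
  rw [h2.2.1, acc_nil.1 h1]

theorem Blk.last_tgt {u : List (Cell C B)} {c : Cell C B} {h : Hd C B} (hb : Blk k (u ++ [c]) h) :
    c.t.tgt = top C := by
  obtain ⟨s₁, s₂, -, h2, h3⟩ := acc_mid hb
  rw [← h2.2.2.1, ← acc_nil.1 h3]

private theorem ph_val {j : ℕ} (h : j ≤ 3 * C) : (ph C j : ℕ) = j :=
  Nat.mod_eq_of_lt (Nat.lt_succ_of_le h)

private theorem acc_tokR {z : ℕ} (hz : z < C) {f g : Bool} {qi : Option (Code C B)}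
    {ri : Option (Bool × Mode × Code C B × ℕ)} {s' : AS C B} (v : ℕ) (l : List ℕ) (S : Finset ℕ) :
    Acc k ⟨(3 * z + 2, f, g), S, qi, ri⟩ (tokR z f g (v :: l)) s' ↔
      ((v :: l).Nodup ∧ (∀ w ∈ v :: l, w ∉ S) ∧ (v :: l).toFinset ∪ S = Finset.range (nn B k)) ∧
        s' = ⟨(3 * z + 3, f, g), ∅, qi, ri⟩ := by
  have e2 : (ph C (3 * z + 2) : ℕ) = 3 * z + 2 := ph_val (by omega)
  have e3 : (ph C (3 * z + 3) : ℕ) = 3 * z + 3 := ph_val (by omega)
  have m2 : (3 * z + 2) % 3 = 2 := by omega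
  have m3 : (3 * z + 3) % 3 = 0 := by omega
  induction l generalizing v S with
  | nil =>
    rw [tokR, acc_cons]
    simp only [acc_nil, trans_tok (x := ⟨⟨.tok, _, _, f, g⟩, a0, v⟩) rfl, WFc, Tag.OK, Tag.src,
      Tag.tgt, e2, e3, m2, m3, Kind.big, Kind.isR]
    constructor
    · rintro ⟨_, ⟨-, -, h1, h2, rfl⟩, rfl⟩
      exact ⟨⟨by simp, by simpa using h1, by simpa using h2 trivial⟩, by simp⟩
    · rintro ⟨⟨-, h1, h2⟩, rfl⟩
      have h3 : v ∈ Finset.range (nn B k) := by rw [← h2]; simp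
      exact ⟨_, ⟨⟨by simp, by simpa using h3, by simp⟩, trivial, by simpa using h1,
        fun _ => by simpa using h2, by simp⟩, rfl⟩
  | cons w l ih =>
    rw [tokR, acc_cons]
    simp only [trans_tok (x := ⟨⟨.tok, _, _, f, g⟩, a0, v⟩) rfl, WFc, Tag.OK, Tag.src,
      Tag.tgt, e2, m2, Kind.big, Kind.isR]
    constructor
    · rintro ⟨_, ⟨-, -, h1, -, rfl⟩, h2⟩
      simp only [reduceCtorEq, decide_false, Bool.or_false, OfNat.ofNat_ne_zero, if_false] at h2
      obtain ⟨⟨h3, h4, h5⟩, h6⟩ := (ih w _).1 h2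
      refine ⟨⟨List.nodup_cons.2 ⟨fun h => h4 v h (Finset.mem_insert_self _ _), h3⟩, ?_, ?_⟩, h6⟩
      · intro x hx
        rcases List.mem_cons.1 hx with rfl | hx
        · exact h1
        · exact fun h => h4 x hx (Finset.mem_insert_of_mem h)
      · rw [← h5, List.toFinset_cons (a := v), Finset.insert_union, Finset.union_insert]
    · rintro ⟨⟨h1, h2, h3⟩, h4⟩
      have h5 : v ∈ Finset.range (nn B k) := by rw [← h3]; simp
      rw [List.nodup_cons] at h1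
      refine ⟨⟨(3 * z + 2, f, g), insert v S, qi, ri⟩, ⟨⟨by simp, by simpa using h5, by simp⟩,
        trivial, h2 v (List.mem_cons_self), by simp, by simp⟩, (ih w _).2 ⟨⟨h1.2, ?_, ?_⟩, h4⟩⟩
      · intro x hx
        rw [Finset.mem_insert, not_or]
        exact ⟨fun h => h1.1 (h ▸ hx), h2 x (List.mem_cons_of_mem _ hx)⟩
      · rw [← h3, List.toFinset_cons (a := v), Finset.insert_union, Finset.union_insert]

/-- reading off a zone in normal form -/
theorem acc_zoneW_iff {z : ℕ} (hz : z < C) {f g : Bool} {cv : ℕ} {tl : List ℕ} (h0 : tl ≠ [])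
    {qi : Option (Code C B)} {ri : Option (Bool × Mode × Code C B × ℕ)} {s' : AS C B} :
    Acc k ⟨(3 * z, f, g), ∅, qi, ri⟩ (zoneW z f g cv tl) s' ↔
      cv = 0 ∧ tl.Perm (List.range (nn B k)) ∧ s' = ⟨(3 * z + 3, f, g), ∅, qi, ri⟩ := by
  obtain ⟨v, l, rfl⟩ := List.exists_cons_of_ne_nil h0
  have e0 : (ph C (3 * z) : ℕ) = 3 * z := ph_val (by omega)
  have e2 : (ph C (3 * z + 2) : ℕ) = 3 * z + 2 := ph_val (by omega)
  have m0 : (3 * z) % 3 = 0 := by omega
  have m2 : (3 * z + 2) % 3 = 2 := by omega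
  have hp : ((v :: l).Nodup ∧ (∀ w ∈ v :: l, w ∉ (∅ : Finset ℕ)) ∧
      (v :: l).toFinset ∪ ∅ = Finset.range (nn B k)) ↔ (v :: l).Perm (List.range (nn B k)) := by
    rw [Finset.union_empty, ← List.toFinset_range]
    exact ⟨fun h => List.perm_of_nodup_nodup_toFinset_eq h.1 List.nodup_range h.2.2,
      fun h => ⟨h.nodup_iff.2 List.nodup_range, fun _ _ => Finset.notMem_empty _,
        List.toFinset_eq_of_perm _ _ h⟩⟩
  rw [zoneW, acc_cons, ← hp, ← acc_tokR hz]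
  simp only [trans_cnt (x := ⟨⟨.cnt, _, _, f, g⟩, a0, cv⟩) rfl, WFc, Tag.OK, Tag.src,
    Tag.tgt, e0, e2, m0, m2, Kind.big, Kind.isR]
  constructor
  · rintro ⟨_, ⟨-, -, h1, -, rfl⟩, h2⟩
    exact ⟨by simpa using h1, by simpa using h2⟩
  · rintro ⟨rfl, h2⟩
    exact ⟨_, ⟨⟨by simp, by simpa using nn_pos B k, by simp⟩, trivial, by simp, by simp, by simp⟩,
      h2⟩

theorem acc_zones (f g : Bool) (qi : Option (Code C B)) (ri : Option (Bool × Mode × Code C B × ℕ)) :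
    Acc k ⟨(0, f, g), ∅, qi, ri⟩ (zones C B k f g) ⟨(3 * C, f, g), ∅, qi, ri⟩ := by
  have key : ∀ c ≤ C, Acc k ⟨(0, f, g), ∅, qi, ri⟩
      ((List.range c).flatMap fun z => (zoneW z f g 0 (List.range (nn B k)) : List (Cell C B)))
      ⟨(3 * c, f, g), ∅, qi, ri⟩ := by
    intro c hc
    induction c with
    | zero => exact Acc.nil _
    | succ c ih =>
      rw [List.range_succ, List.flatMap_append, List.flatMap_singleton]
      refine (ih (by omega)).append ((acc_zoneW_iff hc ?_).2 ⟨rfl, List.Perm.refl _, rfl⟩)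
      have := nn_pos B k
      rw [Ne, List.range_eq_nil]
      omega
  exact key C le_rfl

private theorem trans_qCell {j : ℕ} (hj : j ≤ 3 * C) (b : Bool) (h : Hd C B) (S : Finset ℕ)
    (qi : Option (Code C B)) (ri : Option (Bool × Mode × Code C B × ℕ)) :
    Trans k ⟨(j, false, b), S, qi, ri⟩ (qCell j b h) ⟨(j, true, b), S, some h.a, ri⟩ := by
  refine (trans_q rfl).2 ⟨⟨⟨rfl, rfl⟩, fun h => by simp [qCell, Kind.big] at h, fun _ => rfl⟩, ?_, ?_⟩
  · simp [qCell, Tag.src, ph_val hj]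
  · simp [qCell, Tag.tgt, ph_val hj, Kind.isR]

private theorem trans_rCell {j : ℕ} (hj : j ≤ 3 * C) (b : Bool) {h : Hd C B} (hw : h.WF k)
    (S : Finset ℕ) (qi : Option (Code C B)) (ri : Option (Bool × Mode × Code C B × ℕ)) :
    Trans k ⟨(j, b, false), S, qi, ri⟩ (rCell j b h)
      ⟨(j, b, true), S, qi, some (h.g, h.m, h.ra, h.rv)⟩ := by
  refine (trans_r rfl).2 ⟨⟨⟨rfl, rfl⟩, hw.1, hw.2⟩, ?_, ?_⟩
  · simp [rCell, Tag.src, ph_val hj]
  · simp [rCell, Tag.tgt, ph_val hj, Kind.isR]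

theorem blk_canon {h : Hd C B} (hw : h.WF k) : Blk k (canon k h) h := by
  exact Acc.cons (trans_qCell (Nat.zero_le _) _ _ _ _ _)
    (Acc.cons (trans_rCell (Nat.zero_le _) _ hw _ _ _) (acc_zones _ _ _ _))

/-- `q` at the left end, `r` at the right end -/
theorem blk_qr {h : Hd C B} (hw : h.WF k) :
    Blk k (qCell 0 false h :: zones C B k true false ++ [rCell (3 * C) true h]) h := by
  exact Acc.cons (trans_qCell (Nat.zero_le _) _ _ _ _ _)
    ((acc_zones _ _ _ _).append (Acc.cons (trans_rCell le_rfl _ hw _ _ _) (Acc.nil _)))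

/-- `r` at the left end, `q` at the right end -/
theorem blk_rq {h : Hd C B} (hw : h.WF k) :
    Blk k (rCell 0 false h :: zones C B k false true ++ [qCell (3 * C) true h]) h := by
  exact Acc.cons (trans_rCell (Nat.zero_le _) _ hw _ _ _)
    ((acc_zones _ _ _ _).append (Acc.cons (trans_qCell le_rfl _ _ _ _ _) (Acc.nil _)))

end Crest.Agent.R176
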