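import Crest.Agent.R176.Mat1

/-!
# R176 — local representatives, and the action on (cosets) × G
-/

set_option autoImplicit false

namespace Crest.Agent.R176

open scoped commutatorElement

variable {m : ℕ} {S : RW (Fin m)} {D : ℕ} [NeZero D] {N' : ℕ}

theorem act_exists_blk (hN : 1 ≤ N') (hD : 6 * N' ≤ D) : ∃ blk : ℕ → ℕ,
    (∀ p k, p + k < D → blk p = blk (p + k) → k ≤ 6 * N') ∧
    (∀ p p', p < 2 * N' → p' < 2 * N' → blk p = blk p') ∧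
    ∀ p k k', k < N' → k' < N' → blk p ≠ blk (p + k) →
      p + k + k' < D ∧ blk (p + k) = blk (p + k + k') := by
  obtain ⟨M, hM⟩ : ∃ M, M = 3 * N' := ⟨_, rfl⟩
  have hM0 : 0 < M := by omega
  have hdiv : ∀ p, M * (p / M) ≤ p ∧ p < M * (p / M) + M := fun p =>
    ⟨Nat.mul_div_le p M, Nat.lt_mul_div_succ p hM0 |>.trans_eq (Nat.mul_succ _ _)⟩
  obtain ⟨q, hq⟩ : ∃ q, D / M = q + 1 :=
    Nat.exists_eq_succ_of_ne_zero (Nat.div_pos (by omega) hM0).ne'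
  have hq1 := hdiv D
  rw [hq, Nat.mul_succ] at hq1
  refine ⟨fun p => min (p / M) q, fun p k h1 h2 => ?_, fun p p' h1 h2 => ?_,
    fun p k k' h1 h2 h3 => ?_⟩
  · have a1 := hdiv p
    have a2 := hdiv (p + k)
    simp only at h2
    rcases le_or_gt q (p / M) with h | h
    · have := Nat.mul_le_mul_left M h
      omega
    · have h3 : (p + k) / M = p / M := by omega
      rw [h3] at a2
      omega
  · simp only
    rw [Nat.div_eq_of_lt (by omega), Nat.div_eq_of_lt (by omega)]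
  · have a1 := hdiv p
    have a2 := hdiv (p + k)
    have a3 := hdiv (p + k + k')
    simp only at h3 ⊢
    have b1 : p / M ≤ (p + k) / M := Nat.div_le_div_right (by omega)
    have b2 : (p + k) / M ≤ (p + k + k') / M := Nat.div_le_div_right (by omega)
    have b3 : p / M + 1 ≤ q := by omega
    have b4 := Nat.mul_le_mul_left M b3
    rw [Nat.mul_succ] at b4
    have b5 : (p + k + k') / M ≤ p / M + 1 := by
      refine Nat.le_of_lt_succ ((Nat.div_lt_iff_lt_mul hM0).2 ?_)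
      rw [Nat.succ_mul, Nat.succ_mul, mul_comm]
      omega
    exact ⟨by omega, by omega⟩

theorem act_mul_mem {P Q : Lam D → ℕ → Prop}
    (h : ∀ l k k', P l k → Q (sh l k) k' → Q l (k + k')) {u X : MA S D} (hu : u - 1 ∈ MM S P)
    (hX : X ∈ MM S Q) : u * X ∈ MM S Q := by
  have e : u * X = (u - 1) * X + X := by rw [sub_mul, one_mul, sub_add_cancel]
  rw [e]
  exact add_mem (MM_mul h hu hX) hX

theorem act_closed_Ge (a : ℕ) : Closed (Ge a : Lam D → ℕ → Prop) := fun _ _ _ h _ =>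
  le_add_right h

/-- Cut the cycle into blocks, `blk p = min (p / (3 N')) (D / (3 N') - 1)` (lengths in `[3 N', 6 N')`).  Let
`P₁ l k := 1 ≤ k ∧ pos + k < D ∧ blk pos = blk (pos + k)` (closed, `k < 6 N'`), `ℓ₁ = 1 + prj P₁ (g - 1)` (`exists_unit`),
`h = ℓ₁⁻¹ g`; then `h - 1 ∈ MM (N' ≤ k ∨ P₂)`, `P₂ l k := 1 ≤ k ∧ k < N' ∧ ¬ P₁ l k`.  Two `P₂` terms never chain, so
`h₀ = 1 + prj (k < N') (h - 1)` is an involution.  Take `ℓ = ℓ₁ h₀`; `ℓ⁻¹ g - 1 = h₀ (h - h₀)`, `g⁻¹ ℓ - 1 = h⁻¹ (h₀ - h)`. -/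
theorem exists_local (hN : 1 ≤ N') (hD : 6 * N' ≤ D) {g : (MA S D)ˣ} (hg : g ∈ Loc S (Ge 1)) :
    ∃ ℓ ∈ Loc S (Rng 1 (7 * N')), ℓ⁻¹ * g ∈ Loc S (Ge N') := by
  obtain ⟨blk, b1, b2, b3⟩ := act_exists_blk hN hD
  let P₁ : Lam D → ℕ → Prop := fun l k =>
    1 ≤ k ∧ pos 0 l + k < D ∧ blk (pos 0 l) = blk (pos 0 l + k)
  have hsh : ∀ {l k}, P₁ l k → pos 0 (sh l k) = pos 0 l + k := fun h => by
    rw [pos_sh, Nat.mod_eq_of_lt h.2.1]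
  have hP₁ : Closed P₁ := fun l k k' h h' => by
    obtain ⟨h1, h2, h3⟩ := h'
    rw [hsh h] at h2 h3
    exact ⟨le_add_right h.1, by omega, by rw [← add_assoc, ← h3, h.2.2]⟩
  obtain ⟨ℓ₁, hℓ₁, e₁⟩ := exists_unit hP₁ (d := 6 * N')
    (fun l k h => ⟨h.1, b1 _ _ h.2.1 h.2.2⟩)
    (MM_mono (fun l k h => h.2) (prj_mem (Q := P₁) hg.1))
  obtain ⟨h, hh⟩ : ∃ h, h = ℓ₁⁻¹ * g := ⟨_, rfl⟩
  have hh1 : h ∈ Loc S (Ge 1) :=
    hh ▸ Loc_mul (act_closed_Ge 1) (Loc_inv (Loc_mono (fun l k h => h.1) hℓ₁)) hg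
  have hh2 : (h : MA S D) - 1 ∈ MM S fun l k => Ge 1 l k ∧ ¬P₁ l k := by
    have e : (h : MA S D) - 1 =
        (ℓ₁⁻¹ : (MA S D)ˣ) * (((g : MA S D) - 1) - prj S P₁ ((g : MA S D) - 1)) := by
      rw [sub_sub, ← e₁, mul_sub, Units.inv_mul, hh, Units.val_mul]
    rw [e]
    refine act_mul_mem (fun l k k' a1 a2 => ⟨le_add_right a1.1, fun a3 => a2.2 ⟨a2.1, ?_, ?_⟩⟩)
      hℓ₁.2 (sub_prj_mem hg.1)
    · rw [hsh a1, add_assoc]; exact a3.2.1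
    · rw [hsh a1, add_assoc, ← a3.2.2, a1.2.2]
  have hP₂ : Closed fun (l : Lam D) k => (Ge 1 l k ∧ ¬P₁ l k) ∧ k < N' := by
    rintro l k k' ⟨⟨a1, a2⟩, a3⟩ ⟨⟨a4, a5⟩, a6⟩
    refine (a5 ⟨a4, ?_⟩).elim
    have a7 := pos_lt 0 l
    rw [pos_sh]
    rcases lt_or_ge (pos 0 l + k) D with a8 | a8
    · rw [Nat.mod_eq_of_lt a8]
      exact b3 _ _ _ a3 a6 fun a9 => a2 ⟨a1, a8, a9⟩
    · rw [Nat.mod_eq_sub_mod a8, Nat.mod_eq_of_lt (by omega)]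
      exact ⟨by omega, b2 _ _ (by omega) (by omega)⟩
  obtain ⟨h₀, hh₀, e₀⟩ := exists_unit hP₂ (d := N') (fun l k a => ⟨a.1.1, a.2.le⟩)
    (prj_mem (Q := fun _ k => k < N') hh2)
  have hX : (h : MA S D) - h₀ ∈ MM S (Ge N') := by
    rw [e₀, ← sub_sub]
    exact MM_mono (fun l k a => not_lt.1 a.2) (sub_prj_mem hh2)
  refine ⟨ℓ₁ * h₀, ?_, ?_⟩
  · rw [show 7 * N' = 6 * N' + N' by ring]
    exact Loc_rng_mul (Loc_mono (fun l k a => ⟨a.1, b1 _ _ a.2.1 a.2.2⟩) hℓ₁)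
      (Loc_mono (fun l k a => ⟨a.1.1, a.2.le⟩) hh₀)
  · rw [mul_inv_rev, mul_assoc, ← hh]
    constructor
    · have e : ((h₀⁻¹ * h : (MA S D)ˣ) : MA S D) - 1 =
          (h₀⁻¹ : (MA S D)ˣ) * ((h : MA S D) - h₀) := by
        rw [mul_sub, Units.inv_mul, Units.val_mul]
      rw [e]
      exact act_mul_mem (fun l k k' _ a => le_add_left a) hh₀.2 hX
    · have e : (((h₀⁻¹ * h)⁻¹ : (MA S D)ˣ) : MA S D) - 1 =
          (h⁻¹ : (MA S D)ˣ) * -((h : MA S D) - h₀) := by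
        rw [neg_sub, mul_sub, Units.inv_mul, mul_inv_rev, inv_inv, Units.val_mul]
      rw [e]
      exact act_mul_mem (fun l k k' _ a => le_add_left a) hh1.2 (neg_mem hX)

/-- `Loc (Ge a)` as a subgroup. -/
def actSub (S : RW (Fin m)) (D : ℕ) [NeZero D] (a : ℕ) : Subgroup (MA S D)ˣ where
  carrier := Loc S (Ge a)
  one_mem' := one_mem_Loc _
  mul_mem' := Loc_mul (act_closed_Ge a)
  inv_mem' := Loc_inv

/-- Let `J` be the subgroup `Loc (Ge N')`, `Γ` the set of cosets `g J` with `g ∈ Loc (Ge 1)`, `σ : Γ → Loc (Rng 1 (7 N'))` a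
section with `σ J = 1`, `Ω = Γ × G`, and `ρ ℓ (t, g) = (ℓ t, s ((σ (ℓ t))⁻¹ ℓ σ t) * g)` for `ℓ ∈ Loc (Rng 1 (2 d₂))`.
The argument of `s` lies in `Loc (Rng N' (14 N' + 2 d₂))` (`Loc_rng_mul`, `Loc_inf`), so `ρ ℓ ∘ ρ ℓ' = ρ (ℓ ℓ')` as
functions whenever `ℓ, ℓ' ∈ Loc (Rng 1 (2 d₂))` (define the function for all `ℓ ∈ Loc (Ge 1)`); `s 1 = 1`. -/
theorem exists_rho (hN : 1 ≤ N') (hD : 6 * N' ≤ D) {G : Type} [Group G] {d₂ : ℕ} {s : (MA S D)ˣ → G}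
    (hs : ∀ g ∈ Loc S (Rng N' (14 * N' + 2 * d₂)), ∀ g' ∈ Loc S (Rng N' (14 * N' + 2 * d₂)),
      s (g * g') = s g * s g') :
    ∃ (Ω : Type) (ρ : (MA S D)ˣ → Equiv.Perm Ω) (ι : G → Ω), Function.Injective ι ∧
      (∀ ℓ ∈ Loc S (Rng 1 d₂), ∀ ℓ' ∈ Loc S (Rng 1 d₂), ρ (ℓ * ℓ') = ρ ℓ * ρ ℓ') ∧
      ∀ ℓ ∈ Loc S (Rng N' d₂), ∀ g, ρ ℓ (ι g) = ι (s ℓ * g) := by
  classical
  let K := actSub S D 1
  let J : Subgroup K := (actSub S D N').subgroupOf K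
  have hσ : ∀ t : K ⧸ J, ∃ ℓ : K, ℓ.1 ∈ Loc S (Rng 1 (7 * N')) ∧ (ℓ : K ⧸ J) = t ∧
      (t = ((1 : K) : K ⧸ J) → ℓ = 1) := fun t => by
    by_cases ht : t = ((1 : K) : K ⧸ J)
    · exact ⟨1, one_mem_Loc _, ht.symm, fun _ => rfl⟩
    · obtain ⟨g, rfl⟩ := QuotientGroup.mk_surjective t
      obtain ⟨ℓ, h1, h2⟩ := exists_local hN hD g.2
      exact ⟨⟨ℓ, Loc_mono (fun l k a => a.1) h1⟩, h1, QuotientGroup.eq.2 h2,
        fun h => (ht h).elim⟩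
  choose σ σ1 σ2 σ3 using hσ
  let c : K → K ⧸ J → K := fun ℓ t => (σ (ℓ • t))⁻¹ * ℓ * σ t
  have hc : ∀ ℓ : K, ℓ.1 ∈ Loc S (Rng 1 d₂) → ∀ t,
      (c ℓ t).1 ∈ Loc S (Rng N' (14 * N' + 2 * d₂)) := fun ℓ hℓ t => by
    have h1 : c ℓ t ∈ J := by
      have : ((σ (ℓ • t) : K) : K ⧸ J) = ((ℓ * σ t : K) : K ⧸ J) := by
        rw [σ2, ← smul_eq_mul, ← MulAction.Quotient.smul_coe, σ2]
      simpa only [c, mul_assoc] using QuotientGroup.eq.1 this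
    have h2 : (c ℓ t).1 ∈ Loc S (Rng 1 (7 * N' + d₂ + 7 * N')) :=
      Loc_rng_mul (Loc_rng_mul (Loc_inv (σ1 _)) hℓ) (σ1 t)
    exact Loc_mono (fun l k a => ⟨a.1, a.2.2.trans (by omega)⟩)
      (Loc_inf (P := Ge N') h1 h2)
  let ρ : K → Equiv.Perm ((K ⧸ J) × G) := fun ℓ =>
    (MulAction.toPerm ℓ).prodShear fun t => Equiv.mulLeft (s (c ℓ t).1)
  have hρ : ∀ ℓ t g, ρ ℓ (t, g) = (ℓ • t, s (c ℓ t).1 * g) := fun _ _ _ => rfl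
  refine ⟨(K ⧸ J) × G, fun ℓ => if h : ℓ ∈ K then ρ ⟨ℓ, h⟩ else 1,
    fun g => (((1 : K) : K ⧸ J), g), fun g g' h => congrArg Prod.snd h, fun ℓ hℓ ℓ' hℓ' => ?_,
    fun ℓ hℓ g => ?_⟩
  · have h1 : ℓ ∈ K := Loc_mono (fun l k a => a.1) hℓ
    have h2 : ℓ' ∈ K := Loc_mono (fun l k a => a.1) hℓ'
    simp only [dif_pos h1, dif_pos h2, dif_pos (mul_mem h1 h2)]
    ext1 ⟨t, g⟩
    have e : (⟨ℓ * ℓ', mul_mem h1 h2⟩ : K) = ⟨ℓ, h1⟩ * ⟨ℓ', h2⟩ := rfl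
    rw [Equiv.Perm.mul_apply, hρ, hρ, hρ, e, mul_smul, ← mul_assoc,
      ← hs _ (hc _ hℓ _) _ (hc _ hℓ' _), ← Subgroup.coe_mul]
    simp only [c, mul_smul, mul_assoc, mul_inv_cancel_left]
  · have h1 : ℓ ∈ K := Loc_mono (fun l k a => hN.trans a.1) hℓ
    have h2 : (⟨ℓ, h1⟩ : K) • ((1 : K) : K ⧸ J) = ((1 : K) : K ⧸ J) := by
      rw [MulAction.Quotient.smul_coe, smul_eq_mul, mul_one, eq_comm, QuotientGroup.eq, inv_one,
        one_mul]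
      exact Loc_mono (fun l k a => a.1) hℓ
    simp only [dif_pos h1, hρ, c, h2, σ3 _ rfl, inv_one, one_mul, mul_one]

end Crest.Agent.R176
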