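import Crest.Agent.R176.AlgDefs

/-!
# R176 — basis, grading and finite quotients of the algebra
-/

set_option autoImplicit false

namespace Crest.Agent.R176

variable {m : ℕ} {S : RW (Fin m)}

theorem alg1_rel {a b : FA m} (h : (a, b) ∈ relF S) :
    RingQuot.mkAlgHom (ZMod 2) (fun x y : FA m => (x, y) ∈ relF S) a =
      RingQuot.mkAlgHom (ZMod 2) (fun x y : FA m => (x, y) ∈ relF S) b :=
  RingQuot.mkAlgHom_rel (ZMod 2) (s := fun x y : FA m => (x, y) ∈ relF S) h

theorem alg1_mem_rel {a b : FA m} : (a, b) ∈ relF S ↔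
    (∃ x y x' y', S.step x y x' y' ∧ a = FreeAlgebra.ι (ZMod 2) x * FreeAlgebra.ι (ZMod 2) y ∧
      b = FreeAlgebra.ι (ZMod 2) x' * FreeAlgebra.ι (ZMod 2) y') ∨
    (∃ x y, S.z2 x y ∧ a = FreeAlgebra.ι (ZMod 2) x * FreeAlgebra.ι (ZMod 2) y ∧ b = 0) ∨
    (∃ x, S.z1 x ∧ a = FreeAlgebra.ι (ZMod 2) x ∧ b = 0) := by
  classical
  simp only [relF, Finset.mem_union, Finset.mem_image, Finset.mem_filter, Finset.mem_univ,
    true_and, Prod.mk.injEq, Prod.exists, or_assoc]
  refine or_congr ?_ (or_congr ?_ ?_)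
  · exact ⟨fun ⟨x, y, x', y', h, h1, h2⟩ => ⟨x, y, x', y', h, h1.symm, h2.symm⟩,
      fun ⟨x, y, x', y', h, h1, h2⟩ => ⟨x, y, x', y', h, h1.symm, h2.symm⟩⟩
  · exact ⟨fun ⟨x, y, h, h1, h2⟩ => ⟨x, y, h, h1.symm, h2.symm⟩,
      fun ⟨x, y, h, h1, h2⟩ => ⟨x, y, h, h1.symm, h2.symm⟩⟩
  · exact ⟨fun ⟨x, h, h1, h2⟩ => ⟨x, h, h1.symm, h2.symm⟩,
      fun ⟨x, h, h1, h2⟩ => ⟨x, h, h1.symm, h2.symm⟩⟩

theorem alg1_gen_step {x y x' y' : Fin m} (h : S.step x y x' y') :
    gen S x * gen S y = gen S x' * gen S y' := by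
  have := alg1_rel (S := S) (alg1_mem_rel.2 (Or.inl ⟨x, y, x', y', h, rfl, rfl⟩))
  simpa only [map_mul, gen] using this

theorem alg1_gen_z2 {x y : Fin m} (h : S.z2 x y) : gen S x * gen S y = 0 := by
  have := alg1_rel (S := S) (alg1_mem_rel.2 (Or.inr (Or.inl ⟨x, y, h, rfl, rfl⟩)))
  simpa only [map_mul, map_zero, gen] using this

theorem alg1_gen_z1 {x : Fin m} (h : S.z1 x) : gen S x = 0 := by
  have := alg1_rel (S := S) (alg1_mem_rel.2 (Or.inr (Or.inr ⟨x, h, rfl, rfl⟩)))
  simpa only [map_zero, gen] using this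

theorem alg1_mon_step {w w' : List (Fin m)} (h : S.Step w w') : mon S w = mon S w' := by
  obtain ⟨p, s, x, y, x', y', h, rfl, rfl⟩ := h
  simp only [mon_append, mon_cons, ← mul_assoc (gen S _) (gen S _), alg1_gen_step h]

theorem mon_eqv {w w' : List (Fin m)} (h : S.Eqv w w') : mon S w = mon S w' := by
  induction h with
  | refl => rfl
  | tail _ h ih => exact ih.trans (h.elim alg1_mon_step fun h => (alg1_mon_step h).symm)

theorem mon_zero {w : List (Fin m)} (h : S.Zero w) : mon S w = 0 := by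
  obtain ⟨w', h1, h2⟩ := h
  rw [mon_eqv h1]
  rcases h2 with ⟨x, hx, h⟩ | ⟨p, s, x, y, h, rfl⟩
  · obtain ⟨p, s, rfl⟩ := List.append_of_mem hx
    rw [mon_append, mon_cons, alg1_gen_z1 h, zero_mul, mul_zero]
  · rw [mon_append, mon_cons, mon_cons, ← mul_assoc (gen S x), alg1_gen_z2 h, zero_mul, mul_zero]

theorem span_mon (S : RW (Fin m)) : Submodule.span (ZMod 2) (Set.range (mon S)) = ⊤ := by
  rw [eq_top_iff]
  rintro r -
  obtain ⟨a, rfl⟩ := RingQuot.mkAlgHom_surjective (ZMod 2) (fun x y : FA m => (x, y) ∈ relF S) r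
  induction a using FreeAlgebra.induction with
  | grade0 c =>
    rw [AlgHom.commutes, Algebra.algebraMap_eq_smul_one]
    exact Submodule.smul_mem _ _ (Submodule.subset_span ⟨[], mon_nil S⟩)
  | grade1 x => exact Submodule.subset_span ⟨[x], mon_singleton S x⟩
  | mul a b ha hb =>
    rw [map_mul]
    have := Submodule.mul_mem_mul ha hb
    rw [Submodule.span_mul_span] at this
    refine Submodule.span_mono ?_ this
    rintro _ ⟨_, ⟨u, rfl⟩, _, ⟨v, rfl⟩, rfl⟩
    exact ⟨u ++ v, mon_append S u v⟩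
  | add a b ha hb => rw [map_add]; exact Submodule.add_mem _ ha hb

/-- Universal property: elements satisfying the relations define an algebra homomorphism
(`RingQuot.liftAlgHom`, `FreeAlgebra.lift`). -/
theorem exists_lift {A : Type*} [Ring A] [Algebra (ZMod 2) A] (f : Fin m → A)
    (h₁ : ∀ x y x' y', S.step x y x' y' → f x * f y = f x' * f y')
    (h₂ : ∀ x y, S.z2 x y → f x * f y = 0) (h₃ : ∀ x, S.z1 x → f x = 0) :
    ∃ φ : RA S →ₐ[ZMod 2] A, ∀ w, φ (mon S w) = (w.map f).prod := by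
  have hr : ∀ ⦃a b : FA m⦄, (a, b) ∈ relF S →
      FreeAlgebra.lift (ZMod 2) f a = FreeAlgebra.lift (ZMod 2) f b := by
    intro a b h
    rcases alg1_mem_rel.1 h with ⟨x, y, x', y', k, rfl, rfl⟩ | ⟨x, y, k, rfl, rfl⟩ | ⟨x, k, rfl, rfl⟩
    · simpa using h₁ x y x' y' k
    · simpa using h₂ x y k
    · simpa using h₃ x k
  refine ⟨RingQuot.liftAlgHom (ZMod 2) ⟨FreeAlgebra.lift (ZMod 2) f, hr⟩, fun w => ?_⟩
  induction w with
  | nil => simp
  | cons x w ih =>
    rw [mon_cons, map_mul, ih, List.map_cons, List.prod_cons, gen,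
      RingQuot.liftAlgHom_mkAlgHom_apply, FreeAlgebra.lift_ι_apply]

/-- Representation on a space of class functions stable under right translations. -/
theorem alg1_rep {N : Type*} [AddCommGroup N] [Module (ZMod 2) N]
    (W : Submodule (ZMod 2) (List (Fin m) → N))
    (h1 : ∀ φ ∈ W, ∀ w w', S.Eqv w w' → φ w = φ w') (h2 : ∀ φ ∈ W, ∀ w, S.Zero w → φ w = 0)
    (h3 : ∀ φ ∈ W, ∀ x, (fun w => φ (w ++ [x])) ∈ W) :
    ∃ ρ : RA S →ₐ[ZMod 2] Module.End (ZMod 2) W, ∀ (u : List (Fin m)) (φ : W) (w : List (Fin m)),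
      (ρ (mon S u) φ : List (Fin m) → N) w = (φ : List (Fin m) → N) (w ++ u) := by
  let T : Fin m → Module.End (ZMod 2) W := fun x =>
    { toFun := fun φ => ⟨fun w => φ.1 (w ++ [x]), h3 φ.1 φ.2 x⟩
      map_add' := fun _ _ => rfl
      map_smul' := fun _ _ => rfl }
  have hT : ∀ x (φ : W) w, (T x φ : List (Fin m) → N) w = φ.1 (w ++ [x]) := fun _ _ _ => rfl
  obtain ⟨ρ, hρ⟩ := exists_lift (S := S) T
    (fun x y x' y' h => by
      ext φ w
      simp only [Module.End.mul_apply, hT, List.append_assoc, List.cons_append, List.nil_append]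
      exact h1 _ φ.2 _ _ (RW.Eqv.rule h w []))
    (fun x y h => by
      ext φ w
      simp only [Module.End.mul_apply, hT, List.append_assoc, List.cons_append, List.nil_append]
      exact h2 _ φ.2 _ (RW.Zero.of_z2 h w []))
    (fun x h => by
      ext φ w
      simp only [hT]
      exact h2 _ φ.2 _ (RW.Zero.of_z1 (by simp) h))
  refine ⟨ρ, fun u φ w => ?_⟩
  rw [hρ]
  induction u generalizing w with
  | nil => simp
  | cons x u ih =>
    rw [List.map_cons, List.prod_cons, Module.End.mul_apply, hT, ih]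
    simp

/-- Linear maps out of the algebra are given by class functions vanishing on zero words. -/
theorem alg1_eval {N : Type*} [AddCommGroup N] [Module (ZMod 2) N] (φ : List (Fin m) → N)
    (h1 : ∀ w w', S.Eqv w w' → φ w = φ w') (h2 : ∀ w, S.Zero w → φ w = 0) :
    ∃ L : RA S →ₗ[ZMod 2] N, ∀ w, L (mon S w) = φ w := by
  let W : Submodule (ZMod 2) (List (Fin m) → N) :=
    { carrier := {φ | (∀ w w', S.Eqv w w' → φ w = φ w') ∧ ∀ w, S.Zero w → φ w = 0}
      add_mem' := fun {a b} ha hb =>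
        ⟨fun w w' h => by simp only [Pi.add_apply, ha.1 w w' h, hb.1 w w' h],
          fun w h => by simp only [Pi.add_apply, ha.2 w h, hb.2 w h, add_zero]⟩
      zero_mem' := ⟨fun _ _ _ => rfl, fun _ _ => rfl⟩
      smul_mem' := fun c a ha =>
        ⟨fun w w' h => by simp only [Pi.smul_apply, ha.1 w w' h],
          fun w h => by simp only [Pi.smul_apply, ha.2 w h, smul_zero]⟩ }
  obtain ⟨ρ, hρ⟩ := alg1_rep (S := S) W (fun φ h => h.1) (fun φ h => h.2)
    (fun φ h x => ⟨fun w w' e => h.1 _ _ (e.append_right _), fun w e => h.2 _ (e.append_right _)⟩)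
  refine ⟨(LinearMap.proj ([] : List (Fin m))) ∘ₗ W.subtype ∘ₗ
    (LinearMap.applyₗ (⟨φ, h1, h2⟩ : W)) ∘ₗ ρ.toLinearMap, fun w => ?_⟩
  simpa using hρ w ⟨φ, h1, h2⟩ []

open Classical in
/-- Coordinates.  Let `Q` be the quotient of `List (Fin m)` by `Eqv`; a letter `x` acts on `Q →₀ ZMod 2` by
`single ⟦w⟧ 1 ↦ if Zero (x :: w) then 0 else single ⟦x :: w⟧ 1`; `exists_lift` gives a representation; evaluate
at `single ⟦[]⟧ 1` and take the coefficient of `⟦w⟧`. -/
theorem exists_coord (S : RW (Fin m)) : ∃ co : List (Fin m) → RA S →ₗ[ZMod 2] ZMod 2,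
    ∀ w w', co w (mon S w') = if ¬ S.Zero w' ∧ S.Eqv w w' then 1 else 0 := by
  have : ∀ w, ∃ L : RA S →ₗ[ZMod 2] ZMod 2,
      ∀ w', L (mon S w') = if ¬ S.Zero w' ∧ S.Eqv w w' then 1 else 0 := by
    intro w
    refine alg1_eval _ (fun a b h => ?_) (fun a h => if_neg fun h' => h'.1 h)
    refine if_congr (and_congr (not_congr h.zero_iff) ?_) rfl rfl
    exact ⟨fun e => e.trans h, fun e => e.trans h.symm⟩
  choose co hco using this
  exact ⟨co, hco⟩

theorem mon_ne_zero {w : List (Fin m)} (h : ¬ S.Zero w) : mon S w ≠ 0 := by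
  obtain ⟨co, hco⟩ := exists_coord S
  intro h0
  have := hco w w
  rw [h0, map_zero, if_pos ⟨h, RW.Eqv.rfl⟩] at this
  exact zero_ne_one this

/-- Projections on sets of degrees, e.g. from `exists_lift` applied to `Polynomial (RA S)`,
`x ↦ monomial 1 (gen x)`: `pr r = ∑ n with P n, coeff n (φ r)`. -/
theorem exists_proj (S : RW (Fin m)) (P : ℕ → Prop) [DecidablePred P] :
    ∃ pr : RA S →ₗ[ZMod 2] RA S, ∀ w, pr (mon S w) = if P w.length then mon S w else 0 := by
  refine alg1_eval _ (fun a b h => ?_) (fun a h => ?_)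
  · rw [h.length_eq, mon_eqv h]
  · rw [mon_zero h, ite_self]

theorem alg1_mon_mem (S : RW (Fin m)) (w : List (Fin m)) : mon S w ∈ AA S w.length :=
  Submodule.subset_span ⟨w, rfl, rfl⟩

theorem alg1_gradedMonoid (S : RW (Fin m)) : SetLike.GradedMonoid (AA S) where
  one_mem := by simpa using alg1_mon_mem S []
  mul_mem := by
    intro i j a b ha hb
    have := Submodule.mul_mem_mul ha hb
    rw [AA, AA, Submodule.span_mul_span] at this
    refine Submodule.span_mono ?_ this
    rintro _ ⟨_, ⟨u, hu, rfl⟩, _, ⟨v, hv, rfl⟩, rfl⟩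
    exact ⟨u ++ v, by rw [List.length_append, hu, hv], (mon_append S u v).symm⟩

theorem alg1_decomp (S : RW (Fin m)) : Nonempty (DirectSum.Decomposition (AA S)) := by
  obtain ⟨L, hL⟩ := @alg1_eval m S (DirectSum ℕ fun n => AA S n)
    (Module.addCommMonoidToAddCommGroup (ZMod 2)) _
    (fun w => DirectSum.lof (ZMod 2) ℕ (fun n => AA S n) w.length ⟨mon S w, alg1_mon_mem S w⟩)
    (fun a b h => by
      have key : ∀ (n k : ℕ) (x y : RA S) (hx : x ∈ AA S n) (hy : y ∈ AA S k), n = k → x = y →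
          DirectSum.lof (ZMod 2) ℕ (fun n => AA S n) n ⟨x, hx⟩ =
            DirectSum.lof (ZMod 2) ℕ (fun n => AA S n) k ⟨y, hy⟩ := by
        rintro n k x y hx hy rfl rfl; rfl
      exact key _ _ _ _ _ _ h.length_eq (mon_eqv h))
    (fun a h => by
      have : (⟨mon S a, alg1_mon_mem S a⟩ : AA S a.length) = 0 := Subtype.ext (mon_zero h)
      rw [this, map_zero])
  refine ⟨DirectSum.Decomposition.ofLinearMap (AA S) L ?_ ?_⟩
  · refine LinearMap.ext_on_range (span_mon S) fun w => ?_
    rw [LinearMap.comp_apply, hL, DirectSum.coeLinearMap_lof]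
    rfl
  · refine DirectSum.linearMap_ext _ fun n => ?_
    ext1 ⟨x, hx⟩
    simp only [LinearMap.comp_apply, DirectSum.coeLinearMap_lof, LinearMap.id_apply]
    induction hx using Submodule.span_induction with
    | mem x h =>
      obtain ⟨w, rfl, rfl⟩ := h
      exact hL w
    | zero => exact (map_zero L).trans (map_zero _).symm
    | add x y hx hy ihx ihy =>
      rw [map_add, ihx, ihy, ← map_add]; rfl
    | smul c x hx ih =>
      rw [map_smul, ih, ← map_smul]; rfl

/-- the grading (`GradedAlgebra.ofAlgHom`, or `DirectSum.Decomposition.ofLinearMap`) -/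
theorem exists_graded (S : RW (Fin m)) : ∃ _ : GradedAlgebra (AA S), AA S 0 = 1 ∧
    ∀ r : RA S, GradedRing.proj (AA S) 0 r = 0 → r ∈ Rplus S := by
  obtain ⟨D⟩ := alg1_decomp S
  let G : GradedAlgebra (AA S) := { alg1_gradedMonoid S, D with }
  refine ⟨G, ?_, fun r hr => ?_⟩
  · rw [AA, Submodule.one_eq_span]
    congr 1
    ext r
    constructor
    · rintro ⟨w, hw, rfl⟩
      rw [List.length_eq_zero_iff.1 hw, mon_nil]; rfl
    · rintro rfl
      exact ⟨[], rfl, (mon_nil S).symm⟩
  · have key : ∀ r : RA S, r - GradedRing.proj (AA S) 0 r ∈ Rplus S := by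
      intro r
      have hr : r ∈ Submodule.span (ZMod 2) (Set.range (mon S)) := by rw [span_mon]; trivial
      induction hr using Submodule.span_induction with
      | mem x h =>
        obtain ⟨w, rfl⟩ := h
        rw [GradedRing.proj_apply]
        by_cases hw : w = []
        · subst hw
          rw [DirectSum.decompose_of_mem_same (AA S) (i := 0) (alg1_mon_mem S []), sub_self]
          exact Submodule.zero_mem _
        · rw [DirectSum.decompose_of_mem_ne (AA S) (alg1_mon_mem S w)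
            (fun h => hw (List.length_eq_zero_iff.1 h)), sub_zero]
          exact Submodule.subset_span ⟨w, hw, rfl⟩
      | zero => simp
      | add x y hx hy ihx ihy =>
        rw [map_add, add_sub_add_comm]; exact Submodule.add_mem _ ihx ihy
      | smul c x hx ih =>
        have : GradedRing.proj (AA S) 0 (c • x) = c • GradedRing.proj (AA S) 0 x := by
          rw [GradedRing.proj_apply, GradedRing.proj_apply, DirectSum.decompose_smul]; rfl
        rw [this, ← smul_sub]; exact Submodule.smul_mem _ _ ih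
    simpa [hr] using key r

theorem infinite_RA (h : S.Inf) : Infinite (RA S) := by
  classical
  obtain ⟨co, hco⟩ := exists_coord S
  by_contra hf
  rw [not_infinite_iff_finite] at hf
  let len : RA S → ℕ := fun r =>
    if h : ∃ w, ¬ S.Zero w ∧ r = mon S w then h.choose.length else 0
  obtain ⟨B, hB⟩ := Finite.bddAbove_range len
  obtain ⟨w, hw, hz⟩ := h (B + 1)
  have h1 : ∃ v, ¬ S.Zero v ∧ mon S w = mon S v := ⟨w, hz, rfl⟩
  have h2 : len (mon S w) = h1.choose.length := dif_pos h1
  have h3 := hco w h1.choose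
  rw [← h1.choose_spec.2, hco, if_pos ⟨hz, RW.Eqv.rfl⟩] at h3
  have h4 : S.Eqv w h1.choose := by
    by_contra hc
    rw [if_neg fun h => hc h.2] at h3
    exact one_ne_zero h3
  have h5 : len (mon S w) ≤ B := hB ⟨_, rfl⟩
  rw [h2, ← h4.length_eq] at h5
  omega

/-- Residual finiteness of the algebra: quotient by the two-sided ideal spanned by the monomials of length
`> M` (or: the representation on the finite module spanned by the classes of words of length `≤ M`). -/
theorem exists_finite_quot {r : RA S} (hr : r ≠ 0) :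
    ∃ (F : Type) (_ : Ring F) (_ : Finite F) (f : RA S →+* F), f r ≠ 0 := by
  classical
  have : Fact (Nat.Prime 2) := ⟨Nat.prime_two⟩
  obtain ⟨l, hl⟩ : ∃ l : Module.Dual (ZMod 2) (RA S), l r ≠ 0 := by
    by_contra hc
    push Not at hc
    exact hr ((Module.forall_dual_apply_eq_zero_iff (ZMod 2) r).1 hc)
  obtain ⟨M, hM⟩ : ∃ M : ℕ,
      r ∈ Submodule.span (ZMod 2) {x | ∃ w : List (Fin m), w.length ≤ M ∧ x = mon S w} := by
    have hr : r ∈ Submodule.span (ZMod 2) (Set.range (mon S)) := by rw [span_mon]; trivial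
    have mono : ∀ {M M' : ℕ}, M ≤ M' →
        Submodule.span (ZMod 2) {x | ∃ w : List (Fin m), w.length ≤ M ∧ x = mon S w} ≤
        Submodule.span (ZMod 2) {x | ∃ w : List (Fin m), w.length ≤ M' ∧ x = mon S w} :=
      fun h => Submodule.span_mono fun x ⟨w, h1, h2⟩ => ⟨w, h1.trans h, h2⟩
    clear hl
    rename_i hr0
    clear hr0
    induction hr using Submodule.span_induction with
    | mem x h =>
      obtain ⟨w, rfl⟩ := h
      exact ⟨w.length, Submodule.subset_span ⟨w, le_rfl, rfl⟩⟩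
    | zero => exact ⟨0, Submodule.zero_mem _⟩
    | add x y hx hy ihx ihy =>
      obtain ⟨M, h1⟩ := ihx
      obtain ⟨M', h2⟩ := ihy
      exact ⟨max M M', Submodule.add_mem _ (mono (le_max_left _ _) h1) (mono (le_max_right _ _) h2)⟩
    | smul c x hx ih =>
      obtain ⟨M, h1⟩ := ih
      exact ⟨M, Submodule.smul_mem _ _ h1⟩
  let W : Submodule (ZMod 2) (List (Fin m) → ZMod 2) :=
    { carrier := {φ | (∀ w w', S.Eqv w w' → φ w = φ w') ∧ (∀ w, S.Zero w → φ w = 0) ∧
        ∀ w, M < w.length → φ w = 0}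
      add_mem' := fun {a b} ha hb =>
        ⟨fun w w' h => by simp only [Pi.add_apply, ha.1 w w' h, hb.1 w w' h],
          fun w h => by simp only [Pi.add_apply, ha.2.1 w h, hb.2.1 w h, add_zero],
          fun w h => by simp only [Pi.add_apply, ha.2.2 w h, hb.2.2 w h, add_zero]⟩
      zero_mem' := ⟨fun _ _ _ => rfl, fun _ _ => rfl, fun _ _ => rfl⟩
      smul_mem' := fun c a ha =>
        ⟨fun w w' h => by simp only [Pi.smul_apply, ha.1 w w' h],
          fun w h => by simp only [Pi.smul_apply, ha.2.1 w h, smul_zero],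
          fun w h => by simp only [Pi.smul_apply, ha.2.2 w h, smul_zero]⟩ }
  obtain ⟨ρ, hρ⟩ := alg1_rep (S := S) W (fun φ h => h.1) (fun φ h => h.2.1)
    (fun φ h x => ⟨fun w w' e => h.1 _ _ (e.append_right _),
      fun w e => h.2.1 _ (e.append_right _), fun w e => h.2.2 _ (by simp; omega)⟩)
  have : Finite {w : List (Fin m) // w.length ≤ M} := List.finite_length_le (Fin m) M
  have : Finite W := by
    refine Finite.of_injective
      (fun (φ : W) (w : {w : List (Fin m) // w.length ≤ M}) => φ.1 w.1) fun φ ψ h => ?_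
    refine Subtype.ext (funext fun w => ?_)
    by_cases hw : w.length ≤ M
    · exact congrFun h ⟨w, hw⟩
    · rw [φ.2.2.2 w (not_le.1 hw), ψ.2.2.2 w (not_le.1 hw)]
  have : Finite (Module.End (ZMod 2) W) :=
    Finite.of_injective (fun f : Module.End (ZMod 2) W => (f : W → W)) DFunLike.coe_injective
  let φ : W := ⟨fun w => if w.length ≤ M then l (mon S w) else 0,
    fun a b h => by simp only [h.length_eq, mon_eqv h],
    fun a h => by simp only [mon_zero h, map_zero, ite_self],
    fun a h => if_neg (not_le.2 h)⟩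
  refine ⟨Module.End (ZMod 2) W, inferInstance, inferInstance, ρ.toRingHom, fun h0 => hl ?_⟩
  have key : ∀ x ∈ Submodule.span (ZMod 2) {x | ∃ w : List (Fin m), w.length ≤ M ∧ x = mon S w},
      (ρ x φ : List (Fin m) → ZMod 2) [] = l x := by
    intro x hx
    induction hx using Submodule.span_induction with
    | mem x h =>
      obtain ⟨w, hw, rfl⟩ := h
      rw [hρ]
      exact if_pos hw
    | zero => simp
    | add x y hx hy ihx ihy => simp [ihx, ihy]
    | smul c x hx ih => simp [ih]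
  rw [← key r hM]
  have : ρ r = 0 := h0
  simp [this]

theorem two_eq_zero_RA (S : RW (Fin m)) : (2 : RA S) = 0 := by
  have h : (2 : RA S) = algebraMap (ZMod 2) (RA S) 2 := (map_ofNat _ 2).symm
  rw [h, show (2 : ZMod 2) = 0 from rfl, map_zero]

end Crest.Agent.R176
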