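import Crest.Agent.R176.RW

/-!
# R176 — the Capelli identity: class sums vanish
-/

set_option autoImplicit false

namespace Crest.Agent.R176

/-- Cutting a word at `k` disjoint factors of length `ℓ`: `u = u₀ t₀ f₀ t₁ f₁ ⋯`. -/
def asm {X : Type} {k : ℕ} (u₀ : List X) (f t : Fin k → List X) : List X :=
  u₀ ++ (List.ofFn fun j => t j ++ f j).flatten

theorem asm_zero {X : Type} (u₀ : List X) (f t : Fin 0 → List X) : asm u₀ f t = u₀ := by
  simp [asm]

theorem asm_succ {X : Type} {k : ℕ} (u₀ : List X) (f t : Fin (k + 1) → List X) :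
    asm u₀ f t = u₀ ++ t 0 ++ asm (f 0) (fun j => f j.succ) (fun j => t j.succ) := by
  simp [asm, List.ofFn_succ]

/-- position of the `j`-th factor -/
def apos {X : Type} {k : ℕ} (ℓ : ℕ) (u₀ : List X) (f : Fin k → List X) (j : Fin k) : ℕ :=
  u₀.length + ∑ i, if i < j then ℓ + (f i).length else 0

theorem apos_zero {X : Type} {k : ℕ} (ℓ : ℕ) (u₀ : List X) (f : Fin (k + 1) → List X) :
    apos ℓ u₀ f 0 = u₀.length := by
  simp [apos]

theorem apos_succ {X : Type} {k : ℕ} (ℓ : ℕ) (u₀ : List X) (f : Fin (k + 1) → List X)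
    (j : Fin k) :
    apos ℓ u₀ f j.succ = u₀.length + ℓ + apos ℓ (f 0) (fun j => f j.succ) j := by
  simp only [apos, Fin.sum_univ_succ, Fin.succ_pos, if_true, Fin.succ_lt_succ_iff]
  ring

theorem asm_exists {X : Type} (ℓ : ℕ) : ∀ (k : ℕ) (p : Fin k → ℕ) (u : List X),
    (∀ i j, i < j → p i + ℓ ≤ p j) → (∀ j, p j + ℓ ≤ u.length) →
    ∃ (u₀ : List X) (f t : Fin k → List X), u = asm u₀ f t ∧ (∀ j, (t j).length = ℓ) ∧
      ∀ j, apos ℓ u₀ f j = p j := by
  intro k
  induction k with
  | zero =>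
    intro p u _ _
    exact ⟨u, fun _ => [], fun _ => [], (asm_zero _ _ _).symm, fun j => j.elim0, fun j => j.elim0⟩
  | succ k ih =>
    intro p u h1 h2
    have h0 := h2 0
    obtain ⟨v₀, f, t, e1, e2, e3⟩ := ih (fun j => p j.succ - (p 0 + ℓ)) (u.drop (p 0 + ℓ))
      (fun i j hij => by
        have a1 := h1 i.succ j.succ (Fin.succ_lt_succ_iff.2 hij)
        have a2 := h1 0 i.succ (Fin.succ_pos _)
        omega)
      (fun j => by
        have a1 := h2 j.succ
        have a2 := h1 0 j.succ (Fin.succ_pos _)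
        rw [List.length_drop]
        omega)
    refine ⟨u.take (p 0), Fin.cons v₀ f, Fin.cons ((u.drop (p 0)).take ℓ) t, ?_, ?_, ?_⟩
    · rw [asm_succ]
      simp only [Fin.cons_zero, Fin.cons_succ]
      rw [← e1, ← List.drop_drop, List.append_assoc, List.take_append_drop, List.take_append_drop]
    · intro j
      refine Fin.cases ?_ (fun j => ?_) j
      · simp only [Fin.cons_zero, List.length_take, List.length_drop]
        omega
      · simpa using e2 j
    · intro j
      refine Fin.cases ?_ (fun j => ?_) j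
      · rw [apos_zero, List.length_take]
        omega
      · rw [apos_succ]
        simp only [Fin.cons_zero, Fin.cons_succ, List.length_take]
        have a2 := h1 0 j.succ (Fin.succ_pos _)
        have a3 := e3 j
        rw [a3]
        omega

theorem asm_unique {X : Type} (ℓ : ℕ) : ∀ (k : ℕ) (u₀ u₀' : List X) (f t f' t' : Fin k → List X),
    asm u₀ f t = asm u₀' f' t' → (∀ j, (t j).length = ℓ) → (∀ j, (t' j).length = ℓ) →
    (∀ j, apos ℓ u₀ f j = apos ℓ u₀' f' j) → u₀ = u₀' ∧ f = f' ∧ t = t' := by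
  intro k
  induction k with
  | zero =>
    intro u₀ u₀' f t f' t' h _ _ _
    rw [asm_zero, asm_zero] at h
    exact ⟨h, Subsingleton.elim _ _, Subsingleton.elim _ _⟩
  | succ k ih =>
    intro u₀ u₀' f t f' t' h h1 h2 h3
    rw [asm_succ, asm_succ] at h
    have a0 : u₀.length = u₀'.length := by simpa [apos_zero] using h3 0
    obtain ⟨b1, b2⟩ := List.append_inj h (by simp [a0, h1, h2])
    obtain ⟨b3, b4⟩ := List.append_inj b1 a0
    obtain ⟨c1, c2, c3⟩ := ih _ _ _ _ _ _ b2 (fun j => h1 _) (fun j => h2 _) (fun j => by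
      have := h3 j.succ
      rw [apos_succ, apos_succ] at this
      omega)
    refine ⟨b3, funext fun j => ?_, funext fun j => ?_⟩
    · exact Fin.cases c1 (fun j => congrFun c2 j) j
    · exact Fin.cases b4 (fun j => congrFun c3 j) j

theorem asm_split {X : Type} (ℓ : ℕ) : ∀ (k : ℕ) (u₀ : List X) (f t : Fin k → List X) (j : Fin k),
    (∀ j, (t j).length = ℓ) → ∃ a c : List X, a.length = apos ℓ u₀ f j ∧
      ∀ t' : Fin k → List X, (∀ l, l ≠ j → t' l = t l) → asm u₀ f t' = a ++ t' j ++ c := by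
  intro k
  induction k with
  | zero => intro _ _ _ j; exact j.elim0
  | succ k ih =>
    intro u₀ f t j ht
    refine Fin.cases ?_ (fun j => ?_) j
    · refine ⟨u₀, asm (f 0) (fun j => f j.succ) (fun j => t j.succ), (apos_zero _ _ _).symm,
        fun t' h => ?_⟩
      rw [asm_succ]
      congr 2
      funext l
      exact h _ (Fin.succ_ne_zero l)
    · obtain ⟨a, c, h1, h2⟩ := ih (f 0) (fun j => f j.succ) (fun j => t j.succ) j (fun j => ht _)
      refine ⟨u₀ ++ t 0 ++ a, c, ?_, fun t' h => ?_⟩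
      · rw [apos_succ, List.length_append, List.length_append, h1, ht]
      · rw [asm_succ, h2 (fun j => t' j.succ) (fun l hl => h _ (fun e => hl (Fin.succ_inj.1 e))),
          h 0 (Fin.succ_ne_zero j).symm]
        simp

theorem asm_split2 {X : Type} (ℓ : ℕ) : ∀ (k : ℕ) (u₀ : List X) (f t : Fin k → List X)
    (i j : Fin k), i < j → (∀ j, (t j).length = ℓ) → ∃ a b c : List X,
      a.length = apos ℓ u₀ f i ∧ a.length + ℓ + b.length = apos ℓ u₀ f j ∧
      ∀ t' : Fin k → List X, (∀ l, l ≠ i → l ≠ j → t' l = t l) →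
        asm u₀ f t' = a ++ t' i ++ b ++ t' j ++ c := by
  intro k
  induction k with
  | zero => intro _ _ _ j; exact j.elim0
  | succ k ih =>
    intro u₀ f t i j hij ht
    obtain ⟨j, rfl⟩ := Fin.exists_succ_eq.2 (Fin.pos_iff_ne_zero.1 (lt_of_le_of_lt (Fin.zero_le i) hij))
    revert hij
    refine Fin.cases ?_ (fun i => ?_) i
    · intro _
      obtain ⟨a, c, h1, h2⟩ := asm_split ℓ k (f 0) (fun j => f j.succ) (fun j => t j.succ) j
        (fun j => ht _)
      refine ⟨u₀, a, c, (apos_zero _ _ _).symm, by rw [apos_succ, h1], fun t' h => ?_⟩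
      rw [asm_succ, h2 (fun j => t' j.succ)
        (fun l hl => h _ (Fin.succ_ne_zero l) (fun e => hl (Fin.succ_inj.1 e)))]
      simp
    · intro hij
      obtain ⟨a, b, c, h1, h2, h3⟩ := ih (f 0) (fun j => f j.succ) (fun j => t j.succ) i j
        (Fin.succ_lt_succ_iff.1 hij) (fun j => ht _)
      refine ⟨u₀ ++ t 0 ++ a, b, c, ?_, ?_, fun t' h => ?_⟩
      · rw [apos_succ, List.length_append, List.length_append, h1, ht]
      · rw [apos_succ, List.length_append, List.length_append, ← h2, ht]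
        ring
      · rw [asm_succ, h3 (fun j => t' j.succ) (fun l hl hl' => h _ (fun e => hl (Fin.succ_inj.1 e))
          (fun e => hl' (Fin.succ_inj.1 e))),
          h 0 (Fin.succ_ne_zero i).symm (Fin.succ_ne_zero j).symm]
        simp

/-- Frames.  From `Cap`: with `(ℓ, p) = sel u` put `u₀ = u.take (p 0)`, `t j = (u.drop (p j)).take ℓ`, `f j =` the
part between `t j` and `t (j+1)` (the rest of the word for the last `j`).  Replacing the `t j` by words of the same
length does not change `u₀`, `f`. -/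
theorem RW.Cap.frames {X : Type} {S : RW X} (h : S.Cap) (k : ℕ) :
    ∃ (N : ℕ) (U : List X → List X) (f t : List X → Fin k → List X), ∀ u, ¬ S.Zero u → N ≤ u.length →
      u = asm (U u) (f u) (t u) ∧ Function.Injective (t u) ∧ ∀ i j : Fin k,
        S.Eqv u (asm (U u) (f u) (t u ∘ Equiv.swap i j)) ∧
        U (asm (U u) (f u) (t u ∘ Equiv.swap i j)) = U u ∧
        f (asm (U u) (f u) (t u ∘ Equiv.swap i j)) = f u ∧
        t (asm (U u) (f u) (t u ∘ Equiv.swap i j)) = t u ∘ Equiv.swap i j := by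
  classical
  obtain ⟨N, sel, hsel⟩ := h k
  have hex : ∀ u : List X, ∃ (u₀ : List X) (f t : Fin k → List X), ¬ S.Zero u → N ≤ u.length →
      u = asm u₀ f t ∧ (∀ j, (t j).length = (sel u).1) ∧
        ∀ j, apos (sel u).1 u₀ f j = (sel u).2 j := by
    intro u
    by_cases hu : ¬ S.Zero u ∧ N ≤ u.length
    · obtain ⟨h1, h2, -⟩ := hsel u hu.1 hu.2
      obtain ⟨u₀, f, t, h⟩ := asm_exists (sel u).1 k (sel u).2 u h1 h2
      exact ⟨u₀, f, t, fun _ _ => h⟩
    · exact ⟨[], fun _ => [], fun _ => [], fun a b => (hu ⟨a, b⟩).elim⟩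
  choose U f t hU using hex
  refine ⟨N, U, f, t, fun u hz hN => ?_⟩
  obtain ⟨e1, e2, e3⟩ := hU u hz hN
  obtain ⟨-, -, hc⟩ := hsel u hz hN
  have key : ∀ i j : Fin k, i < j → t u i ≠ t u j ∧
      S.Eqv u (asm (U u) (f u) (t u ∘ Equiv.swap i j)) ∧
      sel (asm (U u) (f u) (t u ∘ Equiv.swap i j)) = sel u := by
    intro i j hij
    obtain ⟨a, b, c, h1, h2, h3⟩ := asm_split2 (sel u).1 k (U u) (f u) (t u) i j hij e2
    have h4 := h3 (t u) (fun _ _ _ => rfl)
    have h5 := h3 (t u ∘ Equiv.swap i j) (fun l hi hj => by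
      simp [Equiv.swap_apply_of_ne_of_ne hi hj])
    simp only [Function.comp_apply, Equiv.swap_apply_left, Equiv.swap_apply_right] at h5
    rw [h5]
    refine hc i j hij a (t u i) b (t u j) c (e1.trans h4) (h1.trans (e3 i)) (e2 i) ?_ (e2 j)
    rw [List.length_append, List.length_append, e2, h2, e3]
  have key2 : ∀ i j : Fin k, S.Eqv u (asm (U u) (f u) (t u ∘ Equiv.swap i j)) ∧
      sel (asm (U u) (f u) (t u ∘ Equiv.swap i j)) = sel u := by
    intro i j
    rcases lt_trichotomy i j with hij | rfl | hij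
    · exact (key i j hij).2
    · have : asm (U u) (f u) (t u ∘ Equiv.swap i i) = u := by
        rw [Equiv.swap_self]
        exact e1.symm
      rw [this]
      exact ⟨RW.Eqv.rfl, rfl⟩
    · rw [Equiv.swap_comm]
      exact (key j i hij).2
  refine ⟨e1, fun i j hij => ?_, fun i j => ?_⟩
  · by_contra hne
    rcases lt_or_gt_of_ne hne with h | h
    · exact (key i j h).1 hij
    · exact (key j i h).1 hij.symm
  · obtain ⟨q1, q2⟩ := key2 i j
    set v := asm (U u) (f u) (t u ∘ Equiv.swap i j) with hv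
    obtain ⟨d1, d2, d3⟩ := hU v (fun hz' => hz (q1.zero_iff.2 hz')) (q1.length_eq ▸ hN)
    rw [q2] at d2 d3
    exact ⟨q1, asm_unique (sel u).1 k _ _ _ _ _ _ (d1.symm.trans hv) d2 (fun l => e2 _)
      (fun l => by rw [d3, e3])⟩

theorem asm_prod {X A : Type} [Monoid A] (M : X → A) {k : ℕ} (u₀ : List X)
    (f t : Fin k → List X) :
    ((asm u₀ f t).map M).prod = (u₀.map M).prod *
      (List.ofFn fun j => ((t j).map M).prod * ((f j).map M).prod).prod := by
  induction k generalizing u₀ with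
  | zero => simp [asm]
  | succ k ih =>
    rw [asm_succ, List.map_append, List.map_append, List.prod_append, List.prod_append, ih,
      List.ofFn_succ, List.prod_cons]
    simp only [mul_assoc]

theorem prod_expand {K Λ : Type} [CommRing K] [Fintype Λ] [DecidableEq Λ] {k : ℕ}
    (T F : Fin k → Matrix Λ Λ K) :
    (List.ofFn fun j => T j * F j).prod = ∑ e : Fin k → Λ × Λ, (∏ j, T j (e j).1 (e j).2) •
      (List.ofFn fun j => Matrix.single (e j).1 (e j).2 (1 : K) * F j).prod := by
  let Φ : MultilinearMap K (fun _ : Fin k => Matrix Λ Λ K) (Matrix Λ Λ K) :=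
    (MultilinearMap.mkPiAlgebraFin K k (Matrix Λ Λ K)).compLinearMap
      fun j => LinearMap.mulRight K (F j)
  have hΦ : ∀ T : Fin k → Matrix Λ Λ K, Φ T = (List.ofFn fun j => T j * F j).prod := by
    intro T
    simp [Φ]
  have hT : T = fun j => ∑ e : Λ × Λ, T j e.1 e.2 • Matrix.single e.1 e.2 (1 : K) := by
    funext j
    rw [Fintype.sum_prod_type]
    conv_lhs => rw [Matrix.matrix_eq_sum_single (T j)]
    simp
  rw [← hΦ]
  conv_lhs => rw [hT]
  rw [MultilinearMap.map_sum]
  refine Finset.sum_congr rfl fun e _ => ?_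
  rw [MultilinearMap.map_smul_univ, hΦ]

open Classical in
/-- Take `k > |Λ|²` factors.  The product along `asm u₀ f t` is a multilinear function of the matrices
`M (t j)` (`MultilinearMap.mkPiAlgebraFin`, `compLinearMap`); expand them in matrix units: the sum is over pairs
`(u, e)`, `e : Fin k → Λ × Λ`.  Choose (depending on `e` only) `i ≠ j` with `e i = e j`; exchanging the factors
`i`, `j` of `u` is a fixed point free involution preserving the term (`Finset.sum_involution`, `2 = 0`). -/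
theorem class_sum_eq_zero {m : ℕ} {S : RW (Fin m)} (h : S.Cap) (Λ : Type) [Fintype Λ] [DecidableEq Λ] :
    ∃ N : ℕ, ∀ (K : Type) [CommRing K], (2 : K) = 0 → ∀ (M : Fin m → Matrix Λ Λ K) (L : ℕ), N ≤ L →
      ∀ w : List (Fin m), ¬ S.Zero w →
        ∑ u ∈ (Finset.univ : Finset (Fin L → Fin m)).filter (fun u => S.Eqv w (List.ofFn u)),
          ((List.ofFn u).map M).prod = 0 := by
  obtain ⟨N, U, f, t, hf⟩ := h.frames (Fintype.card (Λ × Λ) + 1)
  refine ⟨N, fun K _ h2 M L hL w hw => ?_⟩
  set s : Finset (List (Fin m)) :=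
    ((Finset.univ : Finset (Fin L → Fin m)).filter (fun u => S.Eqv w (List.ofFn u))).map
      ⟨List.ofFn, List.ofFn_injective⟩ with hs
  have hmem : ∀ l, l ∈ s ↔ l.length = L ∧ S.Eqv w l := by
    intro l
    simp only [hs, Finset.mem_map, Finset.mem_filter, Finset.mem_univ, true_and,
      Function.Embedding.coeFn_mk]
    constructor
    · rintro ⟨u, h1, rfl⟩
      exact ⟨List.length_ofFn, h1⟩
    · rintro ⟨rfl, h1⟩
      exact ⟨l.get, by rwa [List.ofFn_get], List.ofFn_get l⟩
  have hsum : ∑ u ∈ (Finset.univ : Finset (Fin L → Fin m)).filter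
      (fun u => S.Eqv w (List.ofFn u)), ((List.ofFn u).map M).prod = ∑ l ∈ s, (l.map M).prod := by
    rw [hs, Finset.sum_map]
    rfl
  rw [hsum]
  have hgood : ∀ l ∈ s, ¬ S.Zero l ∧ N ≤ l.length := by
    intro l hl
    obtain ⟨h1, h3⟩ := (hmem l).1 hl
    exact ⟨fun hz => hw (h3.zero_iff.2 hz), h1 ▸ hL⟩
  set term : (Fin (Fintype.card (Λ × Λ) + 1) → Λ × Λ) → List (Fin m) → Matrix Λ Λ K :=
    fun e l => (∏ j, ((t l j).map M).prod (e j).1 (e j).2) • (((U l).map M).prod *
      (List.ofFn fun j => Matrix.single (e j).1 (e j).2 (1 : K) * ((f l j).map M).prod).prod)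
    with hterm
  have hexp : ∀ l ∈ s, (l.map M).prod = ∑ e, term e l := by
    intro l hl
    obtain ⟨h1, -⟩ := hf l (hgood l hl).1 (hgood l hl).2
    conv_lhs => rw [h1]
    rw [asm_prod, prod_expand, Finset.mul_sum]
    refine Finset.sum_congr rfl fun e _ => ?_
    rw [hterm, mul_smul_comm]
  rw [Finset.sum_congr rfl hexp, Finset.sum_comm]
  refine Finset.sum_eq_zero fun e _ => ?_
  obtain ⟨i, j, hij, he⟩ := Fintype.exists_ne_map_eq_of_card_lt e (by simp)
  have hes : ∀ l, e (Equiv.swap i j l) = e l := by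
    intro l
    by_cases h1 : l = i
    · rw [h1, Equiv.swap_apply_left, he]
    by_cases h3 : l = j
    · rw [h3, Equiv.swap_apply_right, he]
    rw [Equiv.swap_apply_of_ne_of_ne h1 h3]
  refine Finset.sum_involution (fun l _ => asm (U l) (f l) (t l ∘ Equiv.swap i j)) ?_ ?_ ?_ ?_
  · intro l hl
    obtain ⟨-, -, h3⟩ := hf l (hgood l hl).1 (hgood l hl).2
    obtain ⟨-, q1, q2, q3⟩ := h3 i j
    have : term e (asm (U l) (f l) (t l ∘ Equiv.swap i j)) = term e l := by
      simp only [hterm]
      rw [q1, q2, q3]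
      congr 1
      rw [← Equiv.prod_comp (Equiv.swap i j)]
      refine Finset.prod_congr rfl fun x _ => ?_
      simp only [Function.comp_apply, Equiv.swap_apply_self, hes]
    rw [this, ← two_smul K, h2, zero_smul]
  · intro l hl _ heq
    obtain ⟨-, h1, h3⟩ := hf l (hgood l hl).1 (hgood l hl).2
    obtain ⟨-, -, -, q3⟩ := h3 i j
    rw [heq] at q3
    have := congrFun q3 i
    simp only [Function.comp_apply, Equiv.swap_apply_left] at this
    exact hij (h1 this)
  · intro l hl
    obtain ⟨-, -, h3⟩ := hf l (hgood l hl).1 (hgood l hl).2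
    obtain ⟨q0, -⟩ := h3 i j
    obtain ⟨h1, h4⟩ := (hmem l).1 hl
    exact (hmem _).2 ⟨q0.length_eq ▸ h1, h4.trans q0⟩
  · intro l hl
    obtain ⟨h0, -, h3⟩ := hf l (hgood l hl).1 (hgood l hl).2
    obtain ⟨-, q1, q2, q3⟩ := h3 i j
    rw [q1, q2, q3]
    have : (t l ∘ Equiv.swap i j) ∘ Equiv.swap i j = t l := by
      funext x
      simp
    rw [this]
    exact h0.symm

end Crest.Agent.R176
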