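import Crest.Agent.R176.Alg1
import Crest.Agent.R176.Alg2

/-!
# R176 — matrices over the positive part are nilpotent
-/

set_option autoImplicit false

namespace Crest.Agent.R176

open Polynomial

variable {m : ℕ} {S : RW (Fin m)}

theorem alg3_central {R : Type} [Ring R] [Algebra (ZMod 2) R] (k : (ZMod 2)[X]) (r : R) :
    Commute (C r) (k.map (algebraMap (ZMod 2) R)) := by
  induction k using Polynomial.induction_on' with
  | add p q hp hq => rw [Polynomial.map_add]; exact hp.add_right hq
  | monomial n a =>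
    rw [Polynomial.map_monomial, ← monomial_zero_left]
    change _ * _ = _ * _
    rw [monomial_mul_monomial, monomial_mul_monomial, Algebra.commutes, add_comm]

theorem alg3_sum_pow {M α : Type} [Semiring M] [Fintype α] (f : α → M) (L : ℕ) :
    (∑ x, f x) ^ L = ∑ u : Fin L → α, ((List.ofFn u).map f).prod := by
  induction L with
  | zero => simp
  | succ L ih =>
    rw [pow_succ', ih, Finset.sum_mul_sum, ← (Fin.consEquiv fun _ => α).sum_comp,
      Fintype.sum_prod_type]
    refine Finset.sum_congr rfl fun x _ => Finset.sum_congr rfl fun u _ => ?_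
    simp [Fin.consEquiv, List.ofFn_succ]

theorem alg3_prod_mul {M α : Type} [Monoid M] (f g : α → M) (h : ∀ x y, Commute (f x) (g y))
    (l : List α) : (l.map fun x => f x * g x).prod = (l.map f).prod * (l.map g).prod := by
  induction l with
  | nil => simp
  | cons a l ih =>
    have hc : Commute (l.map f).prod (g a) :=
      Commute.list_prod_left _ _ fun y hy => by
        obtain ⟨x, -, rfl⟩ := List.mem_map.1 hy
        exact h x a
    simp only [List.map_cons, List.prod_cons, ih]
    rw [mul_assoc, mul_assoc, ← mul_assoc (g a), ← hc.eq, mul_assoc]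

/-- Degree one matrices over `R[z]`.  `A ^ L = ∑ u, C (mon u) • (M_u mapped to R[z])`; group the words by
classes (`Finset.sum_fiberwise`/`Finset.sum_partition` or `sum_involution`-free: `mon_eqv`, `mon_zero`,
`class_sum_eq_zero` with `K = (ZMod 2)[X]`). -/
theorem nil_deg_one (h : S.Cap) {Λ : Type} [Fintype Λ] [DecidableEq Λ]
    (M : Fin m → Matrix Λ Λ (ZMod 2)[X]) :
    IsNilpotent (Matrix.of fun i j => ∑ x : Fin m,
      C (gen S x) * (M x i j).map (algebraMap (ZMod 2) (RA S)) : Matrix Λ Λ (RA S)[X]) := by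
  classical
  obtain ⟨N, hN⟩ := class_sum_eq_zero h Λ
  let Φ : Matrix Λ Λ (ZMod 2)[X] →+* Matrix Λ Λ (RA S)[X] :=
    (Polynomial.mapRingHom (algebraMap (ZMod 2) (RA S))).mapMatrix
  let G : RA S →+* Matrix Λ Λ (RA S)[X] := (Matrix.scalar Λ).comp C
  have hc : ∀ r P, Commute (G r) (Φ P) := by
    intro r P
    change _ * _ = _ * _
    ext1 i j
    simp only [G, Φ, RingHom.comp_apply, Matrix.scalar_apply, Matrix.diagonal_mul,
      Matrix.mul_diagonal, RingHom.mapMatrix_apply, Matrix.map_apply, coe_mapRingHom]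
    exact (alg3_central _ _).eq
  have e : (Matrix.of fun i j => ∑ x : Fin m,
      C (gen S x) * (M x i j).map (algebraMap (ZMod 2) (RA S)) : Matrix Λ Λ (RA S)[X]) =
      ∑ x, G (gen S x) * Φ (M x) := by
    ext1 i j
    simp only [G, Φ, RingHom.comp_apply, Matrix.scalar_apply, Matrix.diagonal_mul, Matrix.sum_apply,
      RingHom.mapMatrix_apply, Matrix.map_apply, coe_mapRingHom, Matrix.of_apply]
  refine ⟨N, ?_⟩
  rw [e, alg3_sum_pow]
  have e2 : ∀ w : List (Fin m), (w.map fun x => G (gen S x) * Φ (M x)).prod =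
      G (mon S w) * Φ (w.map M).prod := by
    intro w
    rw [alg3_prod_mul _ _ fun x y => hc _ _, mon, map_list_prod, map_list_prod, List.map_map,
      List.map_map]
    rfl
  simp only [e2]
  let R : Setoid (Fin N → Fin m) :=
    ⟨fun u v => S.Eqv (List.ofFn v) (List.ofFn u), fun _ => RW.Eqv.rfl, fun h => h.symm,
      fun h h' => h'.trans h⟩
  refine Finset.sum_cancels_of_partition_cancels R fun x _ => ?_
  have e3 : ∑ a ∈ Finset.univ.filter (fun a => R a x),
      G (mon S (List.ofFn a)) * Φ ((List.ofFn a).map M).prod =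
      G (mon S (List.ofFn x)) * Φ (∑ a ∈ Finset.univ.filter
        (fun a : Fin N → Fin m => S.Eqv (List.ofFn x) (List.ofFn a)), ((List.ofFn a).map M).prod) := by
    rw [map_sum, Finset.mul_sum]
    refine Finset.sum_congr (Finset.filter_congr fun _ _ => Iff.rfl) fun a ha => ?_
    rw [mon_eqv (Finset.mem_filter.1 ha).2]
  rw [e3]
  by_cases hz : S.Zero (List.ofFn x)
  · rw [mon_zero hz, map_zero, zero_mul]
  · have h2 : (2 : (ZMod 2)[X]) = 0 := by
      have : (2 : (ZMod 2)[X]) = C (2 : ZMod 2) := rfl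
      rw [this, show (2 : ZMod 2) = 0 from rfl, map_zero]
    rw [hN _ h2 M N le_rfl _ hz, map_zero, mul_zero]

/-- the span of the monomials with lengths in `[a, b]` -/
noncomputable def alg3V (S : RW (Fin m)) (a b : ℕ) : Submodule (ZMod 2) (RA S) :=
  Submodule.span (ZMod 2) {r | ∃ w : List (Fin m), a ≤ w.length ∧ w.length ≤ b ∧ r = mon S w}

theorem alg3V_mono {a a' b b' : ℕ} (ha : a' ≤ a) (hb : b ≤ b') : alg3V S a b ≤ alg3V S a' b' :=
  Submodule.span_mono fun _ ⟨w, h1, h2, h3⟩ => ⟨w, ha.trans h1, h2.trans hb, h3⟩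

theorem alg3V_one_zero : alg3V S 1 0 = ⊥ := by
  rw [alg3V, Submodule.span_eq_bot]
  rintro _ ⟨w, h1, h2, -⟩
  omega

theorem alg3_split {d : ℕ} {r : RA S} (hr : r ∈ alg3V S 1 (d + 1)) :
    ∃ (r' : RA S) (e : Fin m → RA S), r' ∈ alg3V S 1 d ∧ (∀ x, e x ∈ alg3V S d d) ∧
      r = r' + ∑ x, gen S x * e x := by
  classical
  induction hr using Submodule.span_induction with
  | mem r hr =>
    obtain ⟨w, h1, h2, rfl⟩ := hr
    rcases Nat.lt_or_ge d w.length with h | h
    · obtain ⟨y, w, rfl⟩ := List.exists_cons_of_length_pos (l := w) (by omega)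
      rw [List.length_cons] at h h2
      refine ⟨0, Pi.single y (mon S w), Submodule.zero_mem _, fun x => ?_, ?_⟩
      · by_cases hx : x = y
        · subst hx
          rw [Pi.single_eq_same]
          exact Submodule.subset_span ⟨w, by omega, by omega, rfl⟩
        · rw [Pi.single_eq_of_ne hx]
          exact Submodule.zero_mem _
      · rw [zero_add, Finset.sum_eq_single y (fun x _ hx => by rw [Pi.single_eq_of_ne hx, mul_zero])
          (by simp), Pi.single_eq_same, mon_cons]
    · exact ⟨mon S w, 0, Submodule.subset_span ⟨w, h1, h, rfl⟩, fun _ => Submodule.zero_mem _,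
        by simp⟩
  | zero => exact ⟨0, 0, Submodule.zero_mem _, fun _ => Submodule.zero_mem _, by simp⟩
  | add a b _ _ ha hb =>
    obtain ⟨r, e, h1, h2, rfl⟩ := ha
    obtain ⟨r', e', h1', h2', rfl⟩ := hb
    refine ⟨r + r', e + e', add_mem h1 h1', fun x => add_mem (h2 x) (h2' x), ?_⟩
    simp only [Pi.add_apply, mul_add, Finset.sum_add_distrib]
    abel
  | smul c a _ ha =>
    obtain ⟨r, e, h1, h2, rfl⟩ := ha
    refine ⟨c • r, c • e, Submodule.smul_mem _ _ h1, fun x => Submodule.smul_mem _ _ (h2 x), ?_⟩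
    simp only [Pi.smul_apply, mul_smul_comm, smul_add, Finset.smul_sum]

theorem alg3_coeff_sum {R : Type} [Ring R] [Algebra (ZMod 2) R] {V : Submodule (ZMod 2) R}
    (s : Finset ℕ) {r : ℕ → R} (h : ∀ n, r n ∈ V) (k : ℕ) :
    (∑ n ∈ s, monomial n (r n)).coeff k ∈ V := by
  rw [finsetSum_coeff]
  refine V.sum_mem fun n _ => ?_
  rw [coeff_monomial]
  split_ifs
  exacts [h n, V.zero_mem]

theorem alg3_split_poly {d : ℕ} {p : (RA S)[X]} (hp : ∀ n, p.coeff n ∈ alg3V S 1 (d + 1)) :
    ∃ (p' : (RA S)[X]) (e : Fin m → (RA S)[X]), (∀ n, p'.coeff n ∈ alg3V S 1 d) ∧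
      (∀ x n, (e x).coeff n ∈ alg3V S d d) ∧ p = p' + ∑ x, C (gen S x) * e x := by
  choose r e h1 h2 h3 using fun n => alg3_split (hp n)
  refine ⟨∑ n ∈ p.support, monomial n (r n), fun x => ∑ n ∈ p.support, monomial n (e n x),
    alg3_coeff_sum _ h1, fun x => alg3_coeff_sum _ fun n => h2 n x, ?_⟩
  conv_lhs => rw [p.as_sum_support]
  simp only [Finset.mul_sum, C_mul_monomial]
  rw [Finset.sum_comm, ← Finset.sum_add_distrib]
  refine Finset.sum_congr rfl fun n _ => ?_
  rw [← map_sum, ← map_add, ← h3]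

theorem alg3_deg_zero {p : (RA S)[X]} (hp : ∀ n, p.coeff n ∈ alg3V S 0 0) :
    ∃ k : (ZMod 2)[X], p = k.map (algebraMap (ZMod 2) (RA S)) := by
  have h : ∀ n, ∃ c : ZMod 2, algebraMap (ZMod 2) (RA S) c = p.coeff n := by
    intro n
    have h1 : alg3V S 0 0 ≤ 1 := by
      refine Submodule.span_le.2 ?_
      rintro _ ⟨w, -, h2, rfl⟩
      rw [List.length_eq_zero_iff.1 (Nat.le_zero.1 h2), mon_nil]
      exact Submodule.one_le.1 le_rfl
    exact Submodule.mem_one.1 (h1 (hp n))
  choose c hc using h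
  refine ⟨∑ n ∈ p.support, monomial n (c n), ?_⟩
  conv_lhs => rw [p.as_sum_support]
  rw [Polynomial.map_sum]
  exact Finset.sum_congr rfl fun n _ => by rw [Polynomial.map_monomial, hc]

theorem alg3_schur {B Λ Λ' : Type} [Ring B] [Fintype Λ] [DecidableEq Λ] [Fintype Λ']
    [DecidableEq Λ'] (P : Matrix Λ Λ B) (Q : Matrix Λ Λ' B) (R : Matrix Λ' Λ B)
    (h : IsUnit (1 - Matrix.fromBlocks P Q R 0)) : IsUnit (1 - (P + Q * R)) := by
  have hU : IsUnit (Matrix.fromBlocks 1 Q 0 1 : Matrix (Λ ⊕ Λ') (Λ ⊕ Λ') B) :=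
    isUnit_iff_exists.2 ⟨Matrix.fromBlocks 1 (-Q) 0 1, by simp [Matrix.fromBlocks_multiply],
      by simp [Matrix.fromBlocks_multiply]⟩
  have hL : IsUnit (Matrix.fromBlocks 1 0 R 1 : Matrix (Λ ⊕ Λ') (Λ ⊕ Λ') B) :=
    isUnit_iff_exists.2 ⟨Matrix.fromBlocks 1 0 (-R) 1, by simp [Matrix.fromBlocks_multiply],
      by simp [Matrix.fromBlocks_multiply]⟩
  have e : Matrix.fromBlocks 1 Q 0 1 * (1 - Matrix.fromBlocks P Q R 0) *
      Matrix.fromBlocks 1 0 R 1 = Matrix.fromBlocks (1 - (P + Q * R)) 0 0 (1 : Matrix Λ' Λ' B) := by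
    rw [← Matrix.fromBlocks_one, sub_eq_add_neg, Matrix.fromBlocks_neg, Matrix.fromBlocks_add,
      Matrix.fromBlocks_multiply, Matrix.fromBlocks_multiply]
    simp [sub_eq_add_neg, add_assoc, add_comm, add_left_comm]
  have h1 := (hU.mul h).mul hL
  rw [e] at h1
  obtain ⟨W, h2, h3⟩ := isUnit_iff_exists.1 h1
  rw [← Matrix.fromBlocks_toBlocks W, Matrix.fromBlocks_multiply, ← Matrix.fromBlocks_one,
    Matrix.fromBlocks_inj] at h2 h3
  exact isUnit_iff_exists.2 ⟨W.toBlocks₁₁, by simpa using h2.1, by simpa using h3.1⟩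

theorem alg3_unit (h : S.Cap) (d : ℕ) : ∀ (Λ : Type) [Fintype Λ] [DecidableEq Λ]
    (A : Matrix Λ Λ (RA S)[X]), (∀ i j n, (A i j).coeff n ∈ alg3V S 1 (d + 1)) → IsUnit (1 - A) := by
  induction d with
  | zero =>
    intro Λ _ _ A hA
    choose p e h1 h2 h3 using fun i j => alg3_split_poly (hA i j)
    choose k hk using fun i j x => alg3_deg_zero (h2 i j x)
    have hp : ∀ i j, p i j = 0 := fun i j => by
      ext n
      have := h1 i j n
      rwa [alg3V_one_zero, Submodule.mem_bot] at this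
    have hn := nil_deg_one h fun x => Matrix.of fun i j => k i j x
    convert IsNilpotent.isUnit_one_sub (R := Matrix Λ Λ (RA S)[X]) hn using 2
    ext1 i j
    rw [h3, hp, zero_add]
    simp only [Matrix.of_apply, hk]
  | succ d ih =>
    intro Λ _ _ A hA
    choose p e h1 h2 h3 using fun i j => alg3_split_poly (hA i j)
    have hu := alg3_schur (Matrix.of p)
      (Matrix.of fun i (y : Fin m × Λ) => if i = y.2 then C (gen S y.1) else 0)
      (Matrix.of fun (y : Fin m × Λ) j => e y.2 j y.1) (ih _ _ ?_)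
    · convert hu using 2
      ext1 i j
      rw [h3, Matrix.add_apply, Matrix.mul_apply, Fintype.sum_prod_type]
      simp
    · rintro (i | i) (j | j) n
      · exact h1 i j n
      · simp only [Matrix.fromBlocks_apply₁₂, Matrix.of_apply]
        split_ifs
        · rw [coeff_C]
          split_ifs
          · exact Submodule.subset_span ⟨[j.1], by simp, by simp, (mon_singleton _ _).symm⟩
          · exact Submodule.zero_mem _
        · exact Submodule.zero_mem _
      · exact alg3V_mono (by omega) le_rfl (h2 i.2 j i.1 n)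
      · exact Submodule.zero_mem _

/-- Higman's linearisation.  Induction on `d` (for all `Λ`): if all the coefficients of all the entries of `A`
lie in the span of the monomials of lengths `1, …, d`, then `1 - A` is a unit.  For `d + 1`, write
`A = A' + ∑ x, gen x • D x` with `A'` of degrees `1, …, d` and `D x` of degree `d ≥ 1`, and consider the block
matrix `[[A', (gen x)_x], [(D x)_x, 0]]` on `Λ ⊕ (Fin m × Λ)`; the upper left block of the inverse is the
inverse of `1 - A` (check both sides, or use one-sided inverses on both sides). -/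
theorem isUnit_one_sub (h : S.Cap) (d : ℕ) {Λ : Type} [Fintype Λ] [DecidableEq Λ]
    (A : Matrix Λ Λ (RA S)[X]) (hA : ∀ i j n, (A i j).coeff n ∈ Submodule.span (ZMod 2)
      {r | ∃ w : List (Fin m), 1 ≤ w.length ∧ w.length ≤ d ∧ r = mon S w}) : IsUnit (1 - A) :=
  alg3_unit h d Λ A fun i j n => alg3V_mono le_rfl (Nat.le_succ d) (hA i j n)

theorem alg3_nil_of_unit {R Λ : Type} [Ring R] [Fintype Λ] [DecidableEq Λ] (A : Matrix Λ Λ R)
    (hu : IsUnit (1 - A.map (monomial 1))) : IsNilpotent A := by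
  obtain ⟨W, hW, -⟩ := isUnit_iff_exists.1 hu
  rw [sub_mul, one_mul, sub_eq_iff_eq_add] at hW
  have key : ∀ n, A ^ n = W.map fun p => p.coeff n := by
    intro n
    induction n with
    | zero =>
      ext i j
      rw [hW, pow_zero, Matrix.map_apply, Matrix.add_apply, coeff_add, Matrix.mul_apply,
        finsetSum_coeff, Finset.sum_eq_zero, add_zero, Matrix.one_apply, Matrix.one_apply]
      · split_ifs <;> simp
      · intro k _
        rw [mul_coeff_zero, Matrix.map_apply, coeff_monomial, if_neg one_ne_zero, zero_mul]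
    | succ n ih =>
      ext i j
      rw [pow_succ', ih]
      conv_rhs => rw [hW]
      rw [Matrix.map_apply, Matrix.add_apply, coeff_add, Matrix.mul_apply, Matrix.mul_apply,
        finsetSum_coeff, Matrix.one_apply]
      have : (if i = j then (1 : R[X]) else 0).coeff (n + 1) = 0 := by
        split_ifs <;> simp [coeff_one]
      rw [this, zero_add]
      exact Finset.sum_congr rfl fun k _ => by
        rw [Matrix.map_apply, Matrix.map_apply, coeff_monomial_mul]
  refine ⟨(Finset.univ.sup fun q : Λ × Λ => (W q.1 q.2).natDegree) + 1, ?_⟩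
  rw [key]
  ext i j
  exact coeff_eq_zero_of_natDegree_lt (Nat.lt_succ_of_le
    (Finset.le_sup (f := fun q : Λ × Λ => (W q.1 q.2).natDegree) (Finset.mem_univ (i, j))))

/-- Apply `isUnit_one_sub` to `z • A`: the coefficients `B n` of the inverse satisfy `B 0 = 1`,
`B (n + 1) = A * B n`, and vanish for large `n`. -/
theorem nil_matrix (h : S.Cap) {Λ : Type} [Fintype Λ] [DecidableEq Λ] (A : Matrix Λ Λ (RA S))
    (hA : ∀ i j, A i j ∈ Rplus S) : IsNilpotent A := by
  have h1 : ∀ r ∈ Rplus S, ∃ d, r ∈ alg3V S 1 d := by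
    intro r hr
    induction hr using Submodule.span_induction with
    | mem r hr =>
      obtain ⟨w, hw, rfl⟩ := hr
      exact ⟨w.length, Submodule.subset_span ⟨w, List.length_pos_iff.2 hw, le_rfl, rfl⟩⟩
    | zero => exact ⟨0, Submodule.zero_mem _⟩
    | add a b _ _ ha hb =>
      obtain ⟨d, hd⟩ := ha
      obtain ⟨d', hd'⟩ := hb
      exact ⟨max d d', add_mem (alg3V_mono le_rfl (le_max_left _ _) hd)
        (alg3V_mono le_rfl (le_max_right _ _) hd')⟩
    | smul c a _ ha =>
      obtain ⟨d, hd⟩ := ha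
      exact ⟨d, Submodule.smul_mem _ _ hd⟩
  choose d hd using fun q : Λ × Λ => h1 _ (hA q.1 q.2)
  have hu := isUnit_one_sub h (Finset.univ.sup d) (A.map (monomial 1)) fun i j n => by
    rw [Matrix.map_apply, coeff_monomial]
    split_ifs
    · exact alg3V_mono le_rfl (Finset.le_sup (Finset.mem_univ (i, j))) (hd (i, j))
    · exact Submodule.zero_mem _
  exact alg3_nil_of_unit A hu

end Crest.Agent.R176
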