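import Crest.Agent.R176.RW

/-!
# R176 — the contracted semigroup algebra over `ZMod 2`
DO NOT EDIT (owner helper34).
-/

set_option autoImplicit false

namespace Crest.Agent.R176

variable {m : ℕ} (S : RW (Fin m))

/-- the free algebra -/
abbrev FA (m : ℕ) : Type := FreeAlgebra (ZMod 2) (Fin m)

open Classical in
/-- the finite set of defining relations -/
noncomputable def relF : Finset (FA m × FA m) :=
  ((Finset.univ.filter fun t : Fin m × Fin m × Fin m × Fin m => S.step t.1 t.2.1 t.2.2.1 t.2.2.2).image
      fun t => (FreeAlgebra.ι (ZMod 2) t.1 * FreeAlgebra.ι (ZMod 2) t.2.1,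
        FreeAlgebra.ι (ZMod 2) t.2.2.1 * FreeAlgebra.ι (ZMod 2) t.2.2.2)) ∪
    ((Finset.univ.filter fun t : Fin m × Fin m => S.z2 t.1 t.2).image
      fun t => (FreeAlgebra.ι (ZMod 2) t.1 * FreeAlgebra.ι (ZMod 2) t.2, 0)) ∪
    ((Finset.univ.filter fun x : Fin m => S.z1 x).image fun x => (FreeAlgebra.ι (ZMod 2) x, 0))

/-- the algebra -/
abbrev RA : Type := RingQuot fun x y : FA m => (x, y) ∈ relF S

/-- the generators -/
noncomputable def gen (x : Fin m) : RA S :=
  RingQuot.mkAlgHom (ZMod 2) (fun x y : FA m => (x, y) ∈ relF S) (FreeAlgebra.ι (ZMod 2) x)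

/-- the monomials -/
noncomputable def mon (w : List (Fin m)) : RA S := (w.map (gen S)).prod

/-- the homogeneous components -/
noncomputable def AA (n : ℕ) : Submodule (ZMod 2) (RA S) :=
  Submodule.span (ZMod 2) {r | ∃ w : List (Fin m), w.length = n ∧ r = mon S w}

/-- the positive degree part -/
noncomputable def Rplus : Submodule (ZMod 2) (RA S) :=
  Submodule.span (ZMod 2) {r | ∃ w : List (Fin m), w ≠ [] ∧ r = mon S w}

@[simp] theorem mon_nil : mon S [] = 1 := by simp [mon]

theorem mon_cons (x : Fin m) (w : List (Fin m)) : mon S (x :: w) = gen S x * mon S w := by simp [mon]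

theorem mon_append (w w' : List (Fin m)) : mon S (w ++ w') = mon S w * mon S w' := by simp [mon]

theorem mon_singleton (x : Fin m) : mon S [x] = gen S x := by simp [mon]

end Crest.Agent.R176
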