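import Crest.Agent.R176.RW

/-!
# R176 — restriction to the finitely many non-zero letters
-/

set_option autoImplicit false

namespace Crest.Agent.R176

namespace RW

variable {L X : Type} (S : RW L) (f : X → L)

/-- pull-back of a rewriting system along an enumeration of its non-zero letters -/
def pull : RW X where
  step a b a' b' := S.step (f a) (f b) (f a') (f b')
  z2 a b := S.Zero [f a, f b]
  z1 _ := False

variable {S f}

theorem pull_eqv_map {w w' : List X} (h : (S.pull f).Eqv w w') : S.Eqv (w.map f) (w'.map f) := by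
  induction h with
  | refl => exact Eqv.rfl
  | tail _ h ih =>
    refine ih.trans (SStep.eqv ?_)
    obtain ⟨p, s, x, y, x', y', hs, rfl, rfl⟩ := sstep_iff.1 h
    exact sstep_iff.2 ⟨p.map f, s.map f, f x, f y, f x', f y', hs, by simp, by simp⟩

theorem pull_zero_map {w : List X} (h : (S.pull f).Zero w) : S.Zero (w.map f) := by
  obtain ⟨w', h1, h2⟩ := h
  refine Zero.of_eqv ?_ (pull_eqv_map h1)
  rcases h2 with ⟨x, -, hx⟩ | ⟨p, s, x, y, h, rfl⟩
  · exact hx.elim
  · have := Zero.infix (S := S) h (p.map f) (s.map f)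
    simpa using this

theorem map_eq_pair {w : List X} {p s : List L} {x y : L} (h : w.map f = p ++ x :: y :: s) :
    ∃ p' s' a b, w = p' ++ a :: b :: s' ∧ p'.map f = p ∧ f a = x ∧ f b = y ∧ s'.map f = s := by
  obtain ⟨p', r, rfl, h1, h2⟩ := List.map_eq_append_iff.1 h
  obtain ⟨a, r', rfl, h3, h4⟩ := List.map_eq_cons_iff.1 h2
  obtain ⟨b, s', rfl, h5, h6⟩ := List.map_eq_cons_iff.1 h4
  exact ⟨p', s', a, b, rfl, h1, h3, h5, h6⟩

theorem pull_lift (hf : ∀ x, ¬ S.z1 x → ∃ a, f a = x) {w : List X} {v : List L}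
    (h : S.Eqv (w.map f) v) :
    (S.pull f).Zero w ∨ ∃ w', (S.pull f).Eqv w w' ∧ w'.map f = v := by
  refine h.induction (P := fun v => (S.pull f).Zero w ∨ ∃ w', (S.pull f).Eqv w w' ∧ w'.map f = v)
    ?_ (Or.inr ⟨w, Eqv.rfl, rfl⟩)
  rintro v v' (hz | ⟨w', hw, rfl⟩) hs
  · exact Or.inl hz
  obtain ⟨p, s, x, y, x', y', hst, h1, rfl⟩ := sstep_iff.1 hs
  obtain ⟨p', s', a, b, rfl, rfl, rfl, rfl, rfl⟩ := map_eq_pair h1
  have he : S.Eqv [f a, f b] [x', y'] := hst.elim Eqv.pair fun h => (Eqv.pair h).symm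
  by_cases hx : S.z1 x'
  · exact Or.inl (Zero.of_eqv (Zero.of_z2 (S := S.pull f)
      (Zero.of_eqv (Zero.of_z1 (x := x') (by simp) hx) he) p' s') hw)
  by_cases hy : S.z1 y'
  · exact Or.inl (Zero.of_eqv (Zero.of_z2 (S := S.pull f)
      (Zero.of_eqv (Zero.of_z1 (x := y') (by simp) hy) he) p' s') hw)
  obtain ⟨a', rfl⟩ := hf x' hx
  obtain ⟨b', rfl⟩ := hf y' hy
  exact Or.inr ⟨p' ++ a' :: b' :: s',
    hw.trans (SStep.eqv (sstep_iff.2 ⟨p', s', a, b, a', b', hst, rfl, rfl⟩)), by simp⟩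

theorem pull_zero_iff (hf : ∀ x, ¬ S.z1 x → ∃ a, f a = x) (hf' : ∀ a, ¬ S.z1 (f a))
    {w : List X} : (S.pull f).Zero w ↔ S.Zero (w.map f) := by
  refine ⟨pull_zero_map, ?_⟩
  rintro ⟨v, h1, h2⟩
  rcases pull_lift hf h1 with hz | ⟨w', hw, rfl⟩
  · exact hz
  refine Zero.of_eqv ?_ hw
  rcases h2 with ⟨x, hx, h⟩ | ⟨p, s, x, y, h, h3⟩
  · obtain ⟨a, -, rfl⟩ := List.mem_map.1 hx
    exact (hf' a h).elim
  · obtain ⟨p', s', a, b, rfl, rfl, rfl, rfl, rfl⟩ := map_eq_pair h3
    exact Zero.of_z2 (S := S.pull f) (Zero.of_z2 h [] []) p' s'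

theorem exists_map_eq (hf : ∀ x, ¬ S.z1 x → ∃ a, f a = x) {v : List L} (hv : ¬ S.Zero v) :
    ∃ w : List X, w.map f = v := by
  have h : ∀ x ∈ v, ∃ a, f a = x := fun x hx => hf x fun hz => hv (Zero.of_z1 hx hz)
  clear hv
  induction v with
  | nil => exact ⟨[], rfl⟩
  | cons x v ih =>
    obtain ⟨a, rfl⟩ := h x (by simp)
    obtain ⟨w, rfl⟩ := ih fun y hy => h y (by simp [hy])
    exact ⟨a :: w, rfl⟩

theorem Good.pull (h : S.Good) (hi : Function.Injective f) (hf : ∀ x, ¬ S.z1 x → ∃ a, f a = x)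
    (hf' : ∀ a, ¬ S.z1 (f a)) : (S.pull f).Good where
  inf n := by
    obtain ⟨v, hn, hv⟩ := h.inf n
    obtain ⟨w, rfl⟩ := exists_map_eq hf hv
    exact ⟨w, by simpa using hn, fun hz => hv (pull_zero_map hz)⟩
  cap m := by
    obtain ⟨N, sel, hsel⟩ := h.cap m
    refine ⟨N, fun u => sel (u.map f), fun u hu hN => ?_⟩
    obtain ⟨h1, h2, h3⟩ := hsel (u.map f) (fun hz => hu ((pull_zero_iff hf hf').2 hz))
      (by simpa using hN)
    refine ⟨h1, by simpa using h2, ?_⟩
    rintro i j hij a t b t' c rfl ha ht hb ht'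
    obtain ⟨k1, k2, k3⟩ := h3 i j hij (a.map f) (t.map f) (b.map f) (t'.map f) (c.map f) (by simp)
      (by simpa using ha) (by simpa using ht) (by simpa using hb) (by simpa using ht')
    refine ⟨fun e => k1 (by rw [e]), ?_, by simpa using k3⟩
    rcases pull_lift hf k2 with hz | ⟨w', hw, e⟩
    · exact (hu hz).elim
    · have : w' = a ++ t' ++ b ++ t ++ c := List.map_injective_iff.2 hi (by simpa using e)
      rwa [this] at hw
  addr n := by
    obtain ⟨N, D, hn, hD, addr, ha⟩ := h.addr n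
    refine ⟨N, D, hn, hD, fun w => addr (w.map f), ?_, ?_, ?_⟩
    · intro w w' hw hN e
      exact ha.eqv _ _ (fun hz => hw ((pull_zero_iff hf hf').2 hz)) (by simpa using hN)
        (pull_eqv_map e)
    · intro u w hN hz
      have := ha.left (u.map f) (w.map f) (by simpa using hN)
        (fun h => hz ((pull_zero_iff hf hf').2 (by simpa using h)))
      simpa using this
    · intro w u hN hz
      have := ha.right (w.map f) (u.map f) (by simpa using hN)
        (fun h => hz ((pull_zero_iff hf hf').2 (by simpa using h)))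
      simpa using this

end RW

/-- Enumerate the non-zero letters by an injection `f : Fin m → L`.  Put `S'.step a b a' b' :=
S.step (f a) (f b) (f a') (f b')`, `S'.z1 _ := False`, `S'.z2 a b := S.Zero [f a, f b]`.  Then
`S'.Zero w ↔ S.Zero (w.map f)`, and for non-zero `w`: every `v` with `S.Eqv (w.map f) v` is `w'.map f` for some
`w'` with `S'.Eqv w w'` (all letters of a non-zero word are in the range of `f`).  Transport `Inf`, `Cap`
(`sel' = sel ∘ List.map f`) and `Addr` (`addr' = addr ∘ List.map f`). -/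
theorem RW.Good.restrict {L : Type} {S : RW L} (h : S.Good) (hfin : {x | ¬ S.z1 x}.Finite) :
    ∃ (m : ℕ) (S' : RW (Fin m)), S'.Good := by
  obtain ⟨m, f, hi, hr⟩ := hfin.fin_param
  refine ⟨m, S.pull f, h.pull hi (fun x hx => ?_) fun a => ?_⟩
  · have : x ∈ Set.range f := by rw [hr]; exact hx
    exact this
  · have : f a ∈ {x | ¬ S.z1 x} := hr ▸ Set.mem_range_self a
    exact this

end Crest.Agent.R176
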