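import Crest.Agent.R176.Sound

/-!
# R176 — soundness of the protocol: moves across a boundary
-/

set_option autoImplicit false

namespace Crest.Agent.R176

variable {C B k : ℕ}

namespace S2

theorem setMode_setMode (t : Tag C) (m m' : Mode) : (t.setMode m).setMode m' = t.setMode m' := by
  obtain ⟨kd, φ, φ', hq, hr⟩ := t
  cases kd <;> rfl

theorem hr_neu {a b : Code C B} {t s : Tag C} (h : Hr a t b s) : s.setMode .neu = t.setMode .neu := by
  cases h <;> exact setMode_setMode _ _ _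

theorem setMode_props (t : Tag C) (m : Mode) : ((t.setMode m).OK ↔ t.OK) ∧
    (t.setMode m).kind.big = t.kind.big ∧ (t.setMode m).kind.isR = t.kind.isR ∧
    (t.setMode m).src = t.src := by
  obtain ⟨kd, φ, φ', hq, hr⟩ := t
  cases kd <;> exact ⟨Iff.rfl, rfl, rfl, rfl⟩

theorem neu_props {s t : Tag C} (h : s.setMode .neu = t.setMode .neu) : (s.OK ↔ t.OK) ∧
    s.kind.big = t.kind.big ∧ s.kind.isR = t.kind.isR ∧ s.src = t.src := by
  obtain ⟨a1, a2, a3, a4⟩ := setMode_props s .neu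
  obtain ⟨b1, b2, b3, b4⟩ := setMode_props t .neu
  rw [h] at a1 a2 a3 a4
  exact ⟨a1.symm.trans b1, a2.symm.trans b2, a3.symm.trans b3, a4.symm.trans b4⟩

theorem good_act {h : Hd C B} (hg : h.Good) {op : Op} {side : Bool} (hm : h.m = .act op side) :
    ∃ lk : Lk C B, h.a.ctl = .lock side lk .s ∧ lk.op = op ∧ h.g = h.a.t.kind.big ∧ lk.Valid ∧
      lk.Cons side h.a.t h.a.β := by
  obtain ⟨⟨t, β, ctl⟩, g, m, ra, rv⟩ := h
  obtain ⟨⟨-, -, h1⟩, h2⟩ := hg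
  simp only at hm
  subst hm
  rcases ctl with _ | _ | ⟨sd, lk, _ | _ | _⟩ <;> simp [Code.Compat] at h2
  obtain ⟨⟨rfl, rfl⟩, rfl⟩ := h2
  exact ⟨lk, rfl, rfl, rfl, h1.1, h1.2.1⟩

theorem good_done {h : Hd C B} (hg : h.Good) {inc side : Bool} (hm : h.m = .done inc side) :
    ∃ lk : Lk C B, h.a.ctl = .lock side lk .s ∧ lk.op = (if inc then .swi else .sw) ∧
      h.g = (lk.other side).kind.big ∧ lk.Valid ∧ lk.Cons side h.a.t h.a.β := by
  obtain ⟨⟨t, β, ctl⟩, g, m, ra, rv⟩ := h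
  obtain ⟨⟨-, -, h1⟩, h2⟩ := hg
  simp only at hm
  subst hm
  rcases ctl with _ | _ | ⟨sd, lk, _ | _ | _⟩ <;> simp [Code.Compat] at h2
  obtain ⟨h3, ⟨rfl, rfl⟩, rfl⟩ := h2
  refine ⟨lk, rfl, ?_, rfl, h1.1, h1.2.1⟩
  revert h3
  cases lk.op <;> simp [Op.isSw]

theorem valid_sw {lk : Lk C B} (hv : lk.Valid) (hs : lk.op.isSw = true) :
    SwR lk.tL lk.tR lk.sL lk.sR lk.inc ∧ lk.sL.OK ∧ lk.sR.OK ∧
      (lk.op = .swi ↔ lk.inc = true ∧ lk.βL = Fin.last B) := by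
  obtain ⟨-, -, -, -, h⟩ := hv
  revert h hs
  cases lk.op <;> simp [Op.isSw]

/-- the commit of an exchange, one level up -/
theorem commit_step {lk : Lk C B} (hv : lk.Valid) {inc : Bool}
    (hop : lk.op = if inc then .swi else .sw) {a b : Code C B} {v w : ℕ} {x y x' y' : Cell C B}
    (hx : x = ⟨lk.tL, a, lk.βL + (B + 1) * v⟩) (hy : y = ⟨lk.tR, b, lk.βR + (B + 1) * w⟩)
    (hx' : x' = ⟨lk.sL, b, lk.βR + (B + 1) * w⟩)
    (hy' : y' = ⟨lk.sR, a, lk.newβ + (B + 1) * (if inc then (v + 1) % nn B k else v)⟩)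
    (wx : WFc (k + 1) x) (wy : WFc (k + 1) y) (wx' : WFc (k + 1) x') (wy' : WFc (k + 1) y') :
    (sysk C B (k + 1)).step x y x' y' := by
  obtain ⟨h1, -, -, h2⟩ := valid_sw hv (by rw [hop]; cases inc <;> rfl)
  obtain ⟨-, -, -, -, -, h3, h4⟩ := h1.vtx hv.1 hv.2.1
  refine ⟨wx, wy, wx', wy', Or.inl ⟨lk.inc, ?_, ?_⟩⟩
  · rw [hx, hy, hx', hy']; exact h1
  · have h5 := wy'.2.1
    subst hx hy hx' hy'
    refine ⟨rfl, rfl, rfl, ?_⟩
    simp only [Lk.newβ] at h5 ⊢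
    cases inc with
    | true =>
      obtain ⟨a1, a2⟩ := h2.1 (by simpa using hop)
      simp only [a1, a2, if_true, Fin.last_add_one, Fin.val_zero, zero_add, Fin.val_last]
      rw [show B + (B + 1) * v + 1 = (B + 1) * (v + 1) by ring, nn, nn, pow_succ',
        Nat.mul_mod_mul_left]
    | false =>
      have a1 : ¬ (lk.inc = true ∧ lk.βL = Fin.last B) := fun h => by
        have := h2.2 h
        rw [hop] at this
        simp at this
      cases hi : lk.inc with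
      | false => simp
      | true =>
        have a2 : lk.βL < Fin.last B := Fin.lt_last_iff_ne_last.2 fun h => a1 ⟨hi, h⟩
        have a3 := (h5 (h3.trans (h4 hi))).2
        simp only [hi, if_true, Bool.false_eq_true, if_false, Fin.val_add_one_of_lt a2] at a3 ⊢
        rw [Nat.mod_eq_of_lt (by omega)]
        omega

/-- new head data representing the same pair of cells -/
def Keep (h1 h2 h1' h2' : Hd C B) : Prop :=
  h1'.Good ∧ h2'.Good ∧ h1'.dec.1 = h1.dec.1 ∧ h2'.dec.1 = h2.dec.1 ∧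
    h1'.dec.2.1 = h1.dec.2.1 ∧ h2'.dec.2.2 = h2.dec.2.2 ∧ h1'.dec.2.2 = h2'.dec.2.1

theorem newβ_zero {lk : Lk C B} (hv : lk.Valid) (hs : lk.op.isSw = true)
    (h : lk.sR.kind.big = false) : lk.newβ = 0 := by
  obtain ⟨h1, -, -, -⟩ := valid_sw hv hs
  obtain ⟨-, -, -, -, -, h3, h4⟩ := h1.vtx hv.1 hv.2.1
  rw [h3] at h
  have a1 : lk.inc = false := by
    cases hi : lk.inc with
    | false => rfl
    | true => rw [h4 hi] at h; cases h
  rw [Lk.newβ, a1]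
  exact hv.2.2.1 h

theorem fr_fwd {h1 h2 : Hd C B} {b b' : Code C B} (hf : Fr h1.a h2.a b b') (g1 : h1.Good)
    (g2 : h2.Good) : Keep h1 h2 { h1 with a := b } { h2 with a := b' } := by
  obtain ⟨a1, f1, m1, ra1, rv1⟩ := h1
  obtain ⟨a2, f2, m2, ra2, rv2⟩ := h2
  simp only at hf
  cases hf with
  | lock hv hc hc' =>
    obtain ⟨⟨o1, o2, -⟩, e1, e2⟩ := g1
    obtain ⟨⟨o3, o4, -⟩, e3, e4⟩ := g2
    dsimp only at e1 e2 e3 e4
    subst e1 e2 e3 e4
    exact ⟨⟨⟨o1, o2, hv, hc, by simp, by simp⟩, rfl, rfl⟩,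
      ⟨⟨o3, o4, hv, hc', by simp, by simp⟩, rfl, rfl⟩, rfl, rfl, rfl, rfl, rfl⟩
  | fin hv hs =>
    obtain ⟨-, e1, e2⟩ := g1
    obtain ⟨-, e3, e4⟩ := g2
    dsimp only at e1 e2 e3 e4
    subst e1 e2 e3 e4
    obtain ⟨s1, s2, s3, -⟩ := valid_sw hv hs
    obtain ⟨-, -, -, -, s4, s5, -⟩ := s1.vtx hv.1 hv.2.1
    exact ⟨⟨⟨s2, fun h => hv.2.2.2.1 (s4 ▸ h), trivial⟩, rfl, s4.symm⟩,
      ⟨⟨s3, newβ_zero hv hs, trivial⟩, rfl, s5.symm⟩, rfl, rfl, rfl, rfl, rfl⟩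

theorem fr_bwd {h1 h2 : Hd C B} {b b' : Code C B} (hf : Fr b b' h1.a h2.a) (g1 : h1.Good)
    (g2 : h2.Good) : Keep h1 h2 { h1 with a := b } { h2 with a := b' } := by
  obtain ⟨a1, f1, m1, ra1, rv1⟩ := h1
  obtain ⟨a2, f2, m2, ra2, rv2⟩ := h2
  simp only at hf
  cases hf with
  | lock hv hc hc' =>
    obtain ⟨⟨o1, o2, -⟩, e1, e2⟩ := g1
    obtain ⟨⟨o3, o4, -⟩, e3, e4⟩ := g2
    dsimp only at e1 e2 e3 e4
    subst e1 e2 e3 e4
    exact ⟨⟨⟨o1, o2, trivial⟩, rfl, rfl⟩, ⟨⟨o3, o4, trivial⟩, rfl, rfl⟩, rfl, rfl, rfl, rfl, rfl⟩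
  | @fin lk hv hs =>
    obtain ⟨-, e1, e2⟩ := g1
    obtain ⟨-, e3, e4⟩ := g2
    dsimp only at e1 e2 e3 e4
    subst e1 e2 e3 e4
    obtain ⟨s1, s2, s3, -⟩ := valid_sw hv hs
    obtain ⟨-, -, -, -, s4, s5, -⟩ := s1.vtx hv.1 hv.2.1
    have hb : lk.op ≠ .bt := fun h => by rw [h] at hs; cases hs
    exact ⟨⟨⟨hv.1, hv.2.2.1, hv, ⟨rfl, rfl⟩, fun _ => hs, by simp⟩, rfl, s4⟩,
      ⟨⟨hv.2.1, hv.2.2.2.1, hv, ⟨rfl, by simp⟩, fun _ => hs, fun _ h => absurd h hb⟩, rfl, s5⟩,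
      rfl, rfl, rfl, rfl, rfl⟩

theorem dec_act {h : Hd C B} {lk : Lk C B} {side : Bool} {op : Op} {sd : Bool}
    (hc : h.a.ctl = .lock side lk .s) (hm : h.m = .act op sd) :
    h.dec = (mkCell h.a.t h.a.β h, if side then none else some (lk, false),
      if side then some (lk, false) else none) := by
  cases side <;> simp [Hd.dec, hc, Hd.post, hm, Mode.isDone]

theorem dec_done {h : Hd C B} {lk : Lk C B} {side : Bool} {inc sd : Bool}
    (hc : h.a.ctl = .lock side lk .s) (hm : h.m = .done inc sd) :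
    h.dec = (if side then mkCell lk.sL lk.βR h else mkCell lk.sR lk.newβ h,
      if side then none else some (lk, true), if side then some (lk, true) else none) := by
  cases side <;> simp [Hd.dec, hc, Hd.post, hm, Mode.isDone]

theorem dec_u {h : Hd C B} {lk : Lk C B} (hc : h.a.ctl = .lock false lk .u) (hm : h.m = .neu) :
    h.dec = (mkCell h.a.t h.a.β h, some (lk, false), none) := by
  simp [Hd.dec, hc, Hd.post, hm, Mode.isDone]

theorem formk_actL {u : List (Cell C B)} {h : Hd C B} {lk : Lk C B} {op : Op} {sd : Bool}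
    (b : Blk k u h) (g : h.Good) (hc : h.a.ctl = .lock true lk .s) (hm : h.m = .act op sd) :
    Formk k (mkCell h.a.t h.a.β h) none (some (lk, false)) u := ⟨h, b, g, dec_act hc hm⟩

theorem formk_actR {u : List (Cell C B)} {h : Hd C B} {lk : Lk C B} {op : Op} {sd : Bool}
    (b : Blk k u h) (g : h.Good) (hc : h.a.ctl = .lock false lk .s) (hm : h.m = .act op sd) :
    Formk k (mkCell h.a.t h.a.β h) (some (lk, false)) none u := ⟨h, b, g, dec_act hc hm⟩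

theorem formk_doneL {u : List (Cell C B)} {h : Hd C B} {lk : Lk C B} {inc sd : Bool}
    (b : Blk k u h) (g : h.Good) (hc : h.a.ctl = .lock true lk .s) (hm : h.m = .done inc sd) :
    Formk k (mkCell lk.sL lk.βR h) none (some (lk, true)) u := ⟨h, b, g, dec_done hc hm⟩

theorem formk_doneR {u : List (Cell C B)} {h : Hd C B} {lk : Lk C B} {inc sd : Bool}
    (b : Blk k u h) (g : h.Good) (hc : h.a.ctl = .lock false lk .s) (hm : h.m = .done inc sd) :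
    Formk k (mkCell lk.sR lk.newβ h) (some (lk, true)) none u := ⟨h, b, g, dec_done hc hm⟩

theorem cons_right {lk : Lk C B} {t : Tag C} {β : Fin (B + 1)} (h : lk.Cons false t β)
    (hb : lk.op ≠ .bt) : t = lk.tR ∧ β = lk.βR := by
  simp only [Lk.Cons, Bool.false_eq_true, if_false, hb] at h
  exact ⟨h.2, h.1⟩

theorem tag_self {t : Tag C} {kd : Kind} (h : t.kind = kd) : t = { t with kind := kd } := by
  subst h; rfl

/-- a rule between two heads `r` in the same active mode -/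
theorem rr_case {x y c c' e e' : Cell C B} {σ τ σ' : Ifc C B} {u u' : List (Cell C B)}
    (h : Formk k x σ τ (u ++ [c])) (h' : Formk k y τ σ' (c' :: u')) {op : Op} (hop : op ≠ .bt)
    (hc : c.t.kind = .r false (.act op true)) (hc' : c'.t.kind = .r false (.act op false))
    (he : e.t = c.t) (he' : e'.t = c'.t) (we : WFc k e) (we' : WFc k e') :
    ∃ (x' y' : Cell C B) (lk : Lk C B), Formk k x' σ τ (u ++ [e]) ∧ Formk k y' τ σ' (e' :: u') ∧
      lk.Valid ∧ lk.op = op ∧ x.t = lk.tL ∧ y.t = lk.tR ∧ x'.t = x.t ∧ y'.t = y.t ∧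
      x.a = c.a ∧ y.a = c'.a ∧ x'.a = e.a ∧ y'.a = e'.a := by
  obtain ⟨h1, b1, g1, d1⟩ := h
  obtain ⟨h2, b2, g2, d2⟩ := h'
  obtain ⟨r1, r2, r3, r4⟩ := b1.r_eq hc
  obtain ⟨r5, r6, r7, r8⟩ := Blk.r_eq (p := []) b2 hc'
  obtain ⟨lk, l1, l2, l3, l4, l5⟩ := good_act g1 r2.symm
  obtain ⟨lk', l6, l7, l8, -, l10⟩ := good_act g2 r6.symm
  rw [dec_act l1 r2.symm] at d1
  rw [dec_act l6 r6.symm] at d2
  simp only [if_true, Bool.false_eq_true, if_false, Prod.mk.injEq] at d1 d2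
  obtain ⟨rfl, rfl, rfl⟩ := d1
  obtain ⟨rfl, d3, rfl⟩ := d2
  obtain rfl : lk' = lk := by simpa using d3
  have n1 := b1.set_r (x' := e) (g := h1.g) (m := h1.m) (by rw [hc]; rfl)
    (by rw [he, ← r1, ← r2]; exact tag_self hc) we
  have n2 := Blk.set_r (p := []) b2 (x' := e') (g := h2.g) (m := h2.m) (by rw [hc']; rfl)
    (by rw [he', ← r5, ← r6]; exact tag_self hc') we'
  refine ⟨_, _, lk', formk_actL n1 g1 l1 r2.symm, formk_actR n2 g2 l6 r6.symm, l4, l2, l5.1,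
    (cons_right l10 (l7 ▸ hop)).1, rfl, rfl, r3.symm, r7.symm, rfl, rfl⟩

/-- a rule between a head `r` in mode `bt` and a head `q` -/
theorem rq_case {x y c c' e e' : Cell C B} {σ τ σ' : Ifc C B} {u u' : List (Cell C B)}
    (h : Formk k x σ τ (u ++ [c])) (h' : Formk k y τ σ' (c' :: u'))
    (hc : c.t.kind = .r false (.act .bt true)) (hc' : c'.t.kind = .q)
    (he : e.t = c.t) (he' : e'.t = c'.t) (we : WFc k e) (we' : WFc k e')
    {t' s' : Tag C} {β' : Fin (B + 1)} {lk : Lk C B} (hop : lk.op = .bt)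
    (ha : c'.a = ⟨t', β', .lock false lk .u⟩) (ha' : e'.a = ⟨s', β', .lock false lk .u⟩)
    (hn : s'.setMode .neu = t'.setMode .neu) :
    ∃ x' y' : Cell C B, Formk k x' σ τ (u ++ [e]) ∧ Formk k y' τ σ' (e' :: u') ∧
      BT x.t y.t ∧ BT x'.t y'.t ∧ x'.t = x.t ∧ y'.a = y.a ∧ y'.v = y.v ∧ x.a = c.a ∧ x'.a = e.a ∧
      y.t = t' ∧ y'.t = s' := by
  obtain ⟨h1, b1, g1, d1⟩ := h
  obtain ⟨h2, b2, g2, d2⟩ := h'
  obtain ⟨r1, r2, r3, r4⟩ := b1.r_eq hc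
  have r5 := Blk.q_eq (p := []) b2 hc'
  obtain ⟨lk', l1, l2, l3, l4, l5⟩ := good_act g1 r2.symm
  have n1 := b1.set_r (x' := e) (g := h1.g) (m := h1.m) (by rw [hc]; rfl)
    (by rw [he, ← r1, ← r2]; exact tag_self hc) we
  have n2 := Blk.set_q (p := []) b2 hc' he' we'
  obtain ⟨a2, f2, m2, ra2, rv2⟩ := h2
  simp only at r5
  rw [ha] at r5
  subst r5
  rw [ha'] at n2
  obtain ⟨⟨o1, o2, o3, o4, o5⟩, e1, e2⟩ := g2
  dsimp only at e1 e2
  subst e1 e2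
  rw [dec_act l1 r2.symm] at d1
  rw [dec_u rfl rfl] at d2
  simp only [if_true, Prod.mk.injEq] at d1 d2
  obtain ⟨rfl, rfl, rfl⟩ := d1
  obtain ⟨rfl, d3, rfl⟩ := d2
  obtain rfl : lk = lk' := by simpa using d3
  obtain ⟨p1, p2, p3, p4⟩ := neu_props hn
  simp only [Lk.Cons, Bool.false_eq_true, if_false, hop, if_true] at o4
  obtain ⟨q1, q2, q3, q4⟩ := neu_props o4.2
  have hbt : BT lk.tL lk.tR := by
    have := l4.2.2.2.2
    rw [hop] at this
    exact this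
  have hbt1 : BT h1.a.t t' := by
    rw [l5.1]
    exact ⟨hbt.1.trans q4.symm, hbt.2.1, q3.trans hbt.2.2⟩
  have hbt2 : BT h1.a.t s' := ⟨hbt1.1.trans p4.symm, hbt1.2.1, p3.trans hbt1.2.2⟩
  refine ⟨_, _, formk_actL n1 g1 l1 r2.symm,
    ⟨_, n2, ⟨⟨p1.2 o1, fun h => o2 (p2 ▸ h), o3, ?_, o5⟩, rfl, p2.symm⟩, dec_u rfl rfl⟩,
    hbt1, hbt2, rfl, rfl, rfl, r3.symm, rfl, rfl, rfl⟩
  simp only [Lk.Cons, Bool.false_eq_true, if_false, hop, if_true]
  exact ⟨o4.1, hn.trans o4.2⟩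

/-- a rule between two heads `q` -/
theorem qq_case {x y c c' e e' : Cell C B} {σ τ σ' : Ifc C B} {u u' : List (Cell C B)}
    (h : Formk k x σ τ (u ++ [c])) (h' : Formk k y τ σ' (c' :: u'))
    (hc : c.t.kind = .q) (hc' : c'.t.kind = .q)
    (he : e.t = c.t) (he' : e'.t = c'.t) (we : WFc k e) (we' : WFc k e')
    (hf : Fr c.a c'.a e.a e'.a ∨ Fr e.a e'.a c.a c'.a) :
    ∃ τ', Formk k x σ τ' (u ++ [e]) ∧ Formk k y τ' σ' (e' :: u') := by
  obtain ⟨h1, b1, g1, d1⟩ := h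
  obtain ⟨h2, b2, g2, d2⟩ := h'
  rw [b1.q_eq hc, Blk.q_eq (p := []) b2 hc'] at hf
  have n1 := b1.set_q hc he we
  have n2 := Blk.set_q (p := []) b2 hc' he' we'
  obtain ⟨k1, k2, k3, k4, k5, k6, k7⟩ : Keep h1 h2 { h1 with a := e.a } { h2 with a := e'.a } :=
    hf.elim (fun hf => fr_fwd hf g1 g2) fun hf => fr_bwd hf g1 g2
  rw [d1] at k3 k5
  rw [d2] at k4 k6
  exact ⟨({ h1 with a := e.a } : Hd C B).dec.2.2, ⟨_, n1, k1, Prod.ext k3 (Prod.ext k5 rfl)⟩,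
    ⟨_, n2, k2, Prod.ext k4 (Prod.ext k7.symm k6)⟩⟩

theorem commit_fwd {x y c c' e e' : Cell C B} {σ τ σ' : Ifc C B} {u u' : List (Cell C B)}
    (h : Formk k x σ τ (u ++ [c])) (h' : Formk k y τ σ' (c' :: u')) {inc : Bool}
    (hs : CrSw c.t c'.t e.t e'.t inc) (hv : SwVal k c c' e e' inc) (we : WFc k e) (we' : WFc k e') :
    ∃ x' y' τ', Formk k x' σ τ' (u ++ [e]) ∧ Formk k y' τ' σ' (e' :: u') ∧
      (sysk C B (k + 1)).step x y x' y' := by
  have wx := formk_wf_up h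
  have wy := formk_wf_up h'
  obtain ⟨h1, b1, g1, d1⟩ := h
  obtain ⟨h2, b2, g2, d2⟩ := h'
  obtain ⟨-, g, g', -, hc, hc', he, he'⟩ := hs
  obtain ⟨v1, v2, v3, v4⟩ := hv
  obtain ⟨r1, r2, r3, r4⟩ := b1.r_eq hc
  obtain ⟨r5, r6, r7, r8⟩ := Blk.r_eq (p := []) b2 hc'
  obtain ⟨lk, l1, l2, l3, l4, l5⟩ := good_act g1 r2.symm
  obtain ⟨lk', l6, l7, l8, -, l10⟩ := good_act g2 r6.symm
  rw [dec_act l1 r2.symm] at d1
  rw [dec_act l6 r6.symm] at d2
  simp only [if_true, Bool.false_eq_true, if_false, Prod.mk.injEq] at d1 d2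
  obtain ⟨rfl, rfl, rfl⟩ := d1
  obtain ⟨rfl, d3, rfl⟩ := d2
  obtain rfl : lk' = lk := by simpa using d3
  have hb : lk'.op ≠ .bt := by rw [l2]; cases inc <;> simp
  have hsw : lk'.op.isSw = true := by rw [l2]; cases inc <;> rfl
  have hi : inc = decide (lk'.op = .swi) := by rw [l2]; cases inc <;> rfl
  obtain ⟨c1, c2⟩ := cons_right l10 hb
  have n1 := b1.set_r (by rw [hc]; rfl) he we
  have n2 := Blk.set_r (p := []) b2 (by rw [hc']; rfl) he' we'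
  have f1 := formk_doneL n1 ⟨g1.1, by
    simp only [Code.Compat, l1]
    exact Or.inr ⟨hsw, by rw [← hi], by rw [r5, l8, c1]; rfl⟩⟩ l1 rfl
  have f2 := formk_doneR n2 ⟨g2.1, by
    simp only [Code.Compat, l6]
    exact Or.inr ⟨hsw, by rw [← hi], by rw [r1, l3, l5.1]; rfl⟩⟩ l6 rfl
  refine ⟨_, _, _, f1, f2, commit_step l4 l2 (a := h1.ra) (b := h2.ra) (v := h1.rv) (w := h2.rv)
    ?_ ?_ ?_ ?_ wx wy (formk_wf_up f1) (formk_wf_up f2)⟩
  · rw [mkCell, l5.1, l5.2]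
  · rw [mkCell, c1, c2]
  · simp only [mkCell, v1, v2, r7, r8]
  · simp only [mkCell, v3, v4, r3, r4]

theorem commit_bwd {x y c c' e e' : Cell C B} {σ τ σ' : Ifc C B} {u u' : List (Cell C B)}
    (h : Formk k x σ τ (u ++ [c])) (h' : Formk k y τ σ' (c' :: u')) {inc : Bool}
    (hs : CrSw e.t e'.t c.t c'.t inc) (hv : SwVal k e e' c c' inc) (we : WFc k e) (we' : WFc k e') :
    ∃ x' y' τ', Formk k x' σ τ' (u ++ [e]) ∧ Formk k y' τ' σ' (e' :: u') ∧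
      (sysk C B (k + 1)).step x' y' x y := by
  have wx := formk_wf_up h
  have wy := formk_wf_up h'
  obtain ⟨h1, b1, g1, d1⟩ := h
  obtain ⟨h2, b2, g2, d2⟩ := h'
  obtain ⟨-, g, g', -, he, he', hc0, hc0'⟩ := hs
  have hc : c.t.kind = .r g' (.done inc true) := by rw [hc0]
  have hc' : c'.t.kind = .r g (.done inc false) := by rw [hc0']
  obtain ⟨v1, v2, v3, v4⟩ := hv
  obtain ⟨r1, r2, r3, r4⟩ := b1.r_eq hc
  obtain ⟨r5, r6, r7, r8⟩ := Blk.r_eq (p := []) b2 hc'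
  obtain ⟨lk, l1, l2, l3, l4, l5⟩ := good_done g1 r2.symm
  obtain ⟨lk', l6, l7, l8, -, l10⟩ := good_done g2 r6.symm
  rw [dec_done l1 r2.symm] at d1
  rw [dec_done l6 r6.symm] at d2
  simp only [if_true, Bool.false_eq_true, if_false, Prod.mk.injEq] at d1 d2
  obtain ⟨rfl, rfl, rfl⟩ := d1
  obtain ⟨rfl, d3, rfl⟩ := d2
  obtain rfl : lk' = lk := by simpa using d3
  have hb : lk'.op ≠ .bt := by rw [l2]; cases inc <;> simp
  obtain ⟨c1, c2⟩ := cons_right l10 hb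
  have n1 := b1.set_r (x' := e) (g := g) (m := .act (if inc then .swi else .sw) true)
    (by rw [hc]; rfl) (by rw [hc0]; exact tag_self he) we
  have n2 := Blk.set_r (p := []) b2 (x' := e') (g := g') (m := .act (if inc then .swi else .sw) false)
    (by rw [hc']; rfl) (by rw [hc0']; exact tag_self he') we'
  have f1 := formk_actL n1 ⟨g1.1, by
    simp only [Code.Compat, l1]
    exact Or.inl ⟨by rw [l2], by rw [r5, l8, l5.1]; rfl⟩⟩ l1 rfl
  have f2 := formk_actR n2 ⟨g2.1, by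
    simp only [Code.Compat, l6]
    exact Or.inl ⟨by rw [l2], by rw [r1, l3, c1]; rfl⟩⟩ l6 rfl
  refine ⟨_, _, _, f1, f2, commit_step l4 l2 (a := e.a) (b := e'.a) (v := e.v) (w := e'.v)
    ?_ ?_ ?_ ?_ (formk_wf_up f1) (formk_wf_up f2) wx wy⟩
  · simp only [mkCell, l5.1, l5.2]
  · simp only [mkCell, c1, c2]
  · rw [mkCell, ← r3, ← r4, v1, v2]
  · rw [mkCell, ← r7, ← r8, v3, v4]

end S2

open S2 in
/-- The pair satisfies `crAdj` (`Blk.last_tgt`, `Blk.start_iff`), so the rule is `CrSw` (commit of an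
exchange, in either direction: the modes force both codes to be `lock _ lk .s` with the same `lk`, and the
decoded pair makes the exchange `SwR lk.tL lk.tR lk.sL lk.sR lk.inc` of level `k + 1`), `BBF` between two `q`
(`Fr` or its inverse: the decoded cells do not change, the interface does), `BBF`/`BBG` between two `r` (the same
rule at level `k + 1`), or `BBG` between `r` and `q` (the rule `BT` at level `k + 1`).  Use `Blk.set_q`,
`Blk.set_r`, `formk_wf_up`, `SwR.vtx`. -/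
theorem formk_s1b {x y c c' e e' : Cell C B} {σ τ σ' : Ifc C B} {u u' : List (Cell C B)}
    (h : Formk k x σ τ (u ++ [c])) (h' : Formk k y τ σ' (c' :: u'))
    (hs : (sysk C B k).step c c' e e' ∨ (sysk C B k).step e e' c c') :
    ∃ x' y' τ', Formk k x' σ τ' (u ++ [e]) ∧ Formk k y' τ' σ' (e' :: u') ∧
      ((x' = x ∧ y' = y) ∨ (sysk C B (k + 1)).step x y x' y' ∨ (sysk C B (k + 1)).step x' y' x y) := by
  have wx := formk_wf_up h
  have wy := formk_wf_up h'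
  have hna : ¬ inAdj c.t c'.t := by
    obtain ⟨h1, b1, -⟩ := h
    obtain ⟨h2, b2, -⟩ := h'
    intro ha
    exact top_ne_bot (b1.last_tgt.symm.trans (ha.trans ((Blk.start_iff (a := []) b2).2 rfl)))
  rcases hs with ⟨wc, wc', we, we', hs⟩ | ⟨we, we', wc, wc', hs⟩
  · rcases hs with ⟨inc, hs | hs, hv⟩ | ⟨⟨-, ⟨hc, hc'⟩ | ⟨hc, hc'⟩⟩, he, he', hf⟩ |
      ⟨⟨-, ⟨hc, hc'⟩ | ⟨hc, hc'⟩⟩, he, he', hf⟩ | ⟨hb, -⟩
    · exact absurd (hs.vtx wc.1 wc'.1).1 hna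
    · obtain ⟨x', y', τ', f1, f2, h3⟩ := commit_fwd h h' hs hv we we'
      exact ⟨x', y', τ', f1, f2, Or.inr (Or.inl h3)⟩
    · obtain ⟨τ', f1, f2⟩ := qq_case h h' hc hc' he he' we we' (Or.inl hf)
      exact ⟨x, y, τ', f1, f2, Or.inl ⟨rfl, rfl⟩⟩
    · obtain ⟨x', y', lk, f1, f2, l1, l2, l3, l4, l5, l6, l7, l8, l9, l10⟩ :=
        rr_case h h' (by simp) hc hc' he he' we we'
      refine ⟨x', y', τ, f1, f2, Or.inr (Or.inl ⟨wx, wy, formk_wf_up f1, formk_wf_up f2,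
        Or.inr (Or.inl ⟨?_, l5, l6, by rwa [l7, l8, l9, l10]⟩)⟩)⟩
      have := l1.2.2.2.2
      rw [l2] at this
      rwa [l3, l4]
    · obtain ⟨t', s', β', lk, hop, ha, ha', hr⟩ := hf
      obtain ⟨x', y', f1, f2, l1, -, l3, l4, l5, l6, l7, l8, l9⟩ :=
        rq_case h h' hc hc' he he' we we' hop ha ha' (hr_neu hr)
      exact ⟨x', y', τ, f1, f2, Or.inr (Or.inl ⟨wx, wy, formk_wf_up f1, formk_wf_up f2,
        Or.inr (Or.inr (Or.inr ⟨l1, l3, l4, l5, by rwa [l6, l7, l8, l9]⟩))⟩)⟩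
    · obtain ⟨x', y', lk, f1, f2, l1, l2, l3, l4, l5, l6, l7, l8, l9, l10⟩ :=
        rr_case h h' (by simp) hc hc' he he' we we'
      refine ⟨x', y', τ, f1, f2, Or.inr (Or.inl ⟨wx, wy, formk_wf_up f1, formk_wf_up f2,
        Or.inr (Or.inr (Or.inl ⟨?_, l5, l6, by rwa [l7, l8, l9, l10]⟩))⟩)⟩
      have := l1.2.2.2.2
      rw [l2] at this
      rwa [l3, l4]
    · exact absurd hb.1 hna
  · rcases hs with ⟨inc, hs | hs, hv⟩ | ⟨⟨-, ⟨hc, hc'⟩ | ⟨hc, hc'⟩⟩, he, he', hf⟩ |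
      ⟨⟨-, ⟨hc, hc'⟩ | ⟨hc, hc'⟩⟩, he, he', hf⟩ | ⟨hb, he, -, -, hr⟩
    · exact absurd (hs.vtx we.1 we'.1).2.1 hna
    · obtain ⟨x', y', τ', f1, f2, h3⟩ := commit_bwd h h' hs hv we we'
      exact ⟨x', y', τ', f1, f2, Or.inr (Or.inr h3)⟩
    · obtain ⟨τ', f1, f2⟩ := qq_case h h' (he ▸ hc) (he' ▸ hc') he.symm he'.symm we we' (Or.inr hf)
      exact ⟨x, y, τ', f1, f2, Or.inl ⟨rfl, rfl⟩⟩
    · obtain ⟨x', y', lk, f1, f2, l1, l2, l3, l4, l5, l6, l7, l8, l9, l10⟩ :=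
        rr_case h h' (op := .bbF) (by simp) (he ▸ hc) (he' ▸ hc') he.symm he'.symm we we'
      refine ⟨x', y', τ, f1, f2, Or.inr (Or.inr ⟨formk_wf_up f1, formk_wf_up f2, wx, wy,
        Or.inr (Or.inl ⟨?_, l5.symm, l6.symm, by rwa [l7, l8, l9, l10]⟩)⟩)⟩
      have := l1.2.2.2.2
      rw [l2] at this
      rwa [l5, l6, l3, l4]
    · obtain ⟨t', s', β', lk, hop, ha, ha', hr⟩ := hf
      obtain ⟨x', y', f1, f2, -, l2, l3, l4, l5, l6, l7, l8, l9⟩ :=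
        rq_case h h' (he ▸ hc) (he' ▸ hc') he.symm he'.symm we we' hop ha' ha (hr_neu hr).symm
      exact ⟨x', y', τ, f1, f2, Or.inr (Or.inr ⟨formk_wf_up f1, formk_wf_up f2, wx, wy,
        Or.inr (Or.inr (Or.inr ⟨l2, l3.symm, l4.symm, l5.symm, by rwa [l6, l7, l8, l9]⟩))⟩)⟩
    · obtain ⟨x', y', lk, f1, f2, l1, l2, l3, l4, l5, l6, l7, l8, l9, l10⟩ :=
        rr_case h h' (op := .bbG) (by simp) (he ▸ hc) (he' ▸ hc') he.symm he'.symm we we'
      refine ⟨x', y', τ, f1, f2, Or.inr (Or.inr ⟨formk_wf_up f1, formk_wf_up f2, wx, wy,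
        Or.inr (Or.inr (Or.inl ⟨?_, l5.symm, l6.symm, by rwa [l7, l8, l9, l10]⟩))⟩)⟩
      have := l1.2.2.2.2
      rw [l2] at this
      rwa [l5, l6, l3, l4]
    · refine absurd ?_ hna
      rw [he]
      exact hb.1.trans (neu_props (hr_neu hr)).2.2.2.symm

end Crest.Agent.R176
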