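import Crest.Agent.R176.Tow3

/-!
# R176 — towers: addresses
-/

set_option autoImplicit false

namespace Crest.Agent.R176

namespace Tower

variable {L I Tg : Type} (T : Tower L I Tg)

/-- a witness for the address of `w` at level `K` -/
def Wit (K : ℕ) (w : List L) (v : ZMod (T.ell K * T.d K)) : Prop :=
  ∃ p u s x Θ Θ', w = p ++ u ++ s ∧ T.Dec K u [x] Θ Θ' ∧ T.lm (T.tag x) ∧
    87 * T.ell K ≤ p.length ∧ 87 * T.ell K ≤ s.length ∧
    v = ((T.idx K (T.tag x) * T.ell K : ℕ) : ZMod (T.ell K * T.d K)) - (p.length : ℕ)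

variable {T}

theorem Wit.infix {K : ℕ} {w : List L} {v : ZMod (T.ell K * T.d K)} (h : T.Wit K w v)
    (a b : List L) : T.Wit K (a ++ w ++ b) (v - (a.length : ℕ)) := by
  obtain ⟨p, u, s, x, Θ, Θ', rfl, hd, hl, hp, hs, rfl⟩ := h
  refine ⟨a ++ p, u, s ++ b, x, Θ, Θ', by simp, hd, hl, ?_, ?_, ?_⟩
  · rw [List.length_append]; omega
  · rw [List.length_append]; omega
  · rw [List.length_append]; push_cast; ring

theorem wit_cell {K : ℕ} {p₀ u₀ s₀ y p u s : List L} {x : L} {Θ₀ Θ₀' Θ Θ' : List I}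
    (h₀ : T.Dec K u₀ y Θ₀ Θ₀') (hl : p₀.length + s₀.length ≤ 84 * T.ell K)
    (hd : T.Dec K u [x] Θ Θ') (e : p₀ ++ u₀ ++ s₀ = p ++ u ++ s)
    (hp : 87 * T.ell K ≤ p.length) (hs : 87 * T.ell K ≤ s.length) :
    ∃ ya yb, y = ya ++ x :: yb ∧ p.length = p₀.length + ya.length * T.ell K ∧ 2 ≤ ya.length ∧
      2 ≤ yb.length := by
  have hpos := T.ell_pos K
  have hu : u.length = T.ell K := by simpa using hd.length
  have hlen := congrArg List.length e
  simp only [List.length_append] at hlen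
  obtain ⟨ya, yb, rfl, hy⟩ := align_cell h₀ hd e (by omega) (by omega)
  have hu₀ := h₀.length
  simp only [List.length_append, List.length_cons, add_mul, one_mul] at hu₀
  refine ⟨ya, yb, rfl, hy, ?_, ?_⟩
  · exact Nat.le_of_mul_le_mul_right (by omega) hpos
  · exact Nat.le_of_mul_le_mul_right (by omega) hpos

theorem wit_aux {K : ℕ} {u₀ ya yb ya' yb' : List L} {x x' : L} {Θ₀ Θ₀' : List I}
    (h₀ : T.Dec K u₀ (ya ++ x :: yb) Θ₀ Θ₀') (hz : ¬ (T.sys 0).Zero u₀)
    (e : ya ++ x :: yb = ya' ++ x' :: yb') (ha : 2 ≤ ya.length) (hb : 2 ≤ yb'.length)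
    (hle : ya.length ≤ ya'.length) (hx : T.lm (T.tag x)) (hx' : T.lm (T.tag x')) :
    ((T.idx K (T.tag x) * T.ell K : ℕ) : ZMod (T.ell K * T.d K)) - (ya.length * T.ell K : ℕ) =
      ((T.idx K (T.tag x') * T.ell K : ℕ) : ZMod (T.ell K * T.d K)) -
        (ya'.length * T.ell K : ℕ) := by
  obtain ⟨c, hc⟩ : ∃ c, ya' = ya ++ c ∧ x :: yb = c ++ x' :: yb' := by
    rcases List.append_eq_append_iff.1 e with ⟨c, h1, h2⟩ | ⟨c, h1, h2⟩
    · exact ⟨c, h1, h2⟩
    · have : c = [] := by
        have := congrArg List.length h1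
        rw [List.length_append] at this
        exact List.eq_nil_of_length_eq_zero (by omega)
      subst this
      exact ⟨[], by simpa using h1.symm, by simpa using h2.symm⟩
  obtain ⟨rfl, hc⟩ := hc
  cases c with
  | nil =>
    simp only [List.nil_append, List.cons.injEq] at hc
    rw [hc.1, List.append_nil]
  | cons c b =>
    simp only [List.cons_append, List.cons.injEq] at hc
    obtain ⟨rfl, rfl⟩ := hc
    have h1 : T.Dec K u₀ (ya ++ (x :: b ++ [x']) ++ yb') Θ₀ Θ₀' := by simpa using h₀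
    have h2 := T.lm_idx (h1.inner_nz ha (by simp) hb hz) hx hx'
    have h3 : T.idx K (T.tag x') * T.ell K ≡ (T.idx K (T.tag x) + 1 + b.length) * T.ell K
        [MOD T.ell K * T.d K] := by
      rw [mul_comm (T.ell K)]
      exact h2.mul_right' _
    rw [(ZMod.natCast_eq_natCast_iff _ _ _).2 h3]
    simp only [List.length_append, List.length_cons]
    push_cast
    ring

theorem Wit.unique {K : ℕ} {w : List L} {v v' : ZMod (T.ell K * T.d K)}
    (hz : ¬ (T.sys 0).Zero w) (h : T.Wit K w v) (h' : T.Wit K w v') : v = v' := by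
  obtain ⟨p₀, u₀, s₀, y, Θ₀, Θ₀', e₀, h₀, hl⟩ := parse K hz
  have hz₀ : ¬ (T.sys 0).Zero u₀ := fun h => hz (e₀ ▸ h.infix p₀ s₀)
  obtain ⟨p, u, s, x, Θ, Θ', e, hd, hx, hp, hs, rfl⟩ := h
  obtain ⟨p', u', s', x', Ξ, Ξ', e', hd', hx', hp', hs', rfl⟩ := h'
  obtain ⟨ya, yb, hy, hlen, ha, hb⟩ := wit_cell h₀ hl hd (e₀.symm.trans e) hp hs
  obtain ⟨ya', yb', hy', hlen', ha', hb'⟩ := wit_cell h₀ hl hd' (e₀.symm.trans e') hp' hs'
  have key : ((T.idx K (T.tag x) * T.ell K : ℕ) : ZMod (T.ell K * T.d K)) -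
      (ya.length * T.ell K : ℕ) =
      ((T.idx K (T.tag x') * T.ell K : ℕ) : ZMod (T.ell K * T.d K)) -
        (ya'.length * T.ell K : ℕ) := by
    rcases le_total ya.length ya'.length with hle | hle
    · exact wit_aux (hy ▸ h₀) hz₀ (hy.symm.trans hy') ha hb' hle hx hx'
    · exact (wit_aux (hy' ▸ h₀) hz₀ (hy'.symm.trans hy) ha' hb hle hx' hx).symm
  rw [hlen, hlen', Nat.cast_add, Nat.cast_add]
  linear_combination key

theorem exists_wit {K : ℕ} {w : List L} (hz : ¬ (T.sys 0).Zero w)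
    (hw : (263 + T.n K) * T.ell K ≤ w.length) : ∃ v, T.Wit K w v := by
  have hpos := T.ell_pos K
  obtain ⟨p₀, u₀, s₀, y, Θ₀, Θ₀', e₀, h₀, hl⟩ := parse K hz
  have hz₀ : ¬ (T.sys 0).Zero u₀ := fun h => hz (e₀ ▸ h.infix p₀ s₀)
  have hlen := congrArg List.length e₀
  simp only [List.length_append] at hlen
  have hu₀ := h₀.length
  have hy : 179 + T.n K ≤ y.length := by
    refine Nat.le_of_mul_le_mul_right ?_ hpos
    rw [add_mul] at hw ⊢
    omega
  obtain ⟨ya, ym, yb, rfl, ha, hm, hb⟩ : ∃ ya ym yb : List L, y = ya ++ ym ++ yb ∧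
      ya.length = 87 ∧ ym.length = T.n K + 4 ∧ 87 ≤ yb.length := by
    refine ⟨y.take 87, (y.drop 87).take (T.n K + 4), (y.drop 87).drop (T.n K + 4), ?_, ?_, ?_, ?_⟩
    · rw [List.append_assoc, List.take_append_drop, List.take_append_drop]
    · rw [List.length_take]; omega
    · rw [List.length_take, List.length_drop]; omega
    · rw [List.length_drop, List.length_drop]; omega
  obtain ⟨x, hx, hlm⟩ := T.lm_ex (h₀.inner_nz (by omega) (by omega) (by omega) hz₀) hm.ge
  obtain ⟨m₁, m₂, rfl⟩ := List.append_of_mem hx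
  have h1 : T.Dec K u₀ ((ya ++ m₁) ++ ([x] ++ (m₂ ++ yb))) Θ₀ Θ₀' := by simpa using h₀
  obtain ⟨u₁, u₂, Ξ, rfl, h₁, h₂⟩ := h1.split
  obtain ⟨u₂, u₃, Ξ', rfl, h₂, h₃⟩ := h₂.split
  have l₁ := h₁.length
  have l₃ := h₃.length
  refine ⟨_, p₀ ++ u₁, u₂, u₃ ++ s₀, x, Ξ, Ξ', by simp [e₀], h₂, hlm, ?_, ?_, rfl⟩
  · rw [List.length_append, l₁, List.length_append, ha, add_mul]; omega
  · have : 87 * T.ell K ≤ yb.length * T.ell K := Nat.mul_le_mul_right _ hb
    rw [List.length_append, l₃, List.length_append, add_mul]; omega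

variable (T)

/-- Fix `K` (with `2 ^ K ≥ n`), `ℓ = ell K`, `D = ell (K + 1) = ℓ * d K`.  A *witness* for `w` is a
decomposition `w = p ++ u ++ s` with `Dec K u [x] _ _`, `lm (tag x)`, `87 ℓ ≤ |p|`, `87 ℓ ≤ |s|`; its value is
`idx K (tag x) * ℓ - |p| ∈ ZMod D`.
* Two witnesses of a non-zero word have the same value: both cells are cells of the global parse
  (`parse`, `align_cell`), at least two cells away from its ends; the inner part of the parsed word is non-zero
  (`Dec.inner_nz`), apply `lm_idx` to the factor between the two cells.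
* A non-zero word of length `≥ N₀ = (263 + n K) ℓ` has a witness: `lm_ex` applied to the cells number
  `87, …, 87 + n K + 3` of the global parse.
* A witness of `w` gives a witness of `a ++ w ++ b`, with value decreased by `|a|`.
Put `addr w =` the value of some witness, `N = 2 N₀ + 2`.  Invariance under a step
`p ++ x :: y :: s → p ++ x' :: y' :: s`: one of `p`, `s` has length `≥ N₀`, take a witness inside it.
Finally `2000 N ≤ 2000 * 528 * (n K + 1) ℓ ≤ D` by `ratio`. -/
theorem addr : (T.sys 0).Addr := by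
  classical
  intro n
  have hpos := T.ell_pos n
  refine ⟨2 * ((263 + T.n n) * T.ell n) + 2, T.ell n * T.d n, ?_, ?_,
    fun w => if h : ∃ v, T.Wit n w v then h.choose else 0, ?_⟩
  · have h1 := T.two_pow_le_ell n
    have h2 : n < 2 ^ n := Nat.lt_two_pow_self
    rw [add_mul]
    omega
  · have h1 : T.ell n * (10000000 * (T.n n + 1)) ≤ T.ell n * T.d n :=
      Nat.mul_le_mul_left _ (T.ratio n)
    have h2 : T.ell n * (10000000 * (T.n n + 1)) =
        10000000 * (T.n n * T.ell n) + 10000000 * T.ell n := by ring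
    rw [add_mul]
    omega
  · set addr : List L → ZMod (T.ell n * T.d n) :=
      fun w => if h : ∃ v, T.Wit n w v then h.choose else 0 with haddr
    have key : ∀ {w v}, ¬ (T.sys 0).Zero w → T.Wit n w v → addr w = v := by
      intro w v hz hv
      have h : ∃ v, T.Wit n w v := ⟨v, hv⟩
      simp only [haddr, dif_pos h]
      exact Wit.unique hz h.choose_spec hv
    refine ⟨fun w w' hz hw he => ?_, fun u w hw hz => ?_, fun w u hw hz => ?_⟩
    · refine (he.induction (P := fun v => ¬ (T.sys 0).Zero v ∧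
        2 * ((263 + T.n n) * T.ell n) + 2 ≤ v.length ∧ addr v = addr w) ?_ ⟨hz, hw, rfl⟩).2.2
      rintro v v' ⟨h1, h2, h3⟩ hs
      have h1' : ¬ (T.sys 0).Zero v' := fun h => h1 (h.of_eqv hs.eqv)
      refine ⟨h1', hs.length_eq ▸ h2, h3 ▸ ?_⟩
      obtain ⟨p, s, x, y, x', y', -, rfl, rfl⟩ := RW.sstep_iff.1 hs
      simp only [List.length_append, List.length_cons] at h2
      rcases le_total ((263 + T.n n) * T.ell n) p.length with hp | hp
      · obtain ⟨a, ha⟩ := exists_wit (fun h => h1 (h.append_right _)) hp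
        have e1 := ha.infix [] (x :: y :: s)
        have e2 := ha.infix [] (x' :: y' :: s)
        rw [List.nil_append] at e1 e2
        rw [key h1 e1, key h1' e2]
      · have hz' : ¬ (T.sys 0).Zero s := fun h => h1 (by simpa using h.append_left (p ++ [x, y]))
        obtain ⟨a, ha⟩ := exists_wit (K := n) hz' (by omega)
        have e1 := ha.infix (p ++ [x, y]) []
        have e2 := ha.infix (p ++ [x', y']) []
        simp only [List.append_assoc, List.cons_append, List.nil_append, List.append_nil,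
          List.length_append, List.length_cons, List.length_nil] at e1 e2
        rw [key h1 e1, key h1' e2]
    · have hz' : ¬ (T.sys 0).Zero w := fun h => hz (h.append_left _)
      obtain ⟨a, ha⟩ := exists_wit (K := n) hz' (by omega)
      have e1 := ha.infix u []
      rw [List.append_nil] at e1
      rw [key hz' ha, key hz e1, sub_add_cancel]
    · have hz' : ¬ (T.sys 0).Zero w := fun h => hz (h.append_right _)
      obtain ⟨a, ha⟩ := exists_wit (K := n) hz' (by omega)
      have e1 := ha.infix [] u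
      rw [List.nil_append] at e1
      rw [key hz' ha, key hz e1]
      simp

end Tower

end Crest.Agent.R176
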