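import Crest.Agent.R176.Tow3

/-!
# R176 — towers: the Capelli property
-/

set_option autoImplicit false

namespace Crest.Agent.R176

/-- the list `f i, …, f (i + r - 1)` -/
def capRg {α : Type} (f : ℕ → α) (i r : ℕ) : List α := (List.range' i r).map f

section rg
variable {α : Type} {f f' : ℕ → α}

theorem capRg_length (i r : ℕ) : (capRg f i r).length = r := by simp [capRg]

theorem capRg_add (i r r' : ℕ) : capRg f i (r + r') = capRg f i r ++ capRg f (i + r) r' := by
  rw [capRg, ← List.range'_append_1, List.map_append]; rfl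

theorem capRg_succ (i r : ℕ) : capRg f i (r + 1) = capRg f i r ++ [f (i + r)] := capRg_add i r 1

theorem capRg_congr {i i' r : ℕ} (h : ∀ t, t < r → f (i + t) = f' (i' + t)) :
    capRg f i r = capRg f' i' r := by
  induction r with
  | zero => rfl
  | succ r ih => rw [capRg_succ, capRg_succ, ih fun t ht => h t (by omega), h r (by omega)]

theorem mem_capRg {i r : ℕ} {x : α} (h : x ∈ capRg f i r) : ∃ c, i ≤ c ∧ c < i + r ∧ f c = x := by
  obtain ⟨c, hc, rfl⟩ := List.mem_map.1 h
  exact ⟨c, (List.mem_range'_1.1 hc).1, (List.mem_range'_1.1 hc).2, rfl⟩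

/-- five consecutive parts -/
theorem capRg_five {P Q M e : ℕ} (h1 : P + e ≤ Q) (h2 : Q + e ≤ M) :
    capRg f 0 M = capRg f 0 P ++ (capRg f P e ++ capRg f (P + e) (Q - (P + e)) ++ capRg f Q e) ++
      capRg f (Q + e) (M - (Q + e)) := by
  obtain ⟨r, rfl⟩ := Nat.exists_eq_add_of_le h1
  obtain ⟨r', rfl⟩ := Nat.exists_eq_add_of_le h2
  simp only [Nat.add_sub_cancel_left, capRg_add, zero_add, List.append_assoc]

end rg

theorem cap_lists {I : Type} (lt : Finset I) (K : ℕ) : ∃ H : Finset (List I),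
    H.card ≤ lt.card ^ K ∧ ∀ Θ : List I, Θ.length = K → (∀ σ ∈ Θ, σ ∈ lt) → Θ ∈ H := by
  classical
  refine ⟨(Fintype.piFinset fun _ : Fin K => lt).image List.ofFn,
    Finset.card_image_le.trans (by simp), ?_⟩
  rintro Θ rfl h
  exact Finset.mem_image.2 ⟨Θ.get, Fintype.mem_piFinset.2 fun i => h _ (List.get_mem Θ i),
    List.ofFn_get Θ⟩

/-- the permutation of the cells that exchanges two slices -/
def capSw (P Q e c : ℕ) : ℕ :=
  if P ≤ c ∧ c < P + e then c + (Q - P) else if Q ≤ c ∧ c < Q + e then c - (Q - P) else c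

theorem capRg_sw {α : Type} (f : ℕ → α) {P Q M e : ℕ} (h1 : P + e ≤ Q) (h2 : Q + e ≤ M) :
    capRg (fun c => f (capSw P Q e c)) 0 M =
      capRg f 0 P ++ (capRg f Q e ++ capRg f (P + e) (Q - (P + e)) ++ capRg f P e) ++
        capRg f (Q + e) (M - (Q + e)) := by
  rw [capRg_five h1 h2]
  refine congrArg₂ _ (congrArg₂ _ ?_ (congrArg₂ _ (congrArg₂ _ ?_ ?_) ?_)) ?_ <;>
    exact capRg_congr fun t ht => congrArg f (by unfold capSw; split_ifs <;> omega)

theorem capSw_inv {α : Type} (f : ℕ → α) {P Q e : ℕ} (h1 : P + e ≤ Q)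
    (h : ∀ r, r < e → f (P + r) = f (Q + r)) (c : ℕ) : f (capSw P Q e c) = f c := by
  unfold capSw
  split_ifs with h2 h3
  · have := h (c - P) (by omega)
    rw [show P + (c - P) = c by omega] at this
    rw [this, show Q + (c - P) = c + (Q - P) by omega]
  · have := h (c - Q) (by omega)
    rw [show Q + (c - Q) = c by omega] at this
    rw [← this, show P + (c - Q) = c - (Q - P) by omega]
  · rfl

theorem capSw_succ {α : Type} (f : ℕ → α) {P Q e : ℕ} (he : 0 < e) (h1 : P + e ≤ Q)
    (h : f P = f Q) (h' : f (P + e) = f (Q + e)) (c : ℕ) :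
    f (capSw P Q e (c + 1)) = f (capSw P Q e c + 1) := by
  have : capSw P Q e (c + 1) = capSw P Q e c + 1 ∨
      (capSw P Q e (c + 1) = Q ∧ capSw P Q e c + 1 = P) ∨
      (capSw P Q e (c + 1) = P ∧ capSw P Q e c + 1 = Q) ∨
      (capSw P Q e (c + 1) = P + e ∧ capSw P Q e c + 1 = Q + e) ∨
      (capSw P Q e (c + 1) = Q + e ∧ capSw P Q e c + 1 = P + e) ∨
      (capSw P Q e (c + 1) = P ∧ capSw P Q e c + 1 = Q + e ∧ P + e = Q) := by
    unfold capSw
    split_ifs <;> omega
  rcases this with e | ⟨e, e'⟩ | ⟨e, e'⟩ | ⟨e, e'⟩ | ⟨e, e'⟩ | ⟨e, e', e''⟩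
  · rw [e]
  · rw [e, e', h]
  · rw [e, e', h]
  · rw [e, e', h']
  · rw [e, e', h']
  · rw [e, e', ← h', e'', h]

namespace Tower

variable {L I Tg : Type} [Finite Tg] (T : Tower L I Tg)

/-- consecutive cells -/
def CapCells (K M : ℕ) (cell : ℕ → List L) (y : ℕ → L) (Θ : ℕ → List I) : Prop :=
  ∀ i, i < M → T.Dec K (cell i) [y i] (Θ i) (Θ (i + 1))

/-- windows -/
structure CapWin (K M : ℕ) (u p s : List L) (cell : ℕ → List L) (y : ℕ → L) (Θ : ℕ → List I) :
    Prop where
  eq : u = p ++ (capRg cell 0 M).flatten ++ s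
  lo : 84 * T.ell K ≤ p.length
  hi : p.length < 85 * T.ell K
  cells : T.CapCells K M cell y Θ

open Classical in
/-- the visible part of an interface list -/
noncomputable def capLite (Θ : List I) : Option (List I) :=
  if Θ.head? = some T.o then some Θ else none

/-- selections -/
structure CapSel (M : ℕ) {m : ℕ} (g : ℕ → Tg) (h : ℕ → Option (List I)) (e : ℕ)
    (pos : Fin m → ℕ) : Prop where
  e12 : e = 1 ∨ e = 2
  sep : ∀ i j, i < j → pos i + e ≤ pos j
  lo : ∀ j, 4 ≤ pos j
  hi : ∀ j, pos j + e + 4 ≤ M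
  tok : ∀ j r, r < e → T.tok (g (pos j + r))
  tag : ∀ i j r, r < e → g (pos i + r) = g (pos j + r)
  cut : ∀ i j r, r ≤ e → h (pos i + r) = h (pos j + r)
  cutL : ∀ j, h (pos j) ≠ none
  cutR : ∀ j, h (pos j + e) ≠ none
  nolm : ∀ i j c, pos i < c → c < pos j + e → ¬ T.lm (g c)

/-- admissible values of `sel u` -/
def CapP (K M m : ℕ) (u : List L) (σ : ℕ × (Fin m → ℕ)) : Prop :=
  ∃ p s cell y Θ e pos, T.CapWin K M u p s cell y Θ ∧
    T.CapSel M (fun c => T.tag (y c)) (fun c => T.capLite (Θ c)) e pos ∧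
    σ = (e * T.ell K, fun j => p.length + pos j * T.ell K)

section aux
omit [Finite Tg]
variable {T} {K M : ℕ} {u p s : List L} {cell : ℕ → List L} {y : ℕ → L} {Θ : ℕ → List I}

theorem capLite_eq {Θ Θ' : List I} (h : T.capLite Θ = T.capLite Θ') (h' : T.capLite Θ ≠ none) :
    Θ = Θ' := by
  unfold capLite at h h'
  split_ifs at h h' <;> simp_all

theorem capLite_ne {Θ : List I} (h : T.capLite Θ ≠ none) :
    T.capLite Θ = some Θ ∧ ∃ Ξ, Θ = T.o :: Ξ := by
  unfold capLite at h ⊢
  split_ifs at h ⊢ with h1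
  · exact ⟨rfl, List.head?_eq_some_iff.1 h1⟩
  · exact absurd rfl h

theorem CapSel.congr {m e : ℕ} {pos : Fin m → ℕ} {g g' : ℕ → Tg} {h h' : ℕ → Option (List I)}
    (H : T.CapSel M g h e pos) (hg : ∀ c, c < M → g' c = g c) (hh : ∀ c, c < M → h' c = h c) :
    T.CapSel M g' h' e pos := by
  have a1 : ∀ j r, r ≤ e → g' (pos j + r) = g (pos j + r) ∧ h' (pos j + r) = h (pos j + r) :=
    fun j r hr => ⟨hg _ (by have := H.hi j; omega), hh _ (by have := H.hi j; omega)⟩
  refine ⟨H.e12, H.sep, H.lo, H.hi, fun j r hr => ?_, fun i j r hr => ?_, fun i j r hr => ?_,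
    fun j => ?_, fun j => ?_, fun i j c h1 h2 => ?_⟩
  · rw [(a1 j r hr.le).1]; exact H.tok j r hr
  · rw [(a1 i r hr.le).1, (a1 j r hr.le).1]; exact H.tag i j r hr
  · rw [(a1 i r hr).2, (a1 j r hr).2]; exact H.cut i j r hr
  · exact (a1 j 0 (Nat.zero_le _)).2 ▸ H.cutL j
  · exact (a1 j e le_rfl).2 ▸ H.cutR j
  · rw [hg c (by have := H.hi j; omega)]; exact H.nolm i j c h1 h2

theorem CapCells.glue (h : T.CapCells K M cell y Θ) {i r : ℕ} (hi : i < M) (hr : i + r ≤ M) :
    T.Dec K (capRg cell i r).flatten (capRg y i r) (Θ i) (Θ (i + r)) := by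
  induction r with
  | zero => exact Dec.nil (h i hi).length_left.1
  | succ r ih =>
    rw [capRg_succ, capRg_succ, List.flatten_append, List.flatten_singleton]
    exact (ih (by omega)).append (h (i + r) (by omega))

theorem CapCells.len (h : T.CapCells K M cell y Θ) {i r : ℕ} (hi : i < M) (hr : i + r ≤ M) :
    (capRg cell i r).flatten.length = r * T.ell K := by
  rw [(h.glue hi hr).length, capRg_length]

theorem cap_cells {w : List L} : ∀ {u : List L} {Θ₀ Θ₁ : List I}, T.Dec K u w Θ₀ Θ₁ →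
    ∃ cell y Θ, Θ 0 = Θ₀ ∧ u = (capRg cell 0 w.length).flatten ∧
      T.CapCells K w.length cell y Θ := by
  induction w with
  | nil =>
    intro u Θ₀ Θ₁ h
    obtain ⟨x, -⟩ := T.exists_nz 0
    exact ⟨fun _ => [], fun _ => x, fun _ => Θ₀, rfl, h.of_nil.1, fun i hi => absurd hi (by simp)⟩
  | cons x w ih =>
    intro u Θ₀ Θ₁ h
    obtain ⟨u₁, u₂, Ξ, rfl, h1, h2⟩ := Dec.split (w := [x]) h
    obtain ⟨cell, y, Θ, rfl, rfl, h3⟩ := ih h2
    refine ⟨fun i => Nat.casesOn i u₁ cell, fun i => Nat.casesOn i x y,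
      fun i => Nat.casesOn i Θ₀ Θ, rfl, ?_, fun i hi => ?_⟩
    · rw [List.length_cons, add_comm, capRg_add, List.flatten_append]
      congr 1
      · simp [capRg]
      · exact congrArg _ (capRg_congr fun t _ => by rw [zero_add, zero_add, add_comm])
    · cases i with
      | zero => exact h1
      | succ i => exact h3 i (Nat.lt_of_succ_lt_succ hi)

theorem cap_exists_win (hM : 0 < M) (hu : ¬ (T.sys 0).Zero u)
    (hl : (170 + M) * T.ell K ≤ u.length) : ∃ p s cell y Θ, T.CapWin K M u p s cell y Θ := by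
  obtain ⟨p, u', s, w, Θ₀, Θ₁, rfl, h1, h2⟩ := parse K hu
  have h3 := h1.length
  obtain ⟨cell, y, Θ, -, rfl, h4⟩ := cap_cells h1
  have hℓ := T.ell_pos K
  obtain ⟨c, c1, c2⟩ : ∃ c, 84 * T.ell K ≤ p.length + c * T.ell K ∧
      p.length + c * T.ell K < 85 * T.ell K := by
    have e1 := Nat.div_mul_le_self (85 * T.ell K - 1 - p.length) (T.ell K)
    have e2 := Nat.lt_div_mul_add (a := 85 * T.ell K - 1 - p.length) hℓ
    exact ⟨(85 * T.ell K - 1 - p.length) / T.ell K, by omega, by omega⟩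
  have c3 : c + M ≤ w.length := by
    refine Nat.le_of_mul_le_mul_right ?_ hℓ
    rw [List.length_append, List.length_append, h3, add_mul] at hl
    rw [add_mul]
    omega
  obtain ⟨r, hr⟩ := Nat.exists_eq_add_of_le c3
  have c4 := h4.len (i := 0) (r := c) (by omega) (by omega)
  refine ⟨p ++ (capRg cell 0 c).flatten, (capRg cell (c + M) r).flatten ++ s,
    fun i => cell (c + i), fun i => y (c + i), fun i => Θ (c + i), ?_, ?_, ?_,
    fun i hi => h4 (c + i) (by omega)⟩
  · rw [hr, capRg_add, capRg_add, zero_add, zero_add,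
      capRg_congr (f := cell) (f' := fun i => cell (c + i)) (i := c) (i' := 0)
        fun t _ => by rw [zero_add]]
    simp only [List.flatten_append, List.append_assoc]
  · rwa [List.length_append, c4]
  · rwa [List.length_append, c4]

theorem CapWin.at (h : T.CapWin K M u p s cell y Θ) {i r : ℕ} (hi : i + r ≤ M) :
    u = (p ++ (capRg cell 0 i).flatten) ++ (capRg cell i r).flatten ++
      ((capRg cell (i + r) (M - (i + r))).flatten ++ s) := by
  obtain ⟨r', rfl⟩ := Nat.exists_eq_add_of_le hi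
  rw [h.eq]
  simp only [Nat.add_sub_cancel_left, capRg_add, zero_add, List.flatten_append, List.append_assoc]

theorem CapWin.unique (hM : 2 ≤ M) (h : T.CapWin K M u p s cell y Θ) {p' s' : List L}
    {cell' : ℕ → List L} {y' : ℕ → L} {Θ' : ℕ → List I} (h' : T.CapWin K M u p' s' cell' y' Θ') :
    p'.length = p.length ∧ ∀ c, c < M → y' c = y c ∧ Θ' c = Θ c := by
  have key : ∀ {p s p' s' : List L} {cell cell' : ℕ → List L} {y y' : ℕ → L}
      {Θ Θ' : ℕ → List I}, T.CapWin K M u p s cell y Θ → T.CapWin K M u p' s' cell' y' Θ' →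
      p.length ≤ p'.length → p'.length = p.length := by
    intro p s p' s' cell cell' y y' Θ Θ' h h' hp
    have e := (h.at (i := 0) (r := 2) (by omega)).symm.trans (h'.at (i := 0) (r := 1) (by omega))
    have a1 := h.lo
    have a2 := h'.hi
    have := align (h.cells.glue (i := 0) (r := 2) (by omega) (by omega))
      (h'.cells.glue (i := 0) (r := 1) (by omega) (by omega)) e (by simpa [capRg] using hp)
      (by simp only [capRg]; simp; omega)
    simp only [capRg] at this
    simp at this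
    omega
  have e1 : p'.length = p.length :=
    (le_total _ _).elim (key h h') fun hp => (key h' h hp).symm
  refine ⟨e1, fun c hc => ?_⟩
  have e := (h.at (i := c) (r := 1) hc).symm.trans (h'.at (i := c) (r := 1) hc)
  rw [List.append_assoc, List.append_assoc (p' ++ _)] at e
  have e2 := (List.append_inj e (by
    rw [List.length_append, List.length_append, e1, h.cells.len (by omega) (by omega),
      h'.cells.len (by omega) (by omega)])).2
  have e3 := (List.append_inj e2 (by rw [h.cells.len hc hc, h'.cells.len hc hc])).1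
  have e4 := (h'.cells.glue (r := 1) hc hc).unique (e3 ▸ h.cells.glue (r := 1) hc hc)
  exact ⟨List.singleton_injective e4.1, (e4.2 (List.cons_ne_nil _ _)).1⟩

theorem CapWin.capP_eq {m : ℕ} (hM : 2 ≤ M) (h : T.CapWin K M u p s cell y Θ) :
    T.CapP K M m u = fun σ => ∃ e pos,
      T.CapSel M (fun c => T.tag (y c)) (fun c => T.capLite (Θ c)) e pos ∧
      σ = (e * T.ell K, fun j => p.length + pos j * T.ell K) := by
  funext σ
  refine propext ⟨?_, fun ⟨e, pos, h1, h2⟩ => ⟨p, s, cell, y, Θ, e, pos, h, h1, h2⟩⟩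
  rintro ⟨p', s', cell', y', Θ', e, pos, h', h1, h2⟩
  obtain ⟨e1, e2⟩ := h'.unique hM h
  exact ⟨e, pos, h1.congr (fun c hc => by rw [(e2 c hc).1]) fun c hc => by rw [(e2 c hc).2],
    e1 ▸ h2⟩

theorem CapWin.nz (h : T.CapWin K M u p s cell y Θ) (hu : ¬ (T.sys 0).Zero u) {i r : ℕ}
    (hi : 2 ≤ i) (hr : 2 ≤ r) (hM : i + r + 2 ≤ M) : ¬ (T.sys K).Zero (capRg y i r) := by
  obtain ⟨r', rfl⟩ := Nat.exists_eq_add_of_le (by omega : i + r ≤ M)
  have h1 := h.cells.glue (i := 0) (r := i + r + r') (by omega) (by omega)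
  rw [capRg_add (f := y), capRg_add (f := y), zero_add] at h1
  exact h1.inner_nz (by rwa [capRg_length]) (by rwa [capRg_length])
    (by rw [capRg_length]; omega) fun hz => hu (h.eq ▸ hz.infix p s)

/-- the exchange at level `K` -/
theorem cap_zswap {P Q e : ℕ} (he : e = 1 ∨ e = 2) (h1 : P + e ≤ Q)
    (hz : ¬ (T.sys K).Zero (capRg y P e ++ capRg y (P + e) (Q - (P + e)) ++ capRg y Q e))
    (htok : ∀ r, r < e → T.tok (T.tag (y (P + r))))
    (htag : ∀ r, r < e → T.tag (y (P + r)) = T.tag (y (Q + r)))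
    (hlm : ∀ c, P < c → c < Q + e → ¬ T.lm (T.tag (y c))) :
    y P ≠ y Q ∧ (T.sys K).Eqv (capRg y P e ++ capRg y (P + e) (Q - (P + e)) ++ capRg y Q e)
      (capRg y Q e ++ capRg y (P + e) (Q - (P + e)) ++ capRg y P e) := by
  have hb : ∀ x ∈ capRg y (P + e) (Q - (P + e)), ¬ T.lm (T.tag x) := fun x hx => by
    obtain ⟨c, c1, c2, rfl⟩ := mem_capRg hx
    exact hlm c (by omega) (by omega)
  generalize capRg y (P + e) (Q - (P + e)) = b at *
  have hQ := hlm Q (by omega) (by omega)
  rcases he with rfl | rfl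
  · exact T.zswap hz (htok 0 one_pos) (htag 0 one_pos).symm (by simpa [or_imp, forall_and, hQ] using hb)
  · have e1 : ∀ i, capRg y i 2 = [y i, y (i + 1)] := fun _ => rfl
    simp only [e1] at hz ⊢
    have hP1 := hlm (P + 1) (by omega) (by omega)
    have hQ1 := hlm (Q + 1) (by omega) (by omega)
    have hP : ¬ T.lm (T.tag (y P)) := by rwa [show T.tag (y P) = _ from htag 0 two_pos]
    obtain ⟨a1, a2⟩ := T.zswap (k := K) (x := y P) (b := y (P + 1) :: b) (x' := y Q)
      (fun h => hz (by simpa using h.append_right [y (Q + 1)])) (htok 0 two_pos)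
      (htag 0 two_pos).symm (by simpa [or_imp, forall_and, hQ, hP1] using hb)
    have a3 := a2.append_right [y (Q + 1)]
    obtain ⟨-, a4⟩ := T.zswap (k := K) (x := y (P + 1)) (b := b ++ [y P]) (x' := y (Q + 1))
      (fun h => hz (by simpa using RW.Zero.of_eqv (by simpa using h.append_left [y Q]) a3))
      (htok 1 one_lt_two) (htag 1 one_lt_two).symm
      (by simpa [or_imp, forall_and, hQ1, hP] using hb)
    exact ⟨a1, by simpa using a3.trans (by simpa using a4.cons (y Q))⟩

/-- the exchange of two slices -/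
theorem CapWin.exchange {m e : ℕ} {pos : Fin m → ℕ} (h : T.CapWin K M u p s cell y Θ)
    (hu : ¬ (T.sys 0).Zero u)
    (H : T.CapSel M (fun c => T.tag (y c)) (fun c => T.capLite (Θ c)) e pos) {i j : Fin m}
    (hij : i < j) {a t b t' c : List L} (e0 : u = a ++ t ++ b ++ t' ++ c)
    (e1 : a.length = p.length + pos i * T.ell K) (e2 : t.length = e * T.ell K)
    (e3 : (a ++ t ++ b).length = p.length + pos j * T.ell K) (e4 : t'.length = e * T.ell K) :
    t ≠ t' ∧ (T.sys 0).Eqv u (a ++ t' ++ b ++ t ++ c) ∧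
      T.CapP K M m (a ++ t' ++ b ++ t ++ c) = T.CapP K M m u := by
  have b1 := H.sep i j hij
  have b2 := H.lo i
  have b3 := H.hi j
  have b4 : 0 < e := by rcases H.e12 with h | h <;> omega
  have b5 : Θ (pos i) = Θ (pos j) := capLite_eq (H.cut i j 0 b4.le) (H.cutL i)
  have b6 : Θ (pos i + e) = Θ (pos j + e) := capLite_eq (H.cut i j e le_rfl) (H.cutR i)
  have hz := h.nz hu (i := pos i) (r := e + (pos j - (pos i + e)) + e) (by omega) (by omega)
    (by omega)
  rw [capRg_add, capRg_add, show pos i + (e + (pos j - (pos i + e))) = pos j by omega] at hz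
  obtain ⟨z1, z2⟩ := cap_zswap H.e12 b1 hz (H.tok i) (H.tag i j) (H.nolm i j)
  have t1 := capSw_inv (fun c => T.tag (y c)) b1 (H.tag i j)
  have t2 := capSw_inv (fun c => T.capLite (Θ c)) b1 fun r hr => H.cut i j r hr.le
  generalize pos i = P at *
  generalize pos j = Q at *
  have d1 := h.cells.glue (i := 0) (r := P) (by omega) (by omega)
  have d2 := h.cells.glue (i := P) (r := e) (by omega) (by omega)
  have d3 := h.cells.glue (i := P + e) (r := Q - (P + e)) (by omega) (by omega)
  have d4 := h.cells.glue (i := Q) (r := e) (by omega) (by omega)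
  have d5 := h.cells.glue (i := Q + e) (r := M - (Q + e)) (by omega) (by omega)
  rw [zero_add] at d1
  rw [show P + e + (Q - (P + e)) = Q by omega] at d3
  have f0 := h.eq
  rw [capRg_five b1 (by omega : Q + e ≤ M)] at f0
  simp only [List.flatten_append] at f0
  have f1 := e0.symm.trans f0
  simp only [← List.append_assoc] at f1
  rw [List.append_assoc _ _ s] at f1
  have l1 := d1.length
  have l2 := d2.length
  have l3 := d3.length
  have l4 := d4.length
  rw [capRg_length] at l1 l2 l3 l4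
  have l5 : P * T.ell K + e * T.ell K + (Q - (P + e)) * T.ell K = Q * T.ell K := by
    rw [← add_mul, ← add_mul, Nat.add_sub_cancel' b1]
  simp only [List.length_append] at e3
  obtain ⟨f2, rfl⟩ := List.append_inj f1 (by simp only [List.length_append]; omega)
  obtain ⟨f3, rfl⟩ := List.append_inj f2 (by simp only [List.length_append]; omega)
  obtain ⟨f4, rfl⟩ := List.append_inj f3 (by simp only [List.length_append]; omega)
  obtain ⟨rfl, rfl⟩ := List.append_inj f4 (by simp only [List.length_append]; omega)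
  refine ⟨fun ht => z1 ?_, ?_, ?_⟩
  · have := (d2.unique (ht ▸ d4)).1
    obtain ⟨e', rfl⟩ := Nat.exists_eq_add_of_le' b4
    exact (List.cons.inj this).1
  · have := (Dec.exchange d1 ((d2.append d3).append d4)
      ((Dec.append (b5 ▸ d4) (b6 ▸ d3)).append (b5 ▸ b6 ▸ d2)) d5 (by rwa [capRg_length])
      (by rw [capRg_length]; omega) z2).infix p s
    rw [f0]
    simpa only [List.append_assoc] using this
  · have h' : T.CapWin K M _ p s (fun c => cell (capSw P Q e c)) (fun c => y (capSw P Q e c))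
        fun c => Θ (capSw P Q e c) := ⟨rfl, h.lo, h.hi, fun c hc => by
      simp only [capSw_succ Θ b4 b1 b5 b6]
      exact h.cells _ (by unfold capSw; split_ifs <;> omega)⟩
    rw [capRg_sw cell b1 (by omega : Q + e ≤ M)] at h'
    simp only [List.flatten_append, List.append_assoc] at h' ⊢
    rw [h'.capP_eq (by omega), h.capP_eq (by omega)]
    simp only [t1, t2]

end aux

/-- Pigeonhole on the types of the pieces. -/
theorem cap_pick {M m e α β : ℕ} {g : ℕ → Tg} {h : ℕ → Option (List I)} (he : e = 1 ∨ e = 2)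
    (H : Finset (List I)) (S : Finset ℕ) (hα : 4 ≤ α) (hβ : β + 4 ≤ M)
    (hlm : ∀ c, α < c → c < β → ¬ T.lm (g c))
    (hH : ∀ c, α ≤ c → c ≤ β → h c ≠ none → ∃ Θ ∈ H, h c = some Θ)
    (hS : ∀ c ∈ S, α ≤ c ∧ c + e ≤ β ∧ (∀ r, r < e → T.tok (g (c + r))) ∧ h c ≠ none ∧
      h (c + e) ≠ none ∧ (e = 2 → h (c + 1) = none))
    (hc : Nat.card Tg ^ 2 * H.card ^ 2 * m < S.card) : ∃ pos : Fin m → ℕ, T.CapSel M g h e pos := by
  classical
  have := Fintype.ofFinite Tg
  obtain ⟨τ, -, hτ⟩ := Finset.exists_lt_card_fiber_of_mul_lt_card_of_maps_to (s := S)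
    (t := ((Finset.univ : Finset Tg) ×ˢ (Finset.univ : Finset Tg)) ×ˢ
      (H.image some ×ˢ H.image some)) (f := fun c => ((g c, g (c + 1)), (h c, h (c + e)))) (n := m)
    (fun c hc => by
      obtain ⟨a1, a2, -, a3, a4, -⟩ := hS c hc
      obtain ⟨Θ, b1, b2⟩ := hH c a1 (by omega) a3
      obtain ⟨Θ', b3, b4⟩ := hH (c + e) (by omega) a2 a4
      simp only [Finset.mem_product, Finset.mem_univ, true_and, b2, b4]
      exact ⟨Finset.mem_image_of_mem _ b1, Finset.mem_image_of_mem _ b3⟩)
    (by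
      simpa only [Finset.card_product, Finset.card_univ, ← Nat.card_eq_fintype_card, ← sq,
        Finset.card_image_of_injective _ (Option.some_injective _)] using hc)
  have hm := fun j => Finset.mem_filter.1 (Finset.orderEmbOfCardLe_mem _ hτ.le j)
  have hlt := (Finset.orderEmbOfCardLe _ hτ.le).strictMono
  generalize (Finset.orderEmbOfCardLe _ hτ.le : Fin m → ℕ) = pos at hm hlt
  have a := fun j => hS _ (hm j).1
  have b : ∀ i j, (g (pos i) = g (pos j) ∧ g (pos i + 1) = g (pos j + 1)) ∧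
      h (pos i) = h (pos j) ∧ h (pos i + e) = h (pos j + e) := fun i j => by
    simpa only [Prod.mk.injEq] using (hm i).2.trans (hm j).2.symm
  refine ⟨pos, he, fun i j hij => ?_, fun j => hα.trans (a j).1, fun j => by
    have := (a j).2.1; omega, fun j => (a j).2.2.1, fun i j r hr => ?_, fun i j r hr => ?_,
    fun j => (a j).2.2.2.1, fun j => (a j).2.2.2.2.1, fun i j c h1 h2 =>
      hlm c ((a i).1.trans_lt h1) (h2.trans_le (a j).2.1)⟩
  · have h1 : pos i < pos j := hlt hij
    rcases he with rfl | rfl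
    · exact h1
    · have : pos j ≠ pos i + 1 := fun h2 => (a j).2.2.2.1 (h2 ▸ (a i).2.2.2.2.2 rfl)
      omega
  · obtain rfl | rfl : r = 0 ∨ r = 1 := by omega
    exacts [(b i j).1.1, (b i j).1.2]
  · obtain rfl | rfl | ⟨rfl, h2⟩ : r = 0 ∨ r = e ∨ (r = 1 ∧ e = 2) := by omega
    exacts [(b i j).2.1, (b i j).2.2, ((a i).2.2.2.2.2 h2).trans ((a j).2.2.2.2.2 h2).symm]

variable {T} in
theorem CapWin.exists_sel {k m : ℕ} {u p s : List L} {cell : ℕ → List L} {y : ℕ → L}
    {Θ : ℕ → List I} (h : T.CapWin (k + 1) (3 * T.n (k + 1) + 28) u p s cell y Θ)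
    (hu : ¬ (T.sys 0).Zero u)
    (hn : (3 * (Nat.card Tg ^ 2 * m) + 11) * T.lt.card ^ (2 * (k + 1)) ≤ T.n (k + 1)) :
    ∃ (e : ℕ) (pos : Fin m → ℕ), T.CapSel (3 * T.n (k + 1) + 28) (fun c => T.tag (y c))
      (fun c => T.capLite (Θ c)) e pos := by
  classical
  obtain ⟨H, H1, H2⟩ := cap_lists T.lt (k + 1)
  obtain ⟨a, z, c, t, z1, z2, z3, z4, z5, z6⟩ := T.zone (h.nz hu (i := 4)
    (r := 3 * T.n (k + 1) + 20) (by omega) (by omega) (by omega)) (capRg_length _ _).ge
  have z7 := congrArg List.length z1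
  rw [capRg_length, List.length_append, List.length_append] at z7
  rw [z7, capRg_add, capRg_add] at z1
  have z8 := (List.append_inj (List.append_inj' z1 (capRg_length _ _)).1 (capRg_length _ _)).2
  generalize hα : 4 + a.length = α at z8
  generalize hζ : z.length = ζ at *
  subst z8
  generalize T.n (k + 1) = n at *
  have hlm : ∀ c, α < c → c < α + ζ → ¬ T.lm (T.tag (y c)) := fun c h1 h2 => z2 _ (by
    rw [capRg, ← List.map_tail, List.tail_range']
    exact List.mem_map_of_mem (List.mem_range'_1.2 ⟨h1, by omega⟩))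
  obtain ⟨Tk, k1, k2⟩ : ∃ Tk : Finset ℕ, n ≤ Tk.card ∧
      ∀ c, c ∈ Tk ↔ (α ≤ c ∧ c < α + ζ) ∧ T.tok (T.tag (y c)) := by
    refine ⟨((List.range' α ζ).filter fun c => T.tok (T.tag (y c))).toFinset, ?_, fun c => by
      simp [List.mem_range'_1]⟩
    have e1 := z4.countP_le (p := fun x => T.tok (T.tag x))
    rw [List.countP_eq_length.2 fun x hx => by simpa using z6 x hx, capRg, List.countP_map,
      List.countP_eq_length_filter] at e1
    rw [List.toFinset_card_of_nodup ((List.nodup_range' 1).filter _)]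
    exact z5.trans e1
  have hH : ∀ c, α ≤ c → c ≤ α + ζ → T.capLite (Θ c) ≠ none →
      ∃ Θ' ∈ H, T.capLite (Θ c) = some Θ' := fun c h1 h2 h3 => by
    obtain ⟨h4, Ξ, h5⟩ := capLite_ne h3
    obtain ⟨c, rfl⟩ := Nat.exists_eq_add_of_le' (by omega : 1 ≤ c)
    have d1 := h.cells c (by omega)
    have d2 := h.cells (c + 1) (by omega)
    refine ⟨_, H2 _ d2.length_left.1 ?_, h4⟩
    rw [h5] at d1 d2 ⊢
    exact light d1 d2 (List.cons_ne_nil _ _) (List.cons_ne_nil _ _) T.lt_o
  have hone : ∀ c, c ≤ α + ζ → T.capLite (Θ c) ≠ none ∨ T.capLite (Θ (c + 1)) ≠ none := by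
    intro c hc
    have d := h.cells c (by omega)
    obtain ⟨σ, Ξ, e1⟩ := List.exists_cons_of_length_eq_add_one d.length_left.1
    obtain ⟨σ', Ξ', e2⟩ := List.exists_cons_of_length_eq_add_one d.length_left.2
    rw [e1, e2] at d ⊢
    exact d.one_side.imp (fun h => by simp [capLite, h]) fun h => by simp [capLite, h]
  by_contra hc
  have b1 := not_lt.1 fun hlt => hc ⟨1, T.cap_pick (Or.inl rfl) H
    (Tk.filter fun c => T.capLite (Θ c) ≠ none ∧ T.capLite (Θ (c + 1)) ≠ none) (by omega)
    (by omega) hlm hH (fun c hc => by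
      obtain ⟨h1, h2, h3⟩ := Finset.mem_filter.1 hc
      obtain ⟨⟨h4, h5⟩, h6⟩ := (k2 c).1 h1
      exact ⟨h4, h5, fun r hr => by rwa [Nat.lt_one_iff.1 hr], h2, h3, fun h => by omega⟩) hlt⟩
  have b2 := not_lt.1 fun hlt => hc ⟨2, T.cap_pick (Or.inr rfl) H
    (Tk.filter fun c => c + 1 ∈ Tk ∧ T.capLite (Θ (c + 1)) = none) (by omega)
    (by omega) hlm hH (fun c hc => by
      obtain ⟨h1, h2, h3⟩ := Finset.mem_filter.1 hc
      obtain ⟨⟨h4, h5⟩, h6⟩ := (k2 c).1 h1
      obtain ⟨⟨-, h7⟩, h8⟩ := (k2 _).1 h2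
      refine ⟨h4, h7, fun r hr => ?_, (hone c h5.le).resolve_right (not_not.2 h3),
        (hone (c + 1) h7.le).resolve_left (not_not.2 h3), fun _ => h3⟩
      obtain rfl | rfl : r = 0 ∨ r = 1 := by omega
      exacts [h6, h8]) hlt⟩
  have b3 : (Finset.Icc (α - 1) (α + ζ) \ Tk).card ≤ 5 := by
    rw [Finset.card_sdiff_of_subset fun c hc => Finset.mem_Icc.2 (by have := ((k2 c).1 hc).1; omega),
      Nat.card_Icc]
    omega
  generalize hF : (Tk.filter fun c => T.capLite (Θ c) ≠ none ∧ T.capLite (Θ (c + 1)) ≠ none) = F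
    at b1
  generalize hP : (Tk.filter fun c => c + 1 ∈ Tk ∧ T.capLite (Θ (c + 1)) = none) = Pr at b2
  generalize hB : Finset.Icc (α - 1) (α + ζ) \ Tk = B at b3
  have b4 : Tk ⊆ F ∪ (Pr ∪ B.image (· - 1)) ∪ (Pr ∪ B).image (· + 1) := by
    intro c hc
    have h1 := ((k2 c).1 hc).1
    simp only [← hF, ← hP, ← hB, Finset.mem_union, Finset.mem_image, Finset.mem_filter,
      Finset.mem_sdiff, Finset.mem_Icc]
    by_cases h2 : T.capLite (Θ (c + 1)) = none
    · by_cases h3 : c + 1 ∈ Tk
      · exact Or.inl (Or.inr (Or.inl ⟨hc, h3, h2⟩))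
      · exact Or.inl (Or.inr (Or.inr ⟨c + 1, ⟨by omega, h3⟩, rfl⟩))
    by_cases h3 : T.capLite (Θ c) = none
    · obtain ⟨c, rfl⟩ := Nat.exists_eq_add_of_le' (by omega : 1 ≤ c)
      by_cases h4 : c ∈ Tk
      · exact Or.inr ⟨c, Or.inl ⟨h4, hc, h3⟩, rfl⟩
      · exact Or.inr ⟨c, Or.inr ⟨by omega, h4⟩, rfl⟩
    · exact Or.inl (Or.inl ⟨hc, h3, h2⟩)
  have b5 := (Finset.card_le_card b4).trans ((Finset.card_union_le _ _).trans (add_le_add
    ((Finset.card_union_le _ _).trans (add_le_add le_rfl ((Finset.card_union_le _ _).trans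
      (add_le_add le_rfl Finset.card_image_le))))
    (Finset.card_image_le.trans (Finset.card_union_le _ _))))
  have b6 : Nat.card Tg ^ 2 * H.card ^ 2 * m ≤ Nat.card Tg ^ 2 * m * T.lt.card ^ (2 * (k + 1)) := by
    rw [mul_right_comm, pow_mul']
    gcongr
  have b7 : 0 < T.lt.card ^ (2 * (k + 1)) := pow_pos (Finset.card_pos.2 ⟨_, T.lt_o⟩) _
  rw [add_mul, mul_assoc] at hn
  omega

/-- Given `m`, take `K ≥ 1` from `growth` with `A = 4 (m + 2) |Tg|² + 20` (say), `ℓ = ell K`, `n = n K`,
`M = 3 n + 28`, `N = (170 + M) ℓ`.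

*Windows.*  A window of `u` is `(a, y, Θ)` with `84 ℓ ≤ a < 85 ℓ`, `y : ℕ → L`, `Θ : ℕ → List I`,
`a + M ℓ ≤ |u|` and `Dec K ((u.drop (a + i ℓ)).take ℓ) [y i] (Θ i) (Θ (i+1))` for `i < M`.  A non-zero `u` with
`|u| ≥ N` has a window (`parse`, `Dec.split`); `a` is unique (`align`), and then `y i` (`i < M`), `Θ i`
(`i ≤ M`) are unique (`Dec.unique`).  Its *invariant* is
`J = (a, fun i : Fin M => tag (y i), fun i : Fin (M+1) => if (Θ i).head? = some o then some (Θ i) else none)`.

*Selections.*  `Sel J e pos` (`e ∈ {1, 2}`, `pos : Fin m → ℕ`, a property of `J` only): `pos i + e ≤ pos j` for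
`i < j`; `4 ≤ pos j`, `pos j + e + 4 ≤ M`; the cells `pos j + r` (`r < e`) are tokens, with tags independent
of `j`; the third component of `J` at `pos j` is `some θ`, at `pos j + e` is `some θ'` (`θ, θ'` independent of
`j`), and for `e = 2` it is `none` at `pos j + 1`; no cell with index `i`, `pos j < i < pos j' + e`, is a
landmark.  Put `sel u = (e ℓ, fun j => a + pos j * ℓ)` with `(e, pos)` chosen from `J` (`Classical.epsilon` or
`if h : ∃ .. then h.choose else ..` applied to a predicate depending on `J` only).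

*Existence.*  The cells `4, …, M - 5` form a non-zero level `K` word (`Dec.inner_nz`) of length `3 n + 20`;
`zone` gives a segment `z` with `≥ n` tokens and `≤ 3` other cells.  Call a cut heavy if its top interface is
not `o`.  Every cell has at most one heavy cut (`Dec.one_side`).  A token of `z` is either free (no heavy cut),
or has a heavy cut shared with a token of `z` (a pair), or is one of at most `3 + 2` exceptions.  So there are
at least `(n - 5) / 2` pieces (free tokens or pairs); the outer cuts of a piece have interface lists of length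
`K` with light entries (`light`, `lt_o`), so there are at most `2 |Tg|² |lt|^(2K)` types; pigeonhole, and
enumerate `m` pieces of the same type increasingly (`Finset.orderEmbOfCardLe` / `orderEmbOfFin`); different pairs
are disjoint.

*Exchange.*  Exchanging the slices `i < j` gives a word with the window `(a, y ∘ swap, Θ ∘ swap of the inner
cuts)` and the same invariant; it is equivalent to `u` by `Dec.exchange` and `zswap` (twice if `e = 2`;
tags are unchanged by the first exchange); the two slices differ by `Dec.unique` and `zswap`. -/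
theorem cap : (T.sys 0).Cap := by
  intro m
  obtain ⟨K, hK, hn⟩ := T.growth (3 * (Nat.card Tg ^ 2 * m) + 11)
  obtain ⟨k, rfl⟩ := Nat.exists_eq_add_of_le' hK
  refine ⟨(170 + (3 * T.n (k + 1) + 28)) * T.ell (k + 1),
    fun u => Classical.epsilon (T.CapP (k + 1) (3 * T.n (k + 1) + 28) m u), fun u hu hl => ?_⟩
  have h0 : ∃ σ, T.CapP (k + 1) (3 * T.n (k + 1) + 28) m u σ := by
    obtain ⟨p, s, cell, y, Θ, h⟩ := cap_exists_win (by omega) hu hl
    obtain ⟨e, pos, H⟩ := h.exists_sel hu hn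
    exact ⟨_, p, s, cell, y, Θ, e, pos, h, H, rfl⟩
  obtain ⟨p, s, cell, y, Θ, e, pos, h, H, hσ⟩ := Classical.epsilon_spec h0
  refine ⟨fun i j hij => ?_, fun j => ?_, fun i j hij a t b t' c e0 e1 e2 e3 e4 => ?_⟩
  · simp only [hσ]
    rw [add_assoc, ← add_mul]
    exact Nat.add_le_add_left (Nat.mul_le_mul_right _ (H.sep i j hij)) _
  · simp only [hσ]
    rw [h.eq, List.length_append, List.length_append, h.cells.len (by omega) (by omega), add_assoc,
      ← add_mul]
    exact (Nat.add_le_add_left (Nat.mul_le_mul_right _ (by have := H.hi j; omega)) _).trans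
      (Nat.le_add_right _ _)
  · simp only [hσ] at e1 e2 e3 e4
    obtain ⟨h1, h2, h3⟩ := h.exchange hu H hij e0 e1 e2 e3 e4
    exact ⟨h1, h2, congrArg Classical.epsilon h3⟩

end Tower

end Crest.Agent.R176
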