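import Crest.Agent.R176.Zone

/-!
# R176 — zones and landmarks in non-zero words
-/

set_option autoImplicit false

namespace Crest.Agent.R176

variable {C B k : ℕ}

theorem z2_split {α : Type} (P : α → Prop) (l : List α) :
    (∀ y ∈ l, ¬ P y) ∨ ∃ b x c, l = b ++ x :: c ∧ P x ∧ ∀ y ∈ b, ¬ P y := by
  induction l with
  | nil => simp
  | cons a l ih =>
    by_cases ha : P a
    · exact Or.inr ⟨[], a, l, rfl, ha, by simp⟩
    rcases ih with h | ⟨b, x, c, rfl, hx, hb⟩
    · left
      simpa [ha] using h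
    · exact Or.inr ⟨a :: b, x, c, rfl, hx, by simpa [ha] using hb⟩

theorem z2_left {X : Type} {S : RW X} {a b : List X} (h : ¬ S.Zero (a ++ b)) : ¬ S.Zero a :=
  fun h' => h (h'.append_right b)

theorem z2_right {X : Type} {S : RW X} {a b : List X} (h : ¬ S.Zero (a ++ b)) : ¬ S.Zero b :=
  fun h' => h (h'.append_left a)

theorem z2_kind (x : Cell C B) :
    (x.t.kind = .tok ∨ x.t.kind = .cnt) ∨ x.t.kind = .q ∨ x.t.kind.isR = true := by
  cases x.t.kind <;> simp [Kind.isR]

theorem z2_flags {a e : Vtx} {u : List (Cell C B)} (h : Path k a u e)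
    (hu : ∀ x ∈ u, x.t.kind = .tok ∨ x.t.kind = .cnt) : e.2 = a.2 := by
  induction h with
  | nil => rfl
  | @cons x u b _ _ ih =>
    rw [ih fun y hy => hu y (List.mem_cons_of_mem _ hy)]
    rcases hu x List.mem_cons_self with h | h <;> simp [Tag.tgt, Tag.src, h, Kind.isR]

theorem z2_count {z : ℕ} (hz : z < C) {f' g' : Bool} (n : ℕ) : ∀ {f g : Bool} {u : List (Cell C B)},
    u.length ≤ n → Path k (3 * z, f, g) u (3 * z + 3, f', g') → ¬ (sysk C B k).Zero u →
    u.length + f.toNat + g.toNat = nn B k + 1 + f'.toNat + g'.toNat ∧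
      nn B k ≤ u.countP fun x => decide (x.t.kind = .tok) := by
  induction n with
  | zero =>
    intro f g u hn h _
    obtain rfl : u = [] := List.length_eq_zero_iff.1 (by omega)
    have := congrArg Prod.fst (path_nil_iff.1 h)
    simp at this
  | succ n ih =>
    intro f g u hn h hu
    rcases z2_split (fun x : Cell C B => ¬ (x.t.kind = .tok ∨ x.t.kind = .cnt)) u with
      h0 | ⟨u₁, x, u₂, rfl, hx, -⟩
    · have h1 : ∀ x ∈ u, x.t.kind = .tok ∨ x.t.kind = .cnt := fun x hx => not_not.1 (h0 x hx)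
      have h2 := z2_flags h h1
      simp only [Prod.mk.injEq] at h2
      obtain ⟨rfl, rfl⟩ := h2
      obtain ⟨cv, tl, e, h3, -, -, t, ht1, ht2, ht3⟩ := zone_nf hz h h1
      have h4 := (zoneW_nz hz h3 fun h' => hu (h'.of_eqv (skel_le e))).2.length_eq
      have h5 := e.length_eq
      rw [zoneW_length] at h5
      rw [List.length_range] at h4
      refine ⟨by omega, ?_⟩
      have h6 : t.countP (fun x => decide (x.t.kind = .tok)) = t.length :=
        List.countP_eq_length.2 fun x hx => by simpa using ht3 x hx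
      have h7 := ht1.countP_le (p := fun x => decide (x.t.kind = .tok))
      omega
    have e0 : u₁ ++ x :: u₂ = (u₁ ++ [x]) ++ u₂ := by simp
    rw [e0] at h hu
    obtain ⟨b, hb, -⟩ := h.split
    have hj : 3 * z < 3 * C + 1 := by omega
    rcases (z2_kind x).resolve_left hx with hq | hr
    · obtain ⟨rfl, e⟩ := q_left (j := ⟨3 * z, hj⟩) hb hq
      have e' := e.append_right u₂
      have h1 := (path_cons_iff.1 (h.of_skel e')).2.2
      have h2 : ¬ (sysk C B k).Zero (u₁.map Cell.setQ ++ u₂) := fun h' =>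
        hu ((h'.append_left [_]).of_eqv (skel_le e'))
      have h3 := ih (f := true) (g := g) (u := u₁.map Cell.setQ ++ u₂)
        (by simp at hn ⊢; omega) (by simpa [Tag.tgt, Kind.isR] using h1) h2
      simp only [List.length_append, List.length_map, List.length_cons, List.countP_append,
        List.countP_map, List.countP_cons, Bool.toNat_true, Bool.toNat_false] at h3 ⊢
      have e1 : ((fun x : Cell C B => decide (x.t.kind = .tok)) ∘ Cell.setQ) =
          fun x => decide (x.t.kind = .tok) := rfl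
      rw [e1] at h3
      omega
    · obtain ⟨rfl, e⟩ := r_left (j := ⟨3 * z, hj⟩) hb hr
      have e' := e.append_right u₂
      have h1 := (path_cons_iff.1 (h.of_skel e')).2.2
      have h2 : ¬ (sysk C B k).Zero (u₁.map Cell.setR ++ u₂) := fun h' =>
        hu ((h'.append_left [_]).of_eqv (skel_le e'))
      have hq : x.t.kind ≠ .q := by
        intro h'
        rw [h'] at hr
        simp [Kind.isR] at hr
      have h3 := ih (f := f) (g := true) (u := u₁.map Cell.setR ++ u₂)
        (by simp at hn ⊢; omega) (by simpa [Tag.tgt, hr, hq] using h1) h2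
      simp only [List.length_append, List.length_map, List.length_cons, List.countP_append,
        List.countP_map, List.countP_cons, Bool.toNat_true, Bool.toNat_false] at h3 ⊢
      have e1 : ((fun x : Cell C B => decide (x.t.kind = .tok)) ∘ Cell.setR) =
          fun x => decide (x.t.kind = .tok) := rfl
      rw [e1] at h3
      omega

/-- A non-zero path through zone `z`: move the heads it contains to the front (`q_left`, `r_left`; a path
whose flags do not change contains no head), then `zone_nf`, `zoneW_nz`. -/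
theorem zone_count {z : ℕ} {f g f' g' : Bool} {u : List (Cell C B)}
    (h : Path k (3 * z, f, g) u (3 * z + 3, f', g')) (hz : z < C) (hu : ¬ (sysk C B k).Zero u) :
    u.length + f.toNat + g.toNat = nn B k + 1 + f'.toNat + g'.toNat ∧
      ∃ t, List.Sublist t u ∧ t.length = nn B k ∧ ∀ x ∈ t, x.t.kind = .tok := by
  obtain ⟨h1, h2⟩ := z2_count hz u.length le_rfl h hu
  refine ⟨h1, (u.filter fun x => decide (x.t.kind = .tok)).take (nn B k),
    (List.take_sublist _ _).trans List.filter_sublist, ?_, fun x hx => ?_⟩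
  · rw [List.countP_eq_length_filter] at h2
    rw [List.length_take]
    omega
  · simpa using (List.mem_filter.1 (List.mem_of_mem_take hx)).2

/-- the part of a non-zero word before a given cell is a path -/
theorem z2_path {x x' : Cell C B} {b c : List (Cell C B)}
    (h : ¬ (sysk C B k).Zero (x :: b ++ x' :: c)) (hb : ∀ y ∈ b, y.t.src ≠ bot) :
    ∃ e, Path k x.t.src (x :: b) e ∧ e ≠ bot ∧ (e = x'.t.src ∨ (e = top C ∧ x'.t.src = bot)) := by
  have h0 : x :: b ≠ [] := by simp
  refine ⟨_, path_of_nz (z2_left h) hb, (nz_wf (z2_left h) _ (List.getLast_mem h0)).1.tgt_ne_bot, ?_⟩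
  have e : x :: b ++ x' :: c = (x :: b).dropLast ++ (x :: b).getLast h0 :: x' :: c := by
    conv_lhs => rw [← List.dropLast_append_getLast h0]
    simp
  rw [e] at h
  exact nz_adj h

theorem z2_not_bot {y : Cell C B} (h : ¬ y.t.lm) : y.t.src ≠ bot := by
  intro h'
  apply h
  have : (y.t.φ : ℕ) = 0 := congrArg Prod.fst h'
  simp [Tag.lm, this]

theorem z2_phase {z : ℕ} {a e : Vtx} {u : List (Cell C B)} (h : Path k a u e)
    (hu : ∀ y ∈ u, ¬ y.t.lm) (h1 : 3 * z < a.1) (h2 : a.1 ≤ 3 * z + 3) :
    3 * z < e.1 ∧ e.1 ≤ 3 * z + 3 := by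
  induction h with
  | nil => exact ⟨h1, h2⟩
  | @cons x u b hx _ ih =>
    have h3 := hu x List.mem_cons_self
    have h4 := hx.1
    simp only [Tag.lm, Tag.src] at h1 h2 h3
    have h5 : 3 * z < x.t.tgt.1 ∧ x.t.tgt.1 ≤ 3 * z + 3 := by
      simp only [Tag.tgt]
      unfold Tag.OK at h4
      split at h4
      · simp only [Fin.ext_iff] at h4
        omega
      · omega
      · rw [h4.1]
        omega
      · rw [h4.1]
        omega
    exact ih (fun y hy => hu y (List.mem_cons_of_mem _ hy)) h5.1 h5.2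

/-- a zone which starts with a token or a counter -/
theorem z2_zone {x : Cell C B} {b : List (Cell C B)} {e : Vtx} (h : Path k x.t.src (x :: b) e)
    (hx : x.t.lm) (hk : x.t.kind = .tok ∨ x.t.kind = .cnt) (hb : ∀ y ∈ b, ¬ y.t.lm)
    (he : e.1 % 3 = 0) : ∃ z < C, (x.t.φ : ℕ) = 3 * z ∧ e.1 = 3 * z + 3 := by
  obtain ⟨hw, -, hp⟩ := path_cons_iff.1 h
  have h4 := hw.1
  have h5 := x.t.φ'.2
  unfold Tag.lm at hx
  have h6 : (x.t.φ : ℕ) < x.t.φ' ∧ (x.t.φ' : ℕ) ≤ x.t.φ + 2 := by
    unfold Tag.OK at h4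
    rcases hk with hk | hk <;> rw [hk] at h4 <;> simp only [Fin.ext_iff] at h4 <;> omega
  have h7 := z2_phase (z := x.t.φ / 3) hp hb (by simp only [Tag.tgt]; omega)
    (by simp only [Tag.tgt]; omega)
  exact ⟨x.t.φ / 3, by omega, by omega, by omega⟩

/-- a head keeps the phase and sets one flag -/
theorem z2_head {t : Tag C} (h : t.OK) (hk : t.kind = .q ∨ t.kind.isR = true) :
    t.tgt.1 = t.src.1 ∧ t.tgt.2.1.toNat + t.tgt.2.2.toNat = t.src.2.1.toNat + t.src.2.2.toNat + 1 := by
  unfold Tag.OK at h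
  split at h
  · rename_i h'
    simp [h', Kind.isR] at hk
  · rename_i h'
    simp [h', Kind.isR] at hk
  · rename_i h'
    simp [Tag.tgt, Tag.src, h', h.1, h.2, Kind.isR, add_comm]
  · rename_i h'
    simp [Tag.tgt, Tag.src, h', h.1, h.2, Kind.isR]

theorem z2_head_nil {x : Cell C B} {b : List (Cell C B)} {e : Vtx} (h : Path k x.t.src (x :: b) e)
    (hx : x.t.lm) (hk : x.t.kind = .q ∨ x.t.kind.isR = true) (hb : ∀ y ∈ b, ¬ y.t.lm) :
    b = [] ∧ e = x.t.tgt := by
  obtain ⟨hw, -, hp⟩ := path_cons_iff.1 h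
  cases b with
  | nil => exact ⟨rfl, (path_nil_iff.1 hp).symm⟩
  | cons y b =>
    exfalso
    apply hb y List.mem_cons_self
    have h1 : (y.t.φ : ℕ) = x.t.tgt.1 := congrArg Prod.fst (path_cons_iff.1 hp).2.1
    have h2 : x.t.tgt.1 = x.t.φ := (z2_head hw.1 hk).1
    unfold Tag.lm at hx ⊢
    omega

/-- the index of a vertex -/
def z2Idx (B k : ℕ) (v : Vtx) : ℕ := v.1 / 3 * (nn B k + 1) + v.2.1.toNat + v.2.2.toNat

theorem z2_idx {x : Cell C B} {b : List (Cell C B)} {e : Vtx} (h : Path k x.t.src (x :: b) e)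
    (h0 : ¬ (sysk C B k).Zero (x :: b)) (hx : x.t.lm) (hb : ∀ y ∈ b, ¬ y.t.lm) (he : e.1 % 3 = 0) :
    z2Idx B k e = z2Idx B k x.t.src + 1 + b.length := by
  rcases z2_kind x with hk | hk
  · obtain ⟨z, hz, h1, h2⟩ := z2_zone h hx hk hb he
    obtain ⟨e1, f', g'⟩ := e
    simp only at h2
    subst h2
    have e1 : x.t.src = (3 * z, x.t.hq, x.t.hr) := by rw [Tag.src, h1]
    rw [e1] at h ⊢
    have h3 := (zone_count h hz h0).1
    have e2 : (3 * z + 3) / 3 = z + 1 := by omega
    have e3 : 3 * z / 3 = z := by omega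
    simp only [z2Idx, e2, e3, List.length_cons, add_mul, one_mul] at h3 ⊢
    omega
  · obtain ⟨rfl, rfl⟩ := z2_head_nil h hx hk hb
    have h1 := z2_head (path_cons_iff.1 h).1.1 hk
    simp only [z2Idx, h1.1, List.length_nil]
    omega

/-- Two consecutive landmarks.  If `x` is a head then `b = []` (the next source is a landmark).  Otherwise
`x :: b` is a path from phase `3 z` to phase `3 z + 3` (`path_of_nz`; the phase changes from `3 z + 1, 3 z + 2`
only to `≤ 3 z + 3`); use `zone_count`.  If `crAdj` holds at the end, the index of `top` is `dd C B k`. -/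
theorem lm_idx_step {x x' : Cell C B} {b : List (Cell C B)}
    (h : ¬ (sysk C B k).Zero (x :: b ++ [x'])) (hx : x.t.lm) (hx' : x'.t.lm) (hb : ∀ y ∈ b, ¬ y.t.lm) :
    idxk B k x'.t ≡ idxk B k x.t + 1 + b.length [MOD dd C B k] := by
  obtain ⟨e, h1, -, h2⟩ := z2_path h fun y hy => z2_not_bot (hb y hy)
  change z2Idx B k x'.t.src ≡ z2Idx B k x.t.src + 1 + b.length [MOD dd C B k]
  rcases h2 with rfl | ⟨rfl, h2⟩
  · rw [z2_idx h1 (z2_left h) hx hb hx']
  · rw [← z2_idx h1 (z2_left h) hx hb (by simp [top]), h2]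
    have e1 : z2Idx B k (top C) = dd C B k := by simp [z2Idx, top, dd, add_assoc]
    have e2 : z2Idx B k bot = 0 := by simp [z2Idx, bot]
    rw [e1, e2]
    simp [Nat.ModEq]

theorem lm_idxk {x x' : Cell C B} {b : List (Cell C B)}
    (h : ¬ (sysk C B k).Zero (x :: b ++ [x'])) (hx : x.t.lm) (hx' : x'.t.lm) :
    idxk B k x'.t ≡ idxk B k x.t + 1 + b.length [MOD dd C B k] := by
  induction hn : b.length using Nat.strong_induction_on generalizing x x' b with
  | _ n ih =>
    subst hn
    rcases z2_split (fun y : Cell C B => y.t.lm) b with hb | ⟨b₁, y, b₂, rfl, hy, -⟩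
    · exact lm_idx_step h hx hx' hb
    have e1 : x :: (b₁ ++ y :: b₂) ++ [x'] = (x :: b₁ ++ [y]) ++ (b₂ ++ [x']) := by simp
    have e2 : x :: (b₁ ++ y :: b₂) ++ [x'] = (x :: b₁) ++ (y :: b₂ ++ [x']) := by simp
    have h1 := ih b₁.length (by simp) (z2_left (e1 ▸ h)) hx hy rfl
    have h2 := ih b₂.length (by simp; omega) (z2_right (e2 ▸ h)) hy hx' rfl
    refine h2.trans ?_
    have e3 : idxk B k x.t + 1 + (b₁ ++ y :: b₂).length =
        idxk B k x.t + 1 + b₁.length + 1 + b₂.length := by
      simp only [List.length_append, List.length_cons]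
      omega
    rw [e3]
    exact (h1.add_right 1).add_right _

/-- potential for sequences of heads -/
def z2Psi (v : Vtx) : ℕ := v.2.1.toNat + v.2.2.toNat + if v.1 = 0 then 2 else 0

theorem z2_heads (hC : 1 ≤ C) (n : ℕ) : ∀ {x : Cell C B} {w : List (Cell C B)},
    ¬ (sysk C B k).Zero (x :: w) → x.t.lm → 4 ≤ z2Psi x.t.src + n → n ≤ w.length →
    ∃ p x₁ s, x :: w = p ++ x₁ :: s ∧ p.length ≤ n ∧ x₁.t.lm ∧
      (x₁.t.kind = .tok ∨ x₁.t.kind = .cnt) := by
  induction n with
  | zero =>
    intro x w h hx h1 _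
    rcases z2_kind x with hk | hk
    · exact ⟨[], x, w, rfl, le_rfl, hx, hk⟩
    exfalso
    have h2 := (z2_head (nz_wf h x List.mem_cons_self).1 hk).2
    have h3 := Bool.toNat_le x.t.tgt.2.1
    have h4 := Bool.toNat_le x.t.tgt.2.2
    unfold z2Psi at h1
    split_ifs at h1 <;> omega
  | succ n ih =>
    intro x w h hx h1 hw
    rcases z2_kind x with hk | hk
    · exact ⟨[], x, w, rfl, Nat.zero_le _, hx, hk⟩
    obtain ⟨h2, h3⟩ := z2_head (nz_wf h x List.mem_cons_self).1 hk
    cases w with
    | nil => simp at hw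
    | cons y w =>
      have h4 : y.t.lm ∧ z2Psi y.t.src = z2Psi x.t.src + 1 := by
        rcases nz_adj (p := []) h with h5 | ⟨h5, h6⟩
        · unfold inAdj at h5
          constructor
          · have h7 : (y.t.φ : ℕ) = x.t.φ := (congrArg Prod.fst h5).symm.trans h2
            unfold Tag.lm at hx ⊢
            omega
          · unfold z2Psi
            rw [← h5, h2, h3]
            omega
        · constructor
          · by_contra h7
            exact z2_not_bot h7 h6
          · rw [h5] at h2 h3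
            have h7 : x.t.src.1 ≠ 0 := by
              rw [← h2]
              simp only [top]
              omega
            simp only [top, Bool.toNat_true] at h3
            rw [h6]
            unfold z2Psi
            rw [if_neg h7]
            simp only [bot, Bool.toNat_false, if_true]
            omega
      obtain ⟨p, x₁, s, e, h5, h6⟩ := ih (x := y) (w := w) (z2_right (a := [x]) h) h4.1 (by omega)
        (by simpa using hw)
      exact ⟨x :: p, x₁, s, by rw [e]; rfl, by simpa using h5, h6⟩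

/-- the first landmark of a long word -/
theorem z2_first {y : List (Cell C B)} (h : ¬ (sysk C B k).Zero y) (hy : nn B k + 4 ≤ y.length) :
    ∃ b x c, y = b ++ x :: c ∧ x.t.lm ∧ (∀ z ∈ b, ¬ z.t.lm) ∧ b.length ≤ nn B k + 3 := by
  rcases z2_split (fun y : Cell C B => y.t.lm) y with hb | ⟨b, x, c, rfl, hx, hb⟩
  · obtain ⟨x, h1, h2⟩ := lm_exk h hy
    exact absurd h2 (hb x h1)
  refine ⟨b, x, c, rfl, hx, hb, ?_⟩
  by_contra h1
  obtain ⟨x, h1, h2⟩ := lm_exk (z2_left h) (by omega)
  exact hb x h1 h2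

/-- Find a landmark among the first `n + 4` cells (`lm_exk`); after at most four heads (whose successors are
landmarks; flags, and `0 ≠ 3 C`) there is a landmark `x` which is a token or a counter; let `z` go from `x` up to just before the
next landmark (`lm_exk`); `zone_count`, `run_length_le`. -/
theorem zonek (hC : 1 ≤ C) {y : List (Cell C B)} (h : ¬ (sysk C B k).Zero y) (hy : 3 * nn B k + 20 ≤ y.length) :
    ∃ a z c t, y = a ++ z ++ c ∧ (∀ x ∈ z.tail, ¬ x.t.lm) ∧ z.length ≤ nn B k + 3 ∧
      List.Sublist t z ∧ nn B k ≤ t.length ∧ ∀ x ∈ t, x.t.kind = .tok := by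
  obtain ⟨b₀, x₀, c₀, rfl, hx₀, -, hb₀⟩ := z2_first h (by omega)
  simp only [List.length_append, List.length_cons] at hy
  obtain ⟨p, x, s, e, hp, hx, hk⟩ := z2_heads hC 4 (z2_right h) hx₀ (by omega) (by omega)
  have hl := congrArg List.length e
  simp only [List.length_append, List.length_cons] at hl
  rw [e] at h ⊢
  have h1 : ¬ (sysk C B k).Zero (x :: s) := z2_right (z2_right h)
  obtain ⟨b, x', c, rfl, hx', hb, -⟩ := z2_first (z2_right (a := [x]) h1) (by omega)
  have h2 : ¬ (sysk C B k).Zero (x :: b ++ x' :: c) := h1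
  obtain ⟨e', h3, -, h4⟩ := z2_path h2 fun y hy => z2_not_bot (hb y hy)
  have h5 : e'.1 % 3 = 0 := by
    rcases h4 with rfl | ⟨rfl, -⟩
    · exact hx'
    · simp [top]
  obtain ⟨z, hz, h6, h7⟩ := z2_zone h3 hx hk hb h5
  obtain ⟨e1, f', g'⟩ := e'
  simp only at h7
  subst h7
  have e1 : x.t.src = (3 * z, x.t.hq, x.t.hr) := by rw [Tag.src, h6]
  rw [e1] at h3
  obtain ⟨-, t, ht1, ht2, ht3⟩ := zone_count h3 hz (z2_left h2)
  exact ⟨b₀ ++ p, x :: b, x' :: c, t, by simp, hb, run_length_le (z2_left h2) hb, ht1, ht2.ge, ht3⟩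

/-- potential for landmarks -/
def z2Mu (v : Vtx) : ℕ := v.1 / 3 + v.2.1.toNat + v.2.2.toNat

theorem z2_toNat_le {a b : Bool} (h : a = true → b = true) : a.toNat ≤ b.toNat := by
  cases a <;> cases b <;> simp_all

theorem z2_mu_lt {x : Cell C B} {b : List (Cell C B)} {e : Vtx} (h : Path k x.t.src (x :: b) e)
    (hb : ∀ y ∈ b, ¬ y.t.lm) (he : e.1 % 3 = 0) : z2Mu x.t.src < z2Mu e := by
  have h1 := z2_toNat_le h.mono.2.1
  have h2 := z2_toNat_le h.mono.2.2
  have h0 : x.t.src.1 = x.t.φ := rfl
  unfold z2Mu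
  by_cases hx : x.t.lm
  · rcases z2_kind x with hk | hk
    · obtain ⟨z, -, h3, h4⟩ := z2_zone h hx hk hb he
      omega
    · obtain ⟨rfl, rfl⟩ := z2_head_nil h hx hk hb
      have h3 := z2_head (path_cons_iff.1 h).1.1 hk
      omega
  · have h3 : (x.t.φ : ℕ) % 3 ≠ 0 := hx
    have h4 := z2_phase (z := x.t.φ / 3) h (by simpa [hx] using hb) (by omega) (by omega)
    omega

theorem z2_len (m : ℕ) : ∀ {x : Cell C B} {w : List (Cell C B)} {e : Vtx},
    Path k x.t.src (x :: w) e → ¬ (sysk C B k).Zero (x :: w) → C + 3 ≤ z2Mu x.t.src + m →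
    (x :: w).length ≤ (nn B k + 3) * m := by
  induction m with
  | zero =>
    intro x w e _ _ h1
    exfalso
    have h2 := x.t.φ.2
    have h3 := Bool.toNat_le x.t.hq
    have h4 := Bool.toNat_le x.t.hr
    simp only [z2Mu, Tag.src] at h1
    omega
  | succ m ih =>
    intro x w e h h0 h1
    rw [Nat.mul_succ]
    rcases z2_split (fun y : Cell C B => y.t.lm) w with hb | ⟨b, x', c, rfl, hx', hb⟩
    · exact (run_length_le h0 hb).trans (Nat.le_add_left _ _)
    have h0' : ¬ (sysk C B k).Zero (x :: b ++ x' :: c) := h0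
    obtain ⟨e', h2, h3⟩ := Path.split (u := x :: b) (u' := x' :: c) h
    obtain rfl : x'.t.src = e' := (path_cons_iff.1 h3).2.1
    have h4 := z2_mu_lt h2 hb hx'
    have h5 := ih h3 (z2_right h0') (by omega)
    have h6 := run_length_le (z2_left h0') hb
    simp only [List.length_append, List.length_cons] at h5 h6 ⊢
    omega

/-- A non-zero word without block boundary is short: it is a path, `phase / 3 + hq + hr` of the source
strictly increases from one landmark to the next, so there are at most `C + 3` landmarks, and the runs between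
them have length `≤ n + 3` (`run_length_le`). -/
theorem path_length_le (hC : 1 ≤ C) {u : List (Cell C B)} (h : ¬ (sysk C B k).Zero u)
    (hb : ∀ y ∈ u.tail, y.t.src ≠ bot) : u.length ≤ 20 * dd C B k := by
  cases u with
  | nil => simp
  | cons x w =>
    refine (z2_len (C + 3) (path_of_nz h hb) h (by omega)).trans ?_
    unfold dd
    nlinarith [Nat.mul_le_mul_right (nn B k) hC]

theorem z2_parse (n : ℕ) : ∀ {x : Cell C B} {w : List (Cell C B)}, w.length ≤ n →
    ¬ (sysk C B k).Zero (x :: w) → x.t.src = bot →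
    ∃ (bs : List (List (Cell C B))) (s : List (Cell C B)), x :: w = bs.flatten ++ s ∧
      (∀ u ∈ bs, Path k bot u (top C)) ∧ ∀ y ∈ s.tail, y.t.src ≠ bot := by
  induction n with
  | zero =>
    intro x w hw _ _
    obtain rfl : w = [] := List.length_eq_zero_iff.1 (by omega)
    exact ⟨[], [x], rfl, by simp, by simp⟩
  | succ n ih =>
    intro x w hw h hx
    rcases z2_split (fun y : Cell C B => y.t.src = bot) w with hb | ⟨b, x', c, rfl, hx', hb⟩
    · exact ⟨[], x :: w, rfl, by simp, hb⟩
    have h' : ¬ (sysk C B k).Zero (x :: b ++ x' :: c) := h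
    obtain ⟨e, h1, h2, h3⟩ := z2_path h' hb
    obtain rfl : e = top C := by
      rcases h3 with h3 | h3
      · exact absurd (h3.trans hx') h2
      · exact h3.1
    obtain ⟨bs, s, e1, h4, h5⟩ := ih (x := x') (w := c) (by simp at hw; omega) (z2_right h') hx'
    refine ⟨(x :: b) :: bs, s, by rw [e1]; simp, ?_, h5⟩
    intro u hu
    rcases List.mem_cons.1 hu with rfl | hu
    · rw [hx] at h1
      exact h1
    · exact h4 u hu

/-- Cut a non-zero word before every cell with source `bot` (a cell followed by such a cell has target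
`top`, by `nz_adj` and `Tag.OK.tgt_ne_bot`). -/
theorem parse_paths (hC : 1 ≤ C) {v : List (Cell C B)} (h : ¬ (sysk C B k).Zero v) :
    ∃ (p : List (Cell C B)) (bs : List (List (Cell C B))) (s : List (Cell C B)),
      v = p ++ bs.flatten ++ s ∧ (∀ u ∈ bs, Path k bot u (top C)) ∧
      p.length ≤ 20 * dd C B k ∧ s.length ≤ 20 * dd C B k := by
  rcases z2_split (fun y : Cell C B => y.t.src = bot) v with hb | ⟨p, x, w, rfl, hx, hp⟩
  · exact ⟨v, [], [], by simp, by simp,
      path_length_le hC h fun y hy => hb y (List.mem_of_mem_tail hy), by simp⟩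
  obtain ⟨bs, s, e, h1, h2⟩ := z2_parse w.length le_rfl (z2_right h) hx
  refine ⟨p, bs, s, by rw [e, List.append_assoc], h1,
    path_length_le hC (z2_left h) fun y hy => hp y (List.mem_of_mem_tail hy),
    path_length_le hC ?_ h2⟩
  rw [e] at h
  exact z2_right (z2_right h)

end Crest.Agent.R176
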