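import Crest.Agent.R176.Compl
import Crest.Agent.R176.Sound2
import Crest.Agent.R176.Zone2
import Crest.Agent.R176.TowCap
import Crest.Agent.R176.TowAddr
import Crest.Agent.R176.Restrict

/-!
# R176 — the tower, and the good finite system
-/

set_option autoImplicit false

namespace Crest.Agent.R176

variable {C B k : ℕ}

instance : Finite (Lk C B) := by
  refine Finite.of_injective
    (fun l : Lk C B => (l.op, l.tL, l.βL, l.tR, l.βR, l.sL, l.sR, l.inc)) fun l l' h => ?_
  simp only [Prod.mk.injEq] at h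
  obtain ⟨h1, h2, h3, h4, h5, h6, h7, h8⟩ := h
  exact Lk.ext h1 h2 h3 h4 h5 h6 h7 h8

instance : Finite (Ctl C B) := by
  refine Finite.of_surjective (fun o : Bool ⊕ Bool × Lk C B × St => match o with
    | .inl false => Ctl.idle
    | .inl true => Ctl.chk
    | .inr x => Ctl.lock x.1 x.2.1 x.2.2) fun c => ?_
  cases c with
  | idle => exact ⟨.inl false, rfl⟩
  | chk => exact ⟨.inl true, rfl⟩
  | lock side lk st => exact ⟨.inr (side, lk, st), rfl⟩

instance : Finite (Code C B) := by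
  refine Finite.of_injective (fun a : Code C B => (a.t, a.β, a.ctl)) fun l l' h => ?_
  simp only [Prod.mk.injEq] at h
  exact Code.ext h.1 h.2.1 h.2.2

/-- a non-zero block has good head data (`bad` codes are zero letters; `canon_zero_of_not_compat`) -/
theorem good_of_nz {u : List (Cell C B)} {h : Hd C B} (hb : Blk k u h) (hu : ¬ (sysk C B k).Zero u) :
    h.Good := by
  have hz : ¬ (sysk C B k).Zero (canon k h) := fun h0 => hu (h0.of_eqv (skel_le hb.norm))
  refine ⟨by_contra fun h1 => hz ?_, by_contra fun h1 => hz (canon_zero_of_not_compat h1)⟩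
  exact RW.Zero.of_z1 (x := qCell 0 false h) List.mem_cons_self (Or.inr (Or.inl ⟨rfl, Or.inl h1⟩))

/-- the left interface of a normalised control state -/
def buildL : Ctl C B → Ifc C B
  | .lock false lk st => some (lk, decide (st = .p))
  | _ => none

/-- the right interface of a normalised control state -/
def buildR : Ctl C B → Ifc C B
  | .lock true lk st => some (lk, decide (st = .p))
  | _ => none

theorem build_norm {h : Hd C B} (hw : h.WF k) (hg : h.Good) :
    ∃ h₁ : Hd C B, h₁.WF k ∧ (sysk C B k).Eqv (canon k h) (canon k h₁) ∧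
      h.dec.2.1 = buildL h₁.a.ctl ∧ h.dec.2.2 = buildR h₁.a.ctl ∧
      ∀ side lk, h₁.a.ctl ≠ .lock side lk .s := by
  obtain ⟨⟨t, β, ctl⟩, g, m, ra, rv⟩ := h
  obtain ⟨ho, hc⟩ := hg
  cases ctl with
  | idle => exact ⟨_, hw, RW.Eqv.rfl, rfl, rfl, fun _ _ h => by cases h⟩
  | chk => exact ⟨_, hw, RW.Eqv.rfl, rfl, rfl, fun _ _ h => by cases h⟩
  | lock side lk st =>
    cases st with
    | u =>
      obtain ⟨rfl, -⟩ := hc
      refine ⟨_, hw, RW.Eqv.rfl, ?_, ?_, fun _ _ h => by cases h⟩ <;> cases side <;> rfl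
    | p =>
      obtain ⟨rfl, -⟩ := hc
      refine ⟨_, hw, RW.Eqv.rfl, ?_, ?_, fun _ _ h => by cases h⟩ <;> cases side <;> rfl
    | s =>
      rcases hc with ⟨hm, -⟩ | ⟨hsw, hm, -⟩
      · change m = _ at hm
        subst hm
        have hn : ¬ (side = false ∧ lk.op = .bt) := fun h => by
          have := ho.2.2.2.2.2 h.1 h.2
          cases this
        refine ⟨⟨⟨t, β, .lock side lk .u⟩, g, .neu, ra, rv⟩, hw, RW.Eqv.symm (canon_Hr hw
          ⟨rfl, rfl, rfl, Hr.set (t' := ⟨.r g .neu, ph C 0, ph C 0, true, false⟩) hn rfl⟩),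
          ?_, ?_, fun _ _ h => by cases h⟩ <;> cases side <;> rfl
      · change m = _ at hm
        subst hm
        refine ⟨⟨⟨t, β, .lock side lk .p⟩, g, .neu, ra, rv⟩, hw, canon_Hr hw
          ⟨rfl, rfl, rfl, Hr.reset
            (t' := ⟨.r g (.done (decide (lk.op = .swi)) side), ph C 0, ph C 0, true, false⟩) hsw rfl⟩,
          ?_, ?_, fun _ _ h => by cases h⟩ <;> cases side <;> rfl

theorem build_lock {c c' : Ctl C B} (h : LockOK c c') (hc : ∀ side lk, c ≠ .lock side lk .s)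
    (hc' : ∀ side lk, c' ≠ .lock side lk .s) : buildR c = buildL c' := by
  by_cases h1 : ∃ lk st, c = .lock true lk st
  · obtain ⟨lk, st, rfl⟩ := h1
    obtain ⟨st', rfl, h2, h3⟩ := h.1 lk st rfl
    cases st <;> cases st'
    all_goals first
      | rfl
      | exact absurd rfl (hc _ _)
      | exact absurd rfl (hc' _ _)
      | exact absurd ⟨rfl, rfl⟩ h2
      | exact absurd ⟨rfl, rfl⟩ h3
  · have h2 : buildR c = none := by
      rcases c with _ | _ | ⟨_ | _, lk, st⟩
      · rfl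
      · rfl
      · rfl
      · exact absurd ⟨lk, st, rfl⟩ h1
    have h3 : buildL c' = none := by
      rcases c' with _ | _ | ⟨_ | _, lk, st⟩
      · rfl
      · rfl
      · obtain ⟨st', h4⟩ := h.2 lk st rfl
        exact absurd ⟨lk, st', h4⟩ h1
      · rfl
    rw [h2, h3]

/-- The interfaces of two adjacent blocks of a non-zero word agree.  Replace the state `s` by `u` (undo
`Hr.set`) or `p` (`Hr.reset`) on both sides, which does not change `dec`; then `¬ F0` (`canon_qq_zero`). -/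
theorem ifc_of_nz {u u' : List (Cell C B)} {h h' : Hd C B} (hb : Blk k u h) (hb' : Blk k u' h')
    (hu : ¬ (sysk C B k).Zero (u ++ u')) : h.dec.2.2 = h'.dec.2.1 := by
  obtain ⟨h₁, w₁, e₁, -, r₁, n₁⟩ :=
    build_norm hb.hd_wf (good_of_nz hb fun h0 => hu (h0.append_right _))
  obtain ⟨h₂, w₂, e₂, l₂, -, n₂⟩ :=
    build_norm hb'.hd_wf (good_of_nz hb' fun h0 => hu (h0.append_left _))
  rw [r₁, l₂]
  refine build_lock (by_contra fun h1 => hu ?_) n₁ n₂
  exact (canon_qq_zero w₁ w₂ (Or.inr h1)).of_eqv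
    (((skel_le hb.norm).trans e₁).append ((skel_le hb'.norm).trans e₂))

theorem build_dec (bs : List (List (Cell C B))) : ∀ (u : List (Cell C B)) (h : Hd C B), Blk k u h →
    (∀ v ∈ bs, Path k bot v (top C)) → ¬ (sysk C B k).Zero (u ++ bs.flatten) →
    ∃ w σ', Dec1 (Formk k) (u ++ bs.flatten) w h.dec.2.1 σ' := by
  induction bs with
  | nil =>
    intro u h hb _ hz
    exact ⟨_, _, Dec1.cons (x := h.dec.1) (σ' := h.dec.2.2)
      ⟨h, hb, good_of_nz hb fun h0 => hz (h0.append_right _), rfl⟩ (Dec1.nil _)⟩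
  | cons u' bs ih =>
    intro u h hb hp hz
    rw [List.flatten_cons] at hz ⊢
    have hz' : ¬ (sysk C B k).Zero (u' ++ bs.flatten) := fun h0 => hz (h0.append_left _)
    obtain ⟨h', hb'⟩ := blk_of_nz (hp u' List.mem_cons_self) fun h0 => hz' (h0.append_right _)
    obtain ⟨w, σ', hd⟩ := ih u' h' hb' (fun v hv => hp v (List.mem_cons_of_mem _ hv)) hz'
    have he := ifc_of_nz hb hb' fun h0 => hz (by
      rw [← List.append_assoc]
      exact h0.append_right _)
    rw [← he] at hd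
    exact ⟨_, _, Dec1.cons (x := h.dec.1)
      ⟨h, hb, good_of_nz hb fun h0 => hz (h0.append_right _), rfl⟩ hd⟩

/-- `parse_paths`, `blk_of_nz`, `good_of_nz`, `ifc_of_nz` -/
theorem sysk_s7 (hC : 1 ≤ C) {v : List (Cell C B)} (h : ¬ (sysk C B k).Zero v) :
    ∃ p v' s w σ σ', v = p ++ v' ++ s ∧ Dec1 (Formk k) v' w σ σ' ∧
      p.length ≤ 20 * dd C B k ∧ s.length ≤ 20 * dd C B k := by
  obtain ⟨p, bs, s, rfl, hp, h1, h2⟩ := parse_paths hC h
  have hz : ¬ (sysk C B k).Zero bs.flatten := fun h0 => h (h0.infix _ _)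
  cases bs with
  | nil => exact ⟨p, [], s, [], none, none, rfl, Dec1.nil _, h1, h2⟩
  | cons u bs =>
    rw [List.flatten_cons] at hz
    obtain ⟨h', hb'⟩ := blk_of_nz (hp u List.mem_cons_self) fun h0 => hz (h0.append_right _)
    obtain ⟨w, σ', hd⟩ := build_dec bs u h' hb' (fun v hv => hp v (List.mem_cons_of_mem _ hv)) hz
    exact ⟨p, _, s, w, _, σ', rfl, hd, h1, h2⟩

/-- the number of light interfaces does not depend on `B` -/
theorem exists_light_finset (C B : ℕ) : ∃ F : Finset (Ifc C B), (∀ σ, σ ∈ F ↔ Light σ) ∧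
    F.card ≤ 2 * Fintype.card (Tag C) ^ 4 + 1 := by
  classical
  refine ⟨insert none (Finset.univ.image fun x : Bool × Tag C × Tag C × Tag C × Tag C =>
    some (⟨.bbF, x.2.1, 0, x.2.2.1, 0, x.2.2.2.1, x.2.2.2.2, x.1⟩, false)), fun σ => ?_, ?_⟩
  · rw [Finset.mem_insert, Finset.mem_image]
    refine or_congr Iff.rfl ⟨?_, ?_⟩
    · rintro ⟨x, -, rfl⟩
      exact ⟨_, rfl, rfl, rfl, rfl⟩
    · rintro ⟨⟨op, tL, βL, tR, βR, sL, sR, inc⟩, rfl, h1, h2, h3⟩
      simp only at h1 h2 h3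
      subst h1 h2 h3
      exact ⟨(inc, tL, tR, sL, sR), Finset.mem_univ _, rfl⟩
  · refine (Finset.card_insert_le _ _).trans (Nat.add_le_add_right (Finset.card_image_le.trans ?_) _)
    rw [Finset.card_univ, Fintype.card_prod, Fintype.card_prod, Fintype.card_prod,
      Fintype.card_prod, Fintype.card_bool]
    exact le_of_eq (by ring)

theorem build_pow (x n : ℕ) : (n + 1) * x ^ n ≤ (x + 1) ^ (n + 1) := by
  induction n with
  | zero => simp
  | succ n ih =>
    have h1 : x ^ (n + 1) ≤ (x + 1) ^ (n + 1) := Nat.pow_le_pow_left (Nat.le_succ x) _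
    calc (n + 1 + 1) * x ^ (n + 1) = (n + 1) * x ^ n * x + x ^ (n + 1) := by ring
      _ ≤ (x + 1) ^ (n + 1) * x + (x + 1) ^ (n + 1) :=
        Nat.add_le_add (Nat.mul_le_mul_right _ ih) h1
      _ = (x + 1) ^ (n + 1 + 1) := by ring

theorem growth_aux (c A : ℕ) : ∃ K, 1 ≤ K ∧ A * c ^ (2 * K) ≤ nn (c ^ 2) K := by
  refine ⟨A * c ^ 2 + 1, Nat.le_add_left _ _, le_trans ?_ (build_pow (c ^ 2) (A * c ^ 2))⟩
  rw [pow_mul, pow_succ', ← mul_assoc]
  exact Nat.mul_le_mul_right _ (Nat.le_succ _)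

theorem finite_nz : {x : Cell C B | ¬ (sysk C B 0).z1 x}.Finite := by
  refine (Set.finite_range fun x : Tag C × Code C B => (⟨x.1, x.2, 0⟩ : Cell C B)).subset ?_
  rintro ⟨t, a, v⟩ hx
  have hw : WFc 0 (⟨t, a, v⟩ : Cell C B) := by_contra fun h => hx (Or.inl h)
  have hv : v = 0 := by
    cases hb : t.kind.big
    · exact hw.2.2 hb
    · have := (hw.2.1 hb).2
      simp only [nn, pow_zero] at this
      omega
  exact ⟨(t, a), by rw [hv]⟩

/-- the tower -/
theorem exists_tower : ∃ (C B : ℕ) (T : Tower (Cell C B) (Ifc C B) (Tag C)),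
    T.sys 0 = sysk C B 0 := by
  obtain ⟨C, hC⟩ : ∃ C : ℕ, C = 10000000 := ⟨_, rfl⟩
  have hC1 : 1 ≤ C := by omega
  obtain ⟨c, hc⟩ : ∃ c : ℕ, c = 2 * Fintype.card (Tag C) ^ 4 + 1 := ⟨_, rfl⟩
  obtain ⟨F, hF, hFc⟩ := exists_light_finset C (c ^ 2)
  refine ⟨C, c ^ 2,
    { sys := sysk C (c ^ 2)
      WF := WFc
      d := dd C (c ^ 2)
      n := nn (c ^ 2)
      o := none
      Form := Formk
      enc := enck
      start := fun x => x.t.src = bot
      lt := F
      LP := LPk
      tag := Cell.t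
      tok := fun t => t.kind = .tok
      lm := Tag.lm
      idx := idxk (c ^ 2)
      wf_step := fun h => ⟨h.1, h.2.1, h.2.2.1, h.2.2.2.1⟩
      two_le := fun k => Nat.le_add_left _ _
      len := fun ⟨_, hb, _⟩ => hb.length
      func := fun ⟨_, hb, _, hd⟩ ⟨_, hb', _, hd'⟩ => by
        obtain rfl := hb.unique hb'
        simpa [Prod.ext_iff] using hd.symm.trans hd'
      start_iff := fun ⟨_, hb, _⟩ => hb.start_iff
      wf_up := formk_wf_up
      wf_down := fun ⟨_, hb, _⟩ => hb.path.wf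
      form_enc := formk_enc
      one_side := formk_one_side
      s1a := formk_s1a
      s1b := formk_s1b
      s2a := formk_s2a
      s2b := formk_s2b
      s3a := formk_s3a
      s3b := formk_s3b
      s4a := enck_s4a
      s4b := enck_s4b
      s4c := enck_s4c
      s7 := sysk_s7 hC1
      exists_nz := fun k => ?_
      lt_o := (hF _).2 (Or.inl rfl)
      lt1 := fun h h' hτ => formk_lt1 h h' ((hF _).1 hτ)
      lt2 := fun hl h h' => (hF _).2 (formk_lt2 hl h h')
      zswap := fun h hx ht hb => zswapk h hx ht hb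
      zone := zonek hC1
      lm_idx := lm_idxk
      lm_ex := lm_exk
      growth := fun A => ?_
      ratio := fun k => ?_ }, rfl⟩
  · have hw : WFc k (⟨⟨.tok, ⟨1, by omega⟩, ⟨1, by omega⟩, false, false⟩, a0, 0⟩ : Cell C (c ^ 2)) :=
      ⟨Or.inr (Or.inl ⟨by simp, rfl⟩), fun _ => ⟨rfl, nn_pos _ _⟩, fun _ => rfl⟩
    refine ⟨_, hw, ?_⟩
    rintro (h | ⟨h, -⟩ | ⟨-, h⟩)
    · exact h hw
    · simp [Kind.big] at h
    · exact h rfl
  · obtain ⟨K, hK, h⟩ := growth_aux c A
    exact ⟨K, hK, le_trans (Nat.mul_le_mul_left _ (Nat.pow_le_pow_left (hc ▸ hFc) _)) h⟩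
  · rw [dd, ← hC]
    exact Nat.le_add_right _ _

/-- a finite system with the three properties -/
theorem exists_good : ∃ (m : ℕ) (S : RW (Fin m)), S.Good := by
  obtain ⟨C, B, T, hT⟩ := exists_tower
  exact RW.Good.restrict (S := T.sys 0) ⟨T.inf, T.cap, T.addr⟩ (hT ▸ finite_nz)

end Crest.Agent.R176
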