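import Crest.Agent.R176.Acc

/-!
# R176 — soundness of the protocol
-/

set_option autoImplicit false

namespace Crest.Agent.R176

variable {C B k : ℕ}

/-- the six shapes of a good head -/
inductive SndView (h : Hd C B) : Cell C B → Ifc C B → Ifc C B → Prop
  | idle : h.a.ctl = .idle → h.m = .neu → h.g = h.a.t.kind.big →
      SndView h (mkCell h.a.t h.a.β h) none none
  | chk : h.a.ctl = .chk → h.m = .a0 → h.g = h.a.t.kind.big → h.a.t.A0 →
      SndView h (mkCell h.a.t h.a.β h) none none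
  | preL (lk : Lk C B) (st : St) : h.a.ctl = .lock true lk st → lk.Valid → h.a.t = lk.tL →
      h.a.β = lk.βL → h.g = h.a.t.kind.big →
      ((st = .u ∧ h.m = .neu) ∨ (st = .s ∧ h.m = .act lk.op true)) →
      SndView h (mkCell h.a.t h.a.β h) none (some (lk, false))
  | preR (lk : Lk C B) (st : St) : h.a.ctl = .lock false lk st → lk.Valid →
      h.a.t.setMode .neu = lk.tR.setMode .neu → (lk.op ≠ .bt → h.a.t = lk.tR) →
      h.a.β = lk.βR → h.g = h.a.t.kind.big →
      ((st = .u ∧ h.m = .neu) ∨ (st = .s ∧ h.m = .act lk.op false)) →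
      SndView h (mkCell h.a.t h.a.β h) (some (lk, false)) none
  | postL (lk : Lk C B) (st : St) : h.a.ctl = .lock true lk st → lk.Valid → lk.op.isSw = true →
      h.a.t = lk.tL → h.a.β = lk.βL → h.g = lk.tR.kind.big →
      ((st = .p ∧ h.m = .neu) ∨ (st = .s ∧ h.m = .done (decide (lk.op = .swi)) true)) →
      SndView h (mkCell lk.sL lk.βR h) none (some (lk, true))
  | postR (lk : Lk C B) (st : St) : h.a.ctl = .lock false lk st → lk.Valid → lk.op.isSw = true →
      h.a.t = lk.tR → h.a.β = lk.βR → h.g = lk.tL.kind.big →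
      ((st = .p ∧ h.m = .neu) ∨ (st = .s ∧ h.m = .done (decide (lk.op = .swi)) false)) →
      SndView h (mkCell lk.sR lk.newβ h) (some (lk, true)) none

theorem snd_ne_bt {o : Op} (h : o.isSw = true) : o ≠ .bt := by
  rintro rfl; simp [Op.isSw] at h

theorem snd_view {h : Hd C B} (hg : h.Good) {x : Cell C B} {σ σ' : Ifc C B}
    (hd : h.dec = (x, σ, σ')) : SndView h x σ σ' := by
  obtain ⟨⟨h1, h2, h3⟩, h4⟩ := hg
  unfold Hd.dec at hd
  unfold Code.Compat at h4
  rcases hc : h.a.ctl with _ | _ | ⟨side, lk, st⟩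
  · simp only [hc] at hd h3 h4
    cases hd
    exact .idle hc h4.1 h4.2
  · simp only [hc] at hd h3 h4
    cases hd
    exact .chk hc h4.1 h4.2 h3
  · simp only [hc] at h3
    obtain ⟨hv, hcons, hp, hbt⟩ := h3
    cases side
    · simp only [Lk.Cons, Bool.false_eq_true, if_false] at hcons
      have e1 : h.a.t.setMode .neu = lk.tR.setMode .neu := by
        have := hcons.2
        split_ifs at this
        · exact this
        · rw [this]
      have e2 : lk.op ≠ .bt → h.a.t = lk.tR := fun hne => by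
        have := hcons.2
        rwa [if_neg hne] at this
      cases st
      · simp only [hc, Hd.post] at hd h4
        simp only [h4.1, Mode.isDone] at hd
        cases hd
        exact .preR lk _ hc hv e1 e2 hcons.1 h4.2 (Or.inl ⟨rfl, h4.1⟩)
      · simp only [hc, Hd.post] at hd h4
        rcases h4 with h4 | h4
        · simp only [h4.1, Mode.isDone] at hd
          cases hd
          exact .preR lk _ hc hv e1 e2 hcons.1 h4.2 (Or.inr ⟨rfl, h4.1⟩)
        · simp only [h4.2.1, Mode.isDone] at hd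
          cases hd
          exact .postR lk _ hc hv h4.1 (e2 (snd_ne_bt h4.1)) hcons.1 h4.2.2 (Or.inr ⟨rfl, h4.2.1⟩)
      · simp only [hc, Hd.post] at hd h4
        cases hd
        exact .postR lk _ hc hv (hp rfl) (e2 (snd_ne_bt (hp rfl))) hcons.1 h4.2 (Or.inl ⟨rfl, h4.1⟩)
    · simp only [Lk.Cons, if_true] at hcons
      cases st
      · simp only [hc, Hd.post] at hd h4
        simp only [h4.1, Mode.isDone] at hd
        cases hd
        exact .preL lk _ hc hv hcons.1 hcons.2 h4.2 (Or.inl ⟨rfl, h4.1⟩)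
      · simp only [hc, Hd.post] at hd h4
        rcases h4 with h4 | h4
        · simp only [h4.1, Mode.isDone] at hd
          cases hd
          exact .preL lk _ hc hv hcons.1 hcons.2 h4.2 (Or.inr ⟨rfl, h4.1⟩)
        · simp only [h4.2.1, Mode.isDone] at hd
          cases hd
          exact .postL lk _ hc hv h4.1 hcons.1 hcons.2 h4.2.2 (Or.inr ⟨rfl, h4.2.1⟩)
      · simp only [hc, Hd.post] at hd h4
        cases hd
        exact .postL lk _ hc hv (hp rfl) hcons.1 hcons.2 h4.2 (Or.inl ⟨rfl, h4.1⟩)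

theorem snd_valid_sw {lk : Lk C B} (hv : lk.Valid) (hs : lk.op.isSw = true) :
    SwR lk.tL lk.tR lk.sL lk.sR lk.inc ∧ lk.sL.OK ∧ lk.sR.OK := by
  obtain ⟨-, -, -, -, h⟩ := hv
  rcases ho : lk.op with _ | _ | _ | _ | _ | _ <;> simp only [ho, Op.isSw] at h hs
  · exact ⟨h.1, h.2.1, h.2.2.1⟩
  · exact ⟨h.1, h.2.1, h.2.2.1⟩
  all_goals simp at hs

theorem snd_valid_adj {lk : Lk C B} (hv : lk.Valid) : adj lk.tL lk.tR := by
  obtain ⟨h1, h2, -, -, h⟩ := hv
  rcases ho : lk.op with _ | _ | _ | _ | _ | _ <;> simp only [ho] at h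
  · exact (h.1.vtx h1 h2).1
  · exact (h.1.vtx h1 h2).1
  · exact Or.inr h.1
  · exact Or.inr h.1
  · exact Or.inl h.1
  · exact h.1.imp (fun h => h.1) fun h => h.1

theorem snd_wf_mk {h : Hd C B} (hw : h.WF k) {t : Tag C} {β : Fin (B + 1)} (ht : t.OK)
    (hg : h.g = t.kind.big) (hβ : t.kind.big = false → β = 0) : WFc (k + 1) (mkCell t β h) := by
  refine ⟨ht, fun hb => ?_, fun hb => ?_⟩
  · obtain ⟨e1, e2⟩ := hw.1 (hg.trans hb)
    refine ⟨e1, ?_⟩
    have := β.2
    show (β : ℕ) + (B + 1) * h.rv < (B + 1) ^ (k + 1)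
    have e3 : h.rv + 1 ≤ (B + 1) ^ k := e2
    have := Nat.mul_le_mul_left (B + 1) e3
    rw [pow_succ']
    rw [Nat.mul_add] at this
    omega
  · show (β : ℕ) + (B + 1) * h.rv = 0
    rw [hβ hb, hw.2 (hg.trans hb)]
    simp

theorem SndView.a_eq {h : Hd C B} {x : Cell C B} {σ σ' : Ifc C B} (hv : SndView h x σ σ') :
    x.a = h.ra := by
  cases hv <;> rfl

theorem SndView.big_eq {h : Hd C B} {x : Cell C B} {σ σ' : Ifc C B} (hv : SndView h x σ σ') :
    h.g = x.t.kind.big := by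
  cases hv with
  | idle _ _ hg => exact hg
  | chk _ _ hg => exact hg
  | preL _ _ _ _ _ _ hg => exact hg
  | preR _ _ _ _ _ _ _ hg => exact hg
  | postL lk _ _ hv hs _ _ hg =>
    exact hg.trans ((snd_valid_sw hv hs).1.vtx hv.1 hv.2.1).2.2.2.2.1.symm
  | postR lk _ _ hv hs _ _ hg =>
    exact hg.trans ((snd_valid_sw hv hs).1.vtx hv.1 hv.2.1).2.2.2.2.2.1.symm

theorem snd_not_both {t t' : Tag C} (h : inAdj t t') (h' : crAdj t t') : False :=
  top_ne_bot (h'.1.symm.trans (Eq.trans h h'.2))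

theorem snd_in {p s : List (Cell C B)} {x y : Cell C B} {h : Hd C B}
    (hb : Blk k (p ++ x :: y :: s) h) : WFc k x ∧ WFc k y ∧ inAdj x.t y.t := by
  obtain ⟨b, -, h2⟩ := hb.path.split
  obtain ⟨e1, -, e2⟩ := path_cons_iff.1 h2
  obtain ⟨e3, e4, -⟩ := path_cons_iff.1 e2
  exact ⟨e1, e3, e4.symm⟩

theorem snd_cr {u u' : List (Cell C B)} {c c' : Cell C B} {h h' : Hd C B}
    (hb : Blk k (u ++ [c]) h) (hb' : Blk k (c' :: u') h') : crAdj c.t c'.t :=
  ⟨hb.last_tgt, (Blk.start_iff (a := []) hb').2 rfl⟩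

theorem snd_isR {κ : Kind} (h : κ.isR = true) : ∃ g m, κ = .r g m := by
  cases κ <;> simp [Kind.isR] at h ⊢

theorem snd_hr {a b : Code C B} {t s : Tag C} (hr : Hr a t b s) {g : Bool} {m : Mode}
    (ht : t.kind = .r g m) : ∃ m', s = { t with kind := .r g m' } ∧ ∀ ra rv,
      ((⟨a, g, m, ra, rv⟩ : Hd C B).Good ↔ (⟨b, g, m', ra, rv⟩ : Hd C B).Good) ∧
      (⟨a, g, m, ra, rv⟩ : Hd C B).dec = (⟨b, g, m', ra, rv⟩ : Hd C B).dec := by
  cases hr with
  | @set t₀ β side lk _ h1 h2 =>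
    rw [ht] at h2
    obtain rfl : m = .neu := h2
    refine ⟨.act lk.op side, by simp [Tag.setMode, ht, Kind.setMode], fun ra rv => ⟨?_, ?_⟩⟩
    · simp only [Hd.Good, Code.OwnOK, Code.Compat]
      simp only [not_and] at h1
      simp
      tauto
    · cases side <;> simp [Hd.dec, Hd.post, Mode.isDone, mkCell]
  | @reset t₀ β side lk _ h1 h2 =>
    rw [ht] at h2
    obtain rfl : m = _ := h2
    refine ⟨.neu, by simp [Tag.setMode, ht, Kind.setMode], fun ra rv => ⟨?_, ?_⟩⟩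
    · simp only [Hd.Good, Code.OwnOK, Code.Compat]
      simp [h1, snd_ne_bt h1]
    · cases side <;> simp [Hd.dec, Hd.post, Mode.isDone, mkCell]
  | @chk t₀ β _ h1 h2 =>
    rw [ht] at h2
    obtain rfl : m = .neu := h2
    refine ⟨.a0, by simp [Tag.setMode, ht, Kind.setMode], fun ra rv => ⟨?_, ?_⟩⟩
    · simp only [Hd.Good, Code.OwnOK, Code.Compat]
      simp [h1]
    · simp [Hd.dec, mkCell]

theorem snd_src_of_setMode {t t' : Tag C} (h : t.setMode .neu = t'.setMode .neu) :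
    t.src = t'.src ∧ t.kind.isR = t'.kind.isR := by
  have h1 : (t.setMode .neu).src = (t'.setMode .neu).src := by rw [h]
  have h2 : t.kind.setMode .neu = t'.kind.setMode .neu := congrArg Tag.kind h
  refine ⟨h1, ?_⟩
  revert h2
  cases t.kind <;> cases t'.kind <;> simp [Kind.setMode, Kind.isR]

theorem snd_adj_congr {t t' s s' : Tag C} (h : t.tgt = s.tgt) (h' : t'.src = s'.src)
    (ha : adj t t') : adj s s' := by
  unfold adj inAdj crAdj at *
  rw [← h, ← h']; exact ha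

/-- a head whose `r` is in an active mode on the left side -/
theorem SndView.actL {h : Hd C B} {x : Cell C B} {σ σ' : Ifc C B} (hv : SndView h x σ σ') {μ : Op}
    (hm : h.m = .act μ true) : ∃ lk : Lk C B, lk.Valid ∧ lk.op = μ ∧ σ' = some (lk, false) ∧
      x = mkCell lk.tL lk.βL h := by
  cases hv with
  | preL lk st _ hv e1 e2 _ h =>
    refine ⟨lk, hv, ?_, rfl, by rw [e1, e2]⟩
    simp only [hm] at h
    simp at h
    exact h.2.symm
  | idle _ h => simp [hm] at h
  | chk _ h => simp [hm] at h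
  | preR _ _ _ _ _ _ _ _ h => simp [hm] at h
  | postL _ _ _ _ _ _ _ _ h => simp [hm] at h
  | postR _ _ _ _ _ _ _ _ h => simp [hm] at h

/-- a head whose left interface is a lock before the commit -/
theorem SndView.preR' {h : Hd C B} {x : Cell C B} {σ' : Ifc C B} {lk : Lk C B}
    (hv : SndView h x (some (lk, false)) σ') : x = mkCell h.a.t lk.βR h ∧
      h.a.t.setMode .neu = lk.tR.setMode .neu ∧ (lk.op ≠ .bt → h.a.t = lk.tR) := by
  cases hv with
  | preR _ _ _ _ e1 e2 e3 => exact ⟨by rw [e3], e1, e2⟩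

theorem snd_lockOK {h h' : Hd C B} {x y : Cell C B} {σ τ σ' : Ifc C B} (hv : SndView h x σ τ)
    (hv' : SndView h' y τ σ') : LockOK h.a.ctl h'.a.ctl := by
  unfold LockOK
  cases hv <;> cases hv' <;> simp_all <;> grind

theorem snd_tgt {h : Hd C B} {x : Cell C B} {σ : Ifc C B} (hv : SndView h x σ none) :
    x.t.tgt = h.a.t.tgt := by
  cases hv with
  | idle => rfl
  | chk => rfl
  | preR => rfl
  | postR lk _ _ hv hs e =>
    rw [e]; exact ((snd_valid_sw hv hs).1.vtx hv.1 hv.2.1).2.2.2.1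

theorem snd_src {h : Hd C B} {x : Cell C B} {σ : Ifc C B} (hv : SndView h x none σ) :
    x.t.src = h.a.t.src := by
  cases hv with
  | idle => rfl
  | chk => rfl
  | preL => rfl
  | postL lk _ _ hv hs e =>
    rw [e]; exact ((snd_valid_sw hv hs).1.vtx hv.1 hv.2.1).2.2.1

theorem snd_adj {h h' : Hd C B} {x y : Cell C B} {σ τ σ' : Ifc C B} (hv : SndView h x σ τ)
    (hv' : SndView h' y τ σ') (ha : adj x.t y.t) : adj h.a.t h'.a.t := by
  rcases τ with _ | ⟨lk, b⟩
  · exact snd_adj_congr (snd_tgt hv) (snd_src hv') ha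
  · have e1 : h.a.t = lk.tL ∧ lk.Valid := by
      cases hv with
      | preL _ _ _ h1 h2 => exact ⟨h2, h1⟩
      | postL _ _ _ h1 _ h2 => exact ⟨h2, h1⟩
    have e2 : h'.a.t.src = lk.tR.src := by
      cases hv' with
      | preR _ _ _ _ h2 => exact (snd_src_of_setMode h2).1
      | postR _ _ _ _ _ h2 => rw [h2]
    exact snd_adj_congr (by rw [e1.1]) e2.symm (snd_valid_adj e1.2)

theorem formk_wf_up {x : Cell C B} {σ σ' : Ifc C B} {u : List (Cell C B)} (h : Formk k x σ σ' u) :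
    WFc (k + 1) x := by
  obtain ⟨hd, hb, hg, he⟩ := h
  have hw := hb.hd_wf
  have hv := snd_view hg he
  have hbig := hv.big_eq
  cases hv with
  | idle => exact snd_wf_mk hw hg.1.1 hbig hg.1.2.1
  | chk => exact snd_wf_mk hw hg.1.1 hbig hg.1.2.1
  | preL => exact snd_wf_mk hw hg.1.1 hbig hg.1.2.1
  | preR => exact snd_wf_mk hw hg.1.1 hbig hg.1.2.1
  | postL lk _ _ hv hs _ _ hg' =>
    refine snd_wf_mk hw (snd_valid_sw hv hs).2.1 hbig fun h0 => hv.2.2.2.1 ?_
    exact hg'.symm.trans (hbig.trans h0)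
  | postR lk _ _ hv hs _ _ hg' =>
    refine snd_wf_mk hw (snd_valid_sw hv hs).2.2 hbig fun h0 => ?_
    have h1 : lk.tL.kind.big = false := hg'.symm.trans (hbig.trans h0)
    have h2 := ((snd_valid_sw hv hs).1.vtx hv.1 hv.2.1).2.2.2.2.2.2
    have h3 : lk.inc = false := by
      cases hi : lk.inc
      · rfl
      · rw [h2 hi] at h1; cases h1
    simp [Lk.newβ, h3, hv.2.2.1 h1]

theorem formk_one_side {x : Cell C B} {σ σ' : Ifc C B} {u : List (Cell C B)} (h : Formk k x σ σ' u) :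
    σ = none ∨ σ' = none := by
  obtain ⟨hd, -, hg, he⟩ := h
  cases snd_view hg he <;> simp

theorem formk_enc {x : Cell C B} (h : WFc (k + 1) x) : Formk k x none none (enck k x) := by
  obtain ⟨h1, h2, h3⟩ := h
  refine ⟨encH x, blk_canon ⟨fun hb => ?_, fun hb => ?_⟩, ⟨⟨h1, fun hb => ?_, trivial⟩, rfl, rfl⟩, ?_⟩
  · refine ⟨(h2 hb).1, ?_⟩
    have e : x.v < (B + 1) ^ (k + 1) := (h2 hb).2
    show x.v / (B + 1) < (B + 1) ^ k
    rw [Nat.div_lt_iff_lt_mul (Nat.succ_pos B), ← pow_succ]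
    exact e
  · show x.v / (B + 1) = 0
    rw [h3 hb, Nat.zero_div]
  · show Fin.ofNat (B + 1) x.v = 0
    rw [h3 hb]; rfl
  · show (mkCell x.t (Fin.ofNat (B + 1) x.v) (encH x), none, none) = (x, none, none)
    congr 1
    refine Cell.ext rfl rfl ?_
    exact Nat.mod_add_div x.v (B + 1)

/-- Inside a block consecutive cells satisfy `inAdj`, hence not `crAdj`; so a rule is a skeleton rule
(`Acc.of_skel`) or `BT` (`Blk.set_q`, `Blk.set_r`; the six cases of `Hr` and its inverse preserve `Good` and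
`dec`). -/
theorem formk_s1a {x : Cell C B} {σ σ' : Ifc C B} {u u' : List (Cell C B)} (h : Formk k x σ σ' u)
    (e : (sysk C B k).SStep u u') : Formk k x σ σ' u' := by
  obtain ⟨hd, hb, hg, he⟩ := h
  obtain ⟨p, s, a, b, a', b', hs, rfl, rfl⟩ := RW.sstep_iff.1 e
  obtain ⟨wa, wb, hin⟩ := snd_in hb
  rcases hs with ⟨-, -, wa', wb', hs⟩ | ⟨wa', wb', -, -, hs⟩
  · rcases hs with ⟨inc, hs | hs, hv⟩ | hs | hs | ⟨hbt, e1, e2, e3, hr⟩
    · exact ⟨hd, Acc.of_skel hb (RW.Eqv.rule (S := skel C B k) ⟨wa, wb, wa', wb', inc, hs, hv⟩ p s),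
        hg, he⟩
    · exact (snd_not_both hin hs.1).elim
    · exact (snd_not_both hin hs.1.1).elim
    · exact (snd_not_both hin hs.1.1).elim
    · obtain ⟨g, m, hk⟩ := snd_isR hbt.2.2
      obtain ⟨m', hm', hh⟩ := snd_hr hr hk
      have q1 := hb.q_eq hbt.2.1
      have b1 := hb.set_q hbt.2.1 e1 wa'
      have b2 : Blk k ((p ++ [a']) ++ b :: s) { hd with a := a'.a } := by simpa using b1
      obtain ⟨r1, r2, r3, r4⟩ := b2.r_eq hk
      have b3 := b2.set_r hbt.2.2 hm' wb'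
      obtain ⟨ha, hg0, hm0, hra, hrv⟩ := hd
      simp only at q1 r1 r2 r3 r4 b3
      subst q1 r1 r2 r3 r4
      rw [e2, e3] at b3
      exact ⟨_, by simpa using b3, (hh _ _).1.1 hg, (hh _ _).2.symm.trans he⟩
  · rcases hs with ⟨inc, hs | hs, hv⟩ | hs | hs | ⟨hbt, e1, e2, e3, hr⟩
    · exact ⟨hd, Acc.of_skel hb
        (RW.Eqv.rule (S := skel C B k) ⟨wa', wb', wa, wb, inc, hs, hv⟩ p s).symm, hg, he⟩
    · obtain ⟨hc, g, g', -, -, -, -, e2⟩ := hs
      have : b.t.src = bot := by rw [e2]; exact hc.2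
      exact (wa.1.tgt_ne_bot (Eq.trans hin this)).elim
    · obtain ⟨hs, e1, e2, -⟩ := hs
      rw [← e1, ← e2] at hs
      exact (snd_not_both hin hs.1).elim
    · obtain ⟨hs, e1, e2, -⟩ := hs
      rw [← e1, ← e2] at hs
      exact (snd_not_both hin hs.1).elim
    · obtain ⟨g, m, hk⟩ := snd_isR hbt.2.2
      obtain ⟨m', hm', hh⟩ := snd_hr hr hk
      have hq : a.t.kind = .q := by rw [e1]; exact hbt.2.1
      have hk' : b.t.kind = .r g m' := by rw [hm']
      have hm'' : b'.t = { b.t with kind := .r g m } := by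
        rw [hm', ← hk]
      have q1 := hb.q_eq hq
      have b1 := hb.set_q hq e1.symm wa'
      have b2 : Blk k ((p ++ [a']) ++ b :: s) { hd with a := a'.a } := by simpa using b1
      obtain ⟨r1, r2, r3, r4⟩ := b2.r_eq hk'
      have b3 := b2.set_r (by rw [hk']; rfl) hm'' wb'
      obtain ⟨ha, hg0, hm0, hra, hrv⟩ := hd
      simp only at q1 r1 r2 r3 r4 b3
      subst q1 r1 r2 r3 r4
      rw [← e2, ← e3] at b3
      exact ⟨_, by simpa using b3, (hh _ _).1.2 hg, (hh _ _).2.trans he⟩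

theorem formk_s2a {x : Cell C B} {σ σ' : Ifc C B} {u : List (Cell C B)} (h : Formk k x σ σ' u)
    (e : (sysk C B k).HasZ u) : (sysk C B (k + 1)).z1 x := by
  obtain ⟨hd, hb, hg, he⟩ := h
  have hv := snd_view hg he
  rcases e with ⟨c, hc, hz⟩ | ⟨p, s, a, b, hz, rfl⟩
  · have wc := hb.path.wf c hc
    obtain ⟨p, s, rfl⟩ := List.append_of_mem hc
    rcases hz with hz | ⟨h1, h2⟩ | ⟨h1, h2⟩
    · exact (hz wc).elim
    · rcases hk : c.t.kind with _ | _ | _ | ⟨g, m⟩
      · simp [hk, Kind.big] at h1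
      · simp [hk, Kind.big] at h1
      · rw [hb.q_eq hk] at h2
        rcases h2 with h2 | ⟨e1, e2, e3⟩
        · exact (h2 hg.1).elim
        · have e4 : x = mkCell hd.a.t hd.a.β hd := by
            cases hv <;> simp_all
          subst e4
          refine Or.inr (Or.inr ⟨e2, fun e5 => e3 ?_⟩)
          have e6 : (hd.a.β : ℕ) + (B + 1) * hd.rv = 0 := e5
          exact Fin.ext (show (hd.a.β : ℕ) = 0 by omega)
      · obtain ⟨r1, -, r3, -⟩ := hb.r_eq hk
        refine Or.inr (Or.inl ⟨?_, ?_⟩)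
        · rw [← hv.big_eq, ← r1]
          simpa [hk, Kind.big] using h1
        · rw [hv.a_eq, ← r3]; exact h2
    · rcases h1 with h1 | h1
      · exact (h2 (hb.cnt_zero hc h1.1 (Or.inl h1))).elim
      · obtain ⟨-, r2, -, r4⟩ := hb.r_eq h1
        have e4 : x = mkCell hd.a.t hd.a.β hd ∧ hd.a.t.A0 := by
          have r2' := r2.symm
          cases hv with
          | chk _ _ _ h => exact ⟨rfl, h⟩
          | idle _ h => simp [r2'] at h
          | preL _ _ _ _ _ _ _ h => simp [r2'] at h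
          | preR _ _ _ _ _ _ _ _ h => simp [r2'] at h
          | postL _ _ _ _ _ _ _ _ h => simp [r2'] at h
          | postR _ _ _ _ _ _ _ _ h => simp [r2'] at h
        obtain ⟨rfl, e5⟩ := e4
        refine Or.inr (Or.inr ⟨e5, fun e6 => h2 ?_⟩)
        have e7 : (hd.a.β : ℕ) + (B + 1) * hd.rv = 0 := e6
        rw [r4]
        have e8 : (B + 1) * hd.rv = 0 := by omega
        simpa using e8
  · obtain ⟨wa, wb, hin⟩ := snd_in hb
    rcases hz with hz | ⟨hz | hz, hv⟩ | hz | hz | ⟨hbt, hz⟩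
    · exact (hz (Or.inl hin)).elim
    · exact (hb.tt_ne hz hv).elim
    · exact (snd_not_both hin hz.1).elim
    · exact (snd_not_both hin hz.1.1).elim
    · exact (snd_not_both hin hz.1.1).elim
    · obtain ⟨g, m, hk⟩ := snd_isR hbt.2.2
      have b2 : Blk k ((p ++ [a]) ++ b :: s) hd := by simpa using hb
      obtain ⟨r1, r2, -, -⟩ := b2.r_eq hk
      refine (hz ?_).elim
      rw [hb.q_eq hbt.2.1, hk, r1, r2]
      exact hg.2

/-- For the pair `q q`: `LockOK` holds because the interfaces agree; the source and the target of the stored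
tag agree with those of the decoded tag on the unlocked side (`SwR.vtx`), and on a locked side `Valid` gives
`adj`. -/
theorem formk_s2b {x y c c' : Cell C B} {σ τ σ' : Ifc C B} {u u' : List (Cell C B)}
    (h : Formk k x σ τ (u ++ [c])) (h' : Formk k y τ σ' (c' :: u')) (e : (sysk C B k).z2 c c') :
    (sysk C B (k + 1)).z2 x y := by
  obtain ⟨hd, hb, hg, he⟩ := h
  obtain ⟨hd', hb', hg', he'⟩ := h'
  have hv := snd_view hg he
  have hv' := snd_view hg' he'
  have hcr := snd_cr hb hb'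
  have hb2 : Blk k ([] ++ c' :: u') hd' := hb'
  rcases e with e | ⟨e | ⟨-, k1, k2⟩, ev⟩ | ⟨⟨-, ⟨k1, k2⟩ | ⟨k1, k2⟩⟩, e⟩ |
    ⟨⟨-, ⟨k1, k2⟩ | ⟨k1, k2⟩⟩, e⟩ | e
  · exact (e (Or.inr hcr)).elim
  · exact (snd_not_both e.1 hcr).elim
  · obtain ⟨-, r2, -, r4⟩ := hb.r_eq k1
    obtain ⟨-, -, -, r4'⟩ := hb2.r_eq k2
    obtain ⟨lk, hval, hop, rfl, rfl⟩ := hv.actL r2.symm
    obtain ⟨rfl, -, e2⟩ := hv'.preR'
    have h5 := hval.2.2.2.2
    simp only [hop] at h5
    refine Or.inr (Or.inl ⟨?_, ?_⟩)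
    · rw [e2 (by simp [hop])]; exact h5.1
    · show (lk.βL : ℕ) + (B + 1) * hd.rv = (lk.βR : ℕ) + (B + 1) * hd'.rv
      rw [← r4, ← r4', ev, h5.2]
  · rw [hb.q_eq k1, hb2.q_eq k2] at e
    rcases e with e | e
    · exact Or.inl fun ha => e (snd_adj hv hv' ha)
    · exact (e (snd_lockOK hv hv')).elim
  · obtain ⟨-, r2, r3, -⟩ := hb.r_eq k1
    obtain ⟨-, -, r3', -⟩ := hb2.r_eq k2
    obtain ⟨lk, hval, hop, rfl, rfl⟩ := hv.actL r2.symm
    obtain ⟨rfl, -, e2⟩ := hv'.preR'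
    have h5 := hval.2.2.2.2
    simp only [hop] at h5
    refine Or.inr (Or.inr (Or.inl ⟨?_, ?_⟩))
    · rw [e2 (by simp [hop])]; exact h5
    · rw [r3, r3'] at e; exact e
  · obtain ⟨-, r2, r3, -⟩ := hb.r_eq k1
    obtain ⟨lk, hval, hop, rfl, rfl⟩ := hv.actL r2.symm
    obtain ⟨rfl, e1, -⟩ := hv'.preR'
    have h5 := hval.2.2.2.2
    simp only [hop] at h5
    obtain ⟨e2, e3⟩ := snd_src_of_setMode e1
    obtain ⟨_, -, -, e⟩ := e
    rw [r3, hb2.q_eq k2] at e
    exact Or.inr (Or.inr (Or.inr (Or.inr ⟨⟨Eq.trans h5.1 e2.symm, h5.2.1, e3.trans h5.2.2⟩, e⟩)))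
  · obtain ⟨-, r2, r3, -⟩ := hb.r_eq k1
    obtain ⟨-, -, r3', -⟩ := hb2.r_eq k2
    obtain ⟨lk, hval, hop, rfl, rfl⟩ := hv.actL r2.symm
    obtain ⟨rfl, -, e2⟩ := hv'.preR'
    have h5 := hval.2.2.2.2
    simp only [hop] at h5
    refine Or.inr (Or.inr (Or.inr (Or.inl ⟨?_, ?_⟩)))
    · rw [e2 (by simp [hop])]; exact h5
    · rw [r3, r3'] at e; exact e
  · exact (snd_not_both e.1.1 hcr).elim

theorem formk_lt1 {x y c c' : Cell C B} {σ τ σ' : Ifc C B} {u u' : List (Cell C B)}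
    (h : Formk k x σ τ (u ++ [c])) (h' : Formk k y τ σ' (c' :: u')) (hτ : Light τ) : LPk c c' := by
  obtain ⟨hd, hb, hg, he⟩ := h
  obtain ⟨hd', hb', -, -⟩ := h'
  have hv := snd_view hg he
  have key : c.t.kind.mode = .neu ∨ c.t.kind.mode = hd.m := by
    rcases hk : c.t.kind with _ | _ | _ | ⟨g, m⟩
    · exact Or.inl rfl
    · exact Or.inl rfl
    · exact Or.inl rfl
    · exact Or.inr (hb.r_eq hk).2.1
  refine ⟨snd_cr hb hb', fun μ hμ => ?_, fun i hi => ?_⟩
  · rw [hμ] at key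
    unfold Light at hτ
    cases hv <;> simp_all <;> grind
  · rw [hi] at key
    unfold Light at hτ
    cases hv <;> simp_all <;> grind

theorem formk_lt2 {x y : Cell C B} {σ τ σ' : Ifc C B} {u u' : List (Cell C B)} (hl : LPk x y)
    (h : Formk k x σ τ u) (h' : Formk k y τ σ' u') : Light τ := by
  obtain ⟨hd, hb, hg, he⟩ := h
  obtain ⟨hd', hb', hg', he'⟩ := h'
  have hv := snd_view hg he
  have hv' := snd_view hg' he'
  obtain ⟨hcr, l1, l2⟩ := hl
  rcases τ with _ | ⟨lk, b⟩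
  · exact Or.inl rfl
  cases hv with
  | postL _ _ _ hval hs =>
    cases hv' with
    | postR =>
      exfalso
      rcases (snd_valid_sw hval hs).1 with h1 | ⟨-, g, g', -, -, -, h1, -⟩
      · exact snd_not_both (h1.vtx hval.1 hval.2.1).2.1 hcr
      · refine l2 lk.inc ?_
        show lk.sL.kind.mode = _
        rw [h1]; rfl
  | preL _ _ _ hval e1 =>
    obtain ⟨rfl, e2, -⟩ := hv'.preR'
    have hcr' : crAdj lk.tL lk.tR := by
      refine ⟨?_, ?_⟩
      · rw [← e1]; exact hcr.1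
      · rw [← (snd_src_of_setMode e2).1]; exact hcr.2
    have l3 : ∀ μ, lk.tL.kind.mode = .act μ true → μ = .bbF := by
      rw [← e1]; exact l1
    have hsw : lk.op.isSw = true → False := fun hs => by
      rcases (snd_valid_sw hval hs).1 with h1 | ⟨-, g, g', -, h1, -⟩
      · exact snd_not_both (h1.vtx hval.1 hval.2.1).1 hcr'
      · have := l3 _ (by rw [h1]; rfl)
        split_ifs at this
    obtain ⟨-, -, v1, v2, v3⟩ := hval
    rcases ho : lk.op with _ | _ | _ | _ | _ | _ <;> simp only [ho] at v3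
    · exact (hsw (by rw [ho]; rfl)).elim
    · exact (hsw (by rw [ho]; rfl)).elim
    · refine Or.inr ⟨lk, rfl, ho, v1 ?_, v2 ?_⟩
      · rcases v3.2 with h | h <;> rw [h.1] <;> rfl
      · rcases v3.2 with h | h <;> rw [h.2] <;> rfl
    · rcases v3.2 with h | h
      · cases l3 _ (by rw [h.1]; rfl)
      · cases l3 _ (by rw [h.1]; rfl)
    · exact (snd_not_both v3.1 hcr').elim
    · rcases v3.1 with h | h
      · exact (snd_not_both h.1 hcr').elim
      · cases l3 _ (by rw [h.2.1]; rfl)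

end Crest.Agent.R176
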