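import Crest.Agent.R176.NF
import Crest.Agent.R176.Sound

/-!
# R176 — completeness of the protocol
-/

set_option autoImplicit false

namespace Crest.Agent.R176

variable {C B k : ℕ}

section moves

variable {t t' : Tag C} {β β' : Fin (B + 1)} {g g' : Bool} {m m' : Mode} {ra ra' : Code C B}
  {rv rv' : ℕ} {lk : Lk C B} {side : Bool}

/-- well-formedness of the head `r` -/
def complW (B k : ℕ) (g : Bool) (ra : Code C B) (rv : ℕ) : Prop :=
  (g = true → ra = a0 ∧ rv < nn B k) ∧ (g = false → rv = 0)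

theorem compl_set (hw : complW B k g ra rv) (h : ¬ (side = false ∧ lk.op = .bt)) :
    (sysk C B k).Eqv (canon k ⟨⟨t, β, .lock side lk .u⟩, g, .neu, ra, rv⟩)
      (canon k ⟨⟨t, β, .lock side lk .s⟩, g, .act lk.op side, ra, rv⟩) :=
  canon_Hr hw ⟨rfl, rfl, rfl, Hr.set (t' := ⟨.r g .neu, ph C 0, ph C 0, true, false⟩) h rfl⟩

theorem compl_reset (hw : complW B k g ra rv) (h : lk.op.isSw = true) :
    (sysk C B k).Eqv (canon k ⟨⟨t, β, .lock side lk .s⟩, g, .done (decide (lk.op = .swi)) side, ra, rv⟩)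
      (canon k ⟨⟨t, β, .lock side lk .p⟩, g, .neu, ra, rv⟩) :=
  canon_Hr hw ⟨rfl, rfl, rfl, Hr.reset
    (t' := ⟨.r g (.done (decide (lk.op = .swi)) side), ph C 0, ph C 0, true, false⟩) h rfl⟩

theorem compl_chk (hw : complW B k g ra rv) (h : t.A0) :
    (sysk C B k).Eqv (canon k ⟨⟨t, β, .idle⟩, g, .neu, ra, rv⟩)
      (canon k ⟨⟨t, β, .chk⟩, g, .a0, ra, rv⟩) :=
  canon_Hr hw ⟨rfl, rfl, rfl, Hr.chk (t' := ⟨.r g .neu, ph C 0, ph C 0, true, false⟩) h rfl⟩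

theorem compl_lock (hw : complW B k g ra rv) (hw' : complW B k g' ra' rv') (hv : lk.Valid)
    (h : lk.Cons true t β) (h' : lk.Cons false t' β') :
    (sysk C B k).Eqv
      (canon k ⟨⟨t, β, .idle⟩, g, m, ra, rv⟩ ++ canon k ⟨⟨t', β', .idle⟩, g', m', ra', rv'⟩)
      (canon k ⟨⟨t, β, .lock true lk .u⟩, g, m, ra, rv⟩ ++
        canon k ⟨⟨t', β', .lock false lk .u⟩, g', m', ra', rv'⟩) :=
  canon_qq (h₁ := ⟨⟨t, β, .idle⟩, g, m, ra, rv⟩) (h₂ := ⟨⟨t', β', .idle⟩, g', m', ra', rv'⟩) hw hw'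
    (Fr.lock hv h h')

theorem compl_fin (hw : complW B k g ra rv) (hw' : complW B k g' ra' rv') (hv : lk.Valid)
    (h : lk.op.isSw = true) :
    (sysk C B k).Eqv
      (canon k ⟨⟨lk.tL, lk.βL, .lock true lk .p⟩, g, m, ra, rv⟩ ++
        canon k ⟨⟨lk.tR, lk.βR, .lock false lk .p⟩, g', m', ra', rv'⟩)
      (canon k ⟨⟨lk.sL, lk.βR, .idle⟩, g, m, ra, rv⟩ ++
        canon k ⟨⟨lk.sR, lk.newβ, .idle⟩, g', m', ra', rv'⟩) :=
  canon_qq (h₁ := ⟨⟨lk.tL, lk.βL, .lock true lk .p⟩, g, m, ra, rv⟩)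
    (h₂ := ⟨⟨lk.tR, lk.βR, .lock false lk .p⟩, g', m', ra', rv'⟩) hw hw' (Fr.fin hv h)

theorem compl_cons_left (lk : Lk C B) : lk.Cons true lk.tL lk.βL := by simp [Lk.Cons]

theorem compl_cons_right (lk : Lk C B) : lk.Cons false lk.tR lk.βR := by simp [Lk.Cons]

/-- lock and set both modes -/
theorem compl_lock_set (hw : complW B k g ra rv) (hw' : complW B k g' ra' rv') (hv : lk.Valid)
    (h : lk.op ≠ .bt) :
    (sysk C B k).Eqv
      (canon k ⟨⟨lk.tL, lk.βL, .idle⟩, g, .neu, ra, rv⟩ ++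
        canon k ⟨⟨lk.tR, lk.βR, .idle⟩, g', .neu, ra', rv'⟩)
      (canon k ⟨⟨lk.tL, lk.βL, .lock true lk .s⟩, g, .act lk.op true, ra, rv⟩ ++
        canon k ⟨⟨lk.tR, lk.βR, .lock false lk .s⟩, g', .act lk.op false, ra', rv'⟩) :=
  (compl_lock hw hw' hv (compl_cons_left lk) (compl_cons_right lk)).trans
    ((compl_set hw (by simp)).append (compl_set hw' fun h' => h h'.2))

/-- lock and set the left mode -/
theorem compl_lock_set1 (hw : complW B k g ra rv) (hw' : complW B k g' ra' rv') (hv : lk.Valid)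
    (h' : lk.Cons false t' β') :
    (sysk C B k).Eqv
      (canon k ⟨⟨lk.tL, lk.βL, .idle⟩, g, .neu, ra, rv⟩ ++ canon k ⟨⟨t', β', .idle⟩, g', m', ra', rv'⟩)
      (canon k ⟨⟨lk.tL, lk.βL, .lock true lk .s⟩, g, .act lk.op true, ra, rv⟩ ++
        canon k ⟨⟨t', β', .lock false lk .u⟩, g', m', ra', rv'⟩) :=
  (compl_lock hw hw' hv (compl_cons_left lk) h').trans ((compl_set hw (by simp)).append_right _)

end moves

theorem compl_wf_r {j : ℕ} {f : Bool} {h : Hd C B} (hw : complW B k h.g h.ra h.rv) :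
    WFc k (rCell j f h) := ⟨⟨rfl, rfl⟩, hw.1, hw.2⟩

theorem compl_wf_q {j : ℕ} {f : Bool} {h : Hd C B} : WFc k (qCell j f h) :=
  ⟨⟨rfl, rfl⟩, fun h => by simp [qCell, Kind.big] at h, fun _ => rfl⟩

theorem compl_cr_rr (h h' : Hd C B) : crAdj (rCell (3 * C) true h).t (rCell 0 false h').t := by
  simp [crAdj, rCell, Tag.tgt, Tag.src, top, bot, ph, Kind.isR]

theorem compl_cr_rq (h h' : Hd C B) : crAdj (rCell (3 * C) true h).t (qCell 0 false h').t := by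
  simp [crAdj, rCell, qCell, Tag.tgt, Tag.src, top, bot, ph, Kind.isR]

theorem compl_w_enc {x : Cell C B} (hx : WFc (k + 1) x) :
    complW B k x.t.kind.big x.a (x.v / (B + 1)) := by
  refine ⟨fun h => ⟨(hx.2.1 h).1, ?_⟩, fun h => by rw [hx.2.2 h, Nat.zero_div]⟩
  have := (hx.2.1 h).2
  unfold nn at this ⊢
  rw [Nat.div_lt_iff_lt_mul (Nat.succ_pos B), ← pow_succ]
  exact this

theorem compl_beta {x : Cell C B} (hx : WFc (k + 1) x) (h : x.t.kind.big = false) :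
    Fin.ofNat (B + 1) x.v = 0 := by
  rw [hx.2.2 h]
  rfl

theorem compl_enc_mk (t : Tag C) (β : Fin (B + 1)) (h : Hd C B) :
    enck k (mkCell t β h) = canon k ⟨⟨t, β, .idle⟩, t.kind.big, .neu, h.ra, h.rv⟩ := by
  have h1 : Fin.ofNat (B + 1) (β + (B + 1) * h.rv) = β := by
    ext
    simp [Nat.mod_eq_of_lt β.2]
  have h2 : (β + (B + 1) * h.rv) / (B + 1) = h.rv := by
    rw [Nat.add_mul_div_left _ _ (Nat.succ_pos B), Nat.div_eq_of_lt β.2, zero_add]
  simp only [enck, encH, mkCell, h1, h2]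

/-- a locked block before the commit -/
theorem compl_pre {t : Tag C} {β : Fin (B + 1)} {side : Bool} {lk : Lk C B} {st : St} {g : Bool}
    {m : Mode} {ra : Code C B} {rv : ℕ} (hw : complW B k g ra rv)
    (hg : Hd.Good ⟨⟨t, β, .lock side lk st⟩, g, m, ra, rv⟩)
    (hp : Hd.post ⟨⟨t, β, .lock side lk st⟩, g, m, ra, rv⟩ st = false) :
    g = t.kind.big ∧ (sysk C B k).Eqv (canon k ⟨⟨t, β, .lock side lk st⟩, g, m, ra, rv⟩)
      (canon k ⟨⟨t, β, .lock side lk .u⟩, g, .neu, ra, rv⟩) := by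
  obtain ⟨⟨-, -, -, -, -, h4⟩, hc⟩ := hg
  cases st with
  | u =>
    obtain ⟨rfl, h⟩ : m = .neu ∧ g = t.kind.big := hc
    exact ⟨h, RW.Eqv.rfl⟩
  | s =>
    rcases hc with ⟨h1, h⟩ | ⟨-, h1, -⟩
    · obtain rfl : m = .act lk.op side := h1
      exact ⟨h, (compl_set hw fun h' => by simpa using h4 h'.1 h'.2).symm⟩
    · obtain rfl : m = .done (decide (lk.op = .swi)) side := h1
      simp [Hd.post, Mode.isDone] at hp
  | p => simp [Hd.post] at hp

/-- a locked block after the commit -/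
theorem compl_post {t : Tag C} {β : Fin (B + 1)} {side : Bool} {lk : Lk C B} {st : St} {g : Bool}
    {m : Mode} {ra : Code C B} {rv : ℕ} (hw : complW B k g ra rv)
    (hg : Hd.Good ⟨⟨t, β, .lock side lk st⟩, g, m, ra, rv⟩)
    (hp : Hd.post ⟨⟨t, β, .lock side lk st⟩, g, m, ra, rv⟩ st = true) :
    lk.op.isSw = true ∧ g = (lk.other side).kind.big ∧
      (sysk C B k).Eqv (canon k ⟨⟨t, β, .lock side lk st⟩, g, m, ra, rv⟩)
        (canon k ⟨⟨t, β, .lock side lk .p⟩, g, .neu, ra, rv⟩) := by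
  obtain ⟨⟨-, -, -, -, h3, -⟩, hc⟩ := hg
  cases st with
  | u =>
    obtain ⟨rfl, -⟩ : m = .neu ∧ g = t.kind.big := hc
    simp [Hd.post, Mode.isDone] at hp
  | s =>
    rcases hc with ⟨h1, -⟩ | ⟨h0, h1, h⟩
    · obtain rfl : m = .act lk.op side := h1
      simp [Hd.post, Mode.isDone] at hp
    · obtain rfl : m = .done (decide (lk.op = .swi)) side := h1
      exact ⟨h0, h, compl_reset hw h0⟩
  | p =>
    obtain ⟨rfl, h⟩ : m = .neu ∧ g = (lk.other side).kind.big := hc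
    exact ⟨h3 rfl, h, RW.Eqv.rfl⟩

theorem compl_valid_sw {lk : Lk C B} (hv : lk.Valid) (h : lk.op.isSw = true) :
    lk.op ≠ .bt ∧ lk.sL.kind.big = lk.tR.kind.big ∧ lk.sR.kind.big = lk.tL.kind.big := by
  obtain ⟨h1, h2, -, -, h3⟩ := hv
  have h4 : lk.op ≠ .bt ∧ SwR lk.tL lk.tR lk.sL lk.sR lk.inc := by
    revert h3 h
    cases lk.op <;> intro h h3 <;> first | exact ⟨by simp, h3.1⟩ | simp [Op.isSw] at h
  obtain ⟨-, -, -, -, h5, h6, -⟩ := h4.2.vtx h1 h2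
  exact ⟨h4.1, h5, h6⟩

theorem compl_dec_left {h : Hd C B} {x : Cell C B} {lk : Lk C B} {c : Bool}
    (hd : h.dec = (x, none, some (lk, c))) : ∃ st, h.a.ctl = .lock true lk st ∧ h.post st = c ∧
      x = if c then mkCell lk.sL lk.βR h else mkCell h.a.t h.a.β h := by
  unfold Hd.dec at hd
  split at hd
  · simp at hd
  · simp at hd
  · rename_i lk' st hc
    split_ifs at hd with hp
    · simp only [Prod.mk.injEq, Option.some.injEq, true_and] at hd
      obtain ⟨rfl, rfl, rfl⟩ := hd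
      exact ⟨st, hc, hp, rfl⟩
    · simp only [Prod.mk.injEq, Option.some.injEq, true_and] at hd
      obtain ⟨rfl, rfl, rfl⟩ := hd
      exact ⟨st, hc, by simpa using hp, rfl⟩
  · split_ifs at hd <;> simp at hd

theorem compl_dec_right {h : Hd C B} {x : Cell C B} {lk : Lk C B} {c : Bool}
    (hd : h.dec = (x, some (lk, c), none)) : ∃ st, h.a.ctl = .lock false lk st ∧ h.post st = c ∧
      x = if c then mkCell lk.sR lk.newβ h else mkCell h.a.t h.a.β h := by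
  unfold Hd.dec at hd
  split at hd
  · simp at hd
  · simp at hd
  · split_ifs at hd <;> simp at hd
  · rename_i lk' st hc
    split_ifs at hd with hp
    · simp only [Prod.mk.injEq, Option.some.injEq, and_true] at hd
      obtain ⟨rfl, rfl, rfl⟩ := hd
      exact ⟨st, hc, hp, rfl⟩
    · simp only [Prod.mk.injEq, Option.some.injEq, and_true] at hd
      obtain ⟨rfl, rfl, rfl⟩ := hd
      exact ⟨st, hc, by simpa using hp, rfl⟩

/-- `Blk.norm`, and undo `Hr.chk` if necessary -/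
theorem formk_s3a {x : Cell C B} {u : List (Cell C B)} (h : Formk k x none none u) :
    (sysk C B k).Eqv u (enck k x) := by
  obtain ⟨h, hb, hg, hd⟩ := h
  refine (skel_le hb.norm).trans ?_
  have hw : complW B k h.g h.ra h.rv := hb.hd_wf
  obtain ⟨⟨t, β, ctl⟩, g, m, ra, rv⟩ := h
  cases ctl with
  | idle =>
    obtain ⟨rfl, rfl⟩ : m = .neu ∧ g = t.kind.big := hg.2
    obtain rfl : mkCell t β _ = x := congrArg Prod.fst hd
    rw [compl_enc_mk]
  | chk =>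
    obtain ⟨rfl, rfl⟩ : m = .a0 ∧ g = t.kind.big := hg.2
    obtain rfl : mkCell t β _ = x := congrArg Prod.fst hd
    rw [compl_enc_mk]
    exact (compl_chk hw hg.1.2.2).symm
  | lock side lk st =>
    cases side <;> simp only [Hd.dec] at hd <;> split_ifs at hd <;> simp at hd

/-- If `τ = some (lk, false)`: undo `Hr.set` where necessary, then undo `Fr.lock`.  If `τ = some (lk, true)`:
`Hr.reset` where necessary, then `Fr.fin`. -/
theorem formk_s3b {x y : Cell C B} {τ : Ifc C B} {u u' : List (Cell C B)} (h : Formk k x none τ u)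
    (h' : Formk k y τ none u') : (sysk C B k).Eqv (u ++ u') (enck k x ++ enck k y) := by
  rcases τ with _ | ⟨lk, c⟩
  · exact (formk_s3a h).append (formk_s3a h')
  obtain ⟨h₁, hb₁, hg₁, hd₁⟩ := h
  obtain ⟨h₂, hb₂, hg₂, hd₂⟩ := h'
  refine ((skel_le hb₁.norm).append (skel_le hb₂.norm)).trans ?_
  have hw₁ : complW B k h₁.g h₁.ra h₁.rv := hb₁.hd_wf
  have hw₂ : complW B k h₂.g h₂.ra h₂.rv := hb₂.hd_wf
  obtain ⟨st₁, hc₁, hp₁, rfl⟩ := compl_dec_left hd₁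
  obtain ⟨st₂, hc₂, hp₂, rfl⟩ := compl_dec_right hd₂
  obtain ⟨⟨t₁, β₁, ctl₁⟩, g₁, m₁, ra₁, rv₁⟩ := h₁
  obtain ⟨⟨t₂, β₂, ctl₂⟩, g₂, m₂, ra₂, rv₂⟩ := h₂
  obtain rfl : ctl₁ = .lock true lk st₁ := hc₁
  obtain rfl : ctl₂ = .lock false lk st₂ := hc₂
  have hv : lk.Valid := hg₁.1.2.2.1
  have hc₁ : lk.Cons true t₁ β₁ := hg₁.1.2.2.2.1
  have hc₂ : lk.Cons false t₂ β₂ := hg₂.1.2.2.2.1
  cases c with
  | false =>
    obtain ⟨e₁, f₁⟩ := compl_pre hw₁ hg₁ hp₁
    obtain ⟨e₂, f₂⟩ := compl_pre hw₂ hg₂ hp₂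
    simp only [Bool.false_eq_true, if_false, compl_enc_mk, ← e₁, ← e₂]
    exact (f₁.append f₂).trans (compl_lock hw₁ hw₂ hv hc₁ hc₂).symm
  | true =>
    obtain ⟨hs, e₁, f₁⟩ := compl_post hw₁ hg₁ hp₁
    obtain ⟨-, e₂, f₂⟩ := compl_post hw₂ hg₂ hp₂
    obtain ⟨h1, h2, h3⟩ := compl_valid_sw hv hs
    simp only [Lk.Cons, if_true, Bool.false_eq_true, if_false, h1] at hc₁ hc₂
    obtain ⟨rfl, rfl⟩ := hc₁
    obtain ⟨rfl, rfl⟩ := hc₂
    simp only [Lk.other, if_true, Bool.false_eq_true, if_false] at e₁ e₂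
    simp only [if_true, compl_enc_mk, h2, h3, ← e₁, ← e₂]
    exact (f₁.append f₂).trans (compl_fin hw₁ hw₂ hv hs)

theorem compl_bbF_small {t t' : Tag C} (h : BBF t t') : t.kind.big = false ∧ t'.kind.big = false := by
  rcases h.2 with ⟨h1, h2⟩ | ⟨h1, h2⟩ <;> rw [h1, h2] <;> exact ⟨rfl, rfl⟩

theorem compl_bbG_small {t t' : Tag C} (h : BBG t t') : t.kind.big = false ∧ t'.kind.big = false := by
  rcases h.2 with ⟨h1, h2⟩ | ⟨h1, h2⟩ <;> rw [h1, h2] <;> exact ⟨rfl, rfl⟩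

theorem compl_eq_big {t t' : Tag C} (h : EQ t t') : t.kind.big = true ∧ t'.kind.big = true := by
  rcases h with ⟨-, h1, h2, -⟩ | ⟨-, h1, h2⟩ <;> rw [h1, h2] <;> exact ⟨rfl, rfl⟩

/-- the record of a lock between the blocks of `x` and `y` -/
def complLk (op : Op) (x y : Cell C B) (s s' : Tag C) (inc : Bool) : Lk C B :=
  ⟨op, x.t, Fin.ofNat (B + 1) x.v, y.t, Fin.ofNat (B + 1) y.v, s, s', inc⟩

theorem compl_digit (v : ℕ) (hv : v < nn B (k + 1)) :
    Fin.ofNat (B + 1) ((v + 1) % nn B (k + 1)) = Fin.ofNat (B + 1) v + 1 ∧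
    (v + 1) % nn B (k + 1) / (B + 1) =
      if Fin.ofNat (B + 1) v = Fin.last B then (v / (B + 1) + 1) % nn B k else v / (B + 1) := by
  have h0 : nn B (k + 1) = (B + 1) * nn B k := by unfold nn; rw [pow_succ']
  rw [h0] at hv ⊢
  constructor
  · ext
    simp [Fin.val_add]
  · rw [Nat.mod_mul_right_div_self]
    have h1 : Fin.ofNat (B + 1) v = Fin.last B ↔ v % (B + 1) = B := by
      rw [Fin.ext_iff]
      simp
    have h2 : v % (B + 1) < B + 1 := Nat.mod_lt v (Nat.succ_pos B)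
    have h3 : (v + 1) / (B + 1) = v / (B + 1) + if B + 1 ∣ v + 1 then 1 else 0 := Nat.succ_div
    have h4 : B + 1 ∣ v + 1 ↔ v % (B + 1) = B := by
      rw [Nat.dvd_iff_mod_eq_zero, ← Nat.mod_add_mod]
      constructor
      · intro h
        by_contra h'
        rw [Nat.mod_eq_of_lt (by omega)] at h
        omega
      · intro h
        rw [h, Nat.mod_self]
    rw [h3]
    by_cases h : v % (B + 1) = B
    · rw [if_pos (h4.2 h), if_pos (h1.2 h)]
    · rw [if_neg (mt h4.1 h), if_neg (mt h1.1 h), add_zero,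
        Nat.mod_eq_of_lt (Nat.div_lt_of_lt_mul hv)]

theorem compl_sw {x y x' y' : Cell C B} {inc : Bool} (hx : WFc (k + 1) x) (hy : WFc (k + 1) y)
    (hx' : WFc (k + 1) x') (hy' : WFc (k + 1) y') (hs : SwR x.t y.t x'.t y'.t inc)
    (hval : SwVal (k + 1) x y x' y' inc) :
    (sysk C B k).Eqv (enck k x ++ enck k y) (enck k x' ++ enck k y') := by
  obtain ⟨c, hc⟩ : ∃ c : Bool, c = (inc && decide (Fin.ofNat (B + 1) x.v = Fin.last B)) := ⟨_, rfl⟩
  obtain ⟨-, -, -, -, b1, b2, b3⟩ := hs.vtx hx.1 hy.1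
  obtain ⟨v1, v2, v3, v4⟩ := hval
  set lk : Lk C B := complLk (if c then .swi else .sw) x y x'.t y'.t inc with hlk
  have hop : lk.op = if c then .swi else .sw := rfl
  have hv : lk.Valid := by
    refine ⟨hx.1, hy.1, compl_beta hx, compl_beta hy, ?_⟩
    rw [hop]
    cases c with
    | false => exact ⟨hs, hx'.1, hy'.1, by simpa [hlk, complLk] using hc.symm⟩
    | true => exact ⟨hs, hx'.1, hy'.1, by simpa [hlk, complLk] using hc.symm⟩
  have hsw : lk.op.isSw = true := by rw [hop]; cases c <;> rfl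
  have hdec : decide (lk.op = .swi) = c := by rw [hop]; cases c <;> rfl
  have hw₁ := compl_w_enc hx
  have hw₂ := compl_w_enc hy
  have hw₃ := compl_w_enc hy'
  have hrv : y'.v / (B + 1) = if c then (x.v / (B + 1) + 1) % nn B k else x.v / (B + 1) := by
    rw [v4, hc]
    cases inc with
    | false => simp
    | true => simpa using (compl_digit x.v (hx.2.1 (b3 rfl)).2).2
  have hβ : Fin.ofNat (B + 1) y'.v = lk.newβ := by
    rw [v4]
    cases inc with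
    | false => rfl
    | true => exact (compl_digit x.v (hx.2.1 (b3 rfl)).2).1
  rw [b2, v3] at hw₃
  have e1 := compl_lock_set hw₁ hw₂ hv (compl_valid_sw hv hsw).1
  have e2 : (sysk C B k).Eqv
      (canon k ⟨⟨lk.tL, lk.βL, .lock true lk .s⟩, x.t.kind.big, .act lk.op true, x.a, x.v / (B + 1)⟩ ++
        canon k ⟨⟨lk.tR, lk.βR, .lock false lk .s⟩, y.t.kind.big, .act lk.op false, y.a, y.v / (B + 1)⟩)
      (canon k ⟨⟨lk.tL, lk.βL, .lock true lk .s⟩, y.t.kind.big, .done (decide (lk.op = .swi)) true,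
          y.a, y.v / (B + 1)⟩ ++
        canon k ⟨⟨lk.tR, lk.βR, .lock false lk .s⟩, x.t.kind.big, .done (decide (lk.op = .swi)) false,
          x.a, y'.v / (B + 1)⟩) := by
    refine canon_rr rfl rfl ⟨compl_wf_r hw₁, compl_wf_r hw₂, compl_wf_r hw₂, compl_wf_r hw₃,
      Or.inl ⟨c, Or.inr ⟨compl_cr_rr _ _, x.t.kind.big, y.t.kind.big, fun h => b3 ?_, rfl, rfl, ?_, ?_⟩,
        rfl, rfl, rfl, hrv⟩⟩
    · rw [hc] at h
      exact (Bool.and_eq_true_iff.1 h).1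
    · rw [hdec]; rfl
    · rw [hdec]; rfl
  have e3 := ((compl_reset (t := lk.tL) (β := lk.βL) (side := true) hw₂ hsw).append
    (compl_reset (t := lk.tR) (β := lk.βR) (side := false) hw₃ hsw)).trans (compl_fin hw₂ hw₃ hv hsw)
  refine (e1.trans (e2.trans e3)).trans (RW.Eqv.of_eq ?_)
  simp only [enck, encH, b1, b2, v1, v2, v3, hβ]
  rfl

/-- a rule between two small cells which only changes the codes -/
theorem compl_small {x y x' y' : Cell C B} {op : Op} (hx : WFc (k + 1) x) (hy : WFc (k + 1) y)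
    (hx' : WFc (k + 1) x') (hy' : WFc (k + 1) y') (b1 : x.t.kind.big = false)
    (b2 : y.t.kind.big = false) (t1 : x'.t = x.t) (t2 : y'.t = y.t) (hop : op ≠ .bt)
    (hv : (complLk op x y x.t y.t false).Valid)
    (hs : (op = .bbF ∧ Fr x.a y.a x'.a y'.a) ∨ (op = .bbG ∧ Gr x.a y.a x'.a y'.a)) :
    (sysk C B k).Eqv (enck k x ++ enck k y) (enck k x' ++ enck k y') := by
  have hw₁ := compl_w_enc hx
  have hw₂ := compl_w_enc hy
  have hw₃ := compl_w_enc hx'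
  have hw₄ := compl_w_enc hy'
  have v1 : x'.v = x.v := by rw [hx.2.2 b1, hx'.2.2 (t1 ▸ b1)]
  have v2 : y'.v = y.v := by rw [hy.2.2 b2, hy'.2.2 (t2 ▸ b2)]
  simp only [enck, encH, t1, t2, v1, v2, b1, b2] at hw₁ hw₂ hw₃ hw₄ ⊢
  refine (compl_lock_set hw₁ hw₂ hv hop).trans
    (RW.Eqv.trans ?_ (compl_lock_set hw₃ hw₄ hv hop).symm)
  refine canon_rr rfl rfl ⟨compl_wf_r hw₁, compl_wf_r hw₂, compl_wf_r hw₃, compl_wf_r hw₄, ?_⟩
  rcases hs with ⟨rfl, h⟩ | ⟨rfl, h⟩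
  · exact Or.inr (Or.inl ⟨⟨compl_cr_rr _ _, Or.inr ⟨rfl, rfl⟩⟩, rfl, rfl, h⟩)
  · exact Or.inr (Or.inr (Or.inl ⟨⟨compl_cr_rr _ _, Or.inr ⟨rfl, rfl⟩⟩, rfl, rfl, h⟩))

theorem compl_Hr {a b : Code C B} {t s : Tag C} (h : Hr a t b s) :
    s.setMode .neu = t.setMode .neu ∧ s.kind.big = t.kind.big := by
  have key : ∀ m, (t.setMode m).setMode .neu = t.setMode .neu ∧
      (t.setMode m).kind.big = t.kind.big := by
    intro m
    obtain ⟨kd, φ, φ', hq, hr⟩ := t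
    cases kd <;> exact ⟨rfl, rfl⟩
  cases h <;> exact key _

/-- lock (`canon_qq`), set (`canon_Hr`), commit (`canon_rr` or `canon_rq`), reset or unset, unlock -/
theorem enck_s4a {x y x' y' : Cell C B} (h : (sysk C B (k + 1)).step x y x' y') :
    (sysk C B k).Eqv (enck k x ++ enck k y) (enck k x' ++ enck k y') := by
  obtain ⟨hx, hy, hx', hy', h⟩ := h
  rcases h with ⟨inc, h1, h2⟩ | ⟨h1, t1, t2, h2⟩ | ⟨h1, t1, t2, h2⟩ | ⟨h1, t1, a2, v2, h2⟩
  · exact compl_sw hx hy hx' hy' h1 h2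
  · exact compl_small (op := .bbF) hx hy hx' hy' (compl_bbF_small h1).1 (compl_bbF_small h1).2 t1 t2
      (by simp) ⟨hx.1, hy.1, compl_beta hx, compl_beta hy, h1⟩
      (Or.inl ⟨rfl, h2⟩)
  · exact compl_small (op := .bbG) hx hy hx' hy' (compl_bbG_small h1).1 (compl_bbG_small h1).2 t1 t2
      (by simp) ⟨hx.1, hy.1, compl_beta hx, compl_beta hy, h1⟩
      (Or.inr ⟨rfl, h2⟩)
  · have b1 : x.t.kind.big = false := by rw [h1.2.1]; rfl
    obtain ⟨m1, b2⟩ := compl_Hr h2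
    have hw₁ := compl_w_enc hx
    have hw₂ := compl_w_enc hy
    have hw₃ := compl_w_enc hx'
    have v1 : x'.v = x.v := by rw [hx.2.2 b1, hx'.2.2 (t1 ▸ b1)]
    have hv : (complLk .bt x y x.t y.t false).Valid := ⟨hx.1, hy.1, compl_beta hx, compl_beta hy, h1⟩
    have hc : (complLk .bt x y x.t y.t false).Cons false y'.t (Fin.ofNat (B + 1) y.v) := by
      simp [Lk.Cons, complLk, m1]
    simp only [enck, encH, t1, v1, a2, v2, b1, b2] at hw₁ hw₃ ⊢
    refine (compl_lock_set1 hw₁ hw₂ hv (compl_cons_right _)).trans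
      (RW.Eqv.trans ?_ (compl_lock_set1 hw₃ hw₂ hv hc).symm)
    exact canon_rq (b := ⟨y'.t, Fin.ofNat (B + 1) y.v, .lock false (complLk .bt x y x.t y.t false) .u⟩)
      rfl hw₂ ⟨compl_wf_r hw₁, compl_wf_q, compl_wf_r hw₃, compl_wf_q,
        Or.inr (Or.inr (Or.inl ⟨⟨compl_cr_rq _ _, Or.inl ⟨rfl, rfl⟩⟩, rfl, rfl,
          y.t, y'.t, _, _, rfl, rfl, rfl, h2⟩))⟩

theorem enck_s4b {x y : Cell C B} (hx : WFc (k + 1) x) (hy : WFc (k + 1) y)
    (h : (sysk C B (k + 1)).z2 x y) : (sysk C B k).Zero (enck k x ++ enck k y) := by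
  have hw₁ := compl_w_enc hx
  have hw₂ := compl_w_enc hy
  rcases h with h | ⟨h1, h2⟩ | ⟨h1, h2⟩ | ⟨h1, h2⟩ | ⟨h1, h2⟩
  · exact canon_qq_zero hw₁ hw₂ (Or.inl h)
  · have hv : (complLk .eq x y x.t y.t false).Valid :=
      ⟨hx.1, hy.1, compl_beta hx, compl_beta hy, h1, congrArg (Fin.ofNat (B + 1)) h2⟩
    refine RW.Zero.of_eqv ?_ (compl_lock_set hw₁ hw₂ hv (by simp [complLk]))
    refine canon_rr_zero hw₁ hw₂ ?_
    refine Or.inr (Or.inl ⟨Or.inr ⟨compl_cr_rr _ _, ?_, ?_⟩, congrArg (· / (B + 1)) h2⟩)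
    · rw [(compl_eq_big h1).1]; rfl
    · rw [(compl_eq_big h1).2]; rfl
  · have hv : (complLk .bbF x y x.t y.t false).Valid :=
      ⟨hx.1, hy.1, compl_beta hx, compl_beta hy, h1⟩
    refine RW.Zero.of_eqv ?_ (compl_lock_set hw₁ hw₂ hv (by simp [complLk]))
    refine canon_rr_zero hw₁ hw₂ ?_
    refine Or.inr (Or.inr (Or.inl ⟨⟨compl_cr_rr _ _, Or.inr ⟨?_, ?_⟩⟩, h2⟩))
    · rw [(compl_bbF_small h1).1]; rfl
    · rw [(compl_bbF_small h1).2]; rfl
  · have hv : (complLk .bbG x y x.t y.t false).Valid :=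
      ⟨hx.1, hy.1, compl_beta hx, compl_beta hy, h1⟩
    refine RW.Zero.of_eqv ?_ (compl_lock_set hw₁ hw₂ hv (by simp [complLk]))
    refine canon_rr_zero hw₁ hw₂ ?_
    refine Or.inr (Or.inr (Or.inr (Or.inl ⟨⟨compl_cr_rr _ _, Or.inr ⟨?_, ?_⟩⟩, h2⟩)))
    · rw [(compl_bbG_small h1).1]; rfl
    · rw [(compl_bbG_small h1).2]; rfl
  · have hv : (complLk .bt x y x.t y.t false).Valid :=
      ⟨hx.1, hy.1, compl_beta hx, compl_beta hy, h1⟩
    refine RW.Zero.of_eqv ?_ (compl_lock_set1 hw₁ hw₂ hv (compl_cons_right _))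
    refine canon_rq_zero hw₁ hw₂ ?_
    refine Or.inr (Or.inr (Or.inr (Or.inl ⟨⟨compl_cr_rq _ _, Or.inl ⟨?_, rfl⟩⟩, _, rfl, rfl, h2⟩)))
    rw [h1.2.1]; rfl

theorem enck_s4c {x : Cell C B} (hx : WFc (k + 1) x) (h : (sysk C B (k + 1)).z1 x) :
    (sysk C B k).Zero (enck k x) := by
  rcases h with h | ⟨h1, h2⟩ | ⟨h1, h2⟩
  · exact absurd hx h
  · exact RW.Zero.of_z1 (x := rCell 0 true (encH x)) (by simp [enck, canon])
      (Or.inr (Or.inl ⟨h1, h2⟩))
  by_cases h3 : Fin.ofNat (B + 1) x.v = 0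
  · have b1 : x.t.kind.big = true := by
      rcases h1 with ⟨h1, -⟩ | h1 <;> rw [h1] <;> rfl
    refine RW.Zero.of_eqv ?_ (compl_chk (compl_w_enc hx) h1)
    refine RW.Zero.of_z1 (x := rCell 0 true _) (List.mem_cons_of_mem _ List.mem_cons_self)
      (Or.inr (Or.inr ⟨Or.inr (by rw [b1]; rfl), fun h4 => h2 ?_⟩))
    have h5 : x.v % (B + 1) = 0 := congrArg Fin.val h3
    have h6 : x.v / (B + 1) = 0 := h4
    rw [← Nat.mod_add_div x.v (B + 1), h5, h6]
    rfl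
  · exact RW.Zero.of_z1 (x := qCell 0 false (encH x)) (by simp [enck, canon])
      (Or.inr (Or.inl ⟨rfl, Or.inr ⟨rfl, h1, h3⟩⟩))

end Crest.Agent.R176
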