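import Crest.Agent.R176.Lift

/-!
# R176 — the light cone lemma: local elements lift multiplicatively
-/

set_option autoImplicit false

namespace Crest.Agent.R176

open scoped commutatorElement

variable {m : ℕ} {S : RW (Fin m)} {D : ℕ} [NeZero D] {G : Type} [Group G]
  {x : Lam D → List (Fin m) → G} {N' : ℕ}

/-- long roots crossing the cut `0`, with source within `e` and target within `f` of the cut -/
def Wr (N' e f : ℕ) : Lam D → ℕ → Prop := fun l k =>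
  N' ≤ k ∧ D ≤ pos 0 l + e ∧ D ≤ pos 0 l + k ∧ pos 0 l + k < D + f

namespace Cone

theorem ring1 {R : Type} [Ring R] (A B : R) : A * B - 1 = (A - 1) + (B - 1) + (A - 1) * (B - 1) := by
  noncomm_ring

theorem ring2 {R : Type} [Ring R] {A B : R} (h : A + B + A * B = 0) : (1 + A) * (1 + B) = 1 := by
  rw [show (1 + A) * (1 + B) = 1 + (A + B + A * B) by noncomm_ring, h, add_zero]

theorem ring3 {R : Type} [Ring R] {A B g : R} (h : (1 + B) * (1 + A) = 1) :
    (1 + B) * g - 1 = (g - 1 - A) + B * (g - 1 - A) := by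
  nth_rewrite 2 [← h]; noncomm_ring

theorem ring4 {R : Type} [Ring R] {A B C : R} (h : B * A = 1) : B * C * A - 1 =
    (C - 1) + (B - 1) * (C - 1) + ((C - 1) + (B - 1) * (C - 1)) * (A - 1) := by
  nth_rewrite 1 [← h]; noncomm_ring

theorem pos_sh_of_lt {α : ZMod D} {l : Lam D} {k : ℕ} (h : pos α l + k < D) :
    pos α (sh l k) = pos α l + k := by
  rw [pos_sh, Nat.mod_eq_of_lt h]

theorem pos_sh_of_ge {α : ZMod D} {l : Lam D} {k : ℕ} (h : D ≤ pos α l + k)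
    (h' : pos α l + k < D + D) : pos α (sh l k) + D = pos α l + k := by
  rw [pos_sh, Nat.mod_eq_sub_mod h, Nat.mod_eq_of_lt (by omega)]
  omega

omit [NeZero D] in
theorem pos_neg (e : ℕ) (l : Lam D) : pos (-(e : ZMod D)) l = pos 0 (sh l e) := by
  simp [pos, sh]

theorem closed_arc (α : ZMod D) : Closed (Arc N' α) := fun l k k' h h' => by
  have := h'.2
  rw [pos_sh_of_lt h.2] at this
  exact ⟨h.1.trans (Nat.le_add_right _ _), by omega⟩

theorem closed_wr {e f : ℕ} (h : e + f ≤ D) : Closed (Wr (D := D) N' e f) := fun l k k' h1 h2 => by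
  obtain ⟨-, -, a, b⟩ := h1
  have := pos_sh_of_ge a (by omega)
  have := h2.2.1
  omega

theorem wr_arc {e f e' : ℕ} (he : e ≤ e') (h : e' + f ≤ D) (l : Lam D) (k : ℕ)
    (hl : Wr N' e f l k) : Arc N' (-(e' : ZMod D)) l k := by
  obtain ⟨a, b, c, d⟩ := hl
  have := pos_lt 0 l
  have := pos_sh_of_ge (α := 0) (l := l) (k := e') (by omega) (by omega)
  exact ⟨a, by rw [pos_neg]; omega⟩

omit [NeZero D] in
theorem wr_lt {e f : ℕ} (h : e + f ≤ D) (l : Lam D) (k : ℕ) (hl : Wr N' e f l k) :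
    N' ≤ k ∧ k < D := by
  obtain ⟨a, b, c, d⟩ := hl
  omega

/-- projection of a unit -/
theorem prj_unit {P Q R : Lam D → ℕ → Prop}
    (h : ∀ l k k', P l k → P (sh l k) k' → (Q l (k + k') ↔ Q l k ∧ Q (sh l k) k'))
    (h1 : ∀ l k, P l k ∧ ¬ Q l k → R l k)
    (h2 : ∀ l k k', P l k ∧ Q l k → P (sh l k) k' ∧ ¬ Q (sh l k) k' → R l (k + k'))
    {g : (MA S D)ˣ} (hg : g ∈ Loc S P) :
    ∃ u h : (MA S D)ˣ, g = u * h ∧ u ∈ Loc S (fun l k => P l k ∧ Q l k) ∧
      (h : MA S D) - 1 ∈ MM S R := by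
  have key : ∀ A B : MA S D, A - 1 ∈ MM S P → B - 1 ∈ MM S P → A * B = 1 →
      (1 + prj S Q (A - 1)) * (1 + prj S Q (B - 1)) = 1 := fun A B hA hB e => by
    have e2 := congrArg (prj S Q) (ring1 A B)
    rw [e, sub_self, map_add, map_add, prj_mul h hA hB, map_zero] at e2
    exact ring2 e2.symm
  let u : (MA S D)ˣ := ⟨1 + prj S Q (g - 1), 1 + prj S Q ((g⁻¹ : (MA S D)ˣ) - 1),
    key _ _ hg.1 hg.2 g.mul_inv, key _ _ hg.2 hg.1 g.inv_mul⟩
  refine ⟨u, u⁻¹ * g, (mul_inv_cancel_left _ _).symm, ⟨?_, ?_⟩, ?_⟩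
  · change 1 + prj S Q (g - 1) - 1 ∈ _
    rw [add_sub_cancel_left]
    exact prj_mem hg.1
  · change 1 + prj S Q ((g⁻¹ : (MA S D)ˣ) - 1) - 1 ∈ _
    rw [add_sub_cancel_left]
    exact prj_mem hg.2
  · have e : ((u⁻¹ * g : (MA S D)ˣ) : MA S D) - 1 = ((g - 1) - prj S Q (g - 1)) +
        prj S Q ((g⁻¹ : (MA S D)ˣ) - 1) * ((g - 1) - prj S Q (g - 1)) := ring3 u.inv_val
    rw [e]
    exact add_mem (MM_mono h1 (sub_prj_mem hg.1)) (MM_mul h2 (prj_mem hg.2) (sub_prj_mem hg.1))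

theorem UT_ext (hx : XSys S x N') (hN : 1 ≤ N') (α : ZMod D) {p q : G × (MA S D)ˣ}
    (hp : p ∈ UT S x (Arc N' α)) (hq : q ∈ UT S x (Arc N' α)) (h : p.2 = q.2) : p = q := by
  have := UT_inj hx hN α (mul_mem (inv_mem hp) hq) (by simp [h])
  exact Prod.ext (inv_mul_eq_one.1 this) h

theorem prj_arc_mul (hN : 1 ≤ N') {e f : ℕ} (h : e + f ≤ D) {p q : G × (MA S D)ˣ}
    (hp : p ∈ UT S x (Arc N' 0)) (hq : q ∈ UT S x (Wr N' e f)) :
    prj S (Arc N' 0) (((p.2 * q.2 : (MA S D)ˣ) : MA S D) - 1) = (p.2 : MA S D) - 1 := by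
  have hA := (UT_loc (closed_arc 0) (fun l k h => by have := h.1; have := h.2; omega) hp).1
  have hC := (UT_loc (closed_wr h) (fun l k h' => by have := wr_lt h l k h'; omega) hq).1
  have e1 : ((p.2 * q.2 : (MA S D)ˣ) : MA S D) - 1 = ((p.2 : MA S D) - 1) + ((q.2 : MA S D) - 1) +
      ((p.2 : MA S D) - 1) * ((q.2 : MA S D) - 1) := ring1 _ _
  have hAC := MM_mul (R := fun l k => D ≤ pos 0 l + k) (fun l k k' a b => by
    have := b.2.2.1
    rw [pos_sh_of_lt a.2] at this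
    omega) hA hC
  rw [e1, map_add, map_add, prj_eq_self (fun _ _ h => h) hA,
    prj_eq_zero (fun l k a b => by have := a.2.2.1; have := b.2; omega) hC,
    prj_eq_zero (fun l k a b => by have := b.2; omega) hAC, add_zero, add_zero]

end Cone

open Cone

/-- Factorisation `g = g_I · h`: `g_I = 1 + prj (Arc 0) (g - 1)` has the inverse `1 + prj (Arc 0) (g⁻¹ - 1)` because
`prj (Arc N' 0)` is multiplicative on `MM (Rng N' d)` (`prj_mul`, `pos_sh`), and `h - 1 = g_I⁻¹ (g - g_I)`. -/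
theorem loc_factor {d : ℕ} {g : (MA S D)ˣ} (hg : g ∈ Loc S (Rng N' d)) :
    ∃ u h : (MA S D)ˣ, g = u * h ∧ u ∈ Loc S (fun l k => Arc N' 0 l k ∧ k ≤ d) ∧
      (h : MA S D) - 1 ∈ MM S (Wr N' (2 * d) d) := by
  obtain ⟨u, h, h1, h2, h3⟩ := prj_unit (Q := Arc N' 0) (R := Wr N' (2 * d) d) (fun l k k' a b => by
      constructor
      · intro c
        have := c.2
        exact ⟨⟨a.1, by omega⟩, b.1, by rw [pos_sh_of_lt (by omega)]; omega⟩
      · exact fun c => closed_arc 0 l k k' c.1 c.2)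
    (fun l k a => by
      obtain ⟨⟨a, b⟩, c⟩ := a
      have := pos_lt 0 l
      simp only [Arc, Wr] at c ⊢
      omega)
    (fun l k k' a b => by
      obtain ⟨⟨a1, a2⟩, -, a3⟩ := a
      obtain ⟨⟨b1, b2⟩, b3⟩ := b
      simp only [Arc, Wr, pos_sh_of_lt a3] at b3 ⊢
      omega) hg
  exact ⟨u, h, h1, Loc_mono (fun l k a => ⟨a.2, a.1.2⟩) h2, h3⟩

/-- Conjugation.  Let `P_M l k := Arc 0 ∧ d ≤ pos ∧ pos + k < D - 2 d`; `prj P_M` is multiplicative on `MM (Arc 0)`, so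
`u = u_M u_E` with `u_M ∈ Loc (P_M ∧ k ≤ d)`, and `u_E - 1 = u_M⁻¹ (u - u_M) ∈ MM P_E`,
`P_E l k := Arc 0 ∧ (pos + k < 2 d ∨ D - 4 d ≤ pos)` (closed, contained in `Arc 0` and in `Arc (-4 d)`).  Lift `u_M`, `u_E`
(`UT_surj`); by `UT_inj` the given lift of `u` is the product of the lifts.  The lift of `u_M` commutes with `q`
(`UT_comm`), so the conjugate lies in `UT (Arc (-4 d))`; its matrix lies in `1 + MM (Wr (3 d) (2 d))` and has a lift in
`UT (Wr (4 d) (2 d)) ≤ UT (Arc (-4 d))`; uniqueness (`UT_inj`). -/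
theorem conj_mem (hx : XSys S x N') (hN : 1 ≤ N') {d : ℕ} (hD : 10 * d ≤ D) (hd : N' ≤ d)
    {p q : G × (MA S D)ˣ} (hp : p ∈ UT S x (Arc N' 0))
    (hp' : p.2 ∈ Loc S (fun l k => Arc N' 0 l k ∧ k ≤ d)) (hq : q ∈ UT S x (Wr N' (2 * d) d)) :
    p⁻¹ * q * p ∈ UT S x (Wr N' (4 * d) (2 * d)) := by
  obtain ⟨u, h, h1, h2, h3⟩ := prj_unit (Q := fun l k => d ≤ pos 0 l ∧ pos 0 l + k + 2 * d < D)
    (R := fun l k => Arc N' 0 l k ∧ (pos 0 l + k < 2 * d ∨ D ≤ pos 0 l + 4 * d))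
    (fun l k k' a b => by
      simp only [pos_sh_of_lt a.1.2]
      omega)
    (fun l k a => by
      obtain ⟨⟨a, b⟩, c⟩ := a
      exact ⟨a, by omega⟩)
    (fun l k k' a b => by
      obtain ⟨⟨a1, a2⟩, a3⟩ := a
      obtain ⟨⟨b1, b2⟩, b3⟩ := b
      refine ⟨closed_arc 0 l k k' a1 b1, ?_⟩
      rw [pos_sh_of_lt a1.2] at b3
      omega) hp'
  obtain ⟨pM, hM, rfl⟩ := UT_surj (x := x) hN (α := 0)
    (P := fun l k => Arc N' 0 l k ∧ d ≤ pos 0 l ∧ pos 0 l + k + 2 * d < D)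
    (fun l k k' a b => ⟨closed_arc 0 l k k' a.1 b.1, a.2.1, by
      have := b.2.2
      rw [pos_sh_of_lt a.1.2] at this
      omega⟩) (fun l k a => a.1) (MM_mono (fun l k a => ⟨a.1.1, a.2⟩) h2.1)
  obtain ⟨pE, hE, rfl⟩ := UT_surj (x := x) hN (α := 0) (fun l k k' a b =>
    ⟨closed_arc 0 l k k' a.1 b.1, by
      have := a.2
      have := b.2
      rw [pos_sh_of_lt a.1.2] at this
      omega⟩) (fun l k a => a.1) h3
  have e : p = pM * pE := UT_ext hx hN 0 hp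
    (mul_mem (UT_mono (fun l k a => a.1) hM) (UT_mono (fun l k a => a.1) hE)) h1
  have hc : Commute pM q := UT_comm hx (fun l k a => ⟨a.1.1, by omega⟩) (wr_lt (by omega))
    (fun l k k' a b => by
      have := b.2.1
      rw [pos_sh_of_lt a.1.2] at this
      omega)
    (fun l k k' a b => by
      have := pos_sh_of_ge a.2.2.1 (by have := a.2.2.2; omega)
      have := a.2.2.2
      have := b.2.1
      omega) hM hq
  have hE' : pE ∈ UT S x (Arc N' (-((4 * d : ℕ) : ZMod D))) := UT_mono (fun l k a => by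
    obtain ⟨⟨a1, a2⟩, a3 | a3⟩ := a
    · exact ⟨a1, by rw [pos_neg, pos_sh_of_lt (by omega)]; omega⟩
    · have := pos_sh_of_ge a3 (by omega)
      exact ⟨a1, by rw [pos_neg]; omega⟩) hE
  have h4 : p⁻¹ * q * p ∈ UT S x (Arc N' (-((4 * d : ℕ) : ZMod D))) := by
    have : p⁻¹ * q * p = pE⁻¹ * q * pE := by
      rw [e, mul_inv_rev, mul_assoc pE⁻¹, ← mul_assoc _ pM, mul_assoc pE⁻¹, mul_assoc pM⁻¹, ← hc.eq,
        inv_mul_cancel_left]
    rw [this]
    exact mul_mem (mul_mem (inv_mem hE') (UT_mono (wr_arc (by omega) (by omega)) hq)) hE'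
  have hC := (UT_loc (closed_wr (by omega))
    (fun l k h' => by have := wr_lt (by omega) l k h'; omega) hq).1
  have h5 : ((p⁻¹ * q * p).2 : MA S D) - 1 ∈ MM S (Wr N' (4 * d) (2 * d)) := by
    have a1 : ((q.2 : MA S D) - 1) + (((p.2⁻¹ : (MA S D)ˣ) : MA S D) - 1) * ((q.2 : MA S D) - 1) ∈
        MM S (Wr N' (4 * d) d) := add_mem (MM_mono (fun l k a => by
          simp only [Wr] at a ⊢
          omega) hC) (MM_mul (fun l k k' a b => by
          obtain ⟨⟨a1, a2⟩, a3⟩ := a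
          simp only [Wr, pos_sh_of_lt a2] at b ⊢
          omega) hp'.2 hC)
    have a2 := add_mem (MM_mono (Q := Wr N' (4 * d) (2 * d)) (fun l k a => by
      simp only [Wr] at a ⊢
      omega) a1) (MM_mul (fun l k k' a b => by
      have := b.2
      simp only [Wr] at a ⊢
      omega) a1 hp'.1)
    rwa [← ring4 p.2.inv_mul] at a2
  obtain ⟨r, hr, e'⟩ := UT_surj (x := x) hN (closed_wr (by omega))
    (wr_arc (e' := 4 * d) le_rfl (by omega)) h5
  rwa [← UT_ext hx hN _ (UT_mono (wr_arc le_rfl (by omega)) hr) h4 e']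

/-- Define `s g = p.1 * q.1` if `g = p.2 * q.2` with `p ∈ UT (Arc 0)`, `q ∈ UT (Wr (4 d) (2 d))`.  This is well defined:
`prj (Arc 0)` recovers `p.2 - 1` from `g - 1`, then use `UT_inj` for the arcs cut at `0` and at `-4 d`.
Multiplicativity: `(p q) (p' q') = (p p') ((p'⁻¹ q p') q')`, `loc_factor`, `UT_surj`, `conj_mem`. -/
theorem exists_s (hx : XSys S x N') (hN : 1 ≤ N') {d : ℕ} (hD : 10 * d ≤ D) (hd : N' ≤ d) :
    ∃ s : (MA S D)ˣ → G,
      (∀ g ∈ Loc S (Rng N' d), ∀ g' ∈ Loc S (Rng N' d), s (g * g') = s g * s g') ∧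
      ∀ (l : Lam D) (w : List (Fin m)) (g : (MA S D)ˣ), N' ≤ w.length → w.length ≤ d →
        (g : MA S D) = 1 + EE S l w → s g = x l w := by
  classical
  have hw : ∀ l k, Wr (D := D) N' (2 * d) d l k → Wr N' (4 * d) (2 * d) l k := fun l k a => by
    simp only [Wr] at a ⊢
    omega
  let T : (MA S D)ˣ → (G × (MA S D)ˣ) × (G × (MA S D)ˣ) → Prop := fun g c =>
    c.1 ∈ UT S x (Arc N' 0) ∧ c.2 ∈ UT S x (Wr N' (4 * d) (2 * d)) ∧ g = c.1.2 * c.2.2
  let s : (MA S D)ˣ → G := fun g => if h : ∃ c, T g c then h.choose.1.1 * h.choose.2.1 else 1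
  have hs : ∀ p ∈ UT S x (Arc N' 0), ∀ q ∈ UT S x (Wr N' (4 * d) (2 * d)),
      s (p.2 * q.2) = p.1 * q.1 := fun p hp q hq => by
    have h : ∃ c, T (p.2 * q.2) c := ⟨(p, q), hp, hq, rfl⟩
    obtain ⟨h1, h2, h3⟩ := h.choose_spec
    have e1 : p.2 = h.choose.1.2 := by
      have := prj_arc_mul hN (by omega) hp hq
      rw [h3, prj_arc_mul hN (by omega) h1 h2, sub_left_inj] at this
      exact Units.ext this.symm
    have e2 : q.2 = h.choose.2.2 := mul_left_cancel (h3.trans (by rw [← e1]))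
    rw [show s (p.2 * q.2) = h.choose.1.1 * h.choose.2.1 from dif_pos h,
      ← UT_ext hx hN 0 hp h1 e1, ← UT_ext hx hN _
        (UT_mono (wr_arc (e' := 4 * d) le_rfl (by omega)) hq)
        (UT_mono (wr_arc le_rfl (by omega)) h2) e2]
  have hf : ∀ g ∈ Loc S (Rng N' d), ∃ p ∈ UT S x (Arc N' 0), ∃ q ∈ UT S x (Wr N' (2 * d) d),
      g = p.2 * q.2 ∧ p.2 ∈ Loc S (fun l k => Arc N' 0 l k ∧ k ≤ d) := fun g hg => by
    obtain ⟨u, h, h1, h2, h3⟩ := loc_factor hg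
    obtain ⟨p, hp, rfl⟩ := UT_surj (x := x) hN (closed_arc 0) (fun _ _ a => a)
      (MM_mono (fun l k a => a.1) h2.1)
    obtain ⟨q, hq, rfl⟩ := UT_surj (x := x) hN (closed_wr (by omega))
      (wr_arc (e' := 4 * d) (by omega) (by omega)) h3
    exact ⟨p, hp, q, hq, h1, h2⟩
  refine ⟨s, fun g hg g' hg' => ?_, fun l w g h1 h2 h3 => ?_⟩
  · obtain ⟨p, hp, q, hq, rfl, -⟩ := hf g hg
    obtain ⟨p', hp', q', hq', rfl, h⟩ := hf g' hg'
    have := hs _ (mul_mem hp hp') _ (mul_mem (conj_mem hx hN hD hd hp' h hq) (UT_mono hw hq'))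
    rw [hs p hp q (UT_mono hw hq), hs p' hp' q' (UT_mono hw hq')]
    simp only [Prod.snd_mul, Prod.snd_inv, Prod.fst_mul, Prod.fst_inv, mul_assoc,
      mul_inv_cancel_left] at this ⊢
    exact this
  · by_cases h : pos 0 l + w.length < D
    · have := hs (x l w, g) (Subgroup.subset_closure ⟨l, w, ⟨h1, h⟩, rfl, h3⟩) 1 (one_mem _)
      simpa using this
    · have := pos_lt 0 l
      have := hs 1 (one_mem _) (x l w, g) (Subgroup.subset_closure
        ⟨l, w, ⟨h1, by omega, by omega, by omega⟩, rfl, h3⟩)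
      simpa using this

end Crest.Agent.R176
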