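import Crest.Agent.R176.Ext

/-!
# R176 — diagonal elements do not depend on the cut
-/

set_option autoImplicit false

namespace Crest.Agent.R176

open scoped commutatorElement

variable {X : Type} {S : RW X} {G : Type} [Group G] {y : V → List X → G} {N D : ℕ}
  {addr : List X → ZMod D}

theorem dg_conj {H : Type} [Group H] {A B : H} (hA : A * A = 1) (hB : B * B = 1) (Y : H) :
    ⁅A, B⁆ * Y * ⁅A, B⁆⁻¹ = MulAut.conj A (MulAut.conj B (MulAut.conj A (MulAut.conj B Y))) := by
  have h1 : A⁻¹ = A := inv_eq_of_mul_eq_one_right hA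
  have h2 : B⁻¹ = B := inv_eq_of_mul_eq_one_right hB
  simp only [commutatorElement_def, MulAut.conj_apply, mul_inv_rev, h1, h2, mul_assoc]

theorem dg_fix {H : Type} [Group H] {A Y : H} (h : Commute A Y) : MulAut.conj A Y = Y := by
  rw [MulAut.conj_apply, h.eq, mul_inv_cancel_right]

theorem dg_left {H : Type} [Group H] {A Y Z : H} (h : ⁅A, Y⁆ = Z) : MulAut.conj A Y = Z * Y := by
  rw [← h, commutatorElement_def, MulAut.conj_apply, inv_mul_cancel_right]

theorem dg_right {H : Type} [Group H] {A Y Z : H} (hY : Y * Y = 1) (h : ⁅Y, A⁆ = Z) :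
    MulAut.conj A Y = Y * Z := by
  have h1 : Y⁻¹ = Y := inv_eq_of_mul_eq_one_right hY
  rw [← h, commutatorElement_def, MulAut.conj_apply, h1]
  simp only [← mul_assoc, hY, one_mul]

theorem dg_chain (h : StAll S y) {a c : V} {w w' : List X} (hc : a + ln w = c) (h1 : ln w ≠ 0)
    (h2 : ln w' ≠ 0) (h3 : ln w + ln w' ≠ 0) : ⁅y a w, y c w'⁆ = y a (w ++ w') :=
  hc ▸ h.chain a h1 h2 h3

theorem dg_comm_zero (h : StAll S y) {a c : V} {w w' : List X} (hc : a + ln w = c) (h1 : ln w ≠ 0)
    (h2 : ln w' ≠ 0) (h3 : ln w + ln w' ≠ 0) (hz : S.Zero (w ++ w')) : Commute (y a w) (y c w') :=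
  commutatorElement_eq_one_iff_commute.1 ((dg_chain h hc h1 h2 h3).trans (h.zero a hz))

/-- Moving the cut (`comm_assoc` with `A = y a p`, `U = y (a + ln p) u`, `B = y (a + ln p + ln u) s`; the required
commutations follow from `chain` and the vanishing of `s ++ p` and of `u ++ s ++ p ++ u`). -/
theorem cut_move (h : StAll S y) (a : V) {p u s : List X} (hp : ln p ≠ 0) (hu : ln u ≠ 0)
    (hpu : ln p + ln u ≠ 0) (ht : ln p + ln u + ln s = 0) (hz : S.Zero (s ++ p)) :
    ⁅y a (p ++ u), y (a + ln (p ++ u)) s⁆ = ⁅y a p, y (a + ln p) (u ++ s)⁆ := by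
  have hs : ln s ≠ 0 := fun e => hpu (by rw [e, add_zero] at ht; exact ht)
  have hus : ln u + ln s ≠ 0 := fun e => hp (by rw [add_assoc, e, add_zero] at ht; exact ht)
  have hsp : ln s + ln p ≠ 0 := fun e => hu (by linear_combination ht - e)
  have e1 := h.chain a hp hu hpu
  have e2 := h.chain (a + ln p) hu hs hus
  rw [ln_append, ← add_assoc, ← e1, ← e2]
  refine comm_assoc ?_ ?_ ?_
  · exact (dg_comm_zero h (by linear_combination ht) hs hp hsp hz).symm
  · rw [e2]
    refine h.comm (fun e => hpu ?_) fun e => hp ?_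
    · rw [ln_append] at e
      linear_combination ht - e
    · linear_combination ht - e
  · rw [e1, e2]
    refine dg_comm_zero h (by rw [ln_append]; linear_combination ht) (by rwa [ln_append])
      (by rwa [ln_append]) (fun e => hu ?_) ?_
    · rw [ln_append, ln_append] at e
      linear_combination e - ht
    · simpa using hz.infix u u

theorem dg_exists_cut (w : List X) (hw : 2 * N + 8 ≤ w.length) (e₁ e₂ e₃ : V) :
    ∃ p s, w = p ++ s ∧ N ≤ p.length ∧ N ≤ s.length ∧ ln p ≠ e₁ ∧ ln p ≠ e₂ ∧ ln p ≠ e₃ := by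
  have key : ∀ e₁ e₂ e₃ : ZMod 7, ∃ e : ZMod 7, e ≠ e₁ ∧ e ≠ e₂ ∧ e ≠ e₃ := by decide
  obtain ⟨e, h1, h2, h3⟩ := key e₁ e₂ e₃
  have hv : (e - N).val < 7 := ZMod.val_lt _
  have hl : (w.take (N + (e - N).val)).length = N + (e - N).val := by
    rw [List.length_take]; omega
  have he : ln (w.take (N + (e - N).val)) = e := by
    rw [ln, hl]; simp
  refine ⟨w.take (N + (e - N).val), w.drop (N + (e - N).val), (List.take_append_drop _ _).symm,
    by omega, by rw [List.length_drop]; omega, ?_, ?_, ?_⟩ <;> rw [he] <;> assumption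

theorem dg_nz_left {p s : List X} (h : ¬ S.Zero (p ++ s)) : ¬ S.Zero p :=
  fun hz => h (hz.append_right s)

theorem dg_nz_right {p s : List X} (h : ¬ S.Zero (p ++ s)) : ¬ S.Zero s :=
  fun hz => h (hz.append_left p)

theorem dg_one (h : StAll S y) (a c : V) {p s : List X} (hz : S.Zero p ∨ S.Zero s) :
    ⁅y a p, y c s⁆ = 1 := by
  rcases hz with hz | hz
  · rw [h.zero a hz, commutatorElement_one_left]
  · rw [h.zero c hz, commutatorElement_one_right]

/-- mismatched cuts -/
def DgMis (S : RW X) (addr : List X → ZMod D) (p s : List X) : Prop :=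
  ¬ S.Zero p → ¬ S.Zero s → addr p ≠ addr s + (s.length : ZMod D)

theorem dg_move (h : StAll S y) (ha : S.IsAddr N D addr) (a : V) {p s p' s' : List X}
    (e : p ++ s = p' ++ s') (hp : N ≤ p.length) (hs : N ≤ s.length) (hp' : N ≤ p'.length)
    (hs' : N ≤ s'.length) (hp0 : ln p ≠ 0) (hp0' : ln p' ≠ 0) (hne : ln p' ≠ ln p)
    (h0 : ln p + ln s = 0) (zp : ¬ S.Zero p) (zs : ¬ S.Zero s) (hm : DgMis S addr p s) :
    ⁅y a p, y (a + ln p) s⁆ = ⁅y a p', y (a + ln p') s'⁆ ∧ DgMis S addr p' s' := by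
  have hm' := hm zp zs
  rcases List.append_eq_append_iff.1 e with ⟨u, rfl, rfl⟩ | ⟨u, rfl, rfl⟩
  · have e1 : addr p ≠ addr s' + (s'.length : ZMod D) := by
      rw [ha.left u s' hs' zs, add_assoc, ← Nat.cast_add, ← List.length_append]
      exact hm'
    rw [ln_append] at hp0' hne h0
    refine ⟨(cut_move h a hp0 (fun hu => hne (by rw [hu, add_zero])) hp0' (by rw [add_assoc, h0])
      (ha.zero_of_ne hs' hp e1)).symm, fun z1 _ => ?_⟩
    rw [ha.right p u hp z1]
    exact e1
  · have e1 : addr p' ≠ addr s + (s.length : ZMod D) := by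
      rw [← ha.right p' u hp' zp]
      exact hm'
    rw [ln_append] at hp0 hne h0
    refine ⟨cut_move h a hp0' (fun hu => hne (by rw [hu, add_zero])) hp0 h0
      (ha.zero_of_ne hs hp' e1), fun _ z2 => ?_⟩
    rw [ha.left u s hs z2, add_assoc, ← Nat.cast_add, ← List.length_append] at e1
    exact e1

theorem dg_split {p s a b : List X} {x x' : X} (e : p ++ s = a ++ x :: x' :: b)
    (hne : ln p ≠ ln a + 1) :
    (∃ c, p = a ++ x :: x' :: c ∧ b = c ++ s) ∨ ∃ c, a = p ++ c ∧ s = c ++ x :: x' :: b := by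
  rcases List.append_eq_append_iff.1 e with ⟨u, h1, h2⟩ | ⟨u, h1, h2⟩
  · exact Or.inr ⟨u, h1, h2⟩
  · rcases u with _ | ⟨z, _ | ⟨z', c⟩⟩
    · exact Or.inr ⟨[], by simpa using h1.symm, by simpa using h2.symm⟩
    · exact (hne (by rw [h1]; simp)).elim
    · simp only [List.cons_append, List.cons.injEq] at h2
      obtain ⟨rfl, rfl, rfl⟩ := h2
      exact Or.inl ⟨c, h1, rfl⟩

/-- a step which does not cross the cut -/
theorem dg_step {p s a b : List X} {x x' z z' : X} (e : p ++ s = a ++ x :: x' :: b)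
    (hne : ln p ≠ ln a + 1) (hr : S.step x x' z z' ∨ S.step z z' x x') :
    ∃ p' s', a ++ z :: z' :: b = p' ++ s' ∧ S.Eqv p p' ∧ S.Eqv s s' := by
  rcases dg_split e hne with ⟨c, rfl, rfl⟩ | ⟨c, rfl, rfl⟩
  · exact ⟨a ++ z :: z' :: c, s, by simp,
      (RW.sstep_iff.2 ⟨a, c, x, x', z, z', hr, rfl, rfl⟩).eqv, RW.Eqv.rfl⟩
  · exact ⟨p, c ++ z :: z' :: b, by simp, RW.Eqv.rfl,
      (RW.sstep_iff.2 ⟨c, b, x, x', z, z', hr, rfl, rfl⟩).eqv⟩

theorem dg_ln {w w' : List X} (e : S.Eqv w w') : ln w' = ln w := by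
  rw [ln, ln, e.length_eq]

theorem dg_zero (h : StAll S y) (ha : S.IsAddr N D addr) (a : V) {w : List X} (hz : S.Zero w) :
    ∀ {p s : List X}, w = p ++ s → N ≤ p.length → N ≤ s.length → 2 * N + 8 ≤ w.length → ln p ≠ 0 →
      ln p + ln s = 0 → DgMis S addr p s → ⁅y a p, y (a + ln p) s⁆ = 1 := by
  -- it suffices to treat cuts avoiding one residue
  have red : ∀ (w : List X) (r : V), (∀ {p s : List X}, w = p ++ s → N ≤ p.length → N ≤ s.length →
      ln p ≠ 0 → ln p ≠ r → ln p + ln s = 0 → DgMis S addr p s → ⁅y a p, y (a + ln p) s⁆ = 1) →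
      ∀ {p s : List X}, w = p ++ s → N ≤ p.length → N ≤ s.length → 2 * N + 8 ≤ w.length →
      ln p ≠ 0 → ln p + ln s = 0 → DgMis S addr p s → ⁅y a p, y (a + ln p) s⁆ = 1 := by
    intro w r H p s e hp hs hw hp0 h0 hm
    by_cases zp : S.Zero p
    · exact dg_one h _ _ (Or.inl zp)
    by_cases zs : S.Zero s
    · exact dg_one h _ _ (Or.inr zs)
    obtain ⟨p', s', e', hp', hs', n1, n2, n3⟩ := dg_exists_cut w hw 0 r (ln p)
    obtain ⟨k1, k2⟩ := dg_move h ha a (e.symm.trans e') hp hs hp' hs' hp0 n1 n3 h0 zp zs hm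
    rw [k1]
    refine H e' hp' hs' n1 n2 ?_ k2
    rw [← ln_append, ← e', e, ln_append, h0]
  obtain ⟨v, hv, hvz⟩ := hz
  induction hv using Relation.ReflTransGen.head_induction_on with
  | refl =>
    rcases hvz with ⟨x, hx, hx'⟩ | ⟨c, b, x, x', hx, rfl⟩
    · rintro p s rfl - - - - - -
      exact dg_one h _ _ ((List.mem_append.1 hx).imp (fun m => RW.Zero.of_z1 m hx')
        fun m => RW.Zero.of_z1 m hx')
    · intro p s e hp hs hw
      refine red _ (ln c + 1) (fun e _ _ _ hne _ _ => dg_one h _ _ ?_) e hp hs hw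
      rcases dg_split e.symm hne with ⟨c', rfl, -⟩ | ⟨c', -, rfl⟩
      · exact Or.inl (RW.Zero.of_z2 hx _ _)
      · exact Or.inr (RW.Zero.of_z2 hx _ _)
  | head hstep _ ih =>
    have hl := hstep.length_eq
    obtain ⟨c, b, x, x', z, z', hr, rfl, rfl⟩ := RW.sstep_iff.1 hstep
    intro p s e hp hs hw
    refine red _ (ln c + 1) (fun {p s} e hp hs hp0 hne h0 hm => ?_) e hp hs hw
    obtain ⟨p', s', e', k1, k2⟩ := dg_step e.symm hne hr
    rw [h.eqv a k1, h.eqv _ k2, ← dg_ln k1]
    refine ih e' (k1.length_eq ▸ hp) (k2.length_eq ▸ hs) (hl ▸ hw) (by rwa [dg_ln k1])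
      (by rwa [dg_ln k1, dg_ln k2]) fun z1 z2 => ?_
    have z1' : ¬ S.Zero p := fun hz => z1 (k1.zero_iff.1 hz)
    have z2' : ¬ S.Zero s := fun hz => z2 (k2.zero_iff.1 hz)
    rw [ha.eqv p p' z1' hp k1, ha.eqv s s' z2' hs k2, ← k2.length_eq]
    exact hm z1' z2'

/-- Call a cut `(p, s)` of a word admissible if `N ≤ |p|`, `N ≤ |s|`, `ln p ≠ 0`, and *mismatched* if
`¬ Zero p → ¬ Zero s → addr p ≠ addr s + |s|`.  If both parts are non-zero, moving the cut by one or two letters to
another admissible cut does not change the commutator (`cut_move`, `IsAddr.zero_of_ne`, `IsAddr.left/right`) and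
preserves the mismatch.  A rule applied inside a part changes nothing; a pair separated by the cut is first brought
into one part by moving the cut.  If `p ++ s` is zero: induction along a chain of steps to a word with a visible zero
(as soon as a part is zero the commutator is `1`).  If it is non-zero all parts are non-zero, move the cut to
`cut0 N`. -/
theorem cut_eq (h : StAll S y) (ha : S.IsAddr N D addr) (a : V) {p s : List X} (hp : N ≤ p.length)
    (hs : N ≤ s.length) (ht : 2 * N + 8 ≤ p.length + s.length) (hp0 : ln p ≠ 0) (h0 : ln p + ln s = 0)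
    (hm : ¬ S.Zero p → ¬ S.Zero s → addr p ≠ addr s + (s.length : ZMod D)) :
    ⁅y a p, y (a + ln p) s⁆ = diagEl S y N a (p ++ s) := by
  unfold diagEl
  split_ifs with hz
  · exact dg_zero h ha a hz rfl hp hs (by simpa using ht) hp0 h0 hm
  have hc : N ≤ cut0 N ∧ cut0 N ≤ N + 1 ∧ (cut0 N : V) ≠ 0 := by
    unfold cut0
    split_ifs with h1
    · refine ⟨by omega, le_rfl, ?_⟩
      rw [Nat.cast_add, h1]
      decide
    · exact ⟨le_rfl, by omega, h1⟩
  have hl : ((p ++ s).take (cut0 N)).length = cut0 N := by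
    rw [List.length_take, List.length_append]; omega
  have hl' : ln ((p ++ s).take (cut0 N)) = (cut0 N : V) := by rw [ln, hl]
  obtain ⟨p', s', e', hp', hs', n1, n2, n3⟩ :=
    dg_exists_cut (N := N) (p ++ s) (by simpa using ht) 0 (cut0 N : V) (ln p)
  obtain ⟨k1, k2⟩ := dg_move h ha a e' hp hs hp' hs' hp0 n1 n3 h0 (dg_nz_left hz) (dg_nz_right hz) hm
  obtain ⟨k3, -⟩ := dg_move h ha a (e'.symm.trans (List.take_append_drop (cut0 N) _).symm) hp' hs'
    (by omega) (by rw [List.length_drop, List.length_append]; omega) n1 (hl' ▸ hc.2.2)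
    (hl' ▸ n2.symm) (by rw [← ln_append, ← e', ln_append, h0]) (dg_nz_left (e' ▸ hz))
    (dg_nz_right (e' ▸ hz)) k2
  rw [k1, k3, hl']

/-- for words shorter than `D` the mismatch is automatic, unless the word is zero -/
theorem cut_eq_of_nz (h : StAll S y) (ha : S.IsAddr N D addr) (a : V) {p s : List X} (hp : N ≤ p.length)
    (hs : N ≤ s.length) (ht : 2 * N + 8 ≤ p.length + s.length) (hD : p.length + s.length < D)
    (hp0 : ln p ≠ 0) (h0 : ln p + ln s = 0) (hz : ¬ S.Zero (p ++ s)) :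
    S.Zero (s ++ p) ∧ ⁅y a p, y (a + ln p) s⁆ = diagEl S y N a (p ++ s) := by
  have hm : addr p ≠ addr s + (s.length : ZMod D) := by
    rw [ha.left p s hs hz, ha.right p s hp hz, add_assoc, ← Nat.cast_add]
    intro e
    have e' : ((p.length + s.length : ℕ) : ZMod D) = 0 := left_eq_add.1 e
    rw [ZMod.natCast_eq_zero_iff] at e'
    have := Nat.le_of_dvd (by omega) e'
    omega
  exact ⟨ha.zero_of_ne hs hp hm, cut_eq h ha a hp hs ht hp0 h0 fun _ _ => hm⟩

theorem diagEl_eqv (h : StAll S y) (ha : S.IsAddr N D addr) (a : V) {w w' : List X}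
    (ht : 2 * N + 8 ≤ w.length) (hD : w.length < D) (h0 : ln w = 0) (e : S.Eqv w w') :
    diagEl S y N a w = diagEl S y N a w' := by
  by_cases hz : S.Zero w
  · unfold diagEl
    rw [if_pos hz, if_pos (e.zero_iff.1 hz)]
  refine (RW.Eqv.induction (P := fun v => S.Eqv w v ∧ diagEl S y N a w = diagEl S y N a v) ?_ e
    ⟨RW.Eqv.rfl, rfl⟩).2
  rintro v v' ⟨e1, e2⟩ hstep
  refine ⟨e1.trans hstep.eqv, e2.trans ?_⟩
  have l1 := e1.length_eq
  have l2 := hstep.length_eq
  have z1 : ¬ S.Zero v := fun hv => hz (e1.zero_iff.2 hv)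
  have z2 : ¬ S.Zero v' := fun hv => z1 (hstep.eqv.zero_iff.2 hv)
  have n0 : ln v = 0 := (dg_ln e1).trans h0
  obtain ⟨c, b, x, x', z, z', hr, hv, hv'⟩ := RW.sstep_iff.1 hstep
  obtain ⟨p, s, rfl, hp, hs, n1, n2, -⟩ := dg_exists_cut (N := N) v (by omega) 0 (ln c + 1) 0
  obtain ⟨p', s', e', k1, k2⟩ := dg_step hv n2 hr
  obtain rfl : v' = p' ++ s' := hv'.trans e'
  have l3 := k1.length_eq
  have l4 := k2.length_eq
  rw [List.length_append] at l1
  rw [ln_append] at n0
  rw [← (cut_eq_of_nz h ha a hp hs (by omega) (by omega) n1 n0 z1).2,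
    ← (cut_eq_of_nz h ha a (p := p') (s := s') (by omega) (by omega) (by omega) (by omega)
      (by rwa [dg_ln k1]) (by rwa [dg_ln k1, dg_ln k2]) z2).2, h.eqv a k1, h.eqv _ k2, dg_ln k1]

/-- The action of a diagonal element on the root elements.  If `w` is non-zero choose a cut `w = w₁ ++ w₂`
at a vertex `e ∉ {a, c, c + ln u}`; `δ = A₁ A₂ A₁ A₂`.  If `c = a`: conjugating `Y` successively by `A₂, A₁, A₂, A₁`
gives `Y Y₂`, `Y Y₂ Y₃`, `Y Y₃`, `Y Y₃` with `Y₂ = y e (w₂ ++ u)`, `Y₃ = y a (w ++ u)` (all these commute; `w₂ ++ w₁` is zero).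
If `c + ln u = a`: `Y`, `Y Y₁`, `Y Y₁ Y₂`, `Y Y₂` with `Y₁ = y c (u ++ w₁)`, `Y₂ = y c (u ++ w)`. -/
theorem diagEl_conj (h : StAll S y) (ha : S.IsAddr N D addr) (hN : 20 ≤ N) (a c : V) {w u : List X}
    (ht : 3 * N ≤ w.length) (hD : w.length < D) (h0 : ln w = 0) (hu : ln u ≠ 0) :
    diagEl S y N a w * y c u * (diagEl S y N a w)⁻¹ =
      y c u * (if c = a then y a (w ++ u) else 1) * (if c + ln u = a then y c (u ++ w) else 1) := by
  by_cases hz : S.Zero w
  · unfold diagEl
    rw [if_pos hz, h.zero a (hz.append_right u), h.zero c (hz.append_left u)]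
    simp
  obtain ⟨w₁, w₂, rfl, hp, hs, n1, n2, n3⟩ :=
    dg_exists_cut (N := N) w (by omega) 0 (c - a) (c + ln u - a)
  rw [List.length_append] at ht hD
  rw [ln_append] at h0
  obtain ⟨hz', e⟩ := cut_eq_of_nz h ha a hp hs (by omega) hD n1 h0 hz
  have n4 : ln w₂ ≠ 0 := fun e => n1 (by rw [e, add_zero] at h0; exact h0)
  rw [← e, dg_conj (h.sq _ _) (h.sq _ _)]
  by_cases h1 : c = a
  · subst h1
    have n5 : ln w₂ + ln u ≠ 0 := fun e => n3 (by linear_combination h0 - e)
    have h2 : c + ln u ≠ c := fun e => hu (add_eq_left.1 e)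
    rw [if_pos rfl, if_neg h2, mul_one]
    have c1 : Commute (y c w₁) (y c u) :=
      h.comm (fun e => n1 (add_eq_left.1 e)) h2
    have c2 := dg_chain h (a := c + ln w₁) (c := c) (by linear_combination h0) n4 hu n5
    have c3 := h.chain c (w' := w₂ ++ u) n1 (by rwa [ln_append])
      (fun e => hu (by rw [ln_append] at e; linear_combination e - h0))
    have c4 : Commute (y (c + ln w₁) w₂) (y (c + ln w₁) (w₂ ++ u)) :=
      h.comm (fun e => n4 (add_eq_left.1 e)) fun e => n5 (by rw [← ln_append]; exact add_eq_left.1 e)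
    have c5 : Commute (y (c + ln w₁) w₂) (y c (w₁ ++ (w₂ ++ u))) :=
      dg_comm_zero h (by linear_combination h0) n4
        (fun e => hu (by rw [ln_append, ln_append] at e; linear_combination e - h0))
        (fun e => n5 (by rw [ln_append, ln_append] at e; linear_combination e - h0))
        (by simpa using hz'.append_right (w₂ ++ u))
    have c6 : Commute (y c w₁) (y c (w₁ ++ (w₂ ++ u))) :=
      h.comm (fun e => n1 (add_eq_left.1 e)) fun e => hu (by
        rw [ln_append, ln_append] at e; linear_combination e - h0)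
    have c7 : Commute (y c (w₁ ++ (w₂ ++ u))) (y c u) :=
      h.comm (fun e => hu (by rw [ln_append, ln_append] at e; linear_combination e - h0)) h2
    rw [dg_left c2, map_mul, dg_left c3, dg_fix c1, map_mul (MulAut.conj (y (c + ln w₁) w₂)),
      map_mul (MulAut.conj (y (c + ln w₁) w₂)), dg_fix c5, dg_fix c4,
      dg_left c2, mul_assoc, ← mul_assoc (y (c + ln w₁) (w₂ ++ u)), h.sq, one_mul, map_mul,
      dg_fix c6, dg_fix c1, c7.eq, List.append_assoc]
  rw [if_neg h1, mul_one]
  have m1 : a + ln w₁ ≠ c := fun e => n2 (by linear_combination e)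
  have m2 : a + ln w₁ + ln w₂ ≠ c := fun e => h1 (by linear_combination h0 - e)
  have c1 : Commute (y (a + ln w₁) w₂) (y c u) :=
    h.comm m2 fun e => n3 (by linear_combination -e)
  by_cases h2 : c + ln u = a
  · rw [if_pos h2]
    have n5 : ln u + ln w₁ ≠ 0 := fun e => m1 (by linear_combination e - h2)
    have c2 := dg_chain h h2 hu n1 n5
    have c3 := dg_chain h (a := c) (c := a + ln w₁) (w := u ++ w₁) (w' := w₂)
      (by rw [ln_append]; linear_combination h2) (by rwa [ln_append]) n4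
      (fun e => hu (by rw [ln_append] at e; linear_combination e - h0))
    have c4 : Commute (y a w₁) (y c (u ++ w₁)) :=
      h.comm m1 fun e => n1 (by rw [ln_append] at e; linear_combination e - h2)
    have c5 : Commute (y a w₁) (y c (u ++ w₁ ++ w₂)) :=
      (dg_comm_zero h (by rw [ln_append, ln_append]; linear_combination h2 + h0)
        (fun e => hu (by rw [ln_append, ln_append] at e; linear_combination e - h0)) n1
        (fun e => n5 (by rw [ln_append, ln_append] at e; linear_combination e - h0))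
        (by simpa using hz'.append_left (u ++ w₁))).symm
    rw [dg_fix c1, dg_right (h.sq _ _) c2, map_mul, dg_fix c1, dg_right (h.sq _ _) c3, map_mul,
      map_mul, dg_right (h.sq _ _) c2, dg_fix c4, dg_fix c5, mul_assoc,
      ← mul_assoc (y c (u ++ w₁)), h.sq, one_mul, List.append_assoc]
  · rw [if_neg h2, mul_one]
    have c2 : Commute (y a w₁) (y c u) := h.comm m1 h2
    rw [dg_fix c1, dg_fix c2, dg_fix c1, dg_fix c2]

end Crest.Agent.R176
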