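import Crest.Agent.R176.GrpDefs

/-!
# R176 — the relations for words of length `≤ 6` imply all the relations
-/

set_option autoImplicit false

namespace Crest.Agent.R176

open scoped commutatorElement

/-- The basic commutator identity (`⁅g, h⁆ = g h g⁻¹ h⁻¹`): with `A' = ⁅A, U⁆`, `B' = ⁅U, B⁆` we have
`A B' A⁻¹ = A' B' B A'⁻¹ B⁻¹`. -/
theorem comm_assoc {H : Type} [Group H] {A U B : H} (h₁ : Commute A B) (h₂ : Commute ⁅U, B⁆ B)
    (h₃ : Commute ⁅U, B⁆ ⁅A, U⁆) : ⁅⁅A, U⁆, B⁆ = ⁅A, ⁅U, B⁆⁆ := by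
  set A' : H := ⁅A, U⁆ with hA'
  set B' : H := ⁅U, B⁆ with hB'
  have e1 : A * U * A⁻¹ = A' * U := by rw [hA', commutatorElement_def]; group
  have e2 : U * B * U⁻¹ = B' * B := by rw [hB', commutatorElement_def]; group
  have e3 : A * B * A⁻¹ = B := by rw [h₁.eq]; group
  have e4 : A * B' * A⁻¹ = A' * B' * B * A'⁻¹ * B⁻¹ := by
    calc A * B' * A⁻¹ = (A * U * A⁻¹) * (A * B * A⁻¹) * (A * U * A⁻¹)⁻¹ * (A * B * A⁻¹)⁻¹ := by
          rw [hB', commutatorElement_def]; group
      _ = A' * (U * B * U⁻¹) * A'⁻¹ * B⁻¹ := by rw [e1, e3]; group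
      _ = A' * B' * B * A'⁻¹ * B⁻¹ := by rw [e2]; group
  have e5 : Commute B' ⁅A', B⁆ := by
    rw [commutatorElement_def]
    exact ((h₃.mul_right h₂).mul_right h₃.inv_right).mul_right h₂.inv_right
  calc ⁅A', B⁆ = B' * ⁅A', B⁆ * B'⁻¹ := by rw [e5.eq]; group
    _ = (B' * A') * B * A'⁻¹ * B⁻¹ * B'⁻¹ := by rw [commutatorElement_def]; group
    _ = (A * B' * A⁻¹) * B'⁻¹ := by rw [h₃.eq, e4]
    _ = ⁅A, B'⁆ := by rw [commutatorElement_def]

section Aux

variable {X : Type} {S : RW X} {H : Type} [Group H] {y : V → List X → H} {d : ℕ}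

theorem ext_exists_cut (p q r : V) :
    ∃ j : ℕ, 1 ≤ j ∧ j ≤ 6 ∧ (j : V) ≠ 0 ∧ (j : V) ≠ p ∧ (j : V) ≠ q ∧ (j : V) ≠ r := by
  have h : ∀ p q r : V, ∃ j : Fin 7, 1 ≤ (j : ℕ) ∧ (j : ℕ) ≤ 6 ∧ ((j : ℕ) : V) ≠ 0 ∧
      ((j : ℕ) : V) ≠ p ∧ ((j : ℕ) : V) ≠ q ∧ ((j : ℕ) : V) ≠ r := by decide
  obtain ⟨j, hj⟩ := h p q r
  exact ⟨j, hj⟩

theorem ext_length_pos {w : List X} (h : ln w ≠ 0) : 0 < w.length := by
  rcases w with _ | ⟨x, w⟩
  · exact absurd ln_nil h
  · simp

/-- a decomposition whose first factor avoids three residues -/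
theorem ext_exists_split {w : List X} (hw : 6 ≤ w.length) (p q : V) :
    ∃ u v : List X, w = u ++ v ∧ ln u ≠ 0 ∧ ln v ≠ 0 ∧ ln u ≠ p ∧ ln u ≠ q := by
  obtain ⟨j, -, hj6, h0, h1, h2, h3⟩ := ext_exists_cut (ln w) p q
  have hl : ln (w.take j) = (j : V) := by
    simp only [ln, List.length_take]
    rw [min_eq_left (by omega)]
  refine ⟨w.take j, w.drop j, (List.take_append_drop j w).symm, hl ▸ h0, ?_, hl ▸ h2, hl ▸ h3⟩
  intro h
  apply h1
  have := ln_append (w.take j) (w.drop j)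
  rw [List.take_append_drop, h, hl, add_zero] at this
  exact this.symm

theorem StSys.cut_aux (h : StSys S y d) (a : V) {u m v : List X}
    (hlen : u.length + m.length + v.length ≤ d + 1) (hu : ln u ≠ 0) (hm : ln m ≠ 0) (hv : ln v ≠ 0)
    (hum : ln u + ln m ≠ 0) (hmv : ln m + ln v ≠ 0) (hw : ln u + ln m + ln v ≠ 0) :
    ⁅y a (u ++ m), y (a + ln (u ++ m)) v⁆ = ⁅y a u, y (a + ln u) (m ++ v)⁆ := by
  have pu := ext_length_pos hu
  have pm := ext_length_pos hm
  have pv := ext_length_pos hv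
  have c1 : ⁅y a u, y (a + ln u) m⁆ = y a (u ++ m) := h.chain a u m (by omega) hu hm hum
  have c2 : ⁅y (a + ln u) m, y (a + ln u + ln m) v⁆ = y (a + ln u) (m ++ v) :=
    h.chain (a + ln u) m v (by omega) hm hv hmv
  rw [ln_append, ← add_assoc, ← c1, ← c2]
  refine comm_assoc ?_ ?_ ?_
  · refine h.comm _ _ _ _ (by omega) (by omega) hu hv ?_ ?_
    · intro e; apply hm; linear_combination -e
    · intro e; apply hw; linear_combination e
  · rw [c2]
    refine h.comm _ _ _ _ (by simp; omega) (by omega) (by simpa using hmv) hv ?_ ?_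
    · rw [ln_append]; intro e; apply hv; linear_combination e
    · intro e; apply hmv; linear_combination e
  · rw [c1, c2]
    refine h.comm _ _ _ _ (by simp; omega) (by simp; omega) (by simpa using hmv)
      (by simpa using hum) ?_ ?_
    · rw [ln_append]; intro e; apply hw; linear_combination e
    · rw [ln_append]; intro e; apply hm; linear_combination e

theorem StSys.cut_ne (h : StSys S y d) (a : V) {u v u' v' : List X} (e : u ++ v = u' ++ v')
    (hlen : (u ++ v).length ≤ d + 1) (hw : ln (u ++ v) ≠ 0) (hu : ln u ≠ 0) (hv : ln v ≠ 0)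
    (hu' : ln u' ≠ 0) (hv' : ln v' ≠ 0) (hne : ln u ≠ ln u') :
    ⁅y a u, y (a + ln u) v⁆ = ⁅y a u', y (a + ln u') v'⁆ := by
  rcases List.append_eq_append_iff.1 e with ⟨m, rfl, rfl⟩ | ⟨m, rfl, rfl⟩
  · symm
    refine h.cut_aux a (by simp at hlen; omega) hu ?_ hv' (by simpa using hu') (by simpa using hv)
      (by simpa [add_assoc] using hw)
    intro hm; apply hne; simp [hm]
  · refine h.cut_aux a (by simp at hlen; omega) hu' ?_ hv (by simpa using hu) (by simpa using hv')
      (by simpa [add_assoc] using hw)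
    intro hm; apply hne; simp [hm]

theorem StSys.cut_indep (h : StSys S y d) (hd : 6 ≤ d) (a : V) {u v u' v' : List X}
    (e : u ++ v = u' ++ v') (hlen : (u ++ v).length = d + 1) (hw : ln (u ++ v) ≠ 0) (hu : ln u ≠ 0)
    (hv : ln v ≠ 0) (hu' : ln u' ≠ 0) (hv' : ln v' ≠ 0) :
    ⁅y a u, y (a + ln u) v⁆ = ⁅y a u', y (a + ln u') v'⁆ := by
  obtain ⟨p, q, e', hp, hq, h1, h2⟩ := ext_exists_split (w := u ++ v) (by omega) (ln u) (ln u')
  rw [h.cut_ne a e' hlen.le hw hu hv hp hq h1.symm]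
  symm
  exact h.cut_ne a (e.symm.trans e') (e ▸ hlen.le) (e ▸ hw) hu' hv' hp hq h2.symm

/-- a cut not separating the pair `x y` -/
theorem ext_split_pair {p s u v : List X} {x z : X} (e : p ++ x :: z :: s = u ++ v)
    (hne : u.length ≠ p.length + 1) :
    (∃ c, p = u ++ c ∧ v = c ++ x :: z :: s) ∨ ∃ c, u = p ++ x :: z :: c ∧ s = c ++ v := by
  rcases List.append_eq_append_iff.1 e with ⟨c, rfl, e'⟩ | ⟨c, rfl, rfl⟩
  · rcases c with _ | ⟨c₁, _ | ⟨c₂, c⟩⟩
    · exact Or.inl ⟨[], by simp, by simpa using e'.symm⟩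
    · exact absurd (by simp) hne
    · simp only [List.cons_append, List.cons.injEq] at e'
      obtain ⟨rfl, rfl, rfl⟩ := e'
      exact Or.inr ⟨c, rfl, rfl⟩
  · exact Or.inl ⟨c, rfl, rfl⟩

theorem ext_sq {A B : H} (hA : A * A = 1) (hc : Commute ⁅A, B⁆ A) : ⁅A, B⁆ * ⁅A, B⁆ = 1 := by
  calc ⁅A, B⁆ * ⁅A, B⁆ = ⁅A, B⁆ * (A * ⁅A, B⁆ * A⁻¹) := by rw [← hc.eq]; group
    _ = A * B * A⁻¹ * B⁻¹ * ((A * A) * B * A⁻¹ * B⁻¹ * A⁻¹) := by
        rw [commutatorElement_def]; group
    _ = A * B * (A⁻¹ * A⁻¹) * B⁻¹ * A⁻¹ := by rw [hA]; group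
    _ = 1 := by rw [← mul_inv_rev, hA]; group

end Aux

/-- Extension by one degree.  For `|w| = d + 1 ≢ 0` call a cut `j ∈ [1, d]` valid if `j ≢ 0`, `j ≢ d + 1 mod 7`, and
define `y' a w` as the commutator for some valid cut.
* `chain`: two valid cuts with `j ≢ j'` give the same commutator (`comm_assoc`, all words have length `≤ d`); if
  `j ≡ j'` pass through a third valid cut (`d ≥ 6`, so all non-zero residues occur in `[1, 6]`).
* `eqv`, `zero`: choose a valid cut which does not separate the pair.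
* `comm`: induction on `|w| + |w'|`: if `|w| = d + 1` choose a cut `j ∈ [1, 5]`... with `a + j ∉ {a + ln w, c, c + ln w'}`
  (`j ∈ [1, 6]`, `decide`); both factors commute with `y' c w'`.
* `sq`: `y' a w = ⁅A, B⁆` commutes with `A`, and `A * A = 1`. -/
theorem StSys.extend {X : Type} {S : RW X} {H : Type} [Group H] {y : V → List X → H} {d : ℕ}
    (h : StSys S y d) (hd : 6 ≤ d) :
    ∃ y' : V → List X → H, StSys S y' (d + 1) ∧ ∀ a w, w.length ≤ d → y' a w = y a w := by
  classical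
  have hex : ∃ y' : V → List X → H, (∀ a w, w.length ≤ d → y' a w = y a w) ∧
      ∀ a u v, (u ++ v).length = d + 1 → ln (u ++ v) ≠ 0 → ln u ≠ 0 → ln v ≠ 0 →
        y' a (u ++ v) = ⁅y a u, y (a + ln u) v⁆ := by
    have hs : ∀ w : List X, ∃ p : List X × List X, 6 ≤ w.length →
        w = p.1 ++ p.2 ∧ ln p.1 ≠ 0 ∧ ln p.2 ≠ 0 := by
      intro w
      by_cases hw : 6 ≤ w.length
      · obtain ⟨u, v, e, hu, hv, -⟩ := ext_exists_split hw 0 0
        exact ⟨(u, v), fun _ => ⟨e, hu, hv⟩⟩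
      · exact ⟨([], []), fun h => absurd h hw⟩
    choose sp hsp using hs
    refine ⟨fun a w => if w.length ≤ d then y a w else ⁅y a (sp w).1, y (a + ln (sp w).1) (sp w).2⁆,
      fun a w hw => if_pos hw, fun a u v hl hw hu hv => ?_⟩
    obtain ⟨e, h1, h2⟩ := hsp (u ++ v) (by omega)
    simp only
    rw [if_neg (by omega)]
    exact (h.cut_indep hd a e hl hw hu hv h1 h2).symm
  obtain ⟨y', hy, hcut⟩ := hex
  have hlen : ∀ {u v : List X}, (u ++ v).length = d + 1 → ln u ≠ 0 → ln v ≠ 0 →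
      u.length ≤ d ∧ v.length ≤ d := by
    intro u v hl hu hv
    have := ext_length_pos hu
    have := ext_length_pos hv
    simp at hl
    omega
  -- the commutation relations
  have hcomm0 : ∀ (Y : H) (c e : V),
      (∀ b v, v.length ≤ d → ln v ≠ 0 → b + ln v ≠ c → e ≠ b → Commute (y b v) Y) →
      ∀ a w, w.length ≤ d + 1 → ln w ≠ 0 → a + ln w ≠ c → e ≠ a → Commute (y' a w) Y := by
    intro Y c e hY a w hw h0 h1 h2
    rcases hw.lt_or_eq with hw | hw
    · rw [hy a w (by omega)]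
      exact hY a w (by omega) h0 h1 h2
    · obtain ⟨u, v, rfl, hu, hv, h3, h4⟩ := ext_exists_split (w := w) (by omega) (c - a) (e - a)
      obtain ⟨l1, l2⟩ := hlen hw hu hv
      rw [hcut a u v hw h0 hu hv]
      have k1 : Commute (y a u) Y :=
        hY a u l1 hu (fun e' => h3 (by linear_combination e')) h2
      have k2 : Commute (y (a + ln u) v) Y :=
        hY _ v l2 hv (by rw [ln_append, ← add_assoc] at h1; exact h1)
          (fun e' => h4 (by linear_combination -e'))
      rw [commutatorElement_def]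
      exact ((k1.mul_left k2).mul_left k1.inv_left).mul_left k2.inv_left
  have hcomm : ∀ a c w w', w.length ≤ d + 1 → w'.length ≤ d + 1 → ln w ≠ 0 → ln w' ≠ 0 →
      a + ln w ≠ c → c + ln w' ≠ a → Commute (y' a w) (y' c w') := by
    intro a c w w' hw hw' h0 h0' h1 h2
    refine hcomm0 _ c (c + ln w') (fun b v hv hv0 h3 h4 => ?_) a w hw h0 h1 h2
    refine (hcomm0 _ b (b + ln v) (fun b' v' hv' hv0' h5 h6 => ?_) c w' hw' h0' h4 h3).symm
    exact h.comm _ _ _ _ hv' hv hv0' hv0 h5 h6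
  refine ⟨y', ⟨?_, ?_, ?_, hcomm, ?_⟩, hy⟩
  · intro a w w' hw h0 hst
    have hl := hst.length_eq
    rcases hw.lt_or_eq with hw | hw
    · rw [hy a w (by omega), hy a w' (by omega)]
      exact h.eqv a w w' (by omega) h0 hst
    · obtain ⟨p, s, x, z, x', z', hr, e, rfl⟩ := hst
      obtain ⟨u, v, rfl, hu, hv, h3, -⟩ :=
        ext_exists_split (w := w) (by omega) ((p.length + 1 : ℕ) : V) 0
      obtain ⟨l1, l2⟩ := hlen hw hu hv
      rw [hcut a u v hw h0 hu hv]
      rcases ext_split_pair e.symm (fun e' => h3 (by rw [ln, e'])) with ⟨c, rfl, rfl⟩ | ⟨c, rfl, rfl⟩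
      · rw [List.append_assoc, hcut a u (c ++ x' :: z' :: s) (by simpa using hw) (by simpa using h0) hu
          (by simpa using hv), h.eqv _ _ (c ++ x' :: z' :: s) l2 hv ⟨c, s, x, z, x', z', hr, rfl, rfl⟩]
      · have e2 : p ++ x' :: z' :: (c ++ v) = (p ++ x' :: z' :: c) ++ v := by simp
        rw [e2, hcut a (p ++ x' :: z' :: c) v (by simpa using hw) (by simpa using h0)
          (by simpa using hu) hv, h.eqv _ _ (p ++ x' :: z' :: c) l1 hu ⟨p, c, x, z, x', z', hr, rfl, rfl⟩]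
        simp
  · intro a w hw h0 hz
    rcases hw.lt_or_eq with hw | hw
    · rw [hy a w (by omega)]
      exact h.zero a w (by omega) h0 hz
    · have key : ∃ u v, w = u ++ v ∧ ln u ≠ 0 ∧ ln v ≠ 0 ∧ (S.HasZ u ∨ S.HasZ v) := by
        rcases hz with ⟨x, hx, hz⟩ | ⟨p, s, x, z, hz, e⟩
        · obtain ⟨u, v, rfl, hu, hv, -⟩ := ext_exists_split (w := w) (by omega) 0 0
          refine ⟨u, v, rfl, hu, hv, ?_⟩
          rcases List.mem_append.1 hx with hx | hx
          · exact Or.inl (Or.inl ⟨x, hx, hz⟩)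
          · exact Or.inr (Or.inl ⟨x, hx, hz⟩)
        · obtain ⟨u, v, rfl, hu, hv, h3, -⟩ :=
            ext_exists_split (w := w) (by omega) ((p.length + 1 : ℕ) : V) 0
          refine ⟨u, v, rfl, hu, hv, ?_⟩
          rcases ext_split_pair e.symm (fun e' => h3 (by rw [ln, e'])) with
            ⟨c, rfl, rfl⟩ | ⟨c, rfl, rfl⟩
          · exact Or.inr (Or.inr ⟨c, s, x, z, hz, rfl⟩)
          · exact Or.inl (Or.inr ⟨p, c, x, z, hz, rfl⟩)
      obtain ⟨u, v, rfl, hu, hv, hz⟩ := key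
      obtain ⟨l1, l2⟩ := hlen hw hu hv
      rw [hcut a u v hw h0 hu hv]
      rcases hz with hz | hz
      · rw [h.zero _ u l1 hu hz]; simp
      · rw [h.zero _ v l2 hv hz]; simp
  · intro a w hw h0
    rcases hw.lt_or_eq with hw | hw
    · rw [hy a w (by omega)]
      exact h.sq a w (by omega) h0
    · obtain ⟨u, v, rfl, hu, hv, -⟩ := ext_exists_split (w := w) (by omega) 0 0
      obtain ⟨l1, l2⟩ := hlen hw hu hv
      have hc := hcomm a a (u ++ v) u hw.le (by omega) h0 hu (by simpa using h0) (by simpa using hu)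
      rw [hy a u l1] at hc
      rw [hcut a u v hw h0 hu hv] at hc ⊢
      exact ext_sq (h.sq a u l1 hu) hc
  · intro a w w' hl h0 h0' h1
    have := ext_length_pos h0
    have := ext_length_pos h0'
    rw [hy a w (by omega), hy _ w' (by omega)]
    rcases hl.lt_or_eq with hl | hl
    · rw [hy a _ (by simp; omega)]
      exact h.chain a w w' (by omega) h0 h0' h1
    · rw [hcut a w w' (by simpa using hl) (by simpa using h1) h0 h0']

/-- pass to the limit, and normalise the junk values -/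
theorem StSys.extend_all {X : Type} {S : RW X} {H : Type} [Group H] {y : V → List X → H}
    (h : StSys S y 6) :
    ∃ y' : V → List X → H, StAll S y' ∧ ∀ a w, w.length ≤ 6 → ln w ≠ 0 → y' a w = y a w := by
  classical
  have hstep : ∀ (n : ℕ) (z : {z : V → List X → H // StSys S z (6 + n)}),
      ∃ z' : {z : V → List X → H // StSys S z (6 + (n + 1))},
        ∀ a w, w.length ≤ 6 + n → z'.1 a w = z.1 a w := by
    intro n z
    obtain ⟨y', h1, h2⟩ := z.2.extend (Nat.le_add_right 6 n)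
    exact ⟨⟨y', h1⟩, h2⟩
  choose nxt hnxt using hstep
  let Y : ∀ n : ℕ, {z : V → List X → H // StSys S z (6 + n)} :=
    fun n => Nat.rec (motive := fun n => {z : V → List X → H // StSys S z (6 + n)}) ⟨y, h⟩ nxt n
  have hY0 : (Y 0).1 = y := rfl
  have hYs : ∀ n a w, w.length ≤ 6 + n → (Y (n + 1)).1 a w = (Y n).1 a w :=
    fun n a w hw => hnxt n (Y n) a w hw
  have hmono : ∀ n k a w, n ≤ k → w.length ≤ 6 + n → (Y k).1 a w = (Y n).1 a w := by
    intro n k a w hk hw
    induction hk with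
    | refl => rfl
    | @step k hk ih =>
      have hk' : n ≤ k := hk
      rw [hYs k a w (by omega), ih]
  have hany : ∀ n a w, w.length ≤ 6 + n → (Y w.length).1 a w = (Y n).1 a w := by
    intro n a w hw
    rw [← hmono n (max n w.length) a w (le_max_left _ _) hw,
      hmono w.length (max n w.length) a w (le_max_right _ _) (by omega)]
  obtain ⟨y', hy0, hy⟩ : ∃ y' : V → List X → H, (∀ a w, ln w = 0 → y' a w = 1) ∧
      ∀ n a w, w.length ≤ 6 + n → ln w ≠ 0 → y' a w = (Y n).1 a w :=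
    ⟨fun a w => if ln w = 0 then 1 else (Y w.length).1 a w, fun a w hw => if_pos hw,
      fun n a w hw h0 => by simp only; rw [if_neg h0, hany n a w hw]⟩
  have hstp : ∀ a w w', S.Step w w' → y' a w = y' a w' := by
    intro a w w' hs
    have hl := hs.length_eq
    have hl' : ln w = ln w' := by rw [ln, ln, hl]
    by_cases h0 : ln w = 0
    · rw [hy0 a w h0, hy0 a w' (hl' ▸ h0)]
    · rw [hy w.length a w (by omega) h0, hy w.length a w' (by omega) (hl' ▸ h0)]
      exact (Y w.length).2.eqv a w w' (by omega) h0 hs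
  have heqv : ∀ a {w w'}, S.Eqv w w' → y' a w = y' a w' := by
    intro a w w' e
    refine RW.Eqv.induction (P := fun v => y' a w = y' a v) ?_ e rfl
    rintro v v' hv (hs | hs)
    · rw [hv, hstp a v v' hs]
    · rw [hv, hstp a v' v hs]
  refine ⟨y', ⟨fun a w hw => hy0 a w hw, heqv, ?_, ?_, ?_, ?_⟩, fun a w hw h0 => ?_⟩
  · rintro a w ⟨w', e, hz⟩
    rw [heqv a e]
    by_cases h0 : ln w' = 0
    · exact hy0 a w' h0
    · rw [hy w'.length a w' (by omega) h0]
      exact (Y w'.length).2.zero a w' (by omega) h0 hz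
  · intro a w
    by_cases h0 : ln w = 0
    · rw [hy0 a w h0, one_mul]
    · rw [hy w.length a w (by omega) h0]
      exact (Y w.length).2.sq a w (by omega) h0
  · intro a c w w' h1 h2
    by_cases h0 : ln w = 0
    · rw [hy0 a w h0]; exact Commute.one_left _
    by_cases h0' : ln w' = 0
    · rw [hy0 c w' h0']; exact Commute.one_right _
    rw [hy (w.length + w'.length) a w (by omega) h0, hy (w.length + w'.length) c w' (by omega) h0']
    exact (Y _).2.comm a c w w' (by omega) (by omega) h0 h0' h1 h2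
  · intro a w w' h0 h0' h1
    rw [hy (w.length + w'.length) a w (by omega) h0, hy (w.length + w'.length) _ w' (by omega) h0',
      hy (w.length + w'.length) a (w ++ w') (by simp) (by simpa using h1)]
    exact (Y _).2.chain a w w' (by omega) h0 h0' h1
  · rw [hy 0 a w hw h0, hY0]

/-- every `y a w` lies in a subgroup containing the generators (induction on the length, `chain`) -/
theorem StAll.mem_closure {X : Type} {S : RW X} {H : Type} [Group H] {y : V → List X → H}
    (h : StAll S y) (a : V) (w : List X) : y a w ∈ Subgroup.closure (gens y) := by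
  induction hn : w.length using Nat.strong_induction_on generalizing a w with
  | _ n ih =>
  have key : ∀ u v : List X, w = u ++ v → ln u ≠ 0 → ln v ≠ 0 → ln w ≠ 0 →
      y a w ∈ Subgroup.closure (gens y) := by
    rintro u v rfl hu hv h0
    have := ext_length_pos hu
    have := ext_length_pos hv
    rw [← h.chain a hu hv (by simpa using h0), commutatorElement_def]
    have k1 := ih u.length (by rw [← hn]; simp; omega) a u rfl
    have k2 := ih v.length (by rw [← hn]; simp; omega) (a + ln u) v rfl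
    exact mul_mem (mul_mem (mul_mem k1 k2) (inv_mem k1)) (inv_mem k2)
  by_cases h0 : ln w = 0
  · rw [h.triv a h0]; exact one_mem _
  by_cases h6 : 6 ≤ w.length
  · obtain ⟨u, v, e, hu, hv, -⟩ := ext_exists_split h6 0 0
    exact key u v e hu hv h0
  rcases w with _ | ⟨x, w⟩
  · exact absurd ln_nil h0
  by_cases hw : w = []
  · subst hw
    exact Subgroup.subset_closure ⟨a, x, rfl⟩
  refine key [x] w rfl (by simp; decide) ?_ h0
  have h1 : 0 < w.length := List.length_pos_iff.2 hw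
  simp only [List.length_cons] at h6
  rw [ln, Ne, ZMod.natCast_eq_zero_iff]
  omega

theorem ext_exists_group6 {m : ℕ} (S : RW (Fin m)) :
    ∃ (G : Type) (_ : Group G) (y : V → List (Fin m) → G), Group.IsFinitelyPresented G ∧ StSys S y 6 ∧
      (∀ K : Subgroup G, (∀ a w, w.length ≤ 6 → ln w ≠ 0 → y a w ∈ K) → K = ⊤) ∧
      ∀ (H : Type) [Group H] (z : V → List (Fin m) → H), StSys S z 6 →
        ∃ f : G →* H, ∀ a w, w.length ≤ 6 → ln w ≠ 0 → f (y a w) = z a w := by
  classical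
  let W : Type := {w : List (Fin m) // w.length ≤ 6}
  have : Finite W := (List.finite_length_le (Fin m) 6).to_subtype
  let T : Type := V × {w : W // ln w.1 ≠ 0}
  obtain ⟨g, hg0, hg⟩ : ∃ g : V → List (Fin m) → FreeGroup T, (∀ a, g a [] = 1) ∧
      ∀ (a : V) (w : List (Fin m)) (h1 : w.length ≤ 6) (h2 : ln w ≠ 0), g a w = FreeGroup.of (a, ⟨⟨w, h1⟩, h2⟩) :=
    ⟨fun a w => if h : w.length ≤ 6 ∧ ln w ≠ 0 then FreeGroup.of (a, ⟨⟨w, h.1⟩, h.2⟩) else 1,
      fun a => dif_neg (by simp), fun a w h1 h2 => dif_pos ⟨h1, h2⟩⟩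
  let B : Set (FreeGroup T) := Set.range fun p : Fin 5 → V × W =>
    ⁅g (p 0).1 (p 0).2.1, g (p 1).1 (p 1).2.1⁆ * g (p 2).1 (p 2).2.1 * g (p 3).1 (p 3).2.1 *
      (g (p 4).1 (p 4).2.1)⁻¹
  let R : Set (FreeGroup T) := {r | r ∈ B ∧ ∀ (H : Type) [Group H] (z : V → List (Fin m) → H),
    StSys S z 6 → FreeGroup.lift (fun t : T => z t.1 t.2.1.1) r = 1}
  have : Finite R := ((Set.finite_range _).subset (fun r (hr : r ∈ R) => hr.1)).to_subtype
  have hR : ∀ r ∈ B, (∀ (H : Type) [Group H] (z : V → List (Fin m) → H) (f : FreeGroup T →* H),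
      StSys S z 6 → (∀ a w, w.length ≤ 6 → ln w ≠ 0 → f (g a w) = z a w) → f r = 1) →
      PresentedGroup.mk R r = 1 := by
    intro r hr h
    refine PresentedGroup.one_of_mem ⟨hr, fun H _ z hz => h H z _ hz fun a w h1 h2 => ?_⟩
    rw [hg a w h1 h2, FreeGroup.lift_apply_of]
  let o : V × W := (0, ⟨[], by simp⟩)
  have ho : g o.1 o.2.1 = 1 := hg0 0
  refine ⟨PresentedGroup R, inferInstance, fun a w => PresentedGroup.mk R (g a w), inferInstance,
    ⟨?_, ?_, ?_, ?_, ?_⟩, ?_, ?_⟩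
  · intro a w w' hw h0 hs
    have hl := hs.length_eq
    have hl' : ln w = ln w' := by rw [ln, ln, hl]
    have := hR (g a w * (g a w')⁻¹)
      ⟨![o, o, o, (a, ⟨w, hw⟩), (a, ⟨w', hl ▸ hw⟩)], by simp [ho]⟩ (fun H _ z f hz hf => by
        rw [map_mul, map_inv, hf a w hw h0, hf a w' (hl ▸ hw) (hl' ▸ h0), hz.eqv a w w' hw h0 hs,
          mul_inv_cancel])
    rwa [map_mul, map_inv, mul_inv_eq_one] at this
  · intro a w hw h0 hs
    exact hR (g a w) ⟨![o, o, o, (a, ⟨w, hw⟩), o], by simp [ho]⟩ (fun H _ z f hz hf => by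
        rw [hf a w hw h0, hz.zero a w hw h0 hs])
  · intro a w hw h0
    have := hR (g a w * g a w) ⟨![o, o, (a, ⟨w, hw⟩), (a, ⟨w, hw⟩), o], by simp [ho]⟩
      (fun H _ z f hz hf => by rw [map_mul, hf a w hw h0, hz.sq a w hw h0])
    rwa [map_mul] at this
  · intro a c w w' hw hw' h0 h0' h1 h2
    have := hR ⁅g a w, g c w'⁆ ⟨![(a, ⟨w, hw⟩), (c, ⟨w', hw'⟩), o, o, o], by simp [ho]⟩
      (fun H _ z f hz hf => by
        rw [map_commutatorElement, hf a w hw h0, hf c w' hw' h0', commutatorElement_eq_one_iff_commute]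
        exact hz.comm a c w w' hw hw' h0 h0' h1 h2)
    rwa [map_commutatorElement, commutatorElement_eq_one_iff_commute] at this
  · intro a w w' hl h0 h0' h1
    have hw : w.length ≤ 6 := by omega
    have hw' : w'.length ≤ 6 := by omega
    have hww : (w ++ w').length ≤ 6 := by simpa using hl
    have := hR (⁅g a w, g (a + ln w) w'⁆ * (g a (w ++ w'))⁻¹)
      ⟨![(a, ⟨w, hw⟩), (a + ln w, ⟨w', hw'⟩), o, o, (a, ⟨w ++ w', hww⟩)], by simp [ho]⟩
      (fun H _ z f hz hf => by
        rw [map_mul, map_inv, map_commutatorElement, hf a w hw h0, hf _ w' hw' h0',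
          hf a _ hww (by simpa using h1), hz.chain a w w' hl h0 h0' h1, mul_inv_cancel])
    rwa [map_mul, map_inv, map_commutatorElement, mul_inv_eq_one] at this
  · intro K hK
    rw [eq_top_iff]
    intro x _
    refine PresentedGroup.generated_by R K (fun t => ?_) x
    have := hK t.1 t.2.1.1 t.2.1.2 t.2.2
    simp only at this
    rw [hg _ _ t.2.1.2 t.2.2] at this
    exact this
  · intro H _ z hz
    refine ⟨PresentedGroup.toGroup (f := fun t : T => z t.1 t.2.1.1) (rels := R)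
      (fun r hr => hr.2 H z hz), fun a w h1 h2 => ?_⟩
    simp only
    rw [hg a w h1 h2]
    exact PresentedGroup.toGroup.of _

/-- The group: `PresentedGroup` on the finite type `V × {w // w.length ≤ 6}` with the finitely many relations
of `StSys S _ 6`. -/
theorem exists_group {m : ℕ} (S : RW (Fin m)) :
    ∃ (G : Type) (_ : Group G) (y : V → List (Fin m) → G), Group.IsFinitelyPresented G ∧ StAll S y ∧
      Subgroup.closure (gens y) = ⊤ ∧
      ∀ (H : Type) [Group H] (z : V → List (Fin m) → H), StSys S z 6 →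
        ∃ f : G →* H, ∀ a w, w.length ≤ 6 → ln w ≠ 0 → f (y a w) = z a w := by
  obtain ⟨G, _, y, hfp, hs, hgen, huniv⟩ := ext_exists_group6 S
  obtain ⟨y', hall, hy⟩ := hs.extend_all
  refine ⟨G, inferInstance, y', hfp, hall, hgen _ fun a w h1 h2 => ?_, fun H _ z hz => ?_⟩
  · rw [← hy a w h1 h2]
    exact hall.mem_closure a w
  · obtain ⟨f, hf⟩ := huniv H z hz
    exact ⟨f, fun a w h1 h2 => by rw [hy a w h1 h2, hf a w h1 h2]⟩

theorem exists_len {X : Type} {S : RW X} {H : Type} [Group H] {y : V → List X → H} (h : StAll S y)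
    (hg : Subgroup.closure (gens y) = ⊤) (c : H) : ∃ M, Len y M c := by
  have hc : c ∈ Subgroup.closure (gens y) := hg ▸ Subgroup.mem_top c
  suffices ∃ l : List (V × X), c = (l.map fun p => y p.1 [p.2]).prod by
    obtain ⟨l, hl⟩ := this
    exact ⟨l.length, l, le_rfl, hl⟩
  induction hc using Subgroup.closure_induction with
  | mem g hg =>
    obtain ⟨a, x, rfl⟩ := hg
    exact ⟨[(a, x)], by simp⟩
  | one => exact ⟨[], by simp⟩
  | mul g g' _ _ ih ih' =>
    obtain ⟨l, rfl⟩ := ih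
    obtain ⟨l', rfl⟩ := ih'
    exact ⟨l ++ l', by simp⟩
  | inv g _ ih =>
    obtain ⟨l, rfl⟩ := ih
    refine ⟨l.reverse, ?_⟩
    rw [List.prod_inv_reverse, List.map_map, List.map_reverse]
    congr 2
    exact List.map_congr_left fun p _ => h.inv p.1 [p.2]

end Crest.Agent.R176
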