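import Crest.Agent.R176.GrpDefs

/-!
# R176 — the quotient by the long root elements is a finite `2`-group
-/

set_option autoImplicit false

namespace Crest.Agent.R176

open scoped commutatorElement

/-- If `T` is a finite set of central involutions and `Q ⧸ ⟨T⟩` is a finite `2`-group, so is `Q`. -/
theorem fin_two_of_central {Q : Type} [Group Q] {T : Set Q} (hT : T.Finite)
    (hc : ∀ t ∈ T, t ∈ Subgroup.center Q) (h2 : ∀ t ∈ T, t * t = 1)
    (h : Finite (Q ⧸ Subgroup.normalClosure T) ∧ IsPGroup 2 (Q ⧸ Subgroup.normalClosure T)) :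
    Finite Q ∧ IsPGroup 2 Q := by
  let K : Subgroup Q :=
    { carrier := {g | g ∈ Subgroup.center Q ∧ g * g = 1}
      one_mem' := ⟨one_mem _, one_mul _⟩
      mul_mem' := fun {a b} ha hb => ⟨mul_mem ha.1 hb.1, by
        have := Subgroup.mem_center_iff.1 ha.1 b
        calc a * b * (a * b) = a * (b * a) * b := by simp only [mul_assoc]
          _ = (a * a) * (b * b) := by rw [this]; simp only [mul_assoc]
          _ = 1 := by rw [ha.2, hb.2, one_mul]⟩
      inv_mem' := fun {a} ha => ⟨inv_mem ha.1, by rw [← mul_inv_rev, ha.2, inv_one]⟩ }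
  have hcK : Subgroup.closure T ≤ K := (Subgroup.closure_le _).2 fun t ht => ⟨hc t ht, h2 t ht⟩
  have hnorm : (Subgroup.closure T).Normal := ⟨fun n hn g => by
    rw [Subgroup.mem_center_iff.1 (hcK hn).1 g, mul_inv_cancel_right]
    exact hn⟩
  have hN : Subgroup.normalClosure T ≤ Subgroup.closure T :=
    Subgroup.normalClosure_le_normal Subgroup.subset_closure
  have hfin : Finite (Subgroup.closure T) := by
    have := hT.to_subtype
    letI : CommGroup (Subgroup.closure T) :=
      { (inferInstance : Group (Subgroup.closure T)) with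
        mul_comm := fun a b => Subtype.ext (Subgroup.mem_center_iff.1 (hcK b.2).1 a) }
    refine CommGroup.finite_of_fg_isMulTorsion _ fun g => ?_
    refine isOfFinOrder_iff_pow_eq_one.2 ⟨2, two_pos, Subtype.ext ?_⟩
    rw [sq]
    exact (hcK g.2).2
  have hfinN : Finite (Subgroup.normalClosure T) :=
    Finite.of_injective _ (Subgroup.inclusion_injective hN)
  have := h.1
  refine ⟨Finite.of_subgroup_quotient (Subgroup.normalClosure T), fun g => ?_⟩
  obtain ⟨k, hk⟩ := h.2 (QuotientGroup.mk g)
  rw [← QuotientGroup.mk_pow, QuotientGroup.eq_one_iff] at hk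
  exact ⟨k + 1, by rw [pow_succ, pow_mul, sq]; exact (hcK (hN hk)).2⟩

theorem finq_conj {Q : Type} [Group Q] {Y C D P P' : Q} (h1 : ⁅Y, C⁆ = P) (h2 : ⁅Y, D⁆ = P')
    (hPC : Commute P C) (hPD : Commute P D) (hPP : Commute P P') (hC : Commute P' C)
    (hD : Commute P' D) : Commute Y ⁅C, D⁆ := by
  have e1 : Y * C * Y⁻¹ = P * C := by rw [← h1, commutatorElement_def, inv_mul_cancel_right]
  have e2 : Y * D * Y⁻¹ = P' * D := by rw [← h2, commutatorElement_def, inv_mul_cancel_right]
  have e3 : Commute P (C * P' * D * C⁻¹) := ((hPC.mul_right hPP).mul_right hPD).mul_right hPC.inv_right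
  have e4 : Commute P' (C * D * C⁻¹ * D⁻¹) :=
    ((hC.mul_right hD).mul_right hC.inv_right).mul_right hD.inv_right
  have key : Y * ⁅C, D⁆ * Y⁻¹ = ⁅C, D⁆ := by
    rw [conjugate_commutatorElement, e1, e2, commutatorElement_def, commutatorElement_def]
    calc P * C * (P' * D) * (P * C)⁻¹ * (P' * D)⁻¹
        = (P * (C * P' * D * C⁻¹)) * P⁻¹ * D⁻¹ * P'⁻¹ := by group
      _ = C * P' * D * C⁻¹ * D⁻¹ * P'⁻¹ := by rw [e3.eq, mul_inv_cancel_right]
      _ = (P' * (C * D * C⁻¹ * D⁻¹)) * P'⁻¹ := by rw [← hC.eq]; group
      _ = C * D * C⁻¹ * D⁻¹ := by rw [e4.eq, mul_inv_cancel_right]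
  exact mul_inv_eq_iff_eq_mul.1 key

theorem finq_sq {Q : Type} [Group Q] {C D : Q} (hc : ⁅C, D⁆ ∈ Subgroup.center Q)
    (h2 : C * C = 1) : ⁅C, D⁆ * ⁅C, D⁆ = 1 := by
  have e := Subgroup.mem_center_iff.1 hc C
  have e1 : C⁻¹ = C := inv_eq_of_mul_eq_one_right h2
  have e2 : ⁅C, D⁆ * ⁅C, D⁆ = C⁻¹ * (C * ⁅C, D⁆) * ⁅C, D⁆ := by group
  rw [e2, e, commutatorElement_def, e1]
  calc C * (C * D * C * D⁻¹ * C) * (C * D * C * D⁻¹)
      = (C * C) * D * C * D⁻¹ * (C * C) * D * C * D⁻¹ := by group
    _ = D * (C * C) * D⁻¹ := by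
        conv_lhs => rw [h2]
        group
    _ = 1 := by rw [h2]; group

theorem finq_center {X Q : Type} [Group Q] {y : V → List X → Q}
    (hg : Subgroup.closure (gens y) = ⊤) {t : Q} (h : ∀ c x, Commute (y c [x]) t) :
    t ∈ Subgroup.center Q := by
  have : Subgroup.closure (gens y) ≤ Subgroup.centralizer {t} := by
    rw [Subgroup.closure_le]
    rintro _ ⟨c, x, rfl⟩
    exact Subgroup.mem_centralizer_singleton_iff.2 (h c x).eq
  rw [hg] at this
  exact Subgroup.mem_center_iff.2 fun g =>
    Subgroup.mem_centralizer_singleton_iff.1 (this (Subgroup.mem_top g))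

theorem finq_map {X Q Q' : Type} {S : RW X} [Group Q] [Group Q'] {y : V → List X → Q}
    (h : StAll S y) (f : Q →* Q') : StAll S fun a w => f (y a w) where
  triv a _ hw := by rw [h.triv a hw, map_one]
  eqv a _ _ hw := by rw [h.eqv a hw]
  zero a _ hw := by rw [h.zero a hw, map_one]
  sq a w := by rw [← map_mul, h.sq, map_one]
  comm h1 h2 := (h.comm h1 h2).map f
  chain a _ _ h1 h2 h3 := by rw [← map_commutatorElement, h.chain a h1 h2 h3]

theorem finq_map_gens {X Q Q' : Type} [Group Q] [Group Q'] {y : V → List X → Q}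
    (hg : Subgroup.closure (gens y) = ⊤) (f : Q →* Q') (hf : Function.Surjective f) :
    Subgroup.closure (gens fun a w => f (y a w)) = ⊤ := by
  have e : (gens fun a w => f (y a w)) = f '' gens y := by
    ext g
    constructor
    · rintro ⟨a, x, rfl⟩
      exact ⟨_, ⟨a, x, rfl⟩, rfl⟩
    · rintro ⟨_, ⟨a, x, rfl⟩, rfl⟩
      exact ⟨a, x, rfl⟩
  rw [e, ← MonoidHom.map_closure, hg]
  exact Subgroup.map_top_of_surjective f hf

theorem finq_chain {X Q : Type} {S : RW X} [Group Q] {y : V → List X → Q} (h : StAll S y)
    {a c : V} {w w' : List X} (hc : c = a + ln w) (h1 : ln w ≠ 0) (h2 : ln w' ≠ 0)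
    (h3 : ln w + ln w' ≠ 0) : ⁅y a w, y c w'⁆ = y a (w ++ w') := by
  subst hc
  exact h.chain a h1 h2 h3

theorem finq_chain' {X Q : Type} {S : RW X} [Group Q] {y : V → List X → Q} (h : StAll S y)
    {a c : V} {w w' : List X} (hc : c = a + ln w) (h1 : ln w ≠ 0) (h2 : ln w' ≠ 0)
    (h3 : ln w + ln w' ≠ 0) : ⁅y c w', y a w⁆ = y a (w ++ w') := by
  rw [← commutatorElement_inv, finq_chain h hc h1 h2 h3, h.inv]

theorem finq_long {X Q : Type} {S : RW X} [Group Q] {y : V → List X → Q} (h : StAll S y) {M : ℕ}
    (hM : ∀ a w, M ≤ w.length → y a w = 1) {a c : V} {w w' : List X} (hc : c = a + ln w)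
    (h3 : ln w + ln w' ≠ 0) (hl : M ≤ w.length + w'.length) : Commute (y a w) (y c w') := by
  by_cases h1 : ln w = 0
  · rw [h.triv a h1]
    exact Commute.one_left _
  by_cases h2 : ln w' = 0
  · rw [h.triv c h2]
    exact Commute.one_right _
  rw [← commutatorElement_eq_one_iff_commute, finq_chain h hc h1 h2 h3]
  exact hM _ _ (by rwa [List.length_append])

/-- a generator which commutes with the second entry commutes with a long symbol -/
theorem finq_symb_half {X Q : Type} {S : RW X} [Group Q] {y : V → List X → Q} (h : StAll S y)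
    {M : ℕ} (hM : ∀ a w, M ≤ w.length → y a w = 1) {a a' c : V} {w w' : List X} (x : X)
    (ha : a' = a + ln w) (h0 : ln w + ln w' = 0) (h1 : ln w ≠ 0) (h2 : ln w + 1 ≠ 0)
    (hl : M ≤ w.length + w'.length) (hD : Commute (y c [x]) (y a' w')) :
    Commute (y c [x]) ⁅y a w, y a' w'⁆ := by
  have hD' := commutatorElement_eq_one_iff_commute.2 hD
  have hx : ln [x] = 1 := by simp
  have h10 : (1 : V) ≠ 0 := by decide
  by_cases hc1 : c = a + ln w
  · have e := finq_chain' h (w' := [x]) hc1 h1 (by rw [hx]; exact h10) (by rw [hx]; exact h2)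
    refine finq_conj e hD' ?_ ?_ (Commute.one_right _) (Commute.one_left _) (Commute.one_left _)
    · refine h.comm ?_ ?_
      · rw [ln_append, hx]
        exact fun e => h2 (by linear_combination e)
      · exact fun e => h1 (by linear_combination e)
    · refine (finq_long h hM (a := a') (c := a) ?_ ?_ ?_).symm
      · linear_combination -ha - h0
      · rw [ln_append, hx]
        exact fun e => h10 (by linear_combination e - h0)
      · simp only [List.length_append, List.length_singleton]
        omega
  by_cases hc2 : a = c + ln [x]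
  · have e := finq_chain h (w' := w) hc2 (by rw [hx]; exact h10) h1
      (by rw [hx, add_comm]; exact h2)
    rw [hx] at hc2
    refine finq_conj e hD' ?_ ?_ (Commute.one_right _) (Commute.one_left _) (Commute.one_left _)
    · refine h.comm ?_ ?_
      · rw [ln_append, hx]
        exact fun e => h1 (by linear_combination e + hc2)
      · exact fun e => h2 (by linear_combination e - hc2)
    · refine finq_long h hM ?_ ?_ ?_
      · rw [ln_append, hx]
        linear_combination ha + hc2
      · rw [ln_append, hx]
        exact fun e => h10 (by linear_combination e - h0)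
      · simp only [List.length_append, List.length_singleton]
        omega
  have hC : Commute (y c [x]) (y a w) := h.comm (fun e => hc2 e.symm) fun e => hc1 e.symm
  rw [commutatorElement_def]
  exact ((hC.mul_right hD).mul_right hC.inv_right).mul_right hD.inv_right

theorem finq_symb {X Q : Type} {S : RW X} [Group Q] {y : V → List X → Q} (h : StAll S y)
    (hg : Subgroup.closure (gens y) = ⊤) {M : ℕ} (hM : ∀ a w, M ≤ w.length → y a w = 1) {a a' : V}
    {w w' : List X} (ha : a' = a + ln w) (h0 : ln w + ln w' = 0) (h1 : ln w ≠ 0)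
    (h2 : ln w + 1 ≠ 0) (h3 : ln w' + 1 ≠ 0) (hl : M ≤ w.length + w'.length) :
    ⁅y a w, y a' w'⁆ ∈ Subgroup.center Q := by
  refine finq_center hg fun c x => ?_
  have hx : ln [x] = 1 := by simp
  have h10 : (1 : V) ≠ 0 := by decide
  by_cases hc : c + ln [x] ≠ a' ∧ a' + ln w' ≠ c
  · exact finq_symb_half h hM x ha h0 h1 h2 hl (h.comm hc.1 hc.2)
  · have hC : Commute (y c [x]) (y a w) := by
      rw [not_and_or, not_not, not_not, hx] at hc
      refine h.comm ?_ ?_
      · rw [hx]
        rcases hc with hc | hc
        · exact fun e => h1 (by linear_combination e - hc - ha)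
        · exact fun e => h10 (by linear_combination e + hc - ha - h0)
      · rcases hc with hc | hc
        · exact fun e => h10 (by linear_combination hc + e + ha)
        · exact fun e => h1 (by linear_combination e - hc + ha + h0)
    have := finq_symb_half h hM (a := a') (a' := a) (w := w') (w' := w) x
      (by linear_combination -ha - h0) (by linear_combination h0)
      (fun e => h1 (by linear_combination h0 - e)) h3 (by omega) hC
    rw [← commutatorElement_inv]
    exact this.inv_right

/-- if the symbols vanish then the root elements of maximal length are central -/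
theorem finq_top {X Q : Type} {S : RW X} [Group Q] {y : V → List X → Q} (h : StAll S y)
    (hg : Subgroup.closure (gens y) = ⊤) {M : ℕ} (hM : ∀ a w, M + 1 ≤ w.length → y a w = 1)
    (hT : ∀ a w w', w.length = 2 ∨ w.length = 3 → w.length + w'.length = M + 1 →
      ln w + ln w' = 0 → ⁅y a w, y (a + ln w) w'⁆ = 1) (a : V) {w : List X} (hw : w.length = M) :
    y a w ∈ Subgroup.center Q := by
  refine finq_center hg fun c x => ?_
  have hx : ln [x] = 1 := by simp
  by_cases h1 : ln w + 1 = 0
  · by_cases hc : a = c + 1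
    · obtain ⟨x₁, x₂, w₂, rfl⟩ : ∃ x₁ x₂ w₂, w = [x₁, x₂] ++ w₂ := by
        rcases w with _ | ⟨x₁, _ | ⟨x₂, w₂⟩⟩
        · exact absurd h1 (by simp only [ln_nil]; decide)
        · exact absurd h1 (by simp only [ln_cons, ln_nil]; decide)
        · exact ⟨x₁, x₂, w₂, rfl⟩
      have e1 : ln [x₁, x₂] = 2 := by simp only [ln_cons, ln_nil]; decide
      have e3 : ln ([x] ++ [x₁, x₂]) = 3 := by rw [ln_append, e1, hx]; decide
      have e2 : ln w₂ = 4 := by
        rw [ln_append, e1] at h1
        have h7 : (7 : V) = 0 := by decide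
        linear_combination h1 - h7
      have e4 : ln (w₂ ++ [x]) = 5 := by rw [ln_append, e2, hx]; decide
      have h7 : (7 : V) = 0 := by decide
      simp only [List.length_append, List.length_cons, List.length_nil] at hw
      subst hc
      rw [← finq_chain h (a := c + 1) (c := c + 3) (by rw [e1]; ring) (by rw [e1]; decide)
        (by rw [e2]; decide) (by rw [e1, e2]; decide)]
      have hP := finq_chain h (a := c) (c := c + 1) (w := [x]) (w' := [x₁, x₂]) (by rw [hx])
        (by rw [hx]; decide) (by rw [e1]; decide) (by rw [hx, e1]; decide)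
      have hP' := finq_chain' h (a := c + 3) (c := c) (w := w₂) (w' := [x])
        (by rw [e2]; linear_combination -h7) (by rw [e2]; decide) (by rw [hx]; decide)
        (by rw [hx, e2]; decide)
      have ne : ∀ k l : V, k ≠ l → ∀ u v : V, u - v = k - l → u ≠ v :=
        fun k l hkl u v h1 h2 => hkl (by linear_combination h2 - h1)
      refine finq_conj hP hP' ?_ ?_ ?_ ?_ ?_
      · exact h.comm (ne 3 1 (by decide) _ _ (by rw [e3]; ring))
          (ne 3 0 (by decide) _ _ (by rw [e1]; ring))
      · have := hT c ([x] ++ [x₁, x₂]) w₂ (Or.inr rfl)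
          (by simp only [List.length_append, List.length_cons, List.length_nil]; omega)
          (by rw [e3, e2]; decide)
        rw [e3] at this
        exact commutatorElement_eq_one_iff_commute.1 this
      · exact finq_long h hM (by rw [e3]) (by rw [e3, e4]; decide)
          (by simp only [List.length_append, List.length_cons, List.length_nil]; omega)
      · have := hT (c + 1) [x₁, x₂] (w₂ ++ [x]) (Or.inl rfl)
          (by simp only [List.length_append, List.length_cons, List.length_nil]; omega)
          (by rw [e1, e4]; decide)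
        rw [e1, show c + 1 + 2 = c + 3 by ring] at this
        exact (commutatorElement_eq_one_iff_commute.1 this).symm
      · exact h.comm (ne 5 0 (by decide) _ _ (by rw [e4]; ring))
          (ne 4 0 (by decide) _ _ (by rw [e2]; ring))
    · refine h.comm ?_ ?_
      · rw [hx]
        exact fun e => hc e.symm
      · exact fun e => hc (by linear_combination e - h1)
  · by_cases hc1 : c = a + ln w
    · exact (finq_long h hM hc1 (by rw [hx]; exact h1) (by simp [hw])).symm
    by_cases hc2 : a = c + ln [x]
    · exact finq_long h hM hc2 (by rw [hx, add_comm]; exact h1) (by simp [hw, add_comm])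
    exact h.comm (fun e => hc2 e.symm) fun e => hc1 e.symm

/-- Induction on `M`, for all groups `Q` (images of a system in quotients are systems).  Suppose `y a w = 1` for
`|w| ≥ M + 1`, and let `|w| = M`.  If `M ≢ -1 mod 7` the elements `y a w` commute with all generators (`comm`,
`chain`), so they are central involutions.  If `M ≡ -1` (so `M ≥ 6`), first divide by the set `T` of symbols
`⁅y a w', y (a + ln w') w''⁆` with `|w'| + |w''| = M + 1` and `|w'| ∈ {2, 3}` or `|w''| ∈ {2, 3}`... more precisely all
symbols with `ln w' ∉ {0, 1, -1}`: they are central (a generator `Y` changes at most one of the two entries, by a root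
element `P` of a longer word whose commutator with the other entry is a root element of length `≥ M + 2`, hence
trivial), and involutions (`⁅A, B⁆` central and `A² = 1`).  In the quotient, let `A = y a w`, `B = y (a - 1) [v]`, write
`A = ⁅A₁, A₂⁆` with `|w₁| = 2`; then `B A B⁻¹ = ⁅P A₁, P' A₂⁆` with `P = y (a - 1) (v :: w₁)`, `P' = y (a + 2) (w₂ ++ [v])`;
`P` commutes with `A₁, A₂, P'` and `P'` commutes with `A₁` and `A`; so `B A B⁻¹ = A` and `A` is central. -/
theorem fin_two_of_short {m : ℕ} {S : RW (Fin m)} (M : ℕ) {Q : Type} [Group Q]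
    {y : V → List (Fin m) → Q} (h : StAll S y) (hg : Subgroup.closure (gens y) = ⊤)
    (hM : ∀ a w, M ≤ w.length → y a w = 1) : Finite Q ∧ IsPGroup 2 Q := by
  induction M generalizing Q with
  | zero =>
    have : Subsingleton Q := by
      refine Subgroup.subsingleton_iff.1 (subsingleton_of_bot_eq_top (le_antisymm bot_le ?_))
      rw [← hg, Subgroup.closure_le]
      rintro _ ⟨a, x, rfl⟩
      exact hM a _ (Nat.zero_le _)
    exact ⟨Finite.of_subsingleton, fun g => ⟨0, Subsingleton.elim _ _⟩⟩
  | succ M ih =>
    have hL : {w : List (Fin m) | w.length ≤ M + 1}.Finite := List.finite_length_le _ _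
    let T : Set Q := {t | ∃ a w w', (w.length = 2 ∨ w.length = 3) ∧ w.length + w'.length = M + 1 ∧
      ln w + ln w' = 0 ∧ t = ⁅y a w, y (a + ln w) w'⁆}
    have hTc : ∀ t ∈ T, t ∈ Subgroup.center Q := by
      rintro _ ⟨a, w, w', h1, h2, h3, rfl⟩
      have h4 : ln w = 2 ∨ ln w = 3 := h1.imp (fun e => by rw [ln, e]; rfl) fun e => by rw [ln, e]; rfl
      have h5 : ln w' = -ln w := by linear_combination h3
      refine finq_symb h hg hM rfl h3 ?_ ?_ ?_ h2.ge
      · rcases h4 with e | e <;> rw [e] <;> decide
      · rcases h4 with e | e <;> rw [e] <;> decide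
      · rcases h4 with e | e <;> rw [h5, e] <;> decide
    refine fin_two_of_central (T := T) ?_ hTc ?_ ?_
    · refine (((Set.finite_univ (α := V)).prod (hL.prod hL)).image
        fun p => ⁅y p.1 p.2.1, y (p.1 + ln p.2.1) p.2.2⁆).subset ?_
      rintro _ ⟨a, w, w', -, h2, -, rfl⟩
      exact ⟨(a, w, w'), ⟨trivial, by show w.length ≤ M + 1; omega,
        by show w'.length ≤ M + 1; omega⟩, rfl⟩
    · intro t ht
      have := hTc t ht
      obtain ⟨a, w, w', -, -, -, rfl⟩ := ht
      exact finq_sq this (h.sq a w)
    · let f := QuotientGroup.mk' (Subgroup.normalClosure T)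
      have h' := finq_map h f
      have hg' := finq_map_gens hg f (QuotientGroup.mk'_surjective _)
      have hM' : ∀ a w, M + 1 ≤ w.length → f (y a w) = 1 := fun a w hw => by
        rw [hM a w hw, map_one]
      let T' : Set (Q ⧸ Subgroup.normalClosure T) := {t | ∃ a w, w.length = M ∧ t = f (y a w)}
      refine fin_two_of_central (T := T') ?_ ?_ ?_ ?_
      · refine (((Set.finite_univ (α := V)).prod hL).image fun p => f (y p.1 p.2)).subset ?_
        rintro _ ⟨a, w, h1, rfl⟩
        exact ⟨(a, w), ⟨trivial, by show w.length ≤ M + 1; omega⟩, rfl⟩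
      · rintro _ ⟨a, w, h1, rfl⟩
        refine finq_top h' hg' hM' (fun a w w' h1 h2 h3 => ?_) a h1
        rw [← map_commutatorElement]
        exact (QuotientGroup.eq_one_iff _).2
          (Subgroup.subset_normalClosure ⟨a, w, w', h1, h2, h3, rfl⟩)
      · rintro _ ⟨a, w, -, rfl⟩
        exact h'.sq a w
      · let f' := QuotientGroup.mk' (Subgroup.normalClosure T')
        refine ih (finq_map h' f') (finq_map_gens hg' f' (QuotientGroup.mk'_surjective _)) ?_
        intro a w hw
        rcases hw.eq_or_lt with e | e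
        · exact (QuotientGroup.eq_one_iff _).2 (Subgroup.subset_normalClosure ⟨a, w, e.symm, rfl⟩)
        · rw [hM' a w e, map_one]

theorem fin_two_quot {m : ℕ} {S : RW (Fin m)} {G : Type} [Group G] {y : V → List (Fin m) → G}
    (h : StAll S y) (hg : Subgroup.closure (gens y) = ⊤) (M : ℕ) (N : Subgroup G) [N.Normal]
    (hN : ∀ a w, M ≤ w.length → y a w ∈ N) : Finite (G ⧸ N) ∧ IsPGroup 2 (G ⧸ N) := by
  exact fin_two_of_short M (finq_map h (QuotientGroup.mk' N))
    (finq_map_gens hg _ (QuotientGroup.mk'_surjective _))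
    fun a w hw => (QuotientGroup.eq_one_iff _).2 (hN a w hw)

end Crest.Agent.R176
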