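import Crest.Agent.R176.RW

/-!
# R176 — positive Steinberg systems on the cycle `ZMod 7`

`y a w` stands for the elementary matrix `1 + E_{a, a + |w|} w` (for `|w| ≢ 0 mod 7`).
DO NOT EDIT (owner helper34).
-/

set_option autoImplicit false

namespace Crest.Agent.R176

open scoped commutatorElement

/-- the vertices -/
abbrev V : Type := ZMod 7

/-- the length modulo `7` -/
def ln {X : Type} (w : List X) : V := (w.length : ZMod 7)

@[simp] theorem ln_append {X : Type} (w w' : List X) : ln (w ++ w') = ln w + ln w' := by simp [ln]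

@[simp] theorem ln_nil {X : Type} : ln ([] : List X) = 0 := by simp [ln]

@[simp] theorem ln_cons {X : Type} (x : X) (w : List X) : ln (x :: w) = ln w + 1 := by simp [ln]

variable {X : Type} (S : RW X) {H : Type} [Group H]

/-- the Steinberg relations for words of length `≤ d` -/
structure StSys (y : V → List X → H) (d : ℕ) : Prop where
  eqv : ∀ a w w', w.length ≤ d → ln w ≠ 0 → S.Step w w' → y a w = y a w'
  zero : ∀ a w, w.length ≤ d → ln w ≠ 0 → S.HasZ w → y a w = 1
  sq : ∀ a w, w.length ≤ d → ln w ≠ 0 → y a w * y a w = 1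
  comm : ∀ a c w w', w.length ≤ d → w'.length ≤ d → ln w ≠ 0 → ln w' ≠ 0 → a + ln w ≠ c →
    c + ln w' ≠ a → Commute (y a w) (y c w')
  chain : ∀ a w w', w.length + w'.length ≤ d → ln w ≠ 0 → ln w' ≠ 0 → ln w + ln w' ≠ 0 →
    ⁅y a w, y (a + ln w) w'⁆ = y a (w ++ w')

/-- all the Steinberg relations (with the junk value `1` for `|w| ≡ 0 mod 7`) -/
structure StAll (y : V → List X → H) : Prop where
  triv : ∀ a {w}, ln w = 0 → y a w = 1
  eqv : ∀ a {w w'}, S.Eqv w w' → y a w = y a w'
  zero : ∀ a {w}, S.Zero w → y a w = 1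
  sq : ∀ a w, y a w * y a w = 1
  comm : ∀ {a c w w'}, a + ln w ≠ c → c + ln w' ≠ a → Commute (y a w) (y c w')
  chain : ∀ a {w w'}, ln w ≠ 0 → ln w' ≠ 0 → ln w + ln w' ≠ 0 →
    ⁅y a w, y (a + ln w) w'⁆ = y a (w ++ w')

/-- the generators -/
def gens (y : V → List X → H) : Set H := {g | ∃ a x, g = y a [x]}

/-- `c` is a product of at most `M` generators -/
def Len (y : V → List X → H) (M : ℕ) (c : H) : Prop :=
  ∃ l : List (V × X), l.length ≤ M ∧ c = (l.map fun p => y p.1 [p.2]).prod

/-- the cut used in the definition of the diagonal elements -/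
def cut0 (N : ℕ) : ℕ := if (N : V) = 0 then N + 1 else N

open Classical in
/-- the diagonal element `1 + E_{a, a} w` (for long `w` with `|w| ≡ 0 mod 7`) -/
noncomputable def diagEl (y : V → List X → H) (N : ℕ) (a : V) (w : List X) : H :=
  if S.Zero w then 1 else ⁅y a (w.take (cut0 N)), y (a + (cut0 N : V)) (w.drop (cut0 N))⁆

/-- refined vertices -/
abbrev Lam (D : ℕ) : Type := V × ZMod D

/-- the refined vertex `k` steps after `l` -/
def sh {D : ℕ} (l : Lam D) (k : ℕ) : Lam D := (l.1 + (k : V), l.2 + (k : ZMod D))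

theorem sh_add {D : ℕ} (l : Lam D) (k k' : ℕ) : sh l (k + k') = sh (sh l k) k' := by
  simp [sh, add_assoc]

open Classical in
/-- refined root elements -/
noncomputable def XX (y : V → List X → H) (N : ℕ) {D : ℕ} (addr : List X → ZMod D) (l : Lam D)
    (w : List X) : H :=
  if ¬ S.Zero w ∧ addr w = l.2 then (if ln w = 0 then diagEl S y N l.1 w else y l.1 w) else 1

/-- the Steinberg relations for refined root elements of words of length in `[N', D)` -/
structure XSys {D : ℕ} (x : Lam D → List X → H) (N' : ℕ) : Prop where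
  eqv : ∀ l {w w'}, N' ≤ w.length → w.length < D → S.Eqv w w' → x l w = x l w'
  zero : ∀ l {w}, S.Zero w → x l w = 1
  sq : ∀ l {w}, N' ≤ w.length → w.length < D → x l w * x l w = 1
  comm : ∀ {l l' w w'}, N' ≤ w.length → w.length < D → N' ≤ w'.length → w'.length < D →
    sh l w.length ≠ l' → sh l' w'.length ≠ l → Commute (x l w) (x l' w')
  chain : ∀ l {w w'}, N' ≤ w.length → N' ≤ w'.length → w.length + w'.length < D →
    ⁅x l w, x (sh l w.length) w'⁆ = x l (w ++ w')

/-- the subgroup generated by the long root elements and the diagonal elements -/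
def NOne (y : V → List X → H) (N : ℕ) : Subgroup H :=
  Subgroup.closure {g | ∃ a w, 3 * N ≤ w.length ∧ w.length ≤ 8 * N ∧
    (g = y a w ∨ (ln w = 0 ∧ g = diagEl S y N a w))}

variable {S}

theorem StAll.inv {y : V → List X → H} (h : StAll S y) (a : V) (w : List X) : (y a w)⁻¹ = y a w :=
  inv_eq_of_mul_eq_one_right (h.sq a w)

end Crest.Agent.R176
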