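import Crest.Agent.R176.Diag

/-!
# R176 — the subgroup `NOne` is normal
-/

set_option autoImplicit false

namespace Crest.Agent.R176

open scoped commutatorElement

variable {X : Type} {S : RW X} {G : Type} [Group G] {y : V → List X → G} {N D : ℕ}
  {addr : List X → ZMod D}

theorem norm_exists_cut (n : ℕ) (r r' : V) :
    ∃ j : ℕ, n ≤ j ∧ j ≤ n + 6 ∧ (j : V) ≠ r ∧ (j : V) ≠ r' := by
  have h : ∀ r r' : ZMod 7, ∃ v : ZMod 7, v ≠ r ∧ v ≠ r' := by decide
  obtain ⟨v, h1, h2⟩ := h r r'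
  have e : ((n + (v - (n : V)).val : ℕ) : V) = v := by
    rw [Nat.cast_add, ZMod.natCast_zmod_val]
    ring
  have := ZMod.val_lt (v - (n : V))
  exact ⟨n + (v - (n : V)).val, by omega, by omega, by rwa [e], by rwa [e]⟩

/-- a cut with prescribed forbidden residues -/
theorem norm_exists_split (w : List X) (n : ℕ) (hn : n + 6 ≤ w.length) (r r' : V) :
    ∃ p s : List X, w = p ++ s ∧ n ≤ p.length ∧ p.length ≤ n + 6 ∧ ln p ≠ r ∧ ln p ≠ r' := by
  obtain ⟨j, h1, h2, h3, h4⟩ := norm_exists_cut n r r'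
  have e : (w.take j).length = j := List.length_take_of_le (by omega)
  exact ⟨w.take j, w.drop j, (List.take_append_drop j w).symm, by omega, by omega,
    by rwa [ln, e], by rwa [ln, e]⟩

theorem norm_chain (h : StAll S y) {a c : V} {w w' : List X} (hc : a + ln w = c) (hw : ln w ≠ 0)
    (hw' : ln w' ≠ 0) (hne : c + ln w' ≠ a) : ⁅y a w, y c w'⁆ = y a (w ++ w') := by
  subst hc
  refine h.chain a hw hw' fun e => hne ?_
  rw [add_assoc, e, add_zero]

theorem norm_comm_mem {H : Subgroup G} {g g' : G} (hg : g ∈ H) (hg' : g' ∈ H) : ⁅g, g'⁆ ∈ H := by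
  rw [commutatorElement_def]
  exact H.mul_mem (H.mul_mem (H.mul_mem hg hg') (H.inv_mem hg)) (H.inv_mem hg')

theorem norm_conj_left {H : Subgroup G} {g A : G} (hA : A ∈ H) (hc : ⁅g, A⁆ ∈ H) :
    g * A * g⁻¹ ∈ H := by
  have e : g * A * g⁻¹ = ⁅g, A⁆ * A := by
    rw [commutatorElement_def]
    group
  rw [e]
  exact H.mul_mem hc hA

theorem norm_conj_right {H : Subgroup G} {g A : G} (hA : A ∈ H) (hc : ⁅A, g⁆ ∈ H) :
    g * A * g⁻¹ ∈ H :=
  norm_conj_left hA (by rw [← commutatorElement_inv]; exact H.inv_mem hc)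

/-- induction on the length: cut into two parts of length `≥ 3 N` -/
theorem y_mem_NOne (h : StAll S y) (hN : 20 ≤ N) (a : V) {w : List X} (hw : 3 * N ≤ w.length) :
    y a w ∈ NOne S y N := by
  induction hn : w.length using Nat.strong_induction_on generalizing a w with
  | _ n ih =>
  by_cases h0 : ln w = 0
  · rw [h.triv a h0]
    exact Subgroup.one_mem _
  by_cases h8 : w.length ≤ 8 * N
  · exact Subgroup.subset_closure ⟨a, w, hw, h8, Or.inl rfl⟩
  obtain ⟨p, s, rfl, h1, h2, h3, h4⟩ := norm_exists_split w (3 * N) (by omega) 0 (ln w)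
  rw [List.length_append] at hn h8
  have hs : ln s ≠ 0 := fun e => h4 (by rw [ln_append, e, add_zero])
  rw [← h.chain a h3 hs (by rwa [ln_append] at h0)]
  exact norm_comm_mem (ih _ (by omega) a h1 rfl) (ih _ (by omega) _ (by omega) rfl)

theorem diag_mem_NOne (h : StAll S y) (ha : S.IsAddr N D addr) (hN : 20 ≤ N) (a : V) {w : List X}
    (hw : 3 * N ≤ w.length) (hD : w.length < D) (h0 : ln w = 0) : diagEl S y N a w ∈ NOne S y N := by
  by_cases h8 : w.length ≤ 8 * N
  · exact Subgroup.subset_closure ⟨a, w, hw, h8, Or.inr ⟨h0, rfl⟩⟩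
  by_cases hz : S.Zero w
  · rw [diagEl, if_pos hz]
    exact Subgroup.one_mem _
  obtain ⟨p, s, rfl, h1, h2, h3, -⟩ := norm_exists_split w (3 * N) (by omega) 0 0
  rw [List.length_append] at hD h8
  rw [← (cut_eq_of_nz h ha a (by omega) (by omega) (by omega) hD h3 (by rwa [ln_append] at h0) hz).2]
  exact norm_comm_mem (y_mem_NOne h hN a h1) (y_mem_NOne h hN _ (by omega))

/-- (A) -/
theorem norm_conj_diag (h : StAll S y) (ha : S.IsAddr N D addr) (hN : 20 ≤ N) (a : V) {w : List X}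
    (hw : 3 * N ≤ w.length) (hD : w.length < D) (h0 : ln w = 0) (c : V) (u : List X) :
    y c u * diagEl S y N a w * (y c u)⁻¹ ∈ NOne S y N := by
  have hδ := diag_mem_NOne h ha hN a hw hD h0
  by_cases hu : ln u = 0
  · rw [h.triv c hu]
    simpa using hδ
  have e := diagEl_conj h ha hN a c hw hD h0 hu
  have h1 : (if c = a then y a (w ++ u) else 1) ∈ NOne S y N := by
    split_ifs
    · exact y_mem_NOne h hN a (by rw [List.length_append]; omega)
    · exact Subgroup.one_mem _
  have h2 : (if c + ln u = a then y c (u ++ w) else 1) ∈ NOne S y N := by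
    split_ifs
    · exact y_mem_NOne h hN c (by rw [List.length_append]; omega)
    · exact Subgroup.one_mem _
  generalize (if c = a then y a (w ++ u) else 1) = P₁ at e h1
  generalize (if c + ln u = a then y c (u ++ w) else 1) = P₂ at e h2
  generalize diagEl S y N a w = δ at e hδ
  have e' : (y c u)⁻¹ * δ * y c u = P₁ * P₂ * δ := by
    calc (y c u)⁻¹ * δ * y c u = (y c u)⁻¹ * (δ * y c u * δ⁻¹) * δ := by group
      _ = P₁ * P₂ * δ := by rw [e]; group
  rw [h.inv] at e' ⊢
  rw [e']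
  exact Subgroup.mul_mem _ (Subgroup.mul_mem _ h1 h2) hδ

/-- the commutator of two long opposite root elements is a diagonal element or the inverse of one -/
theorem norm_opp (h : StAll S y) (ha : S.IsAddr N D addr) (hN : 20 ≤ N) {a c : V} {u w : List X}
    (hu : N ≤ u.length) (hw : N ≤ w.length) (ht : 3 * N ≤ u.length + w.length)
    (hD : u.length + w.length < D) (hu0 : ln u ≠ 0) (h1 : c + ln u = a) (h2 : a + ln w = c) :
    ⁅y c u, y a w⁆ ∈ NOne S y N ∧
      ∀ b v, y b v * ⁅y c u, y a w⁆ * (y b v)⁻¹ ∈ NOne S y N := by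
  have h0 : ln u + ln w = 0 := by linear_combination h1 + h2
  have h0' : ln w + ln u = 0 := by rw [add_comm, h0]
  have hw0 : ln w ≠ 0 := fun e => hu0 (by rwa [e, add_zero] at h0)
  by_cases hm : addr u = addr w + (w.length : ZMod D)
  · have hm' : addr w ≠ addr u + (u.length : ZMod D) := by
      intro e
      have h3 : ((u.length + w.length : ℕ) : ZMod D) = 0 := by
        push_cast
        linear_combination -hm - e
      rw [ZMod.natCast_eq_zero_iff] at h3
      exact absurd (Nat.le_of_dvd (by omega) h3) (by omega)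
    have e := cut_eq h ha a hw hu (by omega) hw0 h0' fun _ _ => hm'
    rw [h2] at e
    have hl : 3 * N ≤ (w ++ u).length := by rw [List.length_append]; omega
    have hl' : (w ++ u).length < D := by rw [List.length_append]; omega
    have hl0 : ln (w ++ u) = 0 := by rw [ln_append, h0']
    rw [← commutatorElement_inv, e]
    refine ⟨Subgroup.inv_mem _ (diag_mem_NOne h ha hN a hl hl' hl0), fun b v => ?_⟩
    have := Subgroup.inv_mem _ (norm_conj_diag h ha hN a hl hl' hl0 b v)
    rwa [mul_inv_rev, mul_inv_rev, inv_inv, ← mul_assoc] at this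
  · have e := cut_eq h ha c hu hw (by omega) hu0 h0 fun _ _ => hm
    rw [h1] at e
    have hl : 3 * N ≤ (u ++ w).length := by rw [List.length_append]; omega
    have hl' : (u ++ w).length < D := by rw [List.length_append]; omega
    have hl0 : ln (u ++ w) = 0 := by rw [ln_append, h0]
    rw [e]
    exact ⟨diag_mem_NOne h ha hN c hl hl' hl0, norm_conj_diag h ha hN c hl hl' hl0⟩

/-- (B), not opposite -/
theorem norm_conj_of_not_opp (h : StAll S y) (hN : 20 ≤ N) {a c : V} {u w : List X}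
    (hw : 3 * N ≤ w.length) (hne : ¬ (c + ln u = a ∧ a + ln w = c)) :
    y c u * y a w * (y c u)⁻¹ ∈ NOne S y N := by
  have hA := y_mem_NOne h hN a hw
  by_cases hu0 : ln u = 0
  · rw [h.triv c hu0]
    simpa using hA
  by_cases hw0 : ln w = 0
  · rw [h.triv a hw0]
    simp
  by_cases h1 : c + ln u = a
  · refine norm_conj_left hA ?_
    rw [norm_chain h h1 hu0 hw0 fun e => hne ⟨h1, e⟩]
    exact y_mem_NOne h hN c (by rw [List.length_append]; omega)
  by_cases h2 : a + ln w = c
  · refine norm_conj_right hA ?_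
    rw [norm_chain h h2 hw0 hu0 h1]
    exact y_mem_NOne h hN a (by rw [List.length_append]; omega)
  · rw [(h.comm h1 h2).eq, mul_inv_cancel_right]
    exact hA

/-- (B) -/
theorem norm_conj_long (h : StAll S y) (ha : S.IsAddr N D addr) (hN : 20 ≤ N) (a c : V)
    {u w : List X} (hu : N ≤ u.length) (hw : 3 * N ≤ w.length) (hD : u.length + w.length < D) :
    y c u * y a w * (y c u)⁻¹ ∈ NOne S y N := by
  by_cases hne : c + ln u = a ∧ a + ln w = c
  · have hA := y_mem_NOne h hN a hw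
    by_cases hu0 : ln u = 0
    · rw [h.triv c hu0]
      simpa using hA
    exact norm_conj_left hA (norm_opp h ha hN hu (by omega) (by omega) hD hu0 hne.1 hne.2).1
  · exact norm_conj_of_not_opp h hN hw hne

/-- (C) -/
theorem norm_conj_gen (h : StAll S y) (ha : S.IsAddr N D addr) (hN : 20 ≤ N) (hD : 2000 * N ≤ D)
    (a b : V) (v : X) {w : List X} (hw : 3 * N ≤ w.length) (hw' : w.length ≤ 8 * N) :
    y b [v] * y a w * (y b [v])⁻¹ ∈ NOne S y N := by
  by_cases hne : b + ln [v] = a ∧ a + ln w = b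
  swap
  · exact norm_conj_of_not_opp h hN hw hne
  obtain ⟨hb, hab⟩ := hne
  have hv : ln [v] = 1 := by simp
  have h10 : (1 : V) ≠ 0 := by decide
  have hv0 : ln [v] ≠ 0 := by rwa [hv]
  have hba : b ≠ a := fun e => hv0 (by linear_combination hb - e)
  obtain ⟨p, s, rfl, h1, h2, h3, h4⟩ := norm_exists_split w N (by omega) 0 (ln w)
  obtain ⟨e, he⟩ : ∃ e, a + ln p = e := ⟨_, rfl⟩
  rw [List.length_append] at hw hw'
  rw [ln_append] at hab h4
  have hs : ln s ≠ 0 := fun e => h4 (by rw [e, add_zero])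
  have hes : e + ln s = b := by linear_combination hab - he
  have hea : e ≠ a := fun e' => h3 (by linear_combination he + e')
  have heb : e ≠ b := fun e' => hs (by linear_combination hes - e')
  have hA : ⁅y a p, y e s⁆ = y a (p ++ s) := norm_chain h he h3 hs (by rwa [hes])
  have hP : ⁅y b [v], y a p⁆ = y b ([v] ++ p) := norm_chain h hb hv0 h3 (by rwa [he])
  have hP' : ⁅y e s, y b [v]⁆ = y e (s ++ [v]) := norm_chain h hes hs hv0 (by rw [hb]; exact hea.symm)
  have lP : b + ln ([v] ++ p) = e := by rw [ln_append, ← add_assoc, hb, he]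
  have lP' : e + ln (s ++ [v]) = a := by rw [ln_append, ← add_assoc, hes, hb]
  have lP0 : ln ([v] ++ p) ≠ 0 := fun e' => heb (by linear_combination -lP + e')
  have lP0' : ln (s ++ [v]) ≠ 0 := fun e' => hea (by linear_combination lP' - e')
  have lA : a + ln (p ++ s) = b := by rwa [ln_append]
  have lA0 : ln (p ++ s) ≠ 0 := fun e' => hba (by linear_combination -lA + e')
  have hR : ⁅y e (s ++ [v]), y a (p ++ s)⁆ = y e (s ++ [v] ++ (p ++ s)) :=
    norm_chain h lP' lP0' lA0 (by rw [lA]; exact heb.symm)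
  have hPP : ⁅y b ([v] ++ p), y e (s ++ [v])⁆ = y b ([v] ++ p ++ (s ++ [v])) :=
    norm_chain h lP lP0 lP0' (by rw [lP']; exact hba.symm)
  have m1 := (norm_opp h ha hN (u := p) (w := s ++ [v]) h1 (by simp; omega) (by simp; omega)
    (by simp; omega) h3 he lP').2 b ([v] ++ p)
  have m2 := norm_conj_long h ha hN e b (u := [v] ++ p) (w := s ++ [v] ++ (p ++ s))
    (by simp; omega) (by simp; omega) (by simp; omega)
  have m3 := norm_conj_long h ha hN a b (u := [v] ++ p) (w := p ++ s)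
    (by simp; omega) (by simp; omega) (by simp; omega)
  have m4 := y_mem_NOne h hN b (w := [v] ++ p ++ (s ++ [v])) (by simp; omega)
  have m5 := (norm_opp h ha hN (u := [v] ++ p) (w := s) (by simp; omega) (by omega)
    (by simp; omega) (by simp; omega) lP0 lP hes).2 e (s ++ [v])
  rw [← hR] at m2
  rw [← hPP] at m4
  rw [← hA] at m2 m3 ⊢
  have hinv := h.inv e (s ++ [v])
  generalize y e (s ++ [v]) = P' at *
  generalize y b ([v] ++ p) = P at *
  generalize y b [v] = B at *
  generalize y a p = A₁ at *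
  generalize y e s = A₂ at *
  have e1 : B * A₁ * B⁻¹ = P * A₁ := by
    rw [← hP, commutatorElement_def]
    group
  have e2 : B * A₂ * B⁻¹ = P' * A₂ := by
    rw [← hinv, ← hP', commutatorElement_def]
    group
  have e3 : B * ⁅A₁, A₂⁆ * B⁻¹ = ⁅B * A₁ * B⁻¹, B * A₂ * B⁻¹⁆ := by
    simp only [commutatorElement_def]
    group
  have e4 : ⁅P * A₁, P' * A₂⁆ = P * ⁅A₁, P'⁆ * P⁻¹ * (P * ⁅P', ⁅A₁, A₂⁆⁆ * P⁻¹) *
      (P * ⁅A₁, A₂⁆ * P⁻¹) * ⁅P, P'⁆ * (P' * ⁅P, A₂⁆ * P'⁻¹) := by
    simp only [commutatorElement_def]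
    group
  rw [e3, e1, e2, e4]
  exact Subgroup.mul_mem _ (Subgroup.mul_mem _ (Subgroup.mul_mem _ (Subgroup.mul_mem _ m1 m2) m3)
    m4) m5

/-- It suffices to show that conjugation by a generator `B = y b [v]` (an involution) preserves the generators.
(A) For any `Y = y c u`: `δ Y δ⁻¹ = Y P` with `P ∈ NOne` (`diagEl_conj`), so `Y δ Y⁻¹ = P δ`.
(B) For `Y = y c u`, `A = y a w` (`|w| ≥ 3 N`) not opposite: `comm`/`chain`.  Opposite, with `|u| ≥ N` and
`|u| + |w| < D`: `⁅A, Y⁆` or `⁅Y, A⁆` is a diagonal element (`cut_eq`: the addresses cannot match on both sides).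
(C) `B` opposite to `A = y a w`, `3 N ≤ |w| ≤ 8 N`: write `A = ⁅A₁, A₂⁆` with both parts `≥ N`, cut at `e ∉ {a, b}`.  Then
`B A B⁻¹ = ⁅P A₁, P' A₂⁆`, `P = y b (v :: w₁)`, `P' = y e (w₂ ++ [v])`, and
`⁅P A₁, Q⁆ = P ⁅A₁, Q⁆ P⁻¹ ⁅P, Q⁆`, `⁅A₁, P' A₂⁆ = ⁅A₁, P'⁆ · P' A P'⁻¹`, `⁅P, P' A₂⁆ = ⁅P, P'⁆ · P' ⁅P, A₂⁆ P'⁻¹`,
`P' A P'⁻¹ = y e (w₂ ++ [v] ++ w) · A`; use (A), (B). -/
theorem NOne_normal (h : StAll S y) (hg : Subgroup.closure (gens y) = ⊤) (ha : S.IsAddr N D addr)
    (hN : 20 ≤ N) (hD : 2000 * N ≤ D) : (NOne S y N).Normal := by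
  have key : ∀ b v, ∀ n ∈ NOne S y N, y b [v] * n * (y b [v])⁻¹ ∈ NOne S y N := by
    intro b v n hn
    induction hn using Subgroup.closure_induction with
    | mem g hg =>
      obtain ⟨a, w, h1, h2, rfl | ⟨h0, rfl⟩⟩ := hg
      · exact norm_conj_gen h ha hN hD a b v h1 h2
      · exact norm_conj_diag h ha hN a h1 (by omega) h0 b [v]
    | one => simp
    | mul g g' _ _ ih ih' =>
      have := Subgroup.mul_mem _ ih ih'
      simpa only [mul_assoc, inv_mul_cancel_left] using this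
    | inv g _ ih =>
      have := Subgroup.inv_mem _ ih
      rwa [mul_inv_rev, mul_inv_rev, inv_inv, ← mul_assoc] at this
  rw [← Subgroup.normalizer_eq_top_iff, eq_top_iff, ← hg, Subgroup.closure_le]
  rintro _ ⟨b, v, rfl⟩
  refine Subgroup.mem_normalizer_iff.2 fun n => ⟨key b v n, fun hn => ?_⟩
  have := key b v _ hn
  rwa [h.inv, ← mul_assoc, ← mul_assoc, h.sq, one_mul, mul_assoc, h.sq, mul_one] at this

end Crest.Agent.R176
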