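import Crest.Agent.R176.Diag

/-!
# R176 — the Steinberg relations for the refined root elements
-/

set_option autoImplicit false

namespace Crest.Agent.R176

open scoped commutatorElement

variable {X : Type} {S : RW X} {G : Type} [Group G] {y : V → List X → G} {N D : ℕ}
  {addr : List X → ZMod D}

variable (S y N) in
/-- the coarse element attached to a vertex and a word -/
noncomputable def xrZ (a : V) (w : List X) : G := if ln w = 0 then diagEl S y N a w else y a w

theorem xr_diag_zero (a : V) {w : List X} (hz : S.Zero w) : diagEl S y N a w = 1 := if_pos hz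

theorem xrZ_zero (h : StAll S y) (a : V) {w : List X} (hz : S.Zero w) : xrZ S y N a w = 1 := by
  rw [xrZ, xr_diag_zero a hz, h.zero a hz, ite_self]

theorem xr_act {l : Lam D} {w : List X} (hz : ¬ S.Zero w) (hl : addr w = l.2) :
    XX S y N addr l w = xrZ S y N l.1 w := if_pos ⟨hz, hl⟩

theorem xr_inact {l : Lam D} {w : List X} (h : ¬ (¬ S.Zero w ∧ addr w = l.2)) :
    XX S y N addr l w = 1 := if_neg h

theorem xr_one_ne : (1 : V) ≠ 0 := by decide

theorem xr_avoid : ∀ a c : V, ∃ r : V, r ≠ 0 ∧ c + r ≠ a := by decide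

theorem xr_ne_self {a r : V} (hr : r ≠ 0) : a + r ≠ a := fun e => hr (by simpa using e)

theorem xr_comm_of_conj {g x : G} (h : g * x * g⁻¹ = x * 1 * 1) : Commute g x := by
  rw [mul_one, mul_one, mul_inv_eq_iff_eq_mul] at h
  exact h

/-- a cut of a non-zero diagonal word at a prescribed vertex -/
theorem xr_cut (h : StAll S y) (ha : S.IsAddr N D addr) (hN : 20 ≤ N) (a : V) {w : List X}
    (ht : 3 * N ≤ w.length) (hD : w.length < D) (h0 : ln w = 0) (hz : ¬ S.Zero w) {r : V}
    (hr : r ≠ 0) : ∃ p s, w = p ++ s ∧ ln p = r ∧ r + ln s = 0 ∧ N ≤ p.length ∧ N ≤ s.length ∧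
      S.Zero (s ++ p) ∧ diagEl S y N a w = ⁅y a p, y (a + r) s⁆ := by
  have hj : (r - (N : V)).val < 7 := ZMod.val_lt _
  obtain ⟨p, s, rfl, hp⟩ : ∃ p s, w = p ++ s ∧ p.length = N + (r - (N : V)).val :=
    ⟨_, _, (List.take_append_drop _ w).symm, List.length_take_of_le (by omega)⟩
  have h1 : ln p = r := by rw [ln, hp]; simp
  rw [List.length_append] at ht hD
  rw [ln_append] at h0
  obtain ⟨h2, h3⟩ := cut_eq_of_nz h ha a (p := p) (s := s) (by omega) (by omega) (by omega) hD
    (h1 ▸ hr) h0 hz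
  exact ⟨p, s, rfl, h1, h1 ▸ h0, by omega, by omega, h2, h1 ▸ h3.symm⟩

theorem xr_addr_cut (ha : S.IsAddr N D addr) {p s : List X} (hs : N ≤ s.length)
    (hz : ¬ S.Zero (p ++ s)) :
    addr s + (s.length : ZMod D) = addr (p ++ s) + ((p ++ s).length : ZMod D) := by
  rw [ha.left p s hs hz, List.length_append, Nat.cast_add, add_assoc]

theorem xr_sq (h : StAll S y) (ha : S.IsAddr N D addr) (hN : 20 ≤ N) (a : V) {w : List X}
    (ht : 3 * N ≤ w.length) (hD : w.length < D) (hz : ¬ S.Zero w) :
    xrZ S y N a w * xrZ S y N a w = 1 := by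
  rw [xrZ]
  split_ifs with h0
  swap
  · exact h.sq a w
  obtain ⟨p, s, rfl, h1, -, -, -, h2, h3⟩ := xr_cut h ha hN a ht hD h0 hz xr_one_ne
  have h4 := diagEl_conj h ha hN a a ht hD h0 (u := p) (h1 ▸ xr_one_ne)
  rw [if_pos rfl, if_neg (h1 ▸ xr_ne_self xr_one_ne), h.zero a (w := p ++ s ++ p)
    (by rw [List.append_assoc]; exact h2.append_left p)] at h4
  have h5 := (xr_comm_of_conj h4).eq
  rw [h3] at h5 ⊢
  rw [commutatorElement_def, h.inv, h.inv] at h5 ⊢
  have hA := h.sq a p
  have hB := h.sq (a + 1) s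
  generalize y a p = A at *
  generalize y (a + 1) s = B at *
  calc A * B * A * B * (A * B * A * B) = (A * B * A * B * A) * (B * A * B) := by
        simp only [mul_assoc]
    _ = (A * A) * B * A * (B * B) * A * B := by rw [h5]; simp only [mul_assoc]
    _ = B * (A * A) * B := by
        conv_lhs => rw [hA, hB]
        simp only [mul_assoc, one_mul, mul_one]
    _ = 1 := by rw [hA, mul_one, hB]

theorem xr_comm_diag (h : StAll S y) (ha : S.IsAddr N D addr) (hN : 20 ≤ N) {a c : V}
    {w u : List X} (ht : 3 * N ≤ w.length) (hD : w.length < D) (h0 : ln w = 0) (hu : ln u ≠ 0)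
    (h1 : c = a → S.Zero (w ++ u)) (h2 : c + ln u = a → S.Zero (u ++ w)) :
    Commute (diagEl S y N a w) (y c u) := by
  refine xr_comm_of_conj ((diagEl_conj h ha hN a c ht hD h0 hu).trans ?_)
  congr 1
  · congr 1
    split_ifs with e
    exacts [h.zero _ (h1 e), rfl]
  · split_ifs with e
    exacts [h.zero _ (h2 e), rfl]

theorem xr_comm_root (h : StAll S y) {a c : V} {w w' : List X} (h0 : ln w ≠ 0) (h0' : ln w' ≠ 0)
    (h1 : a + ln w = c → S.Zero (w ++ w')) (h2 : c + ln w' ≠ a) : Commute (y a w) (y c w') := by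
  by_cases e : a + ln w = c
  · subst e
    rw [← commutatorElement_eq_one_iff_commute,
      h.chain a h0 h0' fun e => h2 (by rw [add_assoc, e, add_zero]), h.zero a (h1 rfl)]
  · exact h.comm e h2

theorem xr_comm (h : StAll S y) (ha : S.IsAddr N D addr) (hN : 20 ≤ N) {a c : V} {w w' : List X}
    (ht : 3 * N ≤ w.length) (hD : w.length < D) (ht' : 3 * N ≤ w'.length) (hD' : w'.length < D)
    (hz' : ¬ S.Zero w') (h1 : a + ln w = c → addr w' ≠ addr w + (w.length : ZMod D))
    (h2 : c + ln w' = a → addr w ≠ addr w' + (w'.length : ZMod D)) :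
    Commute (xrZ S y N a w) (xrZ S y N c w') := by
  have z1 : a + ln w = c → S.Zero (w ++ w') := fun e => ha.zero_of_ne (by omega) (by omega) (h1 e)
  have z2 : c + ln w' = a → S.Zero (w' ++ w) := fun e => ha.zero_of_ne (by omega) (by omega) (h2 e)
  rw [xrZ, xrZ]
  split_ifs with h0 h0' h0'
  · obtain ⟨r, hr, hra⟩ := xr_avoid a c
    obtain ⟨p, s, rfl, e1, e2, hp, hs, -, h3⟩ := xr_cut h ha hN c ht' hD' h0' hz' hr
    have hs0 : ln s ≠ 0 := fun e => hr (by rwa [e, add_zero] at e2)
    have c1 : Commute (diagEl S y N a w) (y c p) :=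
      xr_comm_diag h ha hN ht hD h0 (e1 ▸ hr) (fun e => ha.zero_of_ne (by omega) hp (by
        rw [← ha.right p s hp hz']
        exact h1 (by rw [h0, add_zero, e]))) fun e => (hra (e1 ▸ e)).elim
    have c2 : Commute (diagEl S y N a w) (y (c + r) s) :=
      xr_comm_diag h ha hN ht hD h0 hs0 (fun e => (hra e).elim) fun e =>
        ha.zero_of_ne hs (by omega) (by
          rw [xr_addr_cut ha hs hz']
          exact h2 (by rwa [add_assoc, e2, ← h0'] at e))
    rw [h3, commutatorElement_def]
    exact ((c1.mul_right c2).mul_right c1.inv_right).mul_right c2.inv_right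
  · exact xr_comm_diag h ha hN ht hD h0 h0' (fun e => z1 (by rw [h0, add_zero, e])) z2
  · exact (xr_comm_diag h ha hN ht' hD' h0' h0 (fun e => z2 (by rw [h0', add_zero, e])) z1).symm
  · by_cases e2 : c + ln w' = a
    swap
    · exact xr_comm_root h h0 h0' z1 e2
    by_cases e1 : a + ln w = c
    swap
    · exact (xr_comm_root h h0' h0 z2 e1).symm
    subst e1
    rw [← commutatorElement_eq_one_iff_commute, cut_eq h ha a (by omega) (by omega) (by omega) h0
      (by rw [add_assoc] at e2; simpa using e2) fun _ _ => h2 e2, xr_diag_zero a (z1 rfl)]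

theorem xr_chain (h : StAll S y) (ha : S.IsAddr N D addr) (hN : 20 ≤ N) (a : V) {w w' : List X}
    (ht : 3 * N ≤ w.length) (ht' : 3 * N ≤ w'.length) (hD : w.length + w'.length < D)
    (hz' : ¬ S.Zero w') (h1 : addr w' = addr w + (w.length : ZMod D)) :
    ⁅xrZ S y N a w, xrZ S y N (a + ln w) w'⁆ = xrZ S y N a (w ++ w') := by
  have hm : addr w ≠ addr w' + (w'.length : ZMod D) := fun e => by
    rw [h1, add_assoc, ← Nat.cast_add, left_eq_add, ZMod.natCast_eq_zero_iff] at e
    have := Nat.le_of_dvd (by omega) e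
    omega
  rw [xrZ, xrZ, xrZ, ln_append]
  by_cases h0 : ln w = 0 <;> by_cases h0' : ln w' = 0
  · rw [if_pos h0, if_pos h0', if_pos (by rw [h0, h0', add_zero]), h0, add_zero]
    obtain ⟨p, s, rfl, e1, e2, hp, hs, h2, h3⟩ := xr_cut h ha hN a ht' (by omega) h0' hz' xr_one_ne
    have hs0 : ln s ≠ 0 := fun e => by rw [e] at e2; exact absurd e2 (by decide)
    have hp0 : ln p ≠ 0 := e1 ▸ xr_one_ne
    have c1 := diagEl_conj h ha hN a a ht (by omega) h0 hp0
    rw [if_pos rfl, if_neg (xr_ne_self hp0), mul_one] at c1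
    have c2 : Commute (diagEl S y N a w) (y (a + 1) s) :=
      xr_comm_diag h ha hN ht (by omega) h0 hs0 (fun e => (xr_ne_self xr_one_ne e).elim) fun _ =>
        ha.zero_of_ne hs (by omega) (by rwa [xr_addr_cut ha hs hz'])
    have e3 : ln (w ++ p) = 1 := by rw [ln_append, h0, e1, zero_add]
    have c3 := cut_eq h ha a (p := w ++ p) (s := s) (by rw [List.length_append]; omega) hs
      (by rw [List.length_append]; omega) (e3 ▸ xr_one_ne) (e3 ▸ e2) fun z1 _ => by
        rwa [ha.right w p (by omega) z1, xr_addr_cut ha hs hz']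
    rw [e3, List.append_assoc] at c3
    have c4 : Commute (diagEl S y N a (w ++ (p ++ s))) (y a p) :=
      xr_comm_diag h ha hN (by rw [List.length_append]; omega) (by rwa [List.length_append])
        (by rw [ln_append, h0, h0', add_zero]) hp0
        (fun _ => by simpa using h2.append_left (w ++ p)) fun e => (xr_ne_self hp0 e).elim
    rw [h3]
    rw [← c3] at c4 ⊢
    generalize diagEl S y N a w = d at *
    generalize y a p = A at *
    generalize y (a + 1) s = B at *
    generalize y a (w ++ p) = P at *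
    have c5 : d * B * d⁻¹ = B := by rw [c2.eq, mul_inv_cancel_right]
    calc ⁅d, ⁅A, B⁆⁆ = ⁅d * A * d⁻¹, d * B * d⁻¹⁆ * ⁅A, B⁆⁻¹ := by
          simp only [commutatorElement_def]; group
      _ = A * ⁅P, B⁆ * A⁻¹ := by rw [c1, c5]; simp only [commutatorElement_def]; group
      _ = ⁅P, B⁆ := by rw [← c4.eq, mul_inv_cancel_right]
  · rw [if_pos h0, if_neg h0', if_neg (by rwa [h0, zero_add]), h0, add_zero]
    have c1 := diagEl_conj h ha hN a a ht (by omega) h0 h0'
    rw [if_pos rfl, if_neg (xr_ne_self h0'), mul_one] at c1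
    have c2 : Commute (y a w') (y a (w ++ w')) :=
      h.comm (xr_ne_self h0') (xr_ne_self (by rwa [ln_append, h0, zero_add]))
    rw [commutatorElement_def, c1, c2.eq, mul_inv_cancel_right]
  · rw [if_neg h0, if_pos h0', if_neg (by rwa [h0', add_zero])]
    have c1 := diagEl_conj h ha hN (a + ln w) a ht' (by omega) h0' h0
    rw [if_pos rfl, if_neg (xr_ne_self h0).symm, mul_one] at c1
    have c2 : Commute (y a w) (y a (w ++ w')) :=
      h.comm (xr_ne_self h0) (xr_ne_self (by rwa [ln_append, h0', add_zero]))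
    rw [← commutatorElement_inv, commutatorElement_def, c1, c2.eq, mul_inv_cancel_right, h.inv]
  · rw [if_neg h0, if_neg h0']
    split_ifs with e
    · exact cut_eq h ha a (by omega) (by omega) (by omega) h0 e fun _ _ => hm
    · exact h.chain a h0 h0' e

/-- Call `(l, w)` active if `w` is non-zero and `addr w = l.2`; otherwise `XX l w = 1`.  In `chain`, if one factor is
inactive then so is the product.  For active elements distinguish diagonal / non diagonal:
* both non diagonal: `StAll.comm`, `StAll.chain` (and `IsAddr.zero_of_ne` if the coarse vertices match but the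
  addresses do not); coarse opposite roots: `cut_eq`.
* one diagonal: `diagEl_conj`.
* both diagonal, `δ` at `a`, `δ' = ⁅B₁, B₂⁆` (cut at a vertex `≠ a`): `diagEl_conj` for `B₁`, `B₂`.  In the chained case
  `δ δ' δ⁻¹ = ⁅B₁ P, B₂⁆ = B₁ ⁅P, B₂⁆ B₁⁻¹ δ'`, `P = y a (w ++ w'₁)`, `⁅P, B₂⁆ = diagEl (w ++ w')` (`cut_eq`) commutes with `B₁`.
* `sq` for `δ = ⁅A₁, A₂⁆`: `δ` commutes with the involution `A₁`. -/
theorem xsys (h : StAll S y) (ha : S.IsAddr N D addr) (hN : 20 ≤ N) :
    XSys S (XX S y N addr) (3 * N) := by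
  refine ⟨fun l w w' ht hD e => ?_, fun l w hz => xr_inact fun h => h.1 hz, fun l w ht hD => ?_,
    fun {l l' w w'} ht hD ht' hD' h1 h2 => ?_, fun l w w' ht ht' hD => ?_⟩
  · by_cases hz : S.Zero w
    · rw [xr_inact fun h => h.1 hz, xr_inact fun h => h.1 (e.zero_iff.1 hz)]
    have h1 := ha.eqv w w' hz (by omega) e
    by_cases hl : addr w = l.2
    · rw [xr_act hz hl, xr_act (fun h => hz (e.zero_iff.2 h)) (h1.trans hl), xrZ, xrZ,
        show ln w' = ln w by rw [ln, ln, e.length_eq]]
      split_ifs with h0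
      exacts [diagEl_eqv h ha _ (by omega) hD h0 e, h.eqv _ e]
    · rw [xr_inact fun h => hl h.2, xr_inact fun h => hl (h1.symm.trans h.2)]
  · by_cases hl : ¬ S.Zero w ∧ addr w = l.2
    · rw [xr_act hl.1 hl.2]
      exact xr_sq h ha hN _ ht hD hl.1
    · rw [xr_inact hl, one_mul]
  · by_cases hl : ¬ S.Zero w ∧ addr w = l.2
    swap
    · rw [xr_inact hl]; exact Commute.one_left _
    by_cases hl' : ¬ S.Zero w' ∧ addr w' = l'.2
    swap
    · rw [xr_inact hl']; exact Commute.one_right _
    rw [xr_act hl.1 hl.2, xr_act hl'.1 hl'.2]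
    exact xr_comm h ha hN ht hD ht' hD' hl'.1
      (fun e e' => h1 (Prod.ext e (by rw [← hl'.2, e', hl.2]; rfl)))
      fun e e' => h2 (Prod.ext e (by rw [← hl.2, e', hl'.2]; rfl))
  · by_cases hl : (¬ S.Zero w ∧ addr w = l.2) ∧ ¬ S.Zero w' ∧ addr w' = (sh l w.length).2
    · obtain ⟨hl, hl'⟩ := hl
      rw [xr_act hl.1 hl.2, xr_act hl'.1 hl'.2]
      refine (xr_chain h ha hN l.1 ht ht' hD hl'.1 (by rw [hl'.2, hl.2]; rfl)).trans ?_
      by_cases hz : S.Zero (w ++ w')
      · rw [xrZ_zero h _ hz, xr_inact fun h => h.1 hz]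
      · rw [xr_act hz ((ha.right w w' (by omega) hz).trans hl.2)]
    · rw [xr_inact (w := w ++ w') fun h => hl ⟨⟨fun z => h.1 (z.append_right _),
        (ha.right w w' (by omega) h.1).symm.trans h.2⟩, fun z => h.1 (z.append_left _),
        by rw [ha.left w w' (by omega) h.1, h.2]; rfl⟩]
      rcases not_and_or.1 hl with hl | hl
      · rw [xr_inact hl, commutatorElement_one_left]
      · rw [xr_inact hl, commutatorElement_one_right]

end Crest.Agent.R176
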