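import Crest.Agent.R176.Mu
import Crest.Agent.R176.Act
import Crest.Agent.R176.Cone
import Crest.Agent.R176.XRel
import Crest.Agent.R176.Norm

/-!
# R176 — the key lemma
-/

set_option autoImplicit false

namespace Crest.Agent.R176

open scoped commutatorElement

variable {m : ℕ} {S : RW (Fin m)}

theorem key_sq {D : ℕ} [NeZero D] {A : MA S D} (h : A * A = 0) : (1 + A) * (1 + A) = 1 := by
  rw [add_mul, mul_add, mul_add, h, one_mul, one_mul, mul_one, add_zero, add_assoc, MA_add_self,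
    add_zero]

theorem key_comm {D : ℕ} [NeZero D] {A B : MA S D} (hA : A * A = 0) (hB : B * B = 0)
    (h : B * A = 0) : (1 + A) * (1 + B) * (1 + A) * (1 + B) = 1 + A * B := by
  have e1 : (1 + A) * (1 + B) * (1 + A) = 1 + B + A * B := by
    have : (1 + A) * (1 + B) * (1 + A) =
        1 + B + A * B + (A + A) + A * A + B * A + A * (B * A) := by noncomm_ring
    rw [this, MA_add_self, hA, h]
    simp
  have e2 : (1 + B + A * B) * (1 + B) = 1 + A * B + (B + B) + B * B + A * (B * B) := by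
    noncomm_ring
  rw [e1, e2, MA_add_self, hB]
  simp

theorem key_loc {D : ℕ} [NeZero D] {P : Lam D → ℕ → Prop} {A : MA S D} (h : A * A = 0)
    (hA : A ∈ MM S P) {g : (MA S D)ˣ} (hg : (g : MA S D) = 1 + A) : g ∈ Loc S P := by
  have e : g⁻¹ = g := inv_eq_of_mul_eq_one_right (Units.ext (by
    rw [Units.val_mul, hg, key_sq h, Units.val_one]))
  refine ⟨?_, ?_⟩
  · rwa [hg, add_sub_cancel_left]
  · rwa [e, hg, add_sub_cancel_left]

/-- `s (1 + ∑ α, EE (a, α) w) = XX (a, addr w) w`: induction over finite sets of `α`; the products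
`EE (a, α) w * EE (a, α') w` vanish (`ln w ≠ 0`, or `w ++ w` is zero because of the addresses); only `α = addr w`
contributes. -/
theorem s_sum {G : Type} [Group G] {y : V → List (Fin m) → G} {N D : ℕ} [NeZero D]
    {addr : List (Fin m) → ZMod D} (ha : S.IsAddr N D addr) (hN : 1 ≤ N) {d : ℕ} (hd : d < D)
    {s : (MA S D)ˣ → G}
    (hs : ∀ g ∈ Loc S (Rng (3 * N) d), ∀ g' ∈ Loc S (Rng (3 * N) d), s (g * g') = s g * s g')
    (hs' : ∀ (l : Lam D) (w : List (Fin m)) (g : (MA S D)ˣ), 3 * N ≤ w.length → w.length ≤ d →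
      (g : MA S D) = 1 + EE S l w → s g = XX S y N addr l w)
    (a : V) {w : List (Fin m)} (h₁ : 3 * N ≤ w.length) (h₂ : w.length ≤ d) {g : (MA S D)ˣ}
    (hg : (g : MA S D) = 1 + ∑ α : ZMod D, EE S (a, α) w) :
    g ∈ Loc S (Rng (3 * N) w.length) ∧ s g = XX S y N addr (a, addr w) w := by

  classical
  have hz : S.Zero (w ++ w) := by
    refine ha.zero_of_ne (by omega) (by omega) fun h => ?_
    have h0 : ((w.length : ℕ) : ZMod D) = 0 := by simpa using h
    have := Nat.le_of_dvd (by omega) ((ZMod.natCast_eq_zero_iff _ _).1 h0)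
    omega
  have hmul : ∀ l l' : Lam D, EE S l w * EE S l' w = 0 := fun l l' => by
    rw [EE_mul, EE_zero l hz, ite_self]
  have hsum : ∀ T T' : Finset (ZMod D),
      (∑ α ∈ T, EE S (a, α) w) * ∑ α ∈ T', EE S (a, α) w = 0 := fun T T' => by
    rw [Finset.sum_mul_sum]
    exact Finset.sum_eq_zero fun _ _ => Finset.sum_eq_zero fun _ _ => hmul _ _
  have hloc : ∀ (T : Finset (ZMod D)) (g : (MA S D)ˣ), (g : MA S D) = 1 + ∑ α ∈ T, EE S (a, α) w →
      g ∈ Loc S (Rng (3 * N) w.length) := fun T g hg =>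
    key_loc (hsum T T) (Submodule.sum_mem _ fun _ _ => EE_mem ⟨h₁, le_rfl⟩) hg
  have hloc' : ∀ (T : Finset (ZMod D)) (g : (MA S D)ˣ), (g : MA S D) = 1 + ∑ α ∈ T, EE S (a, α) w →
      g ∈ Loc S (Rng (3 * N) d) := fun T g hg =>
    Loc_mono (fun _ _ h => ⟨h.1, h.2.trans h₂⟩) (hloc T g hg)
  have main : ∀ (T : Finset (ZMod D)) (g : (MA S D)ˣ), (g : MA S D) = 1 + ∑ α ∈ T, EE S (a, α) w →
      s g = if addr w ∈ T then XX S y N addr (a, addr w) w else 1 := by
    intro T
    induction T using Finset.induction_on with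
    | empty =>
      intro g hg
      obtain rfl : g = 1 := Units.ext (by simpa using hg)
      have := hs 1 (one_mem_Loc _) 1 (one_mem_Loc _)
      rw [mul_one] at this
      rw [if_neg (Finset.notMem_empty _)]
      exact mul_eq_left.1 this.symm
    | insert α T hα ih =>
      intro g hg
      let g₁ : (MA S D)ˣ := ⟨1 + EE S (a, α) w, 1 + EE S (a, α) w, key_sq (hmul _ _),
        key_sq (hmul _ _)⟩
      let g₂ : (MA S D)ˣ := ⟨1 + ∑ α ∈ T, EE S (a, α) w, 1 + ∑ α ∈ T, EE S (a, α) w,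
        key_sq (hsum T T), key_sq (hsum T T)⟩
      have e : g = g₁ * g₂ := by
        refine Units.ext ?_
        have h0 := hsum {α} T
        rw [Finset.sum_singleton] at h0
        change _ = (1 + EE S (a, α) w) * (1 + ∑ α ∈ T, EE S (a, α) w)
        rw [hg, Finset.sum_insert hα, add_mul, mul_add, mul_add, h0, one_mul, one_mul, mul_one]
        abel
      rw [e, hs g₁ (hloc' {α} g₁ (by rw [Finset.sum_singleton])) g₂ (hloc' T g₂ rfl),
        hs' (a, α) w g₁ h₁ h₂ rfl, ih g₂ rfl]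
      by_cases h : addr w = α
      · rw [h, if_neg hα, if_pos (Finset.mem_insert_self _ _), mul_one]
      · have e1 : XX S y N addr (a, α) w = 1 := by
          rw [XX, if_neg fun h' => h h'.2]
        rw [e1, one_mul]
        simp only [Finset.mem_insert, h, false_or]
  exact ⟨hloc _ g hg, by rw [main _ g hg, if_pos (Finset.mem_univ _)]⟩

theorem key_cut0 (N : ℕ) : N ≤ cut0 N ∧ cut0 N ≤ N + 1 ∧ (cut0 N : V) ≠ 0 := by
  unfold cut0
  split_ifs with h
  · refine ⟨by omega, le_rfl, ?_⟩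
    rw [Nat.cast_add, h]
    decide
  · exact ⟨le_rfl, by omega, h⟩

theorem key_len_pos {X : Type} {w : List X} (h : ln w ≠ 0) : 1 ≤ w.length := by
  cases w with
  | nil => exact absurd ln_nil h
  | cons x w => simp

/-- Take `N ≥ max 20 M` from `Addr`, `N' = 3 N`, `d₂ = 16 N`, `d = 14 N' + 2 d₂ = 74 N`; `s` from `exists_s` and `xsys`,
`ρ, ι` from `exists_rho`, `ν = Units.map ψ ∘ μ`.  We have `ν (y a w) = 1 + ∑ α, EE (a, α) w ∈ Loc (Rng 1 |w|)`
(an involution).  `z a w = ρ (ν (y a w))` satisfies `StSys S z 6` and `chain` up to length `8 N` (all partial products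
lie in `Loc (Rng 1 d₂)`), hence a homomorphism `Ψ` with `Ψ (y a w) = ρ (ν (y a w))` for `|w| ≤ 8 N`
(`hom_eq_of_chain`).  The set `K = {g | ∀ h, Ψ g (ι h) = ι (g * h)}` is a subgroup containing the generators of `NOne`:
for `y a w` use `s_sum`; for `diagEl a w = ⁅A₁, A₂⁆` (`w` non-zero, `cut_eq_of_nz`) the matrix `ν` is
`1 + ∑ α, EE (a, α) w` because `mon (w₂ ++ w₁) = 0` (compute with `μ`).  If `Len y M c` then `Ψ c = ρ (ν c)`; if
`μ c = 1` then `Ψ c = 1`, so `c ^ q ∈ K` implies `ι 1 = ι (c ^ q)`. -/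
theorem key (hS : S.Addr) {G : Type} [Group G] {y : V → List (Fin m) → G} (hy : StAll S y)
    (hg : Subgroup.closure (gens y) = ⊤)
    (hu : ∀ (H : Type) [Group H] (z : V → List (Fin m) → H), StSys S z 6 →
      ∃ f : G →* H, ∀ a w, w.length ≤ 6 → ln w ≠ 0 → f (y a w) = z a w)
    (μ : G →* (Matrix V V (RA S))ˣ)
    (hμ : ∀ a w, ln w ≠ 0 →
      (μ (y a w) : Matrix V V (RA S)) = 1 + Matrix.single a (a + ln w) (mon S w)) (M : ℕ) :
    ∃ N₁ : Subgroup G, N₁.Normal ∧ (∃ M', ∀ a w, M' ≤ w.length → y a w ∈ N₁) ∧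
      ∀ c, Len y M c → μ c = 1 → ∀ q : ℕ, c ^ q ∈ N₁ → c ^ q = 1 := by

  classical
  obtain ⟨N, D, hN, hD, addr, ha⟩ := hS (max 20 M)
  have hN20 : 20 ≤ N := (le_max_left _ _).trans hN
  have hNM : M ≤ N := (le_max_right _ _).trans hN
  have : NeZero D := ⟨by omega⟩
  obtain ⟨s, hs, hs'⟩ := exists_s (xsys hy ha hN20) (by omega)
    (d := 14 * (3 * N) + 2 * (16 * N)) (by omega) (by omega)
  obtain ⟨Ω, ρ, ι, hι, hρ, hρ'⟩ := exists_rho (N' := 3 * N) (by omega) (by omega) hs
  obtain ⟨ψ, hψ⟩ := exists_psi S D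
  obtain ⟨ν, hν0⟩ : ∃ ν : G →* (MA S D)ˣ, ∀ g, (ν g : MA S D) = ψ (μ g : Matrix V V (RA S)) :=
    ⟨(Units.map (ψ : Matrix V V (RA S) →* MA S D)).comp μ, fun _ => rfl⟩
  have hν : ∀ a w, ln w ≠ 0 → (ν (y a w) : MA S D) = 1 + ∑ α : ZMod D, EE S (a, α) w :=
    fun a w h => by rw [hν0, hμ a w h, map_add, map_one, hψ]
  have hL : ∀ a w, ln w ≠ 0 → ν (y a w) ∈ Loc S (Rng 1 w.length) := fun a w h => by
    have h1 : (ν (y a w) : MA S D) - 1 ∈ MM S (Rng 1 w.length) := by
      rw [hν a w h, add_sub_cancel_left]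
      exact Submodule.sum_mem _ fun _ _ => EE_mem ⟨key_len_pos h, le_rfl⟩
    exact ⟨h1, by rwa [← map_inv, hy.inv]⟩
  have hLm : ∀ {g g' : G} {k k' : ℕ}, ν g ∈ Loc S (Rng 1 k) → ν g' ∈ Loc S (Rng 1 k') →
      ν (g * g') ∈ Loc S (Rng 1 (k + k')) := fun h h' => by
    rw [map_mul]
    exact Loc_rng_mul h h'
  have hR : ∀ {g g' : G} {k k' : ℕ}, ν g ∈ Loc S (Rng 1 k) → ν g' ∈ Loc S (Rng 1 k') →
      k ≤ 16 * N → k' ≤ 16 * N → ρ (ν (g * g')) = ρ (ν g) * ρ (ν g') := fun h h' hk hk' => by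
    rw [map_mul]
    exact hρ _ (Loc_mono (fun _ _ h => ⟨h.1, h.2.trans hk⟩) h) _
      (Loc_mono (fun _ _ h => ⟨h.1, h.2.trans hk'⟩) h')
  have hρ1 : ρ 1 = 1 := by
    have := hρ 1 (one_mem_Loc _) 1 (one_mem_Loc _)
    rw [mul_one] at this
    exact mul_eq_left.1 this.symm
  have hsq : ∀ a w, w.length ≤ 16 * N → ln w ≠ 0 → ρ (ν (y a w)) * ρ (ν (y a w)) = 1 :=
    fun a w hw h => by rw [← hR (hL a w h) (hL a w h) hw hw, hy.sq, map_one, hρ1]
  have hcm : ∀ a c w w', w.length + w'.length ≤ 8 * N → ln w ≠ 0 → ln w' ≠ 0 →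
      ⁅ρ (ν (y a w)), ρ (ν (y c w'))⁆ = ρ (ν ⁅y a w, y c w'⁆) := fun a c w w' hw h h' => by
    have a1 := hL a w h
    have a2 := hL c w' h'
    rw [commutatorElement_def, commutatorElement_def, hy.inv, hy.inv,
      inv_eq_of_mul_eq_one_right (hsq a w (by omega) h),
      inv_eq_of_mul_eq_one_right (hsq c w' (by omega) h'),
      hR (hLm (hLm a1 a2) a1) a2 (by omega) (by omega), hR (hLm a1 a2) a1 (by omega) (by omega),
      hR a1 a2 (by omega) (by omega)]
  have hch : ∀ a w w', w.length + w'.length ≤ 8 * N → ln w ≠ 0 → ln w' ≠ 0 → ln w + ln w' ≠ 0 →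
      ⁅ρ (ν (y a w)), ρ (ν (y (a + ln w) w'))⁆ = ρ (ν (y a (w ++ w'))) :=
    fun a w w' hw h h' h'' => by rw [hcm a _ w w' hw h h', hy.chain a h h' h'']
  obtain ⟨Ψ, hΨ6⟩ := hu (Equiv.Perm Ω) (fun a w => ρ (ν (y a w)))
    { eqv := fun a w w' _ _ h => by rw [hy.eqv a h.eqv]
      zero := fun a w _ _ h => by rw [hy.zero a h.zero, map_one, hρ1]
      sq := fun a w hw h => hsq a w (by omega) h
      comm := fun a c w w' hw hw' h h' h1 h2 => by
        rw [Commute, SemiconjBy, ← hR (hL a w h) (hL c w' h') (by omega) (by omega),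
          ← hR (hL c w' h') (hL a w h) (by omega) (by omega), (hy.comm h1 h2).eq]
      chain := fun a w w' hw h h' h'' => hch a w w' (by omega) h h' h'' }
  have hΨ : ∀ a w, w.length ≤ 8 * N → ln w ≠ 0 → Ψ (y a w) = ρ (ν (y a w)) :=
    hom_eq_of_chain hy Ψ (fun a w => ρ (ν (y a w))) (8 * N) hch hΨ6
  let K : Subgroup G :=
    { carrier := {g | ∀ h, Ψ g (ι h) = ι (g * h)}
      one_mem' := fun h => by rw [map_one, one_mul]; rfl
      mul_mem' := fun {g g'} h1 h2 h => by
        rw [map_mul, Equiv.Perm.mul_apply, h2, h1, mul_assoc]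
      inv_mem' := fun {g} h1 h => by
        have := h1 (g⁻¹ * h)
        rw [mul_inv_cancel_left] at this
        rw [← this, ← Equiv.Perm.mul_apply, ← map_mul, inv_mul_cancel, map_one]
        rfl }
  have hgen : ∀ (g : G) (a : V) (w : List (Fin m)), 3 * N ≤ w.length → w.length ≤ 8 * N →
      Ψ g = ρ (ν g) → (ν g : MA S D) = 1 + ∑ α : ZMod D, EE S (a, α) w →
      XX S y N addr (a, addr w) w = g → g ∈ K := fun g a w h1 h2 h3 h4 h5 h => by
    obtain ⟨b1, b2⟩ := s_sum ha (by omega) (by omega) hs hs' a h1 (by omega) h4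
    rw [h3, hρ' _ (Loc_mono (fun _ _ h => ⟨h.1, h.2.trans (by omega)⟩) b1), b2, h5]
  have hK : NOne S y N ≤ K := by
    refine (Subgroup.closure_le _).2 ?_
    rintro g ⟨a, w, h1, h2, rfl | ⟨h0, rfl⟩⟩
    · by_cases h0 : ln w = 0
      · rw [hy.triv a h0]
        exact K.one_mem
      by_cases hz : S.Zero w
      · rw [hy.zero a hz]
        exact K.one_mem
      refine hgen _ a w h1 h2 (hΨ a w h2 h0) (hν a w h0) ?_
      rw [XX, if_pos ⟨hz, rfl⟩, if_neg h0]
    · by_cases hz : S.Zero w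
      · rw [diagEl, if_pos hz]
        exact K.one_mem
      obtain ⟨c1, c2, c3⟩ := key_cut0 N
      have l1 : (w.take (cut0 N)).length = cut0 N := List.length_take_of_le (by omega)
      have l2 : (w.drop (cut0 N)).length = w.length - cut0 N := List.length_drop
      have l3 : ln (w.take (cut0 N)) = cut0 N := by rw [ln, l1]
      have e : diagEl S y N a w =
          ⁅y a (w.take (cut0 N)), y (a + ln (w.take (cut0 N))) (w.drop (cut0 N))⁆ := by
        rw [diagEl, if_neg hz, l3]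
      have hw := List.take_append_drop (cut0 N) w
      generalize w.take (cut0 N) = p at l1 l3 e hw
      generalize w.drop (cut0 N) = q at l2 e hw
      have hp : ln p ≠ 0 := by rwa [l3]
      have hpq : ln p + ln q = 0 := by rw [← ln_append, hw, h0]
      have hq : ln q ≠ 0 := fun h => hp (by rwa [h, add_zero] at hpq)
      have hz' : S.Zero (q ++ p) := (cut_eq_of_nz hy ha a (by omega) (by omega) (by omega)
        (by omega) hp hpq (by rwa [hw])).1
      refine hgen _ a w h1 h2 ?_ ?_ ?_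
      · rw [e, map_commutatorElement, hΨ _ p (by omega) hp, hΨ _ q (by omega) hq,
          hcm _ _ p q (by omega) hp hq]
      · have hne : a + ln p ≠ a := fun h => hp (by simpa using h)
        have e2 : a + ln p + ln q = a := by rw [add_assoc, hpq, add_zero]
        rw [e, commutatorElement_def, hy.inv, hy.inv, map_mul, map_mul, map_mul, Units.val_mul,
          Units.val_mul, Units.val_mul, hν0, hν0, hμ _ p hp, hμ _ q hq, map_add, map_add, map_one,
          key_comm, ← map_mul, Matrix.single_mul_single_same, ← mon_append, hw, ← hψ, e2, h0,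
          add_zero]
        · rw [← map_mul, Matrix.single_mul_single_of_ne _ _ _ _ hne, map_zero]
        · rw [← map_mul, e2, Matrix.single_mul_single_of_ne _ _ _ _ hne.symm, map_zero]
        · rw [← map_mul, e2, Matrix.single_mul_single_same, ← mon_append, mon_zero hz',
            Matrix.single_zero, map_zero]
      · rw [XX, if_pos ⟨hz, rfl⟩, if_pos h0]
  have hlen : ∀ l : List (V × Fin m), l.length ≤ 16 * N →
      ν (l.map fun p => y p.1 [p.2]).prod ∈ Loc S (Rng 1 l.length) ∧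
        Ψ (l.map fun p => y p.1 [p.2]).prod = ρ (ν (l.map fun p => y p.1 [p.2]).prod) := by
    intro l
    induction l with
    | nil =>
      intro _
      simp only [List.map_nil, List.prod_nil, map_one, hρ1, and_true]
      exact one_mem_Loc _
    | cons p l ih =>
      intro hl
      rw [List.length_cons] at hl
      obtain ⟨b1, b2⟩ := ih (by omega)
      have h1 : ln [p.2] ≠ 0 := by
        rw [ln_cons, ln_nil]
        decide
      have b3 : ν (y p.1 [p.2]) ∈ Loc S (Rng 1 1) := hL p.1 [p.2] h1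
      rw [List.map_cons, List.prod_cons, List.length_cons, add_comm]
      refine ⟨hLm b3 b1, ?_⟩
      rw [hR b3 b1 (by omega) (by omega), map_mul, b2,
        hΨ p.1 [p.2] (by rw [List.length_singleton]; omega) h1]
  refine ⟨NOne S y N, NOne_normal hy hg ha hN20 hD, ⟨3 * N, fun a w hw => y_mem_NOne hy hN20 a hw⟩,
    ?_⟩
  rintro c ⟨l, hl, hc⟩ h1 q hq
  have b1 : ν c = 1 := Units.ext (by rw [hν0, h1, Units.val_one, map_one, Units.val_one])
  have b2 : Ψ c = 1 := by
    have := (hlen l (by omega)).2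
    rwa [← hc, b1, hρ1] at this
  have b3 := hK hq 1
  rw [map_pow, b2, one_pow, mul_one] at b3
  exact (hι b3).symm

end Crest.Agent.R176
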