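import Crest.Agent.R176.Mat1

/-!
# R176 — unipotent groups of arcs lift uniquely
-/

set_option autoImplicit false

namespace Crest.Agent.R176

open scoped commutatorElement

variable {m : ℕ} {S : RW (Fin m)} {D : ℕ} [NeZero D] {G : Type} [Group G]
  {x : Lam D → List (Fin m) → G} {N' : ℕ}

theorem EE_sq (l : Lam D) {w : List (Fin m)} (h0 : 0 < w.length) (hD : w.length < D) :
    EE S l w * EE S l w = 0 := by
  rw [EE_mul, if_neg (sh_ne h0 hD)]

theorem one_add_EE_sq (l : Lam D) {w : List (Fin m)} (h0 : 0 < w.length) (hD : w.length < D) :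
    (1 + EE S l w) * (1 + EE S l w) = 1 := by
  have h1 := EE_sq (S := S) l h0 hD
  have h2 := MA_add_self (EE S l w)
  calc (1 + EE S l w) * (1 + EE S l w)
      = 1 + (EE S l w + EE S l w) + EE S l w * EE S l w := by noncomm_ring
    _ = 1 := by rw [h1, h2]; simp

theorem unit_inv_of_EE {l : Lam D} {w : List (Fin m)} (h0 : 0 < w.length) (hD : w.length < D)
    {g : (MA S D)ˣ} (hg : (g : MA S D) = 1 + EE S l w) : g⁻¹ = g := by
  refine inv_eq_of_mul_eq_one_right (Units.ext ?_)
  rw [Units.val_mul, hg, one_add_EE_sq l h0 hD, Units.val_one]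

theorem exists_EE_unit (l : Lam D) {w : List (Fin m)} (h0 : 0 < w.length) (hD : w.length < D) :
    ∃ g : (MA S D)ˣ, (g : MA S D) = 1 + EE S l w ∧ g⁻¹ = g := by
  let g : (MA S D)ˣ := ⟨1 + EE S l w, 1 + EE S l w, one_add_EE_sq l h0 hD, one_add_EE_sq l h0 hD⟩
  exact ⟨g, rfl, unit_inv_of_EE h0 hD rfl⟩

theorem UT_mono {P Q : Lam D → ℕ → Prop} (h : ∀ l k, P l k → Q l k) : UT S x P ≤ UT S x Q := by
  refine Subgroup.closure_mono ?_
  rintro p ⟨l, w, hP, h1, h2⟩
  exact ⟨l, w, h l _ hP, h1, h2⟩

theorem UT_loc {P : Lam D → ℕ → Prop} (hP : Closed P) (h : ∀ l k, P l k → 0 < k ∧ k < D)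
    {p : G × (MA S D)ˣ} (hp : p ∈ UT S x P) : p.2 ∈ Loc S P := by
  induction hp using Subgroup.closure_induction with
  | mem p hp =>
    obtain ⟨l, w, hPl, -, h2⟩ := hp
    have hi := unit_inv_of_EE (h l _ hPl).1 (h l _ hPl).2 h2
    refine ⟨?_, ?_⟩
    · rw [h2, add_sub_cancel_left]; exact EE_mem hPl
    · rw [hi, h2, add_sub_cancel_left]; exact EE_mem hPl
  | one => exact one_mem_Loc P
  | mul p q _ _ hp hq => exact Loc_mul hP hp hq
  | inv p _ hp => exact Loc_inv hp

theorem commute_closure {H : Type*} [Group H] {s t : Set H} (h : ∀ a ∈ s, ∀ b ∈ t, Commute a b)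
    {p q : H} (hp : p ∈ Subgroup.closure s) (hq : q ∈ Subgroup.closure t) : Commute p q := by
  induction hp using Subgroup.closure_induction with
  | mem a ha =>
    induction hq using Subgroup.closure_induction with
    | mem b hb => exact h a ha b hb
    | one => exact Commute.one_right _
    | mul b c _ _ hb hc => exact hb.mul_right hc
    | inv b _ hb => exact hb.inv_right
  | one => exact Commute.one_left _
  | mul a b _ _ ha hb => exact ha.mul_left hb
  | inv a _ ha => exact ha.inv_left

/-- two generators which do not chain commute -/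
theorem gen_comm (hx : XSys S x N') {l l' : Lam D} {w w' : List (Fin m)} (hw : N' ≤ w.length)
    (hwD : w.length < D) (hw' : N' ≤ w'.length) (hwD' : w'.length < D) (h₁ : sh l w.length ≠ l')
    (h₂ : sh l' w'.length ≠ l) {p q : G × (MA S D)ˣ} (hp1 : p.1 = x l w)
    (hp2 : (p.2 : MA S D) = 1 + EE S l w) (hq1 : q.1 = x l' w') (hq2 : (q.2 : MA S D) = 1 + EE S l' w') :
    Commute p q := by
  refine Prod.ext ?_ (Units.ext ?_)
  · rw [Prod.fst_mul, Prod.fst_mul, hp1, hq1]
    exact hx.comm hw hwD hw' hwD' h₁ h₂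
  · rw [Prod.snd_mul, Prod.snd_mul, Units.val_mul, Units.val_mul, hp2, hq2]
    have e1 : EE S l w * EE S l' w' = 0 := by rw [EE_mul, if_neg h₁]
    have e2 : EE S l' w' * EE S l w = 0 := by rw [EE_mul, if_neg h₂]
    simp only [mul_add, add_mul, one_mul, mul_one, e1, e2]
    abel

/-- families which never chain commute -/
theorem UT_comm (hx : XSys S x N') {P Q : Lam D → ℕ → Prop} (hP : ∀ l k, P l k → N' ≤ k ∧ k < D)
    (hQ : ∀ l k, Q l k → N' ≤ k ∧ k < D) (h₁ : ∀ l k k', P l k → ¬ Q (sh l k) k')
    (h₂ : ∀ l k k', Q l k → ¬ P (sh l k) k') {p q : G × (MA S D)ˣ} (hp : p ∈ UT S x P)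
    (hq : q ∈ UT S x Q) : Commute p q := by
  refine commute_closure ?_ hp hq
  rintro a ⟨l, w, hPl, ha1, ha2⟩ b ⟨l', w', hQl, hb1, hb2⟩
  refine gen_comm hx (hP _ _ hPl).1 (hP _ _ hPl).2 (hQ _ _ hQl).1 (hQ _ _ hQl).2 ?_ ?_ ha1 ha2 hb1 hb2
  · intro e
    exact h₁ _ _ _ hPl (e ▸ hQl)
  · intro e
    exact h₂ _ _ _ hQl (e ▸ hPl)

theorem pos_sh_of_lt {α : ZMod D} {l : Lam D} {k : ℕ} (h : pos α l + k < D) :
    pos α (sh l k) = pos α l + k := by
  rw [pos_sh, Nat.mod_eq_of_lt h]

/-- products vanish on the span of the roots with a fixed target position -/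
theorem MM_tgt_mul (hN : 1 ≤ N') {α : ZMod D} {P : Lam D → ℕ → Prop} (h : ∀ l k, P l k → Arc N' α l k)
    {j : ℕ} {A B : MA S D} (hA : A ∈ MM S fun l k => P l k ∧ pos α l + k = j)
    (hB : B ∈ MM S fun l k => P l k ∧ pos α l + k = j) : A * B = 0 := by
  refine MM_eq_zero (P := fun _ _ => False) (fun _ _ h => h) (MM_mul ?_ hA hB)
  rintro l k k' ⟨h1, h2⟩ ⟨h3, h4⟩
  have h5 := pos_sh_of_lt (h _ _ h1).2
  have h6 := (h _ _ h3).1
  omega

theorem UT_surj_tgt (hN : 1 ≤ N') {α : ZMod D} {P : Lam D → ℕ → Prop} (h : ∀ l k, P l k → Arc N' α l k)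
    {j : ℕ} {A : MA S D} (hA : A ∈ MM S fun l k => P l k ∧ pos α l + k = j) :
    ∃ p ∈ UT S x P, (p.2 : MA S D) = 1 + A := by
  induction hA using Submodule.span_induction with
  | mem A hA =>
    obtain ⟨l, w, ⟨hP, -⟩, rfl⟩ := hA
    have h1 := (h _ _ hP).1
    have h2 := (h _ _ hP).2
    obtain ⟨g, hg, -⟩ := exists_EE_unit (S := S) l (w := w) (by omega) (by omega)
    exact ⟨(x l w, g), Subgroup.subset_closure ⟨l, w, hP, rfl, hg⟩, hg⟩
  | zero => exact ⟨1, one_mem _, by simp⟩
  | add A B hA hB ihA ihB =>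
    obtain ⟨p, hp, hp2⟩ := ihA
    obtain ⟨q, hq, hq2⟩ := ihB
    refine ⟨p * q, mul_mem hp hq, ?_⟩
    have e := MM_tgt_mul hN h hA hB
    rw [Prod.snd_mul, Units.val_mul, hp2, hq2]
    simp only [mul_add, add_mul, one_mul, mul_one, e]
    abel
  | smul c A hA ih =>
    have hc : c = 0 ∨ c = 1 := by revert c; decide
    rcases hc with rfl | rfl
    · exact ⟨1, one_mem _, by simp⟩
    · simpa using ih

/-- Surjectivity.  Induction on `j`: for `A ∈ MM (P ∧ pos + k < j + 1)` write `A = A' + A''` (targets `< j`, `= j`), then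
`1 + A = (1 + A') (1 + γ)` with `γ = (1 + A')⁻¹ A'' ∈ MM (P ∧ pos + k = j)`; on this span products vanish, so `1 + γ` is
a product of elementary matrices (span induction). -/
theorem UT_surj (hN : 1 ≤ N') {α : ZMod D} {P : Lam D → ℕ → Prop} (hP : Closed P)
    (h : ∀ l k, P l k → Arc N' α l k) {g : (MA S D)ˣ} (hg : (g : MA S D) - 1 ∈ MM S P) :
    ∃ p ∈ UT S x P, p.2 = g := by
  have hP' : ∀ l k, P l k → 0 < k ∧ k < D := fun l k hl => by
    have h1 := (h _ _ hl).1
    have h2 := (h _ _ hl).2
    omega
  have key : ∀ j : ℕ, ∀ A : MA S D, (A ∈ MM S fun l k => P l k ∧ pos α l + k < j) →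
      ∃ p ∈ UT S x P, (p.2 : MA S D) = 1 + A := by
    intro j
    induction j with
    | zero =>
      intro A hA
      have : A = 0 := MM_eq_zero (fun l k hl => by omega) hA
      exact ⟨1, one_mem _, by simp [this]⟩
    | succ j ih =>
      intro A hA
      have h1 := prj_mem (Q := fun l k => pos α l + k < j) hA
      have h2 := sub_prj_mem (Q := fun l k => pos α l + k < j) hA
      set A' := prj S (fun l k => pos α l + k < j) A with hA'
      obtain ⟨p, hp, hp2⟩ := ih A' (MM_mono (fun l k hl => ⟨hl.1.1, hl.2⟩) h1)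
      have h3 : A - A' ∈ MM S fun l k => P l k ∧ pos α l + k = j :=
        MM_mono (fun l k hl => ⟨hl.1.1, by have := hl.1.2; have := hl.2; omega⟩) h2
      have h4 := (UT_loc hP hP' hp).2
      have h5 : (((p.2⁻¹ : (MA S D)ˣ) : MA S D) - 1) * (A - A') ∈
          MM S fun l k => P l k ∧ pos α l + k = j := by
        refine MM_mul ?_ h4 h3
        rintro l k k' hl ⟨hl', e⟩
        have := pos_sh_of_lt (h _ _ hl).2
        exact ⟨hP _ _ _ hl hl', by omega⟩
      have h6 : ((p.2⁻¹ : (MA S D)ˣ) : MA S D) * (A - A') ∈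
          MM S fun l k => P l k ∧ pos α l + k = j := by
        have := add_mem h5 h3
        rwa [sub_mul, one_mul, sub_add_cancel] at this
      obtain ⟨q, hq, hq2⟩ := UT_surj_tgt (x := x) hN h h6
      refine ⟨p * q, mul_mem hp hq, ?_⟩
      rw [Prod.snd_mul, Units.val_mul, hq2, mul_add, mul_one, ← mul_assoc, Units.mul_inv, one_mul, hp2]
      abel
  obtain ⟨p, hp, hp2⟩ := key D _ (MM_mono (fun l k hl => ⟨hl, (h _ _ hl).2⟩) hg)
  exact ⟨p, hp, Units.ext (by rw [hp2]; abel)⟩

/-- the generators are involutions -/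
theorem gen_inv (hx : XSys S x N') (hN : 1 ≤ N') {l : Lam D} {w : List (Fin m)} (hw : N' ≤ w.length)
    (hwD : w.length < D) {p : G × (MA S D)ˣ} (hp1 : p.1 = x l w)
    (hp2 : (p.2 : MA S D) = 1 + EE S l w) : p⁻¹ = p := by
  refine Prod.ext ?_ ?_
  · rw [Prod.fst_inv, hp1]
    exact inv_eq_of_mul_eq_one_right (hx.sq l hw hwD)
  · rw [Prod.snd_inv]
    exact unit_inv_of_EE (by omega) hwD hp2

/-- lists of roots with a common target position and zero sum have trivial product -/
theorem list_prod_eq_one (hx : XSys S x N') (hN : 1 ≤ N') (α : ZMod D) (j : ℕ) :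
    ∀ (n : ℕ) (L : List (Lam D × List (Fin m))), L.length ≤ n →
      (∀ e ∈ L, Arc N' α e.1 e.2.length ∧ pos α e.1 + e.2.length = j) →
      (L.map fun e => EE S e.1 e.2).sum = 0 → (L.map fun e => x e.1 e.2).prod = 1 := by
  obtain ⟨co, hco⟩ := exists_co S D
  intro n
  induction n with
  | zero =>
    intro L hL _ _
    have : L = [] := List.length_eq_zero_iff.1 (by omega)
    simp [this]
  | succ n ih =>
    intro L hL hA hs
    rcases L with _ | ⟨⟨l, w⟩, L⟩
    · simp
    have hL' : L.length ≤ n := by simpa using hL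
    have hlw := hA (l, w) (by simp)
    have hA' : ∀ e ∈ L, Arc N' α e.1 e.2.length ∧ pos α e.1 + e.2.length = j :=
      fun e he => hA e (List.mem_cons_of_mem _ he)
    simp only [List.map_cons, List.sum_cons, List.prod_cons] at hs ⊢
    by_cases hz : S.Zero w
    · rw [EE_zero l hz, zero_add] at hs
      rw [hx.zero l hz, one_mul]
      exact ih L hL' hA' hs
    have hex : ∃ e ∈ L, e.1 = l ∧ S.Eqv w e.2 := by
      by_contra hne
      have h0 : co l w (L.map fun e => EE S e.1 e.2).sum = 0 := by
        rw [map_list_sum, List.map_map]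
        refine List.sum_eq_zero ?_
        intro c hc
        obtain ⟨e, he, rfl⟩ := List.mem_map.1 hc
        simp only [Function.comp]
        rw [hco, if_neg]
        rintro ⟨h1, -, h2⟩
        exact hne ⟨e, he, h1, h2⟩
      have h1 := congrArg (co l w) hs
      rw [map_add, h0, hco, if_pos ⟨rfl, hz, RW.Eqv.rfl⟩, map_zero] at h1
      exact absurd h1 (by decide)
    obtain ⟨⟨l', w'⟩, he, hl, hw⟩ := hex
    simp only at hl hw
    subst hl
    obtain ⟨A, B, rfl⟩ := List.append_of_mem he
    have hwN : N' ≤ w.length := hlw.1.1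
    have hwD : w.length < D := by have := hlw.1.2; simp only at this; omega
    have hxw : x l' w' = x l' w := (hx.eqv l' hwN hwD hw).symm
    have hEw : EE S l' w' = EE S l' w := (EE_eqv l' hw).symm
    have hAB : ∀ e ∈ A ++ B, Arc N' α e.1 e.2.length ∧ pos α e.1 + e.2.length = j := by
      intro e he
      refine hA' e ?_
      rcases List.mem_append.1 he with h | h
      · exact List.mem_append_left _ h
      · exact List.mem_append_right _ (List.mem_cons_of_mem _ h)
    have hc : Commute (x l' w) (A.map fun e => x e.1 e.2).prod := by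
      refine Commute.list_prod_right _ _ ?_
      intro g hg
      obtain ⟨e, he, rfl⟩ := List.mem_map.1 hg
      have h1 := hAB e (List.mem_append_left _ he)
      have h2 := h1.1.1
      have h3 := h1.1.2
      have h4 := h1.2
      have h5 := hlw.1.2
      have h6 := hlw.2
      simp only at h5 h6
      refine hx.comm hwN hwD h2 (by omega) ?_ ?_
      · intro e'
        have := pos_sh_of_lt h5
        rw [e'] at this
        omega
      · intro e'
        have := pos_sh_of_lt h3
        rw [e'] at this
        omega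
    have hlen : (A ++ B).length ≤ n := by
      simp only [List.length_append, List.length_cons] at hL' ⊢
      omega
    have h7 := ih (A ++ B) hlen hAB (by
      simp only [List.map_append, List.sum_append, List.map_cons, List.sum_cons, hEw] at hs ⊢
      have h8 := MA_add_self (EE S l' w)
      calc _ = (EE S l' w + EE S l' w) + ((A.map fun e => EE S e.1 e.2).sum +
            (B.map fun e => EE S e.1 e.2).sum) := by rw [h8, zero_add]
        _ = _ := by rw [← hs]; abel)
    simp only [List.map_append, List.prod_append, List.map_cons, List.prod_cons, hxw] at h7 ⊢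
    rw [← mul_assoc, hc.eq, mul_assoc, ← mul_assoc (x l' w), hx.sq l' hwN hwD, one_mul, h7]

theorem UT_inj_tgt (hx : XSys S x N') (hN : 1 ≤ N') (α : ZMod D) (j : ℕ) {p : G × (MA S D)ˣ}
    (hp : p ∈ UT S x fun l k => Arc N' α l k ∧ pos α l + k = j) (h : p.2 = 1) : p.1 = 1 := by
  have hmem : ∀ L : List (Lam D × List (Fin m)),
      (∀ e ∈ L, Arc N' α e.1 e.2.length ∧ pos α e.1 + e.2.length = j) →
      (L.map fun e => EE S e.1 e.2).sum ∈ MM S fun l k => Arc N' α l k ∧ pos α l + k = j := by
    intro L hL
    refine list_sum_mem ?_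
    intro A hA
    obtain ⟨e, he, rfl⟩ := List.mem_map.1 hA
    exact EE_mem (hL e he)
  have key : ∃ L : List (Lam D × List (Fin m)),
      (∀ e ∈ L, Arc N' α e.1 e.2.length ∧ pos α e.1 + e.2.length = j) ∧
      p.1 = (L.map fun e => x e.1 e.2).prod ∧ (p.2 : MA S D) = 1 + (L.map fun e => EE S e.1 e.2).sum := by
    clear h
    induction hp using Subgroup.closure_induction'' with
    | mem p hp =>
      obtain ⟨l, w, hP, h1, h2⟩ := hp
      exact ⟨[(l, w)], by simpa using hP, by simpa using h1, by simpa using h2⟩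
    | inv_mem p hp =>
      obtain ⟨l, w, hP, h1, h2⟩ := hp
      rw [gen_inv hx hN hP.1.1 (by have := hP.1.2; omega) h1 h2]
      exact ⟨[(l, w)], by simpa using hP, by simpa using h1, by simpa using h2⟩
    | one => exact ⟨[], by simp, by simp, by simp⟩
    | mul p q _ _ hp hq =>
      obtain ⟨L, hL, h1, h2⟩ := hp
      obtain ⟨L', hL', h1', h2'⟩ := hq
      refine ⟨L ++ L', ?_, ?_, ?_⟩
      · intro e he
        rcases List.mem_append.1 he with h | h
        · exact hL e h
        · exact hL' e h
      · rw [Prod.fst_mul, h1, h1', List.map_append, List.prod_append]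
      · have e := MM_tgt_mul hN (fun _ _ h => h) (hmem L hL) (hmem L' hL')
        rw [Prod.snd_mul, Units.val_mul, h2, h2', List.map_append, List.sum_append]
        simp only [mul_add, add_mul, one_mul, mul_one, e]
        abel
  obtain ⟨L, hL, h1, h2⟩ := key
  rw [h1]
  refine list_prod_eq_one hx hN α j L.length L le_rfl hL ?_
  rw [h, Units.val_one] at h2
  exact (add_eq_left.1 h2.symm)

/-- conjugating a generator with target `j` by a generator with target `< j` -/
theorem conj_gen_mem (hx : XSys S x N') (hN : 1 ≤ N') (α : ZMod D) (j : ℕ) {l : Lam D} {w : List (Fin m)}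
    (hl : Arc N' α l w.length) (hj : pos α l + w.length < j) {u : G × (MA S D)ˣ} (hu1 : u.1 = x l w)
    (hu2 : (u.2 : MA S D) = 1 + EE S l w) {c : G × (MA S D)ˣ}
    (hc : c ∈ UT S x fun l k => Arc N' α l k ∧ pos α l + k = j) :
    u * c * u⁻¹ ∈ UT S x fun l k => Arc N' α l k ∧ pos α l + k = j := by
  induction hc using Subgroup.closure_induction with
  | mem c hc =>
    have hc' := hc
    obtain ⟨l', w', ⟨hl', hj'⟩, hc1, hc2⟩ := hc
    have h1 := hl.1
    have h2 := hl.2
    have h3 := hl'.1
    have h4 := hl'.2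
    have hne : sh l' w'.length ≠ l := by
      intro e
      have := pos_sh_of_lt h4
      rw [e] at this
      omega
    by_cases e : sh l w.length = l'
    · have hpos := pos_sh_of_lt h2
      rw [e] at hpos
      have hcomm : ⁅u, c⁆ ∈ UT S x fun l k => Arc N' α l k ∧ pos α l + k = j := by
        refine Subgroup.subset_closure ⟨l, w ++ w', ⟨⟨?_, ?_⟩, ?_⟩, ?_, ?_⟩
        · rw [List.length_append]; omega
        · rw [List.length_append]; omega
        · rw [List.length_append]; omega
        · have := hx.chain l h1 h3 (by omega)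
          rw [e] at this
          rw [← this, ← hu1, ← hc1]
          rfl
        · have i1 := unit_inv_of_EE (by omega) (by omega) hu2
          have i2 := unit_inv_of_EE (by omega) (by omega) hc2
          have e0 : (⁅u, c⁆ : G × (MA S D)ˣ).2 = u.2 * c.2 * u.2⁻¹ * c.2⁻¹ := rfl
          rw [e0, i1, i2, Units.val_mul, Units.val_mul, Units.val_mul, hu2, hc2]
          have e1 : EE S l w * EE S l' w' = EE S l (w ++ w') := by rw [EE_mul, if_pos e]
          have e2 : EE S l' w' * EE S l w = 0 := by rw [EE_mul, if_neg hne]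
          have e3 := EE_sq (S := S) l (w := w) (by omega) (by omega)
          have e4 := EE_sq (S := S) l' (w := w') (by omega) (by omega)
          have e5 := MA_add_self (EE S l w)
          have e6 := MA_add_self (EE S l' w')
          have e7 := MA_add_self (EE S l w * EE S l' w')
          rw [← e1]
          generalize EE S l w = a at *
          generalize EE S l' w' = b at *
          have f1 : (1 + b) * (1 + a) = 1 + a + b := by
            simp only [mul_add, add_mul, one_mul, mul_one, e2]; abel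
          have f2 : (1 + a) * (1 + a + b) = 1 + b + a * b := by
            calc (1 + a) * (1 + a + b) = 1 + (a + a) + a * a + b + a * b := by noncomm_ring
              _ = _ := by rw [e3, e5]; simp
          have f3 : (1 + b + a * b) * (1 + b) = 1 + a * b := by
            calc (1 + b + a * b) * (1 + b) = 1 + (b + b) + b * b + a * b + a * (b * b) := by noncomm_ring
              _ = _ := by rw [e4, e6]; simp
          rw [mul_assoc (1 + a), f1, f2, f3]
      have := mul_mem hcomm (Subgroup.subset_closure hc')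
      have e1 : ⁅u, c⁆ * c = u * c * u⁻¹ := by rw [commutatorElement_def]; group
      rwa [e1] at this
    · have := gen_comm hx h1 (by omega) h3 (by omega) e hne hu1 hu2 hc1 hc2
      rw [this.eq, mul_inv_cancel_right]
      exact Subgroup.subset_closure hc'
  | one => simp
  | mul a b _ _ ha hb =>
    have := mul_mem ha hb
    have e1 : u * a * u⁻¹ * (u * b * u⁻¹) = u * (a * b) * u⁻¹ := by group
    rwa [e1] at this
  | inv a _ ha =>
    have := inv_mem ha
    have e1 : (u * a * u⁻¹)⁻¹ = u * a⁻¹ * u⁻¹ := by group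
    rwa [e1] at this

/-- Injectivity.  Let `U j`, `C j` be generated by the roots of the arc with target position `< j`, `= j`.  `C j` is
generated by commuting involutions and normalised by `U j` (`comm`, `chain`), so `U (j + 1) = U j · C j`.  If `u c`
has trivial matrix, project on the targets `< j` (`prj`): both `u` and `c` have trivial matrix.  Every element of
`C j` is a product over a list of pairwise inequivalent non-zero `(l, w)` with matrix `1 + ∑ EE l w` (multiplying by a
generator adds or removes an entry); the coordinates `exists_co` show that the list is empty. -/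
theorem UT_inj (hx : XSys S x N') (hN : 1 ≤ N') (α : ZMod D) {p : G × (MA S D)ˣ}
    (hp : p ∈ UT S x (Arc N' α)) (h : p.2 = 1) : p.1 = 1 := by
  have key : ∀ j : ℕ, ∀ p ∈ UT S x (fun l k => Arc N' α l k ∧ pos α l + k < j), p.2 = 1 → p.1 = 1 := by
    intro j
    induction j with
    | zero =>
      intro p hp _
      have : UT S x (fun l k => Arc N' α l k ∧ pos α l + k < 0) ≤ ⊥ := by
        refine (Subgroup.closure_le _).2 ?_
        rintro p ⟨l, w, hl, -⟩
        exact absurd hl.2 (by omega)
      rw [Subgroup.mem_bot.1 (this hp)]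
      rfl
    | succ j ih =>
      intro p hp h
      have hnorm : UT S x (fun l k => Arc N' α l k ∧ pos α l + k < j) ≤
          Subgroup.normalizer (UT S x fun l k => Arc N' α l k ∧ pos α l + k = j) := by
        refine (Subgroup.closure_le _).2 ?_
        rintro u ⟨l, w, ⟨hl, hj⟩, hu1, hu2⟩
        refine Subgroup.mem_normalizer_iff.2 fun c => ⟨conj_gen_mem hx hN α j hl hj hu1 hu2, fun hc => ?_⟩
        have h1 := conj_gen_mem hx hN α j hl hj hu1 hu2 hc
        have hi := gen_inv hx hN hl.1 (by have := hl.2; omega) hu1 hu2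
        have huu : u * u = 1 := by
          nth_rewrite 1 [← hi]
          exact inv_mul_cancel u
        have e1 : u * (u * c * u⁻¹) * u⁻¹ = (u * u) * c * (u * u)⁻¹ := by group
        rwa [e1, huu, one_mul, inv_one, mul_one] at h1
      have hle : UT S x (fun l k => Arc N' α l k ∧ pos α l + k < j + 1) ≤
          UT S x (fun l k => Arc N' α l k ∧ pos α l + k < j) ⊔
            UT S x fun l k => Arc N' α l k ∧ pos α l + k = j := by
        refine (Subgroup.closure_le _).2 ?_
        rintro u ⟨l, w, ⟨hl, hj⟩, hu1, hu2⟩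
        rcases Nat.lt_succ_iff_lt_or_eq.1 hj with hj | hj
        · exact Subgroup.mem_sup_left (Subgroup.subset_closure ⟨l, w, ⟨hl, hj⟩, hu1, hu2⟩)
        · exact Subgroup.mem_sup_right (Subgroup.subset_closure ⟨l, w, ⟨hl, hj⟩, hu1, hu2⟩)
      have hmem : p ∈ ((UT S x (fun l k => Arc N' α l k ∧ pos α l + k < j) ⊔
            UT S x fun l k => Arc N' α l k ∧ pos α l + k = j : Subgroup _) : Set _) := hle hp
      rw [Subgroup.coe_mul_of_left_le_normalizer_right _ _ hnorm] at hmem
      obtain ⟨u, hu, c, hc, rfl⟩ := hmem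
      have hu' : u.2 ∈ Loc S fun l k => Arc N' α l k ∧ pos α l + k < j := by
        refine UT_loc ?_ ?_ hu
        · rintro l k k' ⟨h1, h2⟩ ⟨h3, h4⟩
          have h5 := pos_sh_of_lt h1.2
          have h6 := h1.1
          have h7 := h3.2
          exact ⟨⟨by omega, by omega⟩, by omega⟩
        · rintro l k ⟨h1, -⟩
          have h2 := h1.1
          have h3 := h1.2
          omega
      have hc' : c.2 ∈ Loc S fun l k => Arc N' α l k ∧ pos α l + k = j := by
        refine UT_loc ?_ ?_ hc
        · rintro l k k' ⟨h1, h2⟩ ⟨h3, h4⟩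
          have h5 := pos_sh_of_lt h1.2
          have h6 := h3.1
          omega
        · rintro l k ⟨h1, -⟩
          have h2 := h1.1
          have h3 := h1.2
          omega
      have h' : u.2 * c.2 = 1 := h
      have e1 : c.2⁻¹ = u.2 := inv_eq_of_mul_eq_one_left h'
      have e2 : (u.2 : MA S D) - 1 = 0 := by
        have h1 := hc'.2
        rw [e1] at h1
        exact MM_eq_zero (fun l k hl => by have := hl.1.2; have := hl.2.2; omega) (MM_inf hu'.1 h1)
      have e3 : u.2 = 1 := Units.ext (sub_eq_zero.1 e2)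
      have e4 : c.2 = 1 := by rwa [e3, one_mul] at h'
      change u.1 * c.1 = 1
      rw [ih u hu e3, UT_inj_tgt hx hN α j hc e4, one_mul]
  exact key D p (UT_mono (fun l k hl => ⟨hl, hl.2⟩) hp) h

end Crest.Agent.R176
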