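import Crest.Agent.R176.Key
import Crest.Agent.R176.FinQ
import Crest.Agent.R176.Alg3
import Crest.Agent.R176.Build

set_option autoImplicit false

namespace Crest.Agent.R176

open scoped commutatorElement

theorem main265 : ∃ (G : Type) (_ : Group G),
    Infinite G ∧ Group.IsFinitelyPresented G ∧ Group.ResiduallyFinite G ∧ IsPGroup 2 G := by
  obtain ⟨m, S, hS⟩ := exists_good
  obtain ⟨G, inst, y, hfp, hy, hg, hu⟩ := exists_group S
  obtain ⟨μ, hμ, hplus⟩ := exists_mu hy hg hu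
  refine ⟨G, inst, infinite_G hS.inf μ hμ, hfp, ?_, fun c => ?_⟩
  · refine Group.residuallyFinite_of_forall_exists_finite_monoidHom.{0} fun c hc => ?_
    by_cases h1 : μ c = 1
    · obtain ⟨M, hM⟩ := exists_len hy hg c
      obtain ⟨N₁, hN, ⟨M', hM'⟩, hk⟩ := key hS.addr hy hg hu μ hμ M
      refine ⟨G ⧸ N₁, inferInstance, (fin_two_quot hy hg M' N₁ hM').1, QuotientGroup.mk' N₁,
        fun h => hc ?_⟩
      have := hk c hM h1 1 (by simpa using h)
      rwa [pow_one] at this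
    · obtain ⟨F, _, _, f, hf⟩ := exists_finite_hom (μ c) h1
      exact ⟨F, inferInstance, inferInstance, f.comp μ, hf⟩
  · obtain ⟨k, hk⟩ := pow_two_pow_eq_one (μ c) (nil_matrix hS.cap _ (hplus c))
    obtain ⟨M, hM⟩ := exists_len hy hg (c ^ 2 ^ k)
    obtain ⟨N₁, hN, ⟨M', hM'⟩, hkey⟩ := key hS.addr hy hg hu μ hμ M
    obtain ⟨j, hj⟩ := (fin_two_quot hy hg M' N₁ hM').2 (QuotientGroup.mk' N₁ (c ^ 2 ^ k))
    refine ⟨k + j, ?_⟩
    rw [pow_add, pow_mul]
    refine hkey _ hM (by rw [map_pow, hk]) _ ?_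
    rwa [← map_pow, QuotientGroup.mk'_apply, QuotientGroup.eq_one_iff] at hj

end Crest.Agent.R176
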