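import Crest.Agent.R176.Alg3
import Crest.Agent.R176.Build

set_option autoImplicit false

namespace Crest.Agent.R176

theorem main266 :
    ∃ (R : Type) (_ : Ring R) (_ : Algebra (ZMod 2) R) (𝒜 : ℕ → Submodule (ZMod 2) R)
      (_ : GradedAlgebra 𝒜),
      Infinite R ∧ 𝒜 0 = 1 ∧
      (∃ (m : ℕ) (rel : Finset (FreeAlgebra (ZMod 2) (Fin m) × FreeAlgebra (ZMod 2) (Fin m))),
        Nonempty (R ≃ₐ[ZMod 2] RingQuot fun x y : FreeAlgebra (ZMod 2) (Fin m) => (x, y) ∈ rel)) ∧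
      ∀ (l : ℕ) (A : Matrix (Fin l) (Fin l) R), (∀ i j, GradedRing.proj 𝒜 0 (A i j) = 0) →
        IsNilpotent A := by
  obtain ⟨m, S, hS⟩ := exists_good
  obtain ⟨inst, h0, hp⟩ := exists_graded S
  exact ⟨RA S, inferInstance, inferInstance, AA S, inst, infinite_RA hS.inf, h0,
    ⟨m, relF S, ⟨AlgEquiv.refl⟩⟩, fun l A hA => nil_matrix hS.cap A fun i j => hp _ (hA i j)⟩

end Crest.Agent.R176
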