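import Crest.Agent.R176.MatDefs
import Crest.Agent.R176.Alg1

/-!
# R176 — calculus of the spans `MM P`
-/

set_option autoImplicit false
set_option linter.unusedSectionVars false

namespace Crest.Agent.R176

open scoped commutatorElement

variable {m : ℕ} {S : RW (Fin m)} {D : ℕ} [NeZero D]

omit [NeZero D] in
theorem mat1_sh_sh (l : Lam D) (k k' : ℕ) : sh (sh l k) k' = sh l (k + k') := by
  simp [sh, add_assoc]

theorem mat1_mul_sub {R : Type*} [Ring R] (a b : R) :
    a * b - 1 = (a - 1) * (b - 1) + (a - 1) + (b - 1) := by noncomm_ring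

theorem pos_lt (α : ZMod D) (l : Lam D) : pos α l < D := ZMod.val_lt _

theorem pos_sh (α : ZMod D) (l : Lam D) (k : ℕ) : pos α (sh l k) = (pos α l + k) % D := by
  simp only [pos, sh]
  rw [add_sub_right_comm, ZMod.val_add, ZMod.val_natCast, Nat.add_mod_mod]

theorem sh_ne {l : Lam D} {k : ℕ} (h0 : 0 < k) (hk : k < D) : sh l k ≠ l := by
  intro h
  have h2 : l.2 + (k : ZMod D) = l.2 := congrArg Prod.snd h
  rw [add_eq_left, ZMod.natCast_eq_zero_iff] at h2
  exact absurd (Nat.le_of_dvd h0 h2) (not_le.2 hk)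

theorem MA_add_self (A : MA S D) : A + A = 0 := by
  rw [← two_smul (ZMod 2) A, show (2 : ZMod 2) = 0 from rfl, zero_smul]

theorem EE_mul (l l' : Lam D) (w w' : List (Fin m)) :
    EE S l w * EE S l' w' = if sh l w.length = l' then EE S l (w ++ w') else 0 := by
  split_ifs with h
  · subst h
    rw [EE, EE, EE, Matrix.single_mul_single_same, mon_append, List.length_append, mat1_sh_sh]
  · rw [EE, EE, Matrix.single_mul_single_of_ne _ _ _ _ h]

theorem EE_eqv (l : Lam D) {w w' : List (Fin m)} (h : S.Eqv w w') : EE S l w = EE S l w' := by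
  rw [EE, EE, h.length_eq, mon_eqv h]

theorem EE_zero (l : Lam D) {w : List (Fin m)} (h : S.Zero w) : EE S l w = 0 := by
  rw [EE, mon_zero h, Matrix.single_zero]

theorem EE_mem {P : Lam D → ℕ → Prop} {l : Lam D} {w : List (Fin m)} (h : P l w.length) :
    EE S l w ∈ MM S P := Submodule.subset_span ⟨l, w, h, rfl⟩

theorem MM_mono {P Q : Lam D → ℕ → Prop} (h : ∀ l k, P l k → Q l k) : MM S P ≤ MM S Q := by
  refine Submodule.span_mono ?_
  rintro _ ⟨l, w, h1, rfl⟩
  exact ⟨l, w, h _ _ h1, rfl⟩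

theorem MM_eq_zero {P : Lam D → ℕ → Prop} (h : ∀ l k, ¬ P l k) {A : MA S D} (hA : A ∈ MM S P) :
    A = 0 := by
  induction hA using Submodule.span_induction with
  | mem A hA => obtain ⟨l, w, h1, -⟩ := hA; exact absurd h1 (h _ _)
  | zero => rfl
  | add A B _ _ h1 h2 => rw [h1, h2, add_zero]
  | smul c A _ h1 => rw [h1, smul_zero]

theorem MM_mul {P Q R : Lam D → ℕ → Prop} (h : ∀ l k k', P l k → Q (sh l k) k' → R l (k + k'))
    {A B : MA S D} (hA : A ∈ MM S P) (hB : B ∈ MM S Q) : A * B ∈ MM S R := by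
  induction hA using Submodule.span_induction with
  | mem A hA =>
    obtain ⟨l, w, h1, rfl⟩ := hA
    induction hB using Submodule.span_induction with
    | mem B hB =>
      obtain ⟨l', w', h2, rfl⟩ := hB
      rw [EE_mul]
      split_ifs with h3
      · subst h3
        exact EE_mem (by rw [List.length_append]; exact h _ _ _ h1 h2)
      · exact zero_mem _
    | zero => simp
    | add A B _ _ h1 h2 => rw [mul_add]; exact add_mem h1 h2
    | smul c A _ h1 => rw [mul_smul_comm]; exact Submodule.smul_mem _ _ h1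
  | zero => simp
  | add A B _ _ h1 h2 => rw [add_mul]; exact add_mem h1 h2
  | smul c A _ h1 => rw [smul_mul_assoc]; exact Submodule.smul_mem _ _ h1

open Classical in
/-- projections: apply `exists_proj S (Q l)` to the entries of the row `l` -/
theorem exists_prj (S : RW (Fin m)) (Q : Lam D → ℕ → Prop) : ∃ pr : MA S D →ₗ[ZMod 2] MA S D,
    ∀ l w, pr (EE S l w) = if Q l w.length then EE S l w else 0 := by
  choose pr hpr using fun l => exists_proj S (Q l)
  refine ⟨{ toFun := fun A => Matrix.of fun i j => pr i (A i j)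
            map_add' := fun A B => by ext i j; simp
            map_smul' := fun c A => by ext i j; simp }, fun l w => ?_⟩
  ext i j
  by_cases h : l = i ∧ sh l w.length = j
  · obtain ⟨rfl, rfl⟩ := h
    split_ifs with h1 <;> simp [EE, hpr, h1]
  · split_ifs with h1 <;> simp [EE, Matrix.single_apply, h]

/-- the projection killing the basic matrices which do not satisfy `Q` -/
noncomputable def prj (S : RW (Fin m)) (Q : Lam D → ℕ → Prop) : MA S D →ₗ[ZMod 2] MA S D :=
  (exists_prj S Q).choose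

open Classical in
theorem prj_EE (Q : Lam D → ℕ → Prop) (l : Lam D) (w : List (Fin m)) :
    prj S Q (EE S l w) = if Q l w.length then EE S l w else 0 := (exists_prj S Q).choose_spec l w

theorem prj_mem {P Q : Lam D → ℕ → Prop} {A : MA S D} (hA : A ∈ MM S P) :
    prj S Q A ∈ MM S fun l k => P l k ∧ Q l k := by
  induction hA using Submodule.span_induction with
  | mem A hA =>
    obtain ⟨l, w, h1, rfl⟩ := hA
    rw [prj_EE]
    split_ifs with h2
    · exact EE_mem ⟨h1, h2⟩
    · exact zero_mem _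
  | zero => simp
  | add A B _ _ h1 h2 => rw [map_add]; exact add_mem h1 h2
  | smul c A _ h1 => rw [map_smul]; exact Submodule.smul_mem _ _ h1

theorem sub_prj_mem {P Q : Lam D → ℕ → Prop} {A : MA S D} (hA : A ∈ MM S P) :
    A - prj S Q A ∈ MM S fun l k => P l k ∧ ¬ Q l k := by
  induction hA using Submodule.span_induction with
  | mem A hA =>
    obtain ⟨l, w, h1, rfl⟩ := hA
    rw [prj_EE]
    split_ifs with h2
    · simp
    · rw [sub_zero]; exact EE_mem ⟨h1, h2⟩
  | zero => simp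
  | add A B _ _ h1 h2 => rw [map_add, add_sub_add_comm]; exact add_mem h1 h2
  | smul c A _ h1 => rw [map_smul, ← smul_sub]; exact Submodule.smul_mem _ _ h1

theorem prj_eq_self {P Q : Lam D → ℕ → Prop} (h : ∀ l k, P l k → Q l k) {A : MA S D}
    (hA : A ∈ MM S P) : prj S Q A = A := by
  exact (sub_eq_zero.1
    (MM_eq_zero (fun l k h1 => h1.2 (h l k h1.1)) (sub_prj_mem (Q := Q) hA))).symm

theorem prj_eq_zero {P Q : Lam D → ℕ → Prop} (h : ∀ l k, P l k → ¬ Q l k) {A : MA S D}
    (hA : A ∈ MM S P) : prj S Q A = 0 := by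
  exact MM_eq_zero (fun l k h1 => h l k h1.1 h1.2) (prj_mem (Q := Q) hA)

theorem MM_inf {P Q : Lam D → ℕ → Prop} {A : MA S D} (hP : A ∈ MM S P) (hQ : A ∈ MM S Q) :
    A ∈ MM S fun l k => P l k ∧ Q l k := by
  have := prj_mem (Q := Q) hP
  rwa [prj_eq_self (fun _ _ h => h) hQ] at this

theorem prj_mul {P P' Q : Lam D → ℕ → Prop}
    (h : ∀ l k k', P l k → P' (sh l k) k' → (Q l (k + k') ↔ Q l k ∧ Q (sh l k) k'))
    {A B : MA S D} (hA : A ∈ MM S P) (hB : B ∈ MM S P') :
    prj S Q (A * B) = prj S Q A * prj S Q B := by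
  induction hA using Submodule.span_induction with
  | mem A hA =>
    obtain ⟨l, w, h1, rfl⟩ := hA
    induction hB using Submodule.span_induction with
    | mem B hB =>
      obtain ⟨l', w', h2, rfl⟩ := hB
      rw [EE_mul, prj_EE, prj_EE]
      by_cases h3 : sh l w.length = l'
      · subst h3
        rw [if_pos rfl, prj_EE, List.length_append, h _ _ _ h1 h2]
        by_cases a : Q l w.length <;> by_cases b : Q (sh l w.length) w'.length <;>
          simp [a, b, EE_mul]
      · rw [if_neg h3, map_zero]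
        split_ifs <;> simp [EE_mul, h3]
    | zero => simp
    | add A B _ _ h1 h2 => rw [mul_add, map_add, map_add, mul_add, h1, h2]
    | smul c A _ h1 => rw [mul_smul_comm, map_smul, map_smul, mul_smul_comm, h1]
  | zero => simp
  | add A B _ _ h1 h2 => rw [add_mul, map_add, map_add, add_mul, h1, h2]
  | smul c A _ h1 => rw [smul_mul_assoc, map_smul, map_smul, smul_mul_assoc, h1]

/-- `A ^ j ∈ MM (P ∧ j ≤ length)` vanishes for `j > d`; geometric series -/
theorem exists_unit {P : Lam D → ℕ → Prop} (hP : Closed P) {d : ℕ} (hd : ∀ l k, P l k → 1 ≤ k ∧ k ≤ d)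
    {A : MA S D} (hA : A ∈ MM S P) : ∃ g ∈ Loc S P, (g : MA S D) = 1 + A := by
  have hpow : ∀ B ∈ MM S P, ∀ j : ℕ, B ^ (j + 1) ∈ MM S fun l k => P l k ∧ j + 1 ≤ k := by
    intro B hB j
    induction j with
    | zero => rw [zero_add, pow_one]; exact MM_mono (fun l k h => ⟨h, (hd l k h).1⟩) hB
    | succ j ih =>
      rw [pow_succ]
      refine MM_mul (fun l k k' h1 h2 => ⟨hP _ _ _ h1.1 h2, ?_⟩) ih hB
      have := (hd _ _ h2).1
      omega
  have hn : (-A) ^ (d + 1) = 0 :=
    MM_eq_zero (fun l k h => by have := (hd l k h.1).2; omega) (hpow _ (neg_mem hA) d)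
  have e1 : (1 + A) * ∑ i ∈ Finset.range (d + 1), (-A) ^ i = 1 := by
    have := mul_neg_geom_sum (-A) (d + 1)
    rwa [hn, sub_neg_eq_add, sub_zero] at this
  have e2 : (∑ i ∈ Finset.range (d + 1), (-A) ^ i) * (1 + A) = 1 := by
    have := geom_sum_mul_neg (-A) (d + 1)
    rwa [hn, sub_neg_eq_add, sub_zero] at this
  refine ⟨⟨1 + A, _, e1, e2⟩, ⟨by simpa using hA, ?_⟩, rfl⟩
  show (∑ i ∈ Finset.range (d + 1), (-A) ^ i) - 1 ∈ MM S P
  rw [Finset.sum_range_succ', pow_zero, add_sub_cancel_right]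
  exact Submodule.sum_mem _ fun j _ => MM_mono (fun _ _ h => h.1) (hpow _ (neg_mem hA) j)

open Classical in
/-- coordinates (`exists_coord` applied to an entry) -/
theorem exists_co (S : RW (Fin m)) (D : ℕ) [NeZero D] :
    ∃ co : Lam D → List (Fin m) → MA S D →ₗ[ZMod 2] ZMod 2, ∀ l w l' w',
      co l w (EE S l' w') = if l' = l ∧ ¬ S.Zero w' ∧ S.Eqv w w' then 1 else 0 := by
  obtain ⟨co, hco⟩ := exists_coord S
  refine ⟨fun l w => co w ∘ₗ Matrix.entryLinearMap (ZMod 2) (RA S) l (sh l w.length),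
    fun l w l' w' => ?_⟩
  simp only [LinearMap.comp_apply, Matrix.entryLinearMap_apply, EE, Matrix.single_apply]
  by_cases h1 : l' = l
  · subst h1
    by_cases h2 : S.Eqv w w'
    · simp [h2, h2.length_eq, hco]
    · split_ifs <;> simp_all
  · simp [h1]

theorem one_mem_Loc (P : Lam D → ℕ → Prop) : (1 : (MA S D)ˣ) ∈ Loc S P := by
  constructor <;> simp

theorem Loc_inv {P : Lam D → ℕ → Prop} {g : (MA S D)ˣ} (h : g ∈ Loc S P) : g⁻¹ ∈ Loc S P := by
  exact ⟨h.2, by rw [inv_inv]; exact h.1⟩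

theorem Loc_mono {P Q : Lam D → ℕ → Prop} (h : ∀ l k, P l k → Q l k) : Loc S P ⊆ Loc S Q := by
  exact fun g hg => ⟨MM_mono h hg.1, MM_mono h hg.2⟩

theorem Loc_mul {P : Lam D → ℕ → Prop} (hP : Closed P) {g g' : (MA S D)ˣ} (h : g ∈ Loc S P)
    (h' : g' ∈ Loc S P) : g * g' ∈ Loc S P := by
  constructor
  · rw [Units.val_mul, mat1_mul_sub]
    exact add_mem (add_mem (MM_mul hP h.1 h'.1) h.1) h'.1
  · rw [mul_inv_rev, Units.val_mul, mat1_mul_sub]
    exact add_mem (add_mem (MM_mul hP h'.2 h.2) h'.2) h.2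

theorem Loc_rng_mul {a b b' : ℕ} {g g' : (MA S D)ˣ} (h : g ∈ Loc S (Rng a b))
    (h' : g' ∈ Loc S (Rng a b')) : g * g' ∈ Loc S (Rng a (b + b')) := by
  have m1 : MM S (Rng (D := D) a b) ≤ MM S (Rng a (b + b')) :=
    MM_mono fun l k h => ⟨h.1, by have := h.2; omega⟩
  have m2 : MM S (Rng (D := D) a b') ≤ MM S (Rng a (b + b')) :=
    MM_mono fun l k h => ⟨h.1, by have := h.2; omega⟩
  constructor
  · rw [Units.val_mul, mat1_mul_sub]
    refine add_mem (add_mem (MM_mul (fun l k k' h1 h2 => ?_) h.1 h'.1) (m1 h.1)) (m2 h'.1)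
    exact ⟨by have := h1.1; omega, by have := h1.2; have := h2.2; omega⟩
  · rw [mul_inv_rev, Units.val_mul, mat1_mul_sub]
    refine add_mem (add_mem (MM_mul (fun l k k' h1 h2 => ?_) h'.2 h.2) (m2 h'.2)) (m1 h.2)
    exact ⟨by have := h1.1; omega, by have := h1.2; have := h2.2; omega⟩

theorem Loc_inf {P Q : Lam D → ℕ → Prop} {g : (MA S D)ˣ} (hP : g ∈ Loc S P) (hQ : g ∈ Loc S Q) :
    g ∈ Loc S fun l k => P l k ∧ Q l k := ⟨MM_inf hP.1 hQ.1, MM_inf hP.2 hQ.2⟩

end Crest.Agent.R176
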