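import Crest.Agent.R176.GrpDefs
import Crest.Agent.R176.AlgDefs

/-!
# R176 — matrices indexed by refined vertices
DO NOT EDIT (owner helper34).
-/

set_option autoImplicit false

namespace Crest.Agent.R176

open scoped commutatorElement

variable {m : ℕ} (S : RW (Fin m)) (D : ℕ)

/-- matrices indexed by refined vertices -/
abbrev MA : Type := Matrix (Lam D) (Lam D) (RA S)

variable {D}

/-- the basic matrices -/
noncomputable def EE (l : Lam D) (w : List (Fin m)) : MA S D :=
  Matrix.single l (sh l w.length) (mon S w)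

/-- the span of the basic matrices whose source and length satisfy `P` -/
noncomputable def MM (P : Lam D → ℕ → Prop) : Submodule (ZMod 2) (MA S D) :=
  Submodule.span (ZMod 2) {A | ∃ l w, P l w.length ∧ A = EE S l w}

/-- `P` is closed under concatenation -/
def Closed (P : Lam D → ℕ → Prop) : Prop := ∀ l k k', P l k → P (sh l k) k' → P l (k + k')

/-- lengths in `[a, b]` -/
def Rng (a b : ℕ) : Lam D → ℕ → Prop := fun _ k => a ≤ k ∧ k ≤ b

/-- lengths `≥ a` -/
def Ge (a : ℕ) : Lam D → ℕ → Prop := fun _ k => a ≤ k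

/-- the position of a refined vertex on the cycle cut at `α` -/
def pos (α : ZMod D) (l : Lam D) : ℕ := (l.2 - α).val

/-- long roots which do not cross the cut `α` -/
def Arc (N' : ℕ) (α : ZMod D) : Lam D → ℕ → Prop := fun l k => N' ≤ k ∧ pos α l + k < D

variable [NeZero D]

/-- units `g` such that `g - 1` and `g⁻¹ - 1` lie in `MM P` -/
def Loc (P : Lam D → ℕ → Prop) : Set (MA S D)ˣ :=
  {g | (g : MA S D) - 1 ∈ MM S P ∧ ((g⁻¹ : (MA S D)ˣ) : MA S D) - 1 ∈ MM S P}

/-- the subgroup generated by the pairs (root element, elementary matrix) -/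
def UT {G : Type} [Group G] (x : Lam D → List (Fin m) → G) (P : Lam D → ℕ → Prop) :
    Subgroup (G × (MA S D)ˣ) :=
  Subgroup.closure {p | ∃ l w, P l w.length ∧ p.1 = x l w ∧ (p.2 : MA S D) = 1 + EE S l w}

end Crest.Agent.R176
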