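import Crest.Agent.R176.Mat1
import Crest.Agent.R176.Ext

/-!
# R176 — the matrix representations
-/

set_option autoImplicit false

namespace Crest.Agent.R176

open scoped commutatorElement

variable {m : ℕ} {S : RW (Fin m)}

theorem mu_cut {X : Type} (w : List X) (hw : 7 ≤ w.length) :
    ∃ u v, w = u ++ v ∧ ln u ≠ 0 ∧ ln v ≠ 0 := by
  have key : ∀ j : ℕ, j ≤ 7 → ln (w.take j) = j ∧ ln (w.drop j) = ln w - j := by
    intro j hj
    have h1 : ln (w.take j) = j := by
      unfold ln; rw [List.length_take, min_eq_left (by omega)]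
    refine ⟨h1, ?_⟩
    have h2 := ln_append (w.take j) (w.drop j)
    rw [List.take_append_drop, h1] at h2
    rw [h2]; ring
  by_cases h : ln w = 1
  · obtain ⟨h1, h2⟩ := key 2 (by norm_num)
    refine ⟨_, _, (List.take_append_drop 2 w).symm, ?_, ?_⟩
    · rw [h1]; decide
    · rw [h2, h]; decide
  · obtain ⟨h1, h2⟩ := key 1 (by norm_num)
    refine ⟨_, _, (List.take_append_drop 1 w).symm, ?_, ?_⟩
    · rw [h1]; decide
    · rw [h2, Nat.cast_one]; exact sub_ne_zero.2 h

/-- If `f` is a homomorphism and `z` satisfies the relation `chain` for words of total length `≤ M` and agrees with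
`f ∘ y` on short words, then it agrees with `f ∘ y` on words of length `≤ M` (induction on the length). -/
theorem hom_eq_of_chain {X : Type} {S : RW X} {G H : Type} [Group G] [Group H] {y : V → List X → G}
    (hy : StAll S y) (f : G →* H) (z : V → List X → H) (M : ℕ)
    (hz : ∀ a w w', w.length + w'.length ≤ M → ln w ≠ 0 → ln w' ≠ 0 → ln w + ln w' ≠ 0 →
      ⁅z a w, z (a + ln w) w'⁆ = z a (w ++ w'))
    (h6 : ∀ a w, w.length ≤ 6 → ln w ≠ 0 → f (y a w) = z a w) (a : V) (w : List X)
    (hw : w.length ≤ M) (h0 : ln w ≠ 0) : f (y a w) = z a w := by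
  induction hn : w.length using Nat.strong_induction_on generalizing a w with
  | _ n ih =>
  by_cases h : w.length ≤ 6
  · exact h6 a w h h0
  obtain ⟨u, v, rfl, hu, hv⟩ := mu_cut w (by omega)
  have hu0 : 0 < u.length := List.length_pos_iff.2 (by rintro rfl; exact hu ln_nil)
  have hv0 : 0 < v.length := List.length_pos_iff.2 (by rintro rfl; exact hv ln_nil)
  rw [List.length_append] at hw hn
  rw [ln_append] at h0
  rw [← hy.chain a hu hv h0, map_commutatorElement, ih u.length (by omega) a u (by omega) hu rfl,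
    ih v.length (by omega) _ v (by omega) hv rfl, hz a u v hw hu hv h0]

theorem mu_add_self {Λ : Type} (A : Matrix Λ Λ (RA S)) : A + A = 0 := by
  ext i j
  rw [Matrix.add_apply, ← two_mul, two_eq_zero_RA, zero_mul, Matrix.zero_apply]

theorem mu_comm_ring {R : Type*} [Ring R] {A B : R} (hA : A * A = 0) (hB : B * B = 0)
    (hBA : B * A = 0) : (1 + A) * (1 + B) * (1 - A) * (1 - B) = 1 + A * B := by
  have h1 : (1 + B) * (1 - A) = 1 - A + B := by
    have : (1 + B) * (1 - A) = 1 - A + B - B * A := by noncomm_ring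
    rw [this, hBA, sub_zero]
  have h2 : (1 + A) * (1 - A + B) = 1 + B + A * B := by
    have : (1 + A) * (1 - A + B) = 1 + B + A * B - A * A := by noncomm_ring
    rw [this, hA, sub_zero]
  have h3 : (1 + B + A * B) * (1 - B) = 1 + A * B - B * B - A * (B * B) := by noncomm_ring
  rw [mul_assoc (1 + A), h1, h2, h3, hB, mul_zero, sub_zero, sub_zero]

/-- the unit `1 + A` for `A * A = 0` -/
def muUnit {R : Type*} [Ring R] (A : R) (h : A * A = 0) : Rˣ where
  val := 1 + A
  inv := 1 - A
  val_inv := by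
    have : (1 + A) * (1 - A) = 1 - A * A := by noncomm_ring
    rw [this, h, sub_zero]
  inv_val := by
    have : (1 - A) * (1 + A) = 1 - A * A := by noncomm_ring
    rw [this, h, sub_zero]

theorem mu_single_mul {a b c d : V} (h : b ≠ c) (r s : RA S) :
    Matrix.single a b r * Matrix.single c d s = 0 :=
  Matrix.single_mul_single_of_ne _ _ _ _ h _

theorem mu_ne {a k : V} (h : k ≠ 0) : a + k ≠ a := by simpa using h

variable (S) in
/-- the elementary matrices -/
noncomputable def muZ (a : V) (w : List (Fin m)) : (Matrix V V (RA S))ˣ :=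
  if h : ln w = 0 then 1 else
    muUnit (Matrix.single a (a + ln w) (mon S w)) (mu_single_mul (mu_ne h) _ _)

theorem muZ_val (a : V) {w : List (Fin m)} (h : ln w ≠ 0) :
    (muZ S a w : Matrix V V (RA S)) = 1 + Matrix.single a (a + ln w) (mon S w) := by
  rw [muZ, dif_neg h]; rfl

theorem muZ_inv (a : V) {w : List (Fin m)} (h : ln w ≠ 0) :
    (((muZ S a w)⁻¹ : (Matrix V V (RA S))ˣ) : Matrix V V (RA S)) =
      1 - Matrix.single a (a + ln w) (mon S w) := by
  rw [muZ, dif_neg h]; rfl

theorem muZ_chain (a : V) {w w' : List (Fin m)} (h : ln w ≠ 0) (h' : ln w' ≠ 0)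
    (h'' : ln w + ln w' ≠ 0) : ⁅muZ S a w, muZ S (a + ln w) w'⁆ = muZ S a (w ++ w') := by
  apply Units.ext
  rw [commutatorElement_def, Units.val_mul, Units.val_mul, Units.val_mul, muZ_val _ h, muZ_val _ h',
    muZ_inv _ h, muZ_inv _ h', muZ_val _ (by rwa [ln_append]),
    mu_comm_ring (mu_single_mul (mu_ne h) _ _) (mu_single_mul (mu_ne h') _ _)
      (mu_single_mul (by rw [add_assoc]; exact mu_ne h'') _ _),
    Matrix.single_mul_single_same, mon_append, ln_append, add_assoc]

theorem muZ_stSys (d : ℕ) : StSys S (muZ S) d where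
  eqv a w w' _ h hs := by
    have h1 : ln w' = ln w := by unfold ln; rw [hs.length_eq]
    apply Units.ext
    rw [muZ_val _ h, muZ_val _ (h1 ▸ h), h1, mon_eqv hs.eqv]
  zero a w _ h hz := by
    apply Units.ext
    rw [muZ_val _ h, mon_zero hz.zero, Matrix.single_zero, add_zero, Units.val_one]
  sq a w _ h := by
    apply Units.ext
    rw [Units.val_mul, muZ_val _ h, Units.val_one]
    have h1 := mu_single_mul (a := a) (d := a + ln w) (mu_ne (a := a) h) (mon S w) (mon S w)
    have h2 := mu_add_self (Matrix.single a (a + ln w) (mon S w))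
    generalize Matrix.single a (a + ln w) (mon S w) = A at *
    have : (1 + A) * (1 + A) = 1 + (A + A) + A * A := by noncomm_ring
    rw [this, h1, h2, add_zero, add_zero]
  comm a c w w' _ _ h h' h1 h2 := by
    apply Units.ext
    rw [Units.val_mul, Units.val_mul, muZ_val _ h, muZ_val _ h']
    have e1 := mu_single_mul (a := a) (d := c + ln w') h1 (mon S w) (mon S w')
    have e2 := mu_single_mul (a := c) (d := a + ln w) h2 (mon S w') (mon S w)
    generalize Matrix.single a (a + ln w) (mon S w) = A at *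
    generalize Matrix.single c (c + ln w') (mon S w') = B at *
    have : (1 + A) * (1 + B) = (1 + B) * (1 + A) + A * B - B * A := by noncomm_ring
    rw [this, e1, e2, add_zero, sub_zero]
  chain a w w' _ h h' h'' := muZ_chain a h h' h''

theorem mu_Rplus_mul {r s : RA S} (hr : r ∈ Rplus S) (hs : s ∈ Rplus S) : r * s ∈ Rplus S := by
  induction hr using Submodule.span_induction with
  | zero => simp
  | add a b _ _ ha hb => rw [add_mul]; exact Submodule.add_mem _ ha hb
  | smul c a _ ha => rw [smul_mul_assoc]; exact Submodule.smul_mem _ _ ha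
  | mem a ha =>
    obtain ⟨w, hw, rfl⟩ := ha
    induction hs using Submodule.span_induction with
    | zero => simp
    | add a b _ _ ha hb => rw [mul_add]; exact Submodule.add_mem _ ha hb
    | smul c a _ ha => rw [mul_smul_comm]; exact Submodule.smul_mem _ _ ha
    | mem b hb =>
      obtain ⟨w', -, rfl⟩ := hb
      exact Submodule.subset_span ⟨w ++ w', by simp [hw], (mon_append S w w').symm⟩

/-- the representation by `7 × 7` matrices -/
theorem exists_mu {G : Type} [Group G] {y : V → List (Fin m) → G} (hy : StAll S y)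
    (hg : Subgroup.closure (gens y) = ⊤)
    (hu : ∀ (H : Type) [Group H] (z : V → List (Fin m) → H), StSys S z 6 →
      ∃ f : G →* H, ∀ a w, w.length ≤ 6 → ln w ≠ 0 → f (y a w) = z a w) :
    ∃ μ : G →* (Matrix V V (RA S))ˣ,
      (∀ a w, ln w ≠ 0 → (μ (y a w) : Matrix V V (RA S)) = 1 + Matrix.single a (a + ln w) (mon S w)) ∧
      ∀ g i j, ((μ g : Matrix V V (RA S)) - 1) i j ∈ Rplus S := by
  obtain ⟨μ, hμ⟩ := hu _ (muZ S) (muZ_stSys 6)
  have key : ∀ a w, ln w ≠ 0 →
      (μ (y a w) : Matrix V V (RA S)) = 1 + Matrix.single a (a + ln w) (mon S w) := by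
    intro a w h
    rw [hom_eq_of_chain hy μ (muZ S) w.length (fun a w w' _ h h' h'' => muZ_chain a h h' h'') hμ a w
      le_rfl h, muZ_val _ h]
  refine ⟨μ, key, fun g => ?_⟩
  obtain ⟨M, l, hl, rfl⟩ := exists_len hy hg g
  clear hl
  induction l with
  | nil => simp
  | cons p l ih =>
    intro i j
    have h1 : ∀ i j, ((μ (y p.1 [p.2]) : Matrix V V (RA S)) - 1) i j ∈ Rplus S := by
      intro i j
      rw [key _ _ (by simp only [ln_cons, ln_nil]; decide), add_sub_cancel_left, Matrix.single_apply]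
      split_ifs
      · exact Submodule.subset_span ⟨[p.2], by simp, rfl⟩
      · exact Submodule.zero_mem _
    rw [List.map_cons, List.prod_cons, map_mul, Units.val_mul]
    generalize (μ (y p.1 [p.2]) : Matrix V V (RA S)) = A at *
    generalize (μ (l.map fun p => y p.1 [p.2]).prod : Matrix V V (RA S)) = B at *
    have : A * B - 1 = (A - 1) * (B - 1) + (A - 1) + (B - 1) := by
      simp only [mul_sub, sub_mul, mul_one, one_mul]; abel
    rw [this, Matrix.add_apply, Matrix.add_apply, Matrix.mul_apply]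
    exact Submodule.add_mem _ (Submodule.add_mem _
      (Submodule.sum_mem _ fun k _ => mu_Rplus_mul (h1 i k) (ih k j)) (h1 i j)) (ih i j)

/-- the shift matrices -/
noncomputable def muT {D : ℕ} (k : ZMod D) (r : RA S) : Matrix (ZMod D) (ZMod D) (RA S) :=
  Matrix.of fun α β => if α + k = β then r else 0

theorem muT_mul {D : ℕ} [NeZero D] (k k' : ZMod D) (r r' : RA S) :
    muT k r * muT k' r' = muT (k + k') (r * r') := by
  ext α γ
  simp only [muT, Matrix.mul_apply, Matrix.of_apply, ite_mul, zero_mul]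
  rw [Finset.sum_ite_eq, if_pos (Finset.mem_univ _), mul_ite, mul_zero, add_assoc]

theorem muT_zero {D : ℕ} (k : ZMod D) : muT k (0 : RA S) = 0 := by
  ext α β; simp [muT]

theorem muT_one {D : ℕ} : muT (0 : ZMod D) (1 : RA S) = 1 := by
  ext α β; simp [muT, Matrix.one_apply]

/-- `exists_lift` gives `θ : RA S → Matrix (ZMod D) (ZMod D) (RA S)`, `gen x ↦ ∑ α, single α (α + 1) (gen x)`; compose
`θ.mapMatrix` with `Matrix.compRingEquiv` (or `Matrix.compAlgEquiv`). -/
theorem exists_psi (S : RW (Fin m)) (D : ℕ) [NeZero D] :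
    ∃ ψ : Matrix V V (RA S) →+* MA S D, ∀ (a : V) (w : List (Fin m)),
      ψ (Matrix.single a (a + ln w) (mon S w)) = ∑ α : ZMod D, EE S (a, α) w := by
  obtain ⟨θ, hθ⟩ := exists_lift (S := S) (fun x => muT (1 : ZMod D) (gen S x))
    (fun x y x' y' h => by rw [muT_mul, muT_mul, alg1_gen_step h])
    (fun x y h => by rw [muT_mul, alg1_gen_z2 h, muT_zero])
    (fun x h => by rw [alg1_gen_z1 h, muT_zero])
  have hθ' : ∀ w : List (Fin m), θ (mon S w) = muT (w.length : ZMod D) (mon S w) := by
    intro w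
    rw [hθ]
    induction w with
    | nil => simp [muT_one]
    | cons x w ih =>
      rw [List.map_cons, List.prod_cons, ih, muT_mul, mon_cons, List.length_cons, Nat.cast_succ,
        add_comm]
  refine ⟨(Matrix.compRingEquiv V (ZMod D) (RA S)).toRingHom.comp θ.toRingHom.mapMatrix,
    fun a w => ?_⟩
  ext ⟨i, α⟩ ⟨j, β⟩
  change θ (Matrix.single a (a + ln w) (mon S w) i j) α β = _
  simp only [Matrix.sum_apply, EE, sh, Matrix.single_apply, Prod.mk.injEq]
  rw [Finset.sum_eq_single α (fun b _ hb => by simp [hb]) (by simp)]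
  by_cases h : a = i ∧ a + ln w = j
  · rw [if_pos h, hθ']
    have h2 : a + (w.length : V) = j := h.2
    simp [muT, h.1.symm, h2]
  · rw [if_neg h, map_zero, Matrix.zero_apply, if_neg]
    rintro ⟨⟨h1, -⟩, h2, -⟩
    exact h ⟨h1, h2⟩

/-- `(1 + A) ^ (2 ^ k) = 1 + A ^ (2 ^ k)` in characteristic two -/
theorem pow_two_pow_eq_one {Λ : Type} [Fintype Λ] [DecidableEq Λ] (g : (Matrix Λ Λ (RA S))ˣ)
    (h : IsNilpotent ((g : Matrix Λ Λ (RA S)) - 1)) : ∃ k : ℕ, g ^ 2 ^ k = 1 := by
  obtain ⟨n, hn⟩ := h
  have key : ∀ k : ℕ, (g : Matrix Λ Λ (RA S)) ^ 2 ^ k = 1 + ((g : Matrix Λ Λ (RA S)) - 1) ^ 2 ^ k := by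
    intro k
    induction k with
    | zero => simp
    | succ k ih =>
      rw [pow_succ 2 k, pow_mul, pow_mul, ih]
      generalize ((g : Matrix Λ Λ (RA S)) - 1) ^ 2 ^ k = A
      have : (1 + A) ^ 2 = 1 + (A + A) + A ^ 2 := by noncomm_ring
      rw [this, mu_add_self, add_zero]
  refine ⟨n, Units.ext ?_⟩
  rw [Units.val_pow_eq_pow_val, key, pow_eq_zero_of_le Nat.lt_two_pow_self.le hn, add_zero,
    Units.val_one]

/-- a non-trivial matrix survives in a finite quotient (`exists_finite_quot`) -/
theorem exists_finite_hom (g : (Matrix V V (RA S))ˣ) (hg : g ≠ 1) :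
    ∃ (F : Type) (_ : Group F) (_ : Finite F) (f : (Matrix V V (RA S))ˣ →* F), f g ≠ 1 := by
  obtain ⟨i, j, hij⟩ : ∃ i j, ((g : Matrix V V (RA S)) - 1) i j ≠ 0 := by
    by_contra h
    push Not at h
    exact hg (Units.ext (sub_eq_zero.1 (Matrix.ext h)))
  obtain ⟨F, _, _, f, hf⟩ := exists_finite_quot hij
  refine ⟨(Matrix V V F)ˣ, inferInstance, inferInstance,
    Units.map (f.mapMatrix : Matrix V V (RA S) →+* Matrix V V F).toMonoidHom, fun h => hf ?_⟩
  have h1 : (f.mapMatrix : Matrix V V (RA S) →+* Matrix V V F) g = 1 := congrArg Units.val h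
  have h2 : (f.mapMatrix : Matrix V V (RA S) →+* Matrix V V F) (g - 1) = 0 := by
    rw [map_sub, map_one, h1, sub_self]
  exact congrFun (congrFun h2 i) j

/-- the elements `y 0 w`, `w` non-zero (prefixes of long non-zero words) of length `7 j + 1`, are different
(`exists_coord`) -/
theorem infinite_G (hS : S.Inf) {G : Type} [Group G] {y : V → List (Fin m) → G}
    (μ : G →* (Matrix V V (RA S))ˣ)
    (hμ : ∀ a w, ln w ≠ 0 →
      (μ (y a w) : Matrix V V (RA S)) = 1 + Matrix.single a (a + ln w) (mon S w)) : Infinite G := by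
  classical
  have h1 : ∀ j : ℕ, ∃ w : List (Fin m), w.length = 7 * j + 1 ∧ ¬ S.Zero w := by
    intro j
    obtain ⟨w, hw, hz⟩ := hS (7 * j + 1)
    refine ⟨w.take (7 * j + 1), by rw [List.length_take, min_eq_left hw], fun h => hz ?_⟩
    have := h.append_right (w.drop (7 * j + 1))
    rwa [List.take_append_drop] at this
  choose w hw hz using h1
  have hl : ∀ j, ln (w j) = 1 := fun j => by
    unfold ln
    rw [hw, Nat.cast_add, Nat.cast_mul, show ((7 : ℕ) : ZMod 7) = 0 from rfl]
    simp
  obtain ⟨co, hco⟩ := exists_coord S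
  refine Infinite.of_injective (fun j => y 0 (w j)) fun j j' h => ?_
  have h2 := hμ 0 (w j) (by rw [hl]; decide)
  have h3 := hμ 0 (w j') (by rw [hl]; decide)
  simp only at h
  rw [h, h3, hl, hl, add_right_inj] at h2
  have h4 : mon S (w j') = mon S (w j) := by
    have := congrFun (congrFun h2 0) (0 + 1)
    simpa using this
  have h5 := hco (w j) (w j')
  rw [h4, hco, if_pos ⟨hz j, RW.Eqv.rfl⟩] at h5
  have h6 : S.Eqv (w j) (w j') := by
    by_contra hn
    rw [if_neg fun h => hn h.2] at h5
    exact one_ne_zero h5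
  have h7 := h6.length_eq
  rw [hw, hw] at h7
  omega

end Crest.Agent.R176
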