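import Crest.Agent.R176.Sys

/-!
# R176 — paths, moving tokens
-/

set_option autoImplicit false

namespace Crest.Agent.R176

variable {C B k : ℕ}

theorem nn_pos (B k : ℕ) : 0 < nn B k := by unfold nn; positivity

theorem skel_step_le {x y x' y' : Cell C B} (h : (skel C B k).step x y x' y') :
    (sysk C B k).step x y x' y' := by
  obtain ⟨h1, h2, h3, h4, inc, h5, h6⟩ := h
  exact ⟨h1, h2, h3, h4, Or.inl ⟨inc, Or.inl h5, h6⟩⟩

theorem skel_le {u u' : List (Cell C B)} (h : (skel C B k).Eqv u u') : (sysk C B k).Eqv u u' := by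
  induction h with
  | refl => exact RW.Eqv.rfl
  | tail _ h ih =>
    refine ih.trans (RW.SStep.eqv ?_)
    rcases h with ⟨p, s, x, y, x', y', h, h1, h2⟩ | ⟨p, s, x, y, x', y', h, h1, h2⟩
    · exact Or.inl ⟨p, s, x, y, x', y', skel_step_le h, h1, h2⟩
    · exact Or.inr ⟨p, s, x, y, x', y', skel_step_le h, h1, h2⟩

theorem top_ne_bot : top C ≠ bot := by simp [top, bot]

/-- no admissible edge ends at `bot` -/
theorem Tag.OK.tgt_ne_bot {t : Tag C} (h : t.OK) : t.tgt ≠ bot := by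
  obtain ⟨kd, φ, φ', hq, hr⟩ := t
  intro e
  simp only [Tag.tgt, bot, Prod.mk.injEq] at e
  obtain ⟨e1, e2, e3⟩ := e
  cases kd <;> simp only [Tag.OK, Fin.ext_iff] at h
  · omega
  · omega
  · simp at e2
  · simp [Kind.isR] at e3

/-- no admissible edge starts at `top` -/
theorem Tag.OK.src_ne_top {t : Tag C} (h : t.OK) : t.src ≠ top C := by
  obtain ⟨kd, φ, φ', hq, hr⟩ := t
  intro e
  simp only [Tag.src, top, Prod.mk.injEq] at e
  obtain ⟨e1, e2, e3⟩ := e
  have := φ'.isLt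
  cases kd <;> simp only [Tag.OK, Fin.ext_iff] at h
  · omega
  · omega
  · simp [e2] at h
  · simp [e3] at h

/-- exchanges inside a block preserve the outer vertices and adjacency -/
theorem InSw.vtx {t t' s s' : Tag C} {inc : Bool} (h : InSw t t' s s' inc) (ht : t.OK) (ht' : t'.OK) :
    inAdj t t' ∧ inAdj s s' ∧ s.src = t.src ∧ s'.tgt = t'.tgt := by
  cases h with
  | head ha hk =>
    refine ⟨ha, ?_⟩
    obtain ⟨kd, φ, φ', hq, hr⟩ := t
    obtain ⟨kd', ψ, ψ', hq', hr'⟩ := t'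
    simp only [inAdj, Tag.tgt, Tag.src, Prod.mk.injEq] at ha ⊢
    obtain ⟨e1, rfl, rfl⟩ := ha
    cases kd <;> cases kd' <;> simp_all [Tag.OK, Kind.isR]
  | cnt ha hk hk' h2 hψ =>
    refine ⟨ha, ?_⟩
    obtain ⟨kd, φ, φ', hq, hr⟩ := t
    obtain ⟨kd', ψ, ψ', hq', hr'⟩ := t'
    simp only [inAdj, Tag.tgt, Tag.src, Prod.mk.injEq] at ha hk hk' ⊢
    obtain ⟨e1, rfl, rfl⟩ := ha
    subst hk hk'
    simp [Kind.isR]
  | tt h => exact ⟨h.1, h.1, rfl, rfl⟩

theorem InSw.big {t t' s s' : Tag C} {inc : Bool} (h : InSw t t' s s' inc) :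
    s.kind.big = t'.kind.big ∧ s'.kind.big = t.kind.big ∧ (inc = true → t.kind.big = true) := by
  cases h with
  | head ha hk => exact ⟨rfl, rfl, by simp⟩
  | cnt ha hk hk' h2 hψ => simp [hk, hk', Kind.big]
  | tt h => simp [h.2.1, h.2.2.1]

theorem SwR.vtx {t t' s s' : Tag C} {inc : Bool} (h : SwR t t' s s' inc) (ht : t.OK) (ht' : t'.OK) :
    adj t t' ∧ adj s s' ∧ s.src = t.src ∧ s'.tgt = t'.tgt ∧ s.kind.big = t'.kind.big ∧
      s'.kind.big = t.kind.big ∧ (inc = true → t.kind.big = true) := by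
  rcases h with h | ⟨ha, g, g', hg, hk, hk', rfl, rfl⟩
  · obtain ⟨h1, h2, h3, h4⟩ := h.vtx ht ht'
    exact ⟨Or.inl h1, Or.inl h2, h3, h4, h.big⟩
  · have e1 : Tag.tgt { t with kind := .r g' (.done inc true) } = t.tgt := by
      simp [Tag.tgt, hk, Kind.isR]
    have e2 : Tag.tgt { t' with kind := .r g (.done inc false) } = t'.tgt := by
      simp [Tag.tgt, hk', Kind.isR]
    refine ⟨Or.inr ha, Or.inr ⟨e1.trans ha.1, ha.2⟩, rfl, e2, ?_, ?_, ?_⟩
    · simp [hk', Kind.big]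
    · simp [hk, Kind.big]
    · simpa [hk, Kind.big] using hg

theorem Path.append {a b c : Vtx} {u u' : List (Cell C B)} (h : Path k a u b) (h' : Path k b u' c) :
    Path k a (u ++ u') c := by
  induction h with
  | nil a => exact h'
  | cons hx _ ih => exact Path.cons hx (ih h')

theorem Path.split {a c : Vtx} {u u' : List (Cell C B)} (h : Path k a (u ++ u') c) :
    ∃ b, Path k a u b ∧ Path k b u' c := by
  induction u generalizing a with
  | nil => exact ⟨a, Path.nil a, h⟩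
  | cons x u ih =>
    cases h with
    | cons hx h =>
      obtain ⟨b, h1, h2⟩ := ih h
      exact ⟨b, Path.cons hx h1, h2⟩

theorem path_cons_iff {a b : Vtx} {x : Cell C B} {u : List (Cell C B)} :
    Path k a (x :: u) b ↔ WFc k x ∧ x.t.src = a ∧ Path k x.t.tgt u b := by
  constructor
  · intro h
    cases h with
    | cons hx h => exact ⟨hx, rfl, h⟩
  · rintro ⟨hx, rfl, h⟩
    exact Path.cons hx h

theorem path_nil_iff {a b : Vtx} : Path k a ([] : List (Cell C B)) b ↔ a = b := by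
  constructor
  · intro h
    cases h
    rfl
  · rintro rfl
    exact Path.nil a

theorem Path.wf {a b : Vtx} {u : List (Cell C B)} (h : Path k a u b) : ∀ x ∈ u, WFc k x := by
  induction h with
  | nil a => simp
  | cons hx _ ih =>
    intro y hy
    rcases List.mem_cons.1 hy with rfl | hy
    · exact hx
    · exact ih y hy

theorem Tag.OK.phase_le {t : Tag C} (h : t.OK) : (t.φ : ℕ) ≤ t.φ' := by
  obtain ⟨kd, φ, φ', hq, hr⟩ := t
  cases kd <;> simp only [Tag.OK, Fin.ext_iff] at h ⊢ <;> omega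

/-- phases and flags increase along a path -/
theorem Path.mono {a b : Vtx} {u : List (Cell C B)} (h : Path k a u b) :
    a.1 ≤ b.1 ∧ (a.2.1 = true → b.2.1 = true) ∧ (a.2.2 = true → b.2.2 = true) := by
  induction h with
  | nil a => exact ⟨le_rfl, id, id⟩
  | cons hx _ ih =>
    obtain ⟨h1, h2, h3⟩ := ih
    refine ⟨hx.1.phase_le.trans h1, fun e => h2 ?_, fun e => h3 ?_⟩
    · simp only [Tag.src] at e
      simp [Tag.tgt, e]
    · simp only [Tag.src] at e
      simp [Tag.tgt, e]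

theorem Path.of_skel {a b : Vtx} {u u' : List (Cell C B)} (h : Path k a u b)
    (e : (skel C B k).Eqv u u') : Path k a u' b := by
  refine e.induction (P := fun w => Path k a w b) ?_ h
  intro w w' hw hs
  obtain ⟨p, s, x, y, x', y', hst, rfl, rfl⟩ := RW.sstep_iff.1 hs
  obtain ⟨c, h1, h2⟩ := hw.split
  obtain ⟨-, e1, h2⟩ := path_cons_iff.1 h2
  obtain ⟨-, -, h2⟩ := path_cons_iff.1 h2
  refine h1.append ?_
  rcases hst with ⟨w1, w2, w3, w4, inc, hi, -⟩ | ⟨w1, w2, w3, w4, inc, hi, -⟩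
  · obtain ⟨-, a2, a3, a4⟩ := hi.vtx w1.1 w2.1
    exact path_cons_iff.2 ⟨w3, a3.trans e1, path_cons_iff.2 ⟨w4, a2.symm, a4 ▸ h2⟩⟩
  · obtain ⟨a1, -, a3, a4⟩ := hi.vtx w1.1 w2.1
    exact path_cons_iff.2 ⟨w1, a3.symm.trans e1, path_cons_iff.2 ⟨w2, a1.symm, a4 ▸ h2⟩⟩

theorem nz_wf {u : List (Cell C B)} (h : ¬ (sysk C B k).Zero u) : ∀ x ∈ u, WFc k x := by
  intro x hx
  by_contra hw
  exact h (RW.Zero.of_z1 hx (Or.inl hw))

theorem nz_adj {p s : List (Cell C B)} {x y : Cell C B} (h : ¬ (sysk C B k).Zero (p ++ x :: y :: s)) :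
    adj x.t y.t := by
  by_contra hw
  exact h (RW.Zero.of_z2 (S := sysk C B k) (Or.inl hw) p s)

/-- a non-zero word without block boundary is a path -/
theorem path_of_nz {x : Cell C B} {u : List (Cell C B)} (h : ¬ (sysk C B k).Zero (x :: u))
    (hb : ∀ y ∈ u, y.t.src ≠ bot) :
    Path k x.t.src (x :: u) ((x :: u).getLast (by simp)).t.tgt := by
  induction u generalizing x with
  | nil => exact Path.cons (nz_wf h x (by simp)) (Path.nil _)
  | cons y u ih =>
    have h1 : ¬ (sysk C B k).Zero (y :: u) := fun hz => h (hz.append_left [x])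
    have h2 := ih h1 fun z hz => hb z (List.mem_cons_of_mem _ hz)
    have h3 : adj x.t y.t := nz_adj (p := []) h
    have h4 : x.t.tgt = y.t.src := h3.elim id fun h3 => absurd h3.2 (hb y (by simp))
    refine Path.cons (nz_wf h x (by simp)) ?_
    rw [h4, List.getLast_cons (by simp)]
    exact h2

/-- a token crosses one cell -/
theorem Mv_cross {x y : Cell C B} (hx : WFc k x) (hy : WFc k y) (hk : x.t.kind = .tok)
    (ha : inAdj x.t y.t) (hl : ¬ y.t.lm) (hl' : (y.t.φ' : ℕ) % 3 ≠ 0) :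
    ∃ (y' : Cell C B) (t₂ : Tag C), t₂.kind = .tok ∧ ∀ τ < nn B k,
      (skel C B k).Eqv [{ x with v := τ }, y] [y', ⟨t₂, a0, τ⟩] := by
  obtain ⟨⟨kd, φ, φ', hq, hr⟩, a, v⟩ := x
  obtain ⟨⟨kd', ψ, ψ', hq', hr'⟩, a', w⟩ := y
  simp only at hk
  subst hk
  obtain ⟨ok, hb, -⟩ := hx
  obtain ⟨rfl, hv⟩ := hb rfl
  simp only [inAdj, Tag.tgt, Tag.src, Prod.mk.injEq, Kind.isR, Bool.or_false, reduceCtorEq,
    decide_false] at ha
  obtain ⟨e1, rfl, rfl⟩ := ha
  obtain rfl : φ' = ψ := Fin.ext e1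
  simp only [Tag.lm] at hl hl'
  have wx : ∀ τ < nn B k, WFc k (⟨⟨.tok, φ, φ', hq, hr⟩, a0, τ⟩ : Cell C B) := fun τ hτ =>
    ⟨ok, fun _ => ⟨rfl, hτ⟩, fun h => by simp [Kind.big] at h⟩
  have hhead : (kd' = .q ∨ kd'.isR = true) → ψ' = φ' →
      Tag.OK (⟨kd', φ, φ, hq, hr⟩ : Tag C) →
      ∃ (y' : Cell C B) (t₂ : Tag C), t₂.kind = .tok ∧ ∀ τ < nn B k,
        (skel C B k).Eqv [⟨⟨.tok, φ, φ', hq, hr⟩, a0, τ⟩, ⟨⟨kd', φ', ψ', hq, hr⟩, a', w⟩]
          [y', ⟨t₂, a0, τ⟩] := by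
    intro hkd e ok'
    subst e
    refine ⟨⟨⟨kd', φ, φ, hq, hr⟩, a', w⟩,
      ⟨.tok, φ, ψ', hq || decide (kd' = .q), hr || kd'.isR⟩, rfl, fun τ hτ => ?_⟩
    refine RW.Eqv.symm (RW.Eqv.pair ⟨⟨ok', hy.2⟩,
      ⟨ok, fun _ => ⟨rfl, hτ⟩, fun h => by simp [Kind.big] at h⟩,
      wx τ hτ, hy, false, ?_, rfl, rfl, rfl, rfl⟩)
    have h1 := InSw.head (t := (⟨kd', φ, φ, hq, hr⟩ : Tag C))
      (t' := ⟨.tok, φ, ψ', hq || decide (kd' = .q), hr || kd'.isR⟩) rfl
      (hkd.imp id fun h => ⟨h, Or.inl rfl⟩)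
    simpa only [Kind.isR, Bool.or_false] using h1
  cases kd' with
  | tok =>
    obtain ⟨ok', hb', -⟩ := hy
    obtain ⟨rfl, hw⟩ := hb' rfl
    refine ⟨⟨⟨.tok, φ, φ', hq, hr⟩, a0, w⟩, ⟨.tok, φ', ψ', hq, hr⟩, rfl, fun τ hτ => ?_⟩
    have wy : ∀ τ < nn B k, WFc k (⟨⟨.tok, φ', ψ', hq, hr⟩, a0, τ⟩ : Cell C B) := fun τ hτ =>
      ⟨ok', fun _ => ⟨rfl, hτ⟩, fun h => by simp [Kind.big] at h⟩
    refine RW.Eqv.pair ⟨wx τ hτ, wy w hw, wx w hw, wy τ hτ, false, InSw.tt ⟨?_, rfl, rfl, hl⟩,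
      rfl, rfl, rfl, rfl⟩
    simp [inAdj, Tag.tgt, Tag.src, Kind.isR]
  | cnt =>
    obtain ⟨ok', hb', -⟩ := id hy
    obtain ⟨rfl, hw⟩ := hb' rfl
    simp only at hw
    have hn := nn_pos B k
    simp only [Tag.OK, Fin.ext_iff] at ok ok'
    refine ⟨⟨⟨.cnt, φ, ψ', hq, hr⟩, a0, (w + nn B k - 1) % nn B k⟩, ⟨.tok, ψ', ψ', hq, hr⟩, rfl,
      fun τ hτ => ?_⟩
    refine RW.Eqv.symm (RW.Eqv.pair ⟨
      ⟨?_, fun _ => ⟨rfl, Nat.mod_lt _ hn⟩, fun h => by simp [Kind.big] at h⟩,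
      ⟨?_, fun _ => ⟨rfl, hτ⟩, fun h => by simp [Kind.big] at h⟩,
      wx τ hτ, hy, true, ?_, rfl, rfl, rfl, ?_⟩)
    · simp only [Tag.OK]
      omega
    · simp only [Tag.OK]
      exact Or.inr (Or.inl ⟨hl', trivial⟩)
    · exact InSw.cnt (t := (⟨.cnt, φ, ψ', hq, hr⟩ : Tag C)) (t' := ⟨.tok, ψ', ψ', hq, hr⟩) (ψ := φ')
        (by simp [inAdj, Tag.tgt, Tag.src, Kind.isR]) rfl rfl (by simp only; omega)
        (by simp only; omega)
    · simp only [if_true, Nat.mod_add_mod]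
      rw [show w + nn B k - 1 + 1 = w + nn B k by omega, Nat.add_mod_right, Nat.mod_eq_of_lt hw]
  | q => exact hhead (Or.inl rfl) hy.1.1 ⟨rfl, hy.1.2⟩
  | r g m => exact hhead (Or.inr rfl) hy.1.1 ⟨rfl, hy.1.2⟩

/-- a token moves to the right end of `b` -/
theorem Mv_move {a e : Vtx} {x x' : Cell C B} {b : List (Cell C B)}
    (h : Path k a (x :: b ++ [x']) e) (hx : x.t.kind = .tok) (hx' : x'.t.kind = .tok)
    (hb : ∀ y ∈ b ++ [x'], ¬ y.t.lm) :
    ∃ (t₁ : Tag C) (b' : List (Cell C B)), TT t₁ x'.t ∧ t₁.OK ∧ ∀ τ < nn B k,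
      (skel C B k).Eqv ({ x with v := τ } :: b) (b' ++ [⟨t₁, a0, τ⟩]) := by
  induction b generalizing x a with
  | nil =>
    obtain ⟨w1, -, h⟩ := path_cons_iff.1 h
    obtain ⟨w2, e2, -⟩ := path_cons_iff.1 h
    have ha := (w1.2.1 (by rw [hx]; rfl)).1
    refine ⟨x.t, [], ⟨e2.symm, hx, hx', ?_⟩, w1.1, fun τ _ => ?_⟩
    · have h1 : (x'.t.φ : ℕ) = x.t.φ' := congrArg Prod.fst e2
      rw [← h1]
      exact hb x' (by simp)
    · rw [← ha]
      exact RW.Eqv.rfl
  | cons y b ih =>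
    obtain ⟨w1, -, h1⟩ := path_cons_iff.1 h
    obtain ⟨w2, e2, h2⟩ := path_cons_iff.1 h1
    have hl' : (y.t.φ' : ℕ) % 3 ≠ 0 := by
      obtain ⟨z, l, hz⟩ : ∃ z l, b ++ [x'] = z :: l := List.exists_cons_of_ne_nil (by simp)
      have h3 : Path k y.t.tgt (z :: l) e := hz ▸ h2
      have h4 : (z.t.φ : ℕ) = y.t.φ' := congrArg Prod.fst (path_cons_iff.1 h3).2.1
      rw [← h4]
      refine hb z ?_
      rw [List.cons_append, hz]
      simp
    obtain ⟨y', t₂, ht₂, hc⟩ := Mv_cross w1 w2 hx e2.symm (hb y (by simp)) hl'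
    have hv := (w1.2.1 (by rw [hx]; rfl)).2
    have h5 : Path k a (y' :: ⟨t₂, a0, x.v⟩ :: b ++ [x']) e :=
      h.of_skel ((hc x.v hv).append_right (b ++ [x']))
    obtain ⟨t₁, b', h6, h7, h8⟩ := ih (x := ⟨t₂, a0, x.v⟩) (path_cons_iff.1 h5).2.2 ht₂
      fun z hz => hb z (List.mem_cons_of_mem _ hz)
    exact ⟨t₁, y' :: b', h6, h7, fun τ hτ =>
      ((hc τ hτ).append_right b).trans ((h8 τ hτ).cons y')⟩

/-- Exchange of the values of two tokens of the same zone.  Prove by induction on `b` (generalizing `x`):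
there are `x₁` (a token) and `b'` with `TT x₁.t x'.t` such that, *for all values* `τ < nn B k` and `b'` depending
only on the tags and on `b`, `{x with v := τ} :: b` is skeleton-equivalent to `b' ++ [{x₁ with v := τ}]`: the token
crosses a token (`InSw.tt`: the value moves on, the tags stay), a counter (`InSw.cnt` backwards, the old value of
the counter is `(v + n - 1) % n`; the target of the counter is not a landmark since the next cell is not) or a head
(`InSw.head` backwards; a head `r` or `q`).  Then exchange (or find the zero pair `EQ`) and go back. -/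
theorem tok_swap {a e : Vtx} {x x' : Cell C B} {b : List (Cell C B)}
    (h : Path k a (x :: b ++ [x']) e) (hx : x.t.kind = .tok) (hx' : x'.t.kind = .tok)
    (hb : ∀ y ∈ b ++ [x'], ¬ y.t.lm) :
    (skel C B k).Eqv (x :: b ++ [x']) ({ x with v := x'.v } :: b ++ [{ x' with v := x.v }]) ∧
      (x.v = x'.v → (sysk C B k).Zero (x :: b ++ [x'])) := by
  obtain ⟨t₁, b', h1, h2, h3⟩ := Mv_move h hx hx' hb
  have w1 := h.wf x (by simp)
  have w2 := h.wf x' (by simp)
  have hv := (w1.2.1 (by rw [hx]; rfl)).2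
  obtain ⟨ha', hv'⟩ := w2.2.1 (by rw [hx']; rfl)
  have w3 : ∀ τ < nn B k, WFc k (⟨t₁, a0, τ⟩ : Cell C B) := fun τ hτ =>
    ⟨h2, fun _ => ⟨rfl, hτ⟩, fun h => by simp [h1.2.1, Kind.big] at h⟩
  have w4 : WFc k { x' with v := x.v } :=
    ⟨w2.1, fun _ => ⟨ha', hv⟩, fun h => by simp [hx', Kind.big] at h⟩
  have e1 : (skel C B k).Eqv (x :: b ++ [x']) (b' ++ ⟨t₁, a0, x.v⟩ :: x' :: []) := by
    simpa using (h3 x.v hv).append_right [x']
  have e2 : (skel C B k).Eqv ({ x with v := x'.v } :: b ++ [{ x' with v := x.v }])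
      (b' ++ ⟨t₁, a0, x'.v⟩ :: { x' with v := x.v } :: []) := by
    simpa using (h3 x'.v hv').append_right [{ x' with v := x.v }]
  refine ⟨e1.trans (RW.Eqv.trans (RW.Eqv.rule ?_ _ _) e2.symm), fun hxv => ?_⟩
  · exact ⟨w3 _ hv, w2, w3 _ hv', w4, false, InSw.tt h1, ha'.symm, rfl, ha', rfl⟩
  · exact (RW.Zero.of_z2 (S := sysk C B k) (x := ⟨t₁, a0, x.v⟩) (y := x')
      (Or.inr (Or.inl ⟨Or.inl h1, hxv⟩)) b' []).of_eqv (skel_le e1)

theorem Mv_src_ne_bot {t : Tag C} (h : ¬ t.lm) : t.src ≠ bot := by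
  intro e
  have h1 : (t.φ : ℕ) = 0 := congrArg Prod.fst e
  exact h (by simp [Tag.lm, h1])

theorem zswapk {x x' : Cell C B} {b : List (Cell C B)} (h : ¬ (sysk C B k).Zero (x :: b ++ [x']))
    (hx : x.t.kind = .tok) (ht : x'.t = x.t) (hb : ∀ y ∈ b ++ [x'], ¬ y.t.lm) :
    x ≠ x' ∧ (sysk C B k).Eqv (x :: b ++ [x']) (x' :: b ++ [x]) := by
  have hx' : x'.t.kind = .tok := by rw [ht, hx]
  have hp := path_of_nz (x := x) (u := b ++ [x']) h fun y hy => Mv_src_ne_bot (hb y hy)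
  obtain ⟨h1, h2⟩ := tok_swap hp hx hx' hb
  have ha := ((nz_wf h x (by simp)).2.1 (by rw [hx]; rfl)).1
  have ha' := ((nz_wf h x' (by simp)).2.1 (by rw [hx']; rfl)).1
  refine ⟨fun e => h (h2 (by rw [e])), ?_⟩
  have e1 : ({ x with v := x'.v } : Cell C B) = x' := Cell.ext ht.symm (ha.trans ha'.symm) rfl
  have e2 : ({ x' with v := x.v } : Cell C B) = x := Cell.ext ht (ha'.trans ha.symm) rfl
  rw [e1, e2] at h1
  exact skel_le h1

/-- the number of counters and heads still allowed in the zone -/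
def Mv_wt (a : Vtx) : ℕ :=
  (if a.1 % 3 = 1 then 1 else 0) + (if a.2.1 = true then 0 else 1) + (if a.2.2 = true then 0 else 1)

theorem Mv_wt_step {t : Tag C} (h : t.OK) (hl : ¬ t.lm) :
    Mv_wt t.tgt + (if t.kind = .tok then 0 else 1) ≤ Mv_wt t.src := by
  obtain ⟨kd, φ, φ', hq, hr⟩ := t
  simp only [Tag.lm] at hl
  cases kd <;> simp only [Tag.OK, Fin.ext_iff] at h <;> cases hq <;> cases hr <;>
    simp [Mv_wt, Tag.tgt, Tag.src, Kind.isR] at h ⊢ <;> split_ifs <;> omega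

theorem Mv_wt_first {t : Tag C} (h : t.OK) :
    Mv_wt t.tgt + (if t.kind = .tok then 0 else 1) ≤ 3 := by
  obtain ⟨kd, φ, φ', hq, hr⟩ := t
  cases kd <;> simp only [Tag.OK, Fin.ext_iff] at h <;> cases hq <;> cases hr <;>
    simp [Mv_wt, Tag.tgt, Kind.isR] at h ⊢ <;> split_ifs <;> omega

theorem Mv_count {a e : Vtx} {u : List (Cell C B)} (h : Path k a u e) (hu : ∀ y ∈ u, ¬ y.t.lm) :
    u.length ≤ (u.filter fun y => y.t.kind = .tok).length + Mv_wt a := by
  induction h with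
  | nil a => simp
  | @cons x u b hx _ ih =>
    have h1 := ih fun y hy => hu y (List.mem_cons_of_mem _ hy)
    have h2 := Mv_wt_step hx.1 (hu x (by simp))
    by_cases hk : x.t.kind = .tok
    · rw [List.filter_cons_of_pos (by simpa using hk)]
      simp only [List.length_cons, if_pos hk] at h2 ⊢
      omega
    · rw [List.filter_cons_of_neg (by simpa using hk)]
      simp only [List.length_cons, if_neg hk] at h2 ⊢
      omega

theorem Mv_pairwise {x : Cell C B} {u : List (Cell C B)} (h : ¬ (sysk C B k).Zero (x :: u))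
    (hu : ∀ y ∈ u, ¬ y.t.lm) :
    (x :: u).Pairwise fun y z => y.t.kind = .tok → z.t.kind = .tok → y.v ≠ z.v := by
  induction u generalizing x with
  | nil => simp
  | cons z u ih =>
    refine List.Pairwise.cons ?_
      (ih (fun hz => h (hz.append_left [x])) fun y hy => hu y (List.mem_cons_of_mem _ hy))
    intro y hy hx hy' hv
    obtain ⟨b, s, hbs⟩ := List.append_of_mem hy
    have h1 : ¬ (sysk C B k).Zero (x :: b ++ [y]) := fun hz => h (by
      rw [hbs]
      simpa using hz.append_right s)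
    have hb : ∀ w ∈ b ++ [y], ¬ w.t.lm := fun w hw => hu w (by
      rw [hbs]
      simp only [List.mem_append, List.mem_cons, List.not_mem_nil, or_false] at hw ⊢
      tauto)
    have hp := path_of_nz (x := x) (u := b ++ [y]) h1 fun w hw => Mv_src_ne_bot (hb w hw)
    exact h1 ((tok_swap hp hx hy' hb).2 hv)

theorem Mv_tok_le {x : Cell C B} {u : List (Cell C B)} (h : ¬ (sysk C B k).Zero (x :: u))
    (hu : ∀ y ∈ u, ¬ y.t.lm) : ((x :: u).filter fun y => y.t.kind = .tok).length ≤ nn B k := by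
  set l := (x :: u).filter fun y => y.t.kind = .tok with hl
  have hm : ∀ y ∈ l, y ∈ x :: u ∧ y.t.kind = .tok := fun y hy => by
    simpa only [hl, List.mem_filter, decide_eq_true_eq] using hy
  have h1 : l.Pairwise fun y z => y.v ≠ z.v :=
    ((Mv_pairwise h hu).filter _).imp_of_mem fun hy hz hyz => hyz (hm _ hy).2 (hm _ hz).2
  have h2 : (l.map Cell.v).Nodup := List.pairwise_map.2 h1
  have h3 : (l.map Cell.v).toFinset ⊆ Finset.range (nn B k) := by
    intro v hv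
    obtain ⟨y, hy, rfl⟩ := List.mem_map.1 (List.mem_toFinset.1 hv)
    exact Finset.mem_range.2 ((nz_wf h y (hm y hy).1).2.1 (by rw [(hm y hy).2]; rfl)).2
  have h4 := Finset.card_le_card h3
  rwa [List.toFinset_card_of_nodup h2, List.length_map, Finset.card_range] at h4

/-- A non-zero word all of whose cells but the first are not landmarks has at most `nn B k` tokens
(different values `< nn B k`, by `tok_swap`), one counter (phases), and two heads (flags). -/
theorem run_length_le {x : Cell C B} {u : List (Cell C B)} (h : ¬ (sysk C B k).Zero (x :: u))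
    (hu : ∀ y ∈ u, ¬ y.t.lm) : (x :: u).length ≤ nn B k + 3 := by
  have hp := path_of_nz h fun w hw => Mv_src_ne_bot (hu w hw)
  obtain ⟨hx, -, hp⟩ := path_cons_iff.1 hp
  have h1 := Mv_count hp hu
  have h2 := Mv_wt_first hx.1
  have h3 := Mv_tok_le h hu
  by_cases hk : x.t.kind = .tok
  · rw [List.filter_cons_of_pos (by simpa using hk)] at h3
    simp only [List.length_cons, if_pos hk] at h2 h3 ⊢
    omega
  · rw [List.filter_cons_of_neg (by simpa using hk)] at h3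
    simp only [List.length_cons, if_neg hk] at h2 ⊢
    omega

theorem lm_exk {y : List (Cell C B)} (h : ¬ (sysk C B k).Zero y) (hy : nn B k + 4 ≤ y.length) :
    ∃ x ∈ y, x.t.lm := by
  by_contra hc
  push Not at hc
  cases y with
  | nil => simp at hy
  | cons x u =>
    have := run_length_le h fun w hw => hc w (List.mem_cons_of_mem _ hw)
    omega

end Crest.Agent.R176
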