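import Crest.Agent.R176.Zone
import Crest.Agent.R176.Acc

/-!
# R176 — normal form of blocks, moves between canonical blocks
-/

set_option autoImplicit false

namespace Crest.Agent.R176

variable {C B k : ℕ}

theorem nf_ph_zero : ((ph C 0 : Fin (3 * C + 1)) : ℕ) = 0 := by simp [ph]

theorem nf_ph_top : ((ph C (3 * C) : Fin (3 * C + 1)) : ℕ) = 3 * C := by simp [ph]

theorem nf_wf_q (j : ℕ) (f : Bool) (h : Hd C B) : WFc k (qCell j f h) :=
  ⟨⟨rfl, rfl⟩, fun h => by simp [qCell, Kind.big] at h, fun _ => rfl⟩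

theorem nf_wf_r {h : Hd C B} (hw : h.WF k) (j : ℕ) (f : Bool) : WFc k (rCell j f h) :=
  ⟨⟨rfl, rfl⟩, hw.1, hw.2⟩

theorem nf_cr_qq (h₁ h₂ : Hd C B) : crAdj (qCell (3 * C) true h₁).t (qCell 0 false h₂).t :=
  ⟨by simp [qCell, Tag.tgt, top, nf_ph_top], by simp [qCell, Tag.src, bot, nf_ph_zero]⟩

theorem nf_has_q {a b : Vtx} {u : List (Cell C B)} (h : Path k a u b) (ha : a.2.1 = false)
    (hb : b.2.1 = true) : ∃ x ∈ u, x.t.kind = .q := by
  induction h with
  | nil a => rw [ha] at hb; cases hb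
  | @cons x u b hx hp ih =>
    by_cases hq : x.t.kind = .q
    · exact ⟨x, List.mem_cons_self, hq⟩
    · obtain ⟨y, hy, hy'⟩ := ih (by simpa [Tag.tgt, Tag.src, hq] using ha) hb
      exact ⟨y, List.mem_cons_of_mem _ hy, hy'⟩

theorem nf_has_r {a b : Vtx} {u : List (Cell C B)} (h : Path k a u b) (ha : a.2.2 = false)
    (hb : b.2.2 = true) : ∃ x ∈ u, x.t.kind.isR = true := by
  induction h with
  | nil a => rw [ha] at hb; cases hb
  | @cons x u b hx hp ih =>
    by_cases hq : x.t.kind.isR = true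
    · exact ⟨x, List.mem_cons_self, hq⟩
    · obtain ⟨y, hy, hy'⟩ := ih (by simpa [Tag.tgt, Tag.src, hq] using ha) hb
      exact ⟨y, List.mem_cons_of_mem _ hy, hy'⟩

theorem nf_no_head {a b : Vtx} {u : List (Cell C B)} (h : Path k a u b) (ha : a.2.1 = true)
    (ha' : a.2.2 = true) : ∀ x ∈ u, x.t.kind = .tok ∨ x.t.kind = .cnt := by
  induction h with
  | nil a => simp
  | @cons x u b hx hp ih =>
    simp only [Tag.src] at ha ha'
    intro y hy
    rcases List.mem_cons.1 hy with rfl | hy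
    · have hok := hx.1
      unfold Tag.OK at hok
      cases hk : y.t.kind with
      | tok => exact Or.inl rfl
      | cnt => exact Or.inr rfl
      | q => rw [hk] at hok; simp [ha] at hok
      | r g m => rw [hk] at hok; simp [ha'] at hok
    · exact ih (by simp [Tag.tgt, ha]) (by simp [Tag.tgt, ha']) y hy

theorem nf_cut {a b : Vtx} {u : List (Cell C B)} (h : Path k a u b) {n : ℕ} (ha : a.1 ≤ 3 * n)
    (hb : 3 * n ≤ b.1) : ∃ u₁ u₂ c, u = u₁ ++ u₂ ∧ Path k a u₁ c ∧ Path k c u₂ b ∧ c.1 = 3 * n := by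
  induction h with
  | nil a => exact ⟨[], [], a, rfl, Path.nil a, Path.nil a, le_antisymm ha hb⟩
  | @cons x u b hx hp ih =>
    by_cases he : x.t.src.1 = 3 * n
    · exact ⟨[], x :: u, x.t.src, rfl, Path.nil _, Path.cons hx hp, he⟩
    · have h1 : x.t.tgt.1 ≤ 3 * n := by
        have hok := hx.1
        unfold Tag.OK at hok
        simp only [Tag.src] at ha he
        simp only [Tag.tgt]
        cases hk : x.t.kind with
        | tok =>
          rw [hk] at hok
          rcases hok with h | h | h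
          · omega
          · rw [h.2]; exact ha
          · omega
        | cnt => rw [hk] at hok; simp only at hok; omega
        | q => rw [hk] at hok; rw [hok.1]; exact ha
        | r g m => rw [hk] at hok; rw [hok.1]; exact ha
      obtain ⟨u₁, u₂, c, e, h2, h3, h4⟩ := ih h1 hb
      exact ⟨x :: u₁, u₂, c, by rw [e]; rfl, Path.cons hx h2, h3, h4⟩

theorem nf_zones (n : ℕ) (hn : n ≤ C) {u : List (Cell C B)}
    (hu : Path k (0, true, true) u (3 * n, true, true)) :
    ∃ (cv : ℕ → ℕ) (tl : ℕ → List ℕ), (∀ z < n, tl z ≠ [] ∧ cv z < nn B k ∧ ∀ v ∈ tl z, v < nn B k) ∧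
      (skel C B k).Eqv u ((List.range n).flatMap fun z => zoneW z true true (cv z) (tl z)) := by
  induction n generalizing u with
  | zero =>
    refine ⟨fun _ => 0, fun _ => [], by simp, ?_⟩
    cases u with
    | nil => exact RW.Eqv.rfl
    | cons x u =>
      exfalso
      have hk := nf_no_head hu rfl rfl x List.mem_cons_self
      obtain ⟨hx, hs, hp⟩ := path_cons_iff.1 hu
      have h1 := hp.mono.1
      have h2 : (x.t.φ : ℕ) = 0 := congrArg Prod.fst hs
      have hok := hx.1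
      unfold Tag.OK at hok
      simp only [Tag.tgt] at h1
      rcases hk with hk | hk <;> rw [hk] at hok <;> simp only at hok <;> omega
  | succ n ih =>
    obtain ⟨u₁, u₂, c, rfl, h1, h2, h3⟩ := nf_cut hu (n := n) (Nat.zero_le _) (by simp only; omega)
    have hc : c = (3 * n, true, true) :=
      Prod.ext h3 (Prod.ext (h1.mono.2.1 rfl) (h1.mono.2.2 rfl))
    subst hc
    obtain ⟨cv, tl, a1, a2⟩ := ih (by omega) h1
    obtain ⟨cv', tl', b1, b2, b3, b4, -⟩ := zone_nf (z := n) (by omega) h2 (nf_no_head h2 rfl rfl)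
    refine ⟨fun z => if z = n then cv' else cv z, fun z => if z = n then tl' else tl z, ?_, ?_⟩
    · intro z hz
      by_cases hzn : z = n
      · simp only [hzn, if_true]; exact ⟨b2, b3, b4⟩
      · simp only [hzn, if_false]; exact a1 z (by omega)
    · rw [List.range_succ, List.flatMap_append]
      refine RW.Eqv.append (a2.trans (RW.Eqv.of_eq ?_)) (b1.trans (RW.Eqv.of_eq ?_))
      · refine List.flatMap_congr fun z hz => ?_
        have : z ≠ n := (List.mem_range.1 hz).ne
        simp only [this, if_false]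
      · simp

theorem nf_acc (n : ℕ) (hn : n ≤ C) {f g : Bool} {cv : ℕ → ℕ} {tl : ℕ → List ℕ}
    (h0 : ∀ z < n, tl z ≠ []) {qi : Option (Code C B)} {ri : Option (Bool × Mode × Code C B × ℕ)}
    {s' : AS C B} (h : Acc k ⟨(3 * 0, f, g), ∅, qi, ri⟩
      ((List.range n).flatMap fun z => zoneW z f g (cv z) (tl z)) s') :
    (∀ z < n, cv z = 0 ∧ (tl z).Perm (List.range (nn B k))) ∧ s' = ⟨(3 * n, f, g), ∅, qi, ri⟩ := by
  induction n generalizing s' with
  | zero =>
    refine ⟨by simp, ?_⟩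
    cases h
    rfl
  | succ n ih =>
    rw [List.range_succ, List.flatMap_append] at h
    obtain ⟨s₁, h1, h2⟩ := h.split
    obtain ⟨a1, rfl⟩ := ih (by omega) (fun z hz => h0 z (by omega)) h1
    rw [List.flatMap_singleton, acc_zoneW_iff (by omega) (h0 n (by omega))] at h2
    refine ⟨fun z hz => ?_, h2.2.2⟩
    by_cases hzn : z = n
    · rw [hzn]; exact ⟨h2.1, h2.2.1⟩
    · exact a1 z (by omega)

theorem nf_perm (n : ℕ) (hn : n ≤ C) {f g : Bool} {cv : ℕ → ℕ} {tl : ℕ → List ℕ}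
    (h : ∀ z < n, cv z = 0 ∧ (tl z).Perm (List.range (nn B k))) :
    (skel C B k).Eqv ((List.range n).flatMap fun z => zoneW z f g (cv z) (tl z))
      ((List.range n).flatMap fun z => zoneW z f g 0 (List.range (nn B k))) := by
  induction n with
  | zero => exact RW.Eqv.rfl
  | succ n ih =>
    rw [List.range_succ, List.flatMap_append, List.flatMap_append, List.flatMap_singleton,
      List.flatMap_singleton]
    refine RW.Eqv.append (ih (by omega) fun z hz => h z (by omega)) ?_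
    obtain ⟨h1, h2⟩ := h n (by omega)
    rw [h1]
    exact zoneW_perm (by omega) f g 0 (fun v hv => List.mem_range.1 (h2.subset hv)) h2

/-- Pre-normal form of a path from `bot` to `top`: the flags change, so it contains a `q` and an `r`; move `q`
to the front (`q_left`), then `r` to the second place (`r_left`); the rest has constant flags `true, true`, so
it has no head; cut it at the phases `3 z` (an edge never jumps over a multiple of `3`) and apply `zone_nf`. -/
theorem path_nf {u : List (Cell C B)} (hu : Path k bot u (top C)) :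
    ∃ (h : Hd C B) (cv : ℕ → ℕ) (tl : ℕ → List ℕ), h.WF k ∧
      (∀ z < C, tl z ≠ [] ∧ cv z < nn B k ∧ ∀ v ∈ tl z, v < nn B k) ∧
      (skel C B k).Eqv u (qCell 0 false h :: rCell 0 true h ::
        (List.range C).flatMap fun z => zoneW z true true (cv z) (tl z)) := by
  obtain ⟨x, hxu, hx⟩ := nf_has_q hu rfl rfl
  obtain ⟨p, s, rfl⟩ := List.append_of_mem hxu
  have hxw := hu.wf x hxu
  have e0 : p ++ x :: s = (p ++ [x]) ++ s := by simp
  rw [e0] at hu ⊢
  obtain ⟨b, hb, -⟩ := hu.split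
  have hb' : Path k ((ph C 0 : Fin (3 * C + 1)), false, false) (p ++ [x]) b := by
    rw [nf_ph_zero]; exact hb
  have e1 := (q_left hb' hx).2.append_right s
  have hu1 := hu.of_skel e1
  rw [List.cons_append, path_cons_iff] at hu1
  obtain ⟨-, -, hu1⟩ := hu1
  obtain ⟨y, hyu, hy⟩ := nf_has_r hu1 rfl rfl
  obtain ⟨p', s', e2⟩ := List.append_of_mem hyu
  have hyw := hu1.wf y hyu
  have e3 : p' ++ y :: s' = (p' ++ [y]) ++ s' := by simp
  rw [e2, e3] at hu1
  obtain ⟨b', hb2, -⟩ := hu1.split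
  have hb2' : Path k ((ph C 0 : Fin (3 * C + 1)), true, false) (p' ++ [y]) b' := hb2
  have e4 := (r_left hb2' hy).2.append_right s'
  have hu2 := hu1.of_skel e4
  rw [List.cons_append, path_cons_iff] at hu2
  obtain ⟨-, -, hu2⟩ := hu2
  obtain ⟨g, m, hgm⟩ : ∃ g m, y.t.kind = .r g m := by
    cases hk : y.t.kind with
    | r g m => exact ⟨g, m, rfl⟩
    | _ => rw [hk] at hy; simp [Kind.isR] at hy
  have hu3 : Path k (0, true, true) (p'.map Cell.setR ++ s') (3 * C, true, true) := by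
    have : Tag.tgt (⟨y.t.kind, ph C 0, ph C 0, true, false⟩ : Tag C) = (0, true, true) := by
      simp [Tag.tgt, nf_ph_zero, hy]
    rw [← this]; exact hu2
  obtain ⟨cv, tl, h1, h2⟩ := nf_zones C le_rfl hu3
  refine ⟨⟨x.a, g, m, y.a, y.v⟩, cv, tl, ?_, h1, ?_⟩
  · have := hyw.2
    rw [hgm] at this
    exact this
  · have hx0 : x.v = 0 := hxw.2.2 (by rw [hx]; rfl)
    refine e1.trans ?_
    rw [List.cons_append, e2, e3, hx0]
    refine RW.Eqv.cons (e4.trans ?_) _
    rw [List.cons_append, hgm]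
    exact RW.Eqv.cons h2 _

/-- `path_nf`, `Acc.of_skel`, `acc_zoneW_iff`, `zoneW_perm`, `Blk.q_eq`, `Blk.r_eq` -/
theorem Blk.norm {u : List (Cell C B)} {h : Hd C B} (hb : Blk k u h) :
    (skel C B k).Eqv u (canon k h) := by
  obtain ⟨h', cv, tl, hw, h1, e⟩ := path_nf hb.path
  have hb' : Blk k (qCell 0 false h' :: rCell 0 true h' ::
      (List.range C).flatMap fun z => zoneW z true true (cv z) (tl z)) h := Acc.of_skel hb e
  have ea : h'.a = h.a := Blk.q_eq (p := []) hb' rfl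
  have er := Blk.r_eq (p := [qCell 0 false h']) (x := rCell 0 true h') hb' rfl
  have eh : h' = h := Hd.ext ea er.1 er.2.1 er.2.2.1 er.2.2.2
  subst eh
  refine e.trans (RW.Eqv.cons (RW.Eqv.cons (nf_perm C le_rfl ?_) _) _)
  cases hb' with
  | @cons _ s₁ _ _ _ t1 hb1 =>
  cases hb1 with
  | @cons _ s₂ _ _ _ t2 hb2 =>
  have es : s₂ = ⟨(3 * 0, true, true), ∅, s₂.qi, s₂.ri⟩ := by
    refine AS.ext ?_ ?_ rfl rfl
    · rw [t2.2.2.1]; simp [rCell, Tag.tgt, nf_ph_zero, Kind.isR]
    · exact t2.2.2.2.1.trans t1.2.2.2.1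
  rw [es] at hb2
  exact (nf_acc C le_rfl (fun z hz => (h1 z hz).1) hb2).1

/-- `path_nf`, `zoneW_nz`, `zoneW_perm`, `blk_canon`, `Acc.of_skel` -/
theorem blk_of_nz {u : List (Cell C B)} (hu : Path k bot u (top C)) (h : ¬ (sysk C B k).Zero u) :
    ∃ hd, Blk k u hd := by
  obtain ⟨h', cv, tl, hw, h1, e⟩ := path_nf hu
  refine ⟨h', Acc.of_skel (blk_canon hw) (RW.Eqv.symm (e.trans ?_))⟩
  refine RW.Eqv.cons (RW.Eqv.cons (nf_perm C le_rfl fun z hz => ?_) _) _
  refine zoneW_nz (f := true) (g := true) hz (h1 z hz).1 fun h0 => h ?_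
  refine RW.Zero.of_eqv ?_ (skel_le e)
  obtain ⟨a, b, hab⟩ := List.append_of_mem (List.mem_range.2 hz)
  rw [hab, List.flatMap_append, List.flatMap_cons]
  have := h0.infix (qCell 0 false h' :: rCell 0 true h' ::
    a.flatMap fun z => zoneW z true true (cv z) (tl z))
    (b.flatMap fun z => zoneW z true true (cv z) (tl z))
  simpa using this

theorem canon_length (h : Hd C B) : (canon k h).length = dd C B k := by
  simp [canon, zones, dd, List.length_flatMap, zoneW_length]

theorem Blk.length {u : List (Cell C B)} {h : Hd C B} (hb : Blk k u h) : u.length = dd C B k := by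
  rw [hb.norm.length_eq, canon_length]

/-- the rule `Hr` on head data -/
def HrD (h h' : Hd C B) : Prop :=
  h'.g = h.g ∧ h'.ra = h.ra ∧ h'.rv = h.rv ∧
    Hr h.a ⟨.r h.g h.m, ph C 0, ph C 0, true, false⟩ h'.a ⟨.r h.g h'.m, ph C 0, ph C 0, true, false⟩

theorem canon_Hr {h h' : Hd C B} (hw : h.WF k) (e : HrD h h') :
    (sysk C B k).Eqv (canon k h) (canon k h') := by
  obtain ⟨e1, e2, e3, e4⟩ := e
  have hw' : h'.WF k := by
    unfold Hd.WF at hw ⊢
    rw [e1, e2, e3]; exact hw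
  refine RW.Eqv.rule (S := sysk C B k) ?_ [] _
  refine ⟨nf_wf_q _ _ _, nf_wf_r hw _ _, nf_wf_q _ _ _, nf_wf_r hw' _ _,
    Or.inr (Or.inr (Or.inr ⟨⟨rfl, rfl, rfl⟩, rfl, e2, e3, ?_⟩))⟩
  simp only [qCell, rCell, e1]
  exact e4

theorem canon_zero_of_not_compat {h : Hd C B} (hc : ¬ h.a.Compat h.g h.m) :
    (sysk C B k).Zero (canon k h) := by
  refine RW.Zero.of_z2 (S := sysk C B k) ?_ [] _
  exact Or.inr (Or.inr (Or.inr (Or.inr ⟨⟨rfl, rfl, rfl⟩, hc⟩)))

theorem canon_qq {h₁ h₂ : Hd C B} (hw₁ : h₁.WF k) (hw₂ : h₂.WF k) {b b' : Code C B}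
    (e : Fr h₁.a h₂.a b b') : (sysk C B k).Eqv (canon k h₁ ++ canon k h₂)
      (canon k { h₁ with a := b } ++ canon k { h₂ with a := b' }) := by
  have hw₁' : Hd.WF k { h₁ with a := b } := hw₁
  refine ((skel_le (blk_rq hw₁).norm).symm.append_right _).trans
    (RW.Eqv.trans ?_ ((skel_le (blk_rq hw₁').norm).append_right _))
  have hs : (sysk C B k).step (qCell (3 * C) true h₁) (qCell 0 false h₂)
      (qCell (3 * C) true { h₁ with a := b }) (qCell 0 false { h₂ with a := b' }) :=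
    ⟨nf_wf_q _ _ _, nf_wf_q _ _ _, nf_wf_q _ _ _, nf_wf_q _ _ _,
      Or.inr (Or.inl ⟨⟨nf_cr_qq h₁ h₂, Or.inl ⟨rfl, rfl⟩⟩, rfl, rfl, e⟩)⟩
  have := RW.Eqv.rule hs (rCell 0 false h₁ :: zones C B k false true)
    (rCell 0 true h₂ :: zones C B k true true)
  simpa [canon, rCell] using this

theorem canon_qq_zero {h₁ h₂ : Hd C B} (hw₁ : h₁.WF k) (hw₂ : h₂.WF k) (e : F0 h₁.a h₂.a) :
    (sysk C B k).Zero (canon k h₁ ++ canon k h₂) := by
  refine RW.Zero.of_eqv ?_ ((skel_le (blk_rq hw₁).norm).symm.append_right _)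
  have hs : (sysk C B k).z2 (qCell (3 * C) true h₁) (qCell 0 false h₂) :=
    Or.inr (Or.inr (Or.inl ⟨⟨nf_cr_qq h₁ h₂, Or.inl ⟨rfl, rfl⟩⟩, e⟩))
  have := RW.Zero.of_z2 hs (rCell 0 false h₁ :: zones C B k false true)
    (rCell 0 true h₂ :: zones C B k true true)
  simpa [canon] using this

theorem canon_rr {h₁ h₂ h₁' h₂' : Hd C B} (e₁ : h₁'.a = h₁.a) (e₂ : h₂'.a = h₂.a)
    (e : (sysk C B k).step (rCell (3 * C) true h₁) (rCell 0 false h₂)
      (rCell (3 * C) true h₁') (rCell 0 false h₂')) :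
    (sysk C B k).Eqv (canon k h₁ ++ canon k h₂) (canon k h₁' ++ canon k h₂') := by
  have hw₁ : h₁.WF k := e.1.2
  have hw₂ : h₂.WF k := e.2.1.2
  have hw₁' : h₁'.WF k := e.2.2.1.2
  have hw₂' : h₂'.WF k := e.2.2.2.1.2
  refine ((skel_le (blk_qr hw₁).norm).symm.append (skel_le (blk_rq hw₂).norm).symm).trans
    (RW.Eqv.trans ?_ ((skel_le (blk_qr hw₁').norm).append (skel_le (blk_rq hw₂').norm)))
  have := RW.Eqv.rule e (qCell 0 false h₁ :: zones C B k true false)
    (zones C B k false true ++ [qCell (3 * C) true h₂])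
  simpa [qCell, e₁, e₂] using this

theorem canon_rr_zero {h₁ h₂ : Hd C B} (hw₁ : h₁.WF k) (hw₂ : h₂.WF k)
    (e : (sysk C B k).z2 (rCell (3 * C) true h₁) (rCell 0 false h₂)) :
    (sysk C B k).Zero (canon k h₁ ++ canon k h₂) := by
  refine RW.Zero.of_eqv ?_
    ((skel_le (blk_qr hw₁).norm).symm.append (skel_le (blk_rq hw₂).norm).symm)
  have := RW.Zero.of_z2 e (qCell 0 false h₁ :: zones C B k true false)
    (zones C B k false true ++ [qCell (3 * C) true h₂])
  simpa using this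

theorem canon_rq {h₁ h₂ h₁' : Hd C B} {b : Code C B} (e₁ : h₁'.a = h₁.a) (hw₂ : h₂.WF k)
    (e : (sysk C B k).step (rCell (3 * C) true h₁) (qCell 0 false h₂)
      (rCell (3 * C) true h₁') (qCell 0 false { h₂ with a := b })) :
    (sysk C B k).Eqv (canon k h₁ ++ canon k h₂) (canon k h₁' ++ canon k { h₂ with a := b }) := by
  have hw₁ : h₁.WF k := e.1.2
  have hw₁' : h₁'.WF k := e.2.2.1.2
  refine ((skel_le (blk_qr hw₁).norm).symm.append_right _).trans
    (RW.Eqv.trans ?_ ((skel_le (blk_qr hw₁').norm).append_right _))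
  have := RW.Eqv.rule e (qCell 0 false h₁ :: zones C B k true false)
    (rCell 0 true h₂ :: zones C B k true true)
  simpa [canon, qCell, rCell, e₁] using this

theorem canon_rq_zero {h₁ h₂ : Hd C B} (hw₁ : h₁.WF k) (hw₂ : h₂.WF k)
    (e : (sysk C B k).z2 (rCell (3 * C) true h₁) (qCell 0 false h₂)) :
    (sysk C B k).Zero (canon k h₁ ++ canon k h₂) := by
  refine RW.Zero.of_eqv ?_ ((skel_le (blk_qr hw₁).norm).symm.append_right _)
  have := RW.Zero.of_z2 e (qCell 0 false h₁ :: zones C B k true false)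
    (rCell 0 true h₂ :: zones C B k true true)
  simpa [canon] using this

end Crest.Agent.R176
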