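import Mathlib

/-!
# R176 — length-preserving rewriting systems with zero

`S : RW X` presents a graded semigroup with zero: relations `x y = x' y'` (`step`), `x y = 0` (`z2`)
and `x = 0` (`z1`).  `S.Good` collects the three properties from which S0266 and S0265 follow.
DO NOT EDIT (owner helper34).
-/

set_option autoImplicit false

namespace Crest.Agent.R176

/-- a rewriting system on pairs of adjacent letters, with zero pairs and zero letters -/
structure RW (X : Type) where
  step : X → X → X → X → Prop
  z2 : X → X → Prop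
  z1 : X → Prop

namespace RW

variable {X : Type} (S : RW X)

/-- one application of a rule (left to right) -/
def Step (w w' : List X) : Prop :=
  ∃ p s x y x' y', S.step x y x' y' ∧ w = p ++ x :: y :: s ∧ w' = p ++ x' :: y' :: s

/-- one application of a rule in either direction -/
def SStep (w w' : List X) : Prop := S.Step w w' ∨ S.Step w' w

/-- the congruence generated by the rules -/
def Eqv : List X → List X → Prop := Relation.ReflTransGen S.SStep

/-- the word visibly contains a zero -/
def HasZ (w : List X) : Prop :=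
  (∃ x ∈ w, S.z1 x) ∨ ∃ p s x y, S.z2 x y ∧ w = p ++ x :: y :: s

/-- the word is zero in the semigroup -/
def Zero (w : List X) : Prop := ∃ w', S.Eqv w w' ∧ S.HasZ w'

/-- there are arbitrarily long non-zero words -/
def Inf : Prop := ∀ n : ℕ, ∃ w : List X, n ≤ w.length ∧ ¬ S.Zero w

/-- Capelli property: every long non-zero word has `m` canonical disjoint factors of the same length,
pairwise different, any two of which can be exchanged (and the exchange does not change the chosen
positions). -/
def Cap : Prop :=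
  ∀ m : ℕ, ∃ (N : ℕ) (sel : List X → ℕ × (Fin m → ℕ)), ∀ u : List X, ¬ S.Zero u → N ≤ u.length →
    (∀ i j, i < j → (sel u).2 i + (sel u).1 ≤ (sel u).2 j) ∧
    (∀ j, (sel u).2 j + (sel u).1 ≤ u.length) ∧
    ∀ i j, i < j → ∀ a t b t' c : List X, u = a ++ t ++ b ++ t' ++ c →
      a.length = (sel u).2 i → t.length = (sel u).1 → (a ++ t ++ b).length = (sel u).2 j →
      t'.length = (sel u).1 →
      t ≠ t' ∧ S.Eqv u (a ++ t' ++ b ++ t ++ c) ∧ sel (a ++ t' ++ b ++ t ++ c) = sel u

/-- `addr` is an address (of the left end) modulo `D`, visible on non-zero words of length `≥ N` -/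
structure IsAddr (N D : ℕ) (addr : List X → ZMod D) : Prop where
  eqv : ∀ w w', ¬ S.Zero w → N ≤ w.length → S.Eqv w w' → addr w' = addr w
  left : ∀ u w, N ≤ w.length → ¬ S.Zero (u ++ w) → addr w = addr (u ++ w) + (u.length : ZMod D)
  right : ∀ w u, N ≤ w.length → ¬ S.Zero (w ++ u) → addr (w ++ u) = addr w

/-- addresses exist at arbitrarily large scales, with modulus much larger than the visibility length -/
def Addr : Prop :=
  ∀ n : ℕ, ∃ N D : ℕ, n ≤ N ∧ 2000 * N ≤ D ∧ ∃ addr : List X → ZMod D, S.IsAddr N D addr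

/-- the three properties used for S0266 and S0265 -/
structure Good : Prop where
  inf : S.Inf
  cap : S.Cap
  addr : S.Addr

variable {S}

theorem Step.append {w w' : List X} (h : S.Step w w') (a b : List X) :
    S.Step (a ++ w ++ b) (a ++ w' ++ b) := by
  obtain ⟨p, s, x, y, x', y', h, rfl, rfl⟩ := h
  exact ⟨a ++ p, s ++ b, x, y, x', y', h, by simp, by simp⟩

theorem Step.length_eq {w w' : List X} (h : S.Step w w') : w.length = w'.length := by
  obtain ⟨p, s, x, y, x', y', -, rfl, rfl⟩ := h
  simp

theorem SStep.symm {w w' : List X} (h : S.SStep w w') : S.SStep w' w := Or.symm h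

theorem SStep.append {w w' : List X} (h : S.SStep w w') (a b : List X) :
    S.SStep (a ++ w ++ b) (a ++ w' ++ b) :=
  h.imp (fun h => h.append a b) fun h => h.append a b

theorem SStep.length_eq {w w' : List X} (h : S.SStep w w') : w.length = w'.length :=
  h.elim Step.length_eq fun h => h.length_eq.symm

/-- a symmetric step, unfolded -/
theorem sstep_iff {w w' : List X} : S.SStep w w' ↔ ∃ p s x y x' y',
    (S.step x y x' y' ∨ S.step x' y' x y) ∧ w = p ++ x :: y :: s ∧ w' = p ++ x' :: y' :: s := by
  constructor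
  · rintro (⟨p, s, x, y, x', y', h, h1, h2⟩ | ⟨p, s, x, y, x', y', h, h1, h2⟩)
    · exact ⟨p, s, x, y, x', y', Or.inl h, h1, h2⟩
    · exact ⟨p, s, x', y', x, y, Or.inr h, h2, h1⟩
  · rintro ⟨p, s, x, y, x', y', h | h, h1, h2⟩
    · exact Or.inl ⟨p, s, x, y, x', y', h, h1, h2⟩
    · exact Or.inr ⟨p, s, x', y', x, y, h, h2, h1⟩

@[refl] theorem Eqv.refl (w : List X) : S.Eqv w w := Relation.ReflTransGen.refl

theorem Eqv.rfl {w : List X} : S.Eqv w w := Relation.ReflTransGen.refl

theorem Eqv.of_eq {w w' : List X} (h : w = w') : S.Eqv w w' := h ▸ Eqv.rfl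

@[trans] theorem Eqv.trans {a b c : List X} (h : S.Eqv a b) (h' : S.Eqv b c) : S.Eqv a c :=
  Relation.ReflTransGen.trans h h'

@[symm] theorem Eqv.symm {a b : List X} (h : S.Eqv a b) : S.Eqv b a := by
  induction h with
  | refl => exact Eqv.rfl
  | tail _ h ih => exact Relation.ReflTransGen.head h.symm ih

theorem SStep.eqv {a b : List X} (h : S.SStep a b) : S.Eqv a b := Relation.ReflTransGen.single h

theorem Step.eqv {a b : List X} (h : S.Step a b) : S.Eqv a b := SStep.eqv (Or.inl h)

theorem Eqv.pair {x y x' y' : X} (h : S.step x y x' y') : S.Eqv [x, y] [x', y'] :=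
  Step.eqv ⟨[], [], x, y, x', y', h, by simp, by simp⟩

theorem Eqv.infix {w w' : List X} (h : S.Eqv w w') (a b : List X) :
    S.Eqv (a ++ w ++ b) (a ++ w' ++ b) := by
  induction h with
  | refl => exact Eqv.rfl
  | tail _ h ih => exact ih.trans (h.append a b).eqv

theorem Eqv.append_left {w w' : List X} (h : S.Eqv w w') (a : List X) :
    S.Eqv (a ++ w) (a ++ w') := by simpa using h.infix a []

theorem Eqv.append_right {w w' : List X} (h : S.Eqv w w') (b : List X) :
    S.Eqv (w ++ b) (w' ++ b) := by simpa using h.infix [] b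

theorem Eqv.append {a a' b b' : List X} (h : S.Eqv a a') (h' : S.Eqv b b') :
    S.Eqv (a ++ b) (a' ++ b') := (h.append_right b).trans (h'.append_left a')

theorem Eqv.cons {w w' : List X} (h : S.Eqv w w') (x : X) : S.Eqv (x :: w) (x :: w') :=
  h.append_left [x]

/-- apply a rule in context -/
theorem Eqv.rule {x y x' y' : X} (h : S.step x y x' y') (p s : List X) :
    S.Eqv (p ++ x :: y :: s) (p ++ x' :: y' :: s) :=
  Step.eqv ⟨p, s, x, y, x', y', h, by simp, by simp⟩

theorem Eqv.length_eq {w w' : List X} (h : S.Eqv w w') : w.length = w'.length := by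
  induction h with
  | refl => rfl
  | tail _ h ih => exact ih.trans h.length_eq

/-- a property stable under symmetric steps is stable under the congruence -/
theorem Eqv.induction {P : List X → Prop} (hP : ∀ w w', P w → S.SStep w w' → P w')
    {w w' : List X} (h : S.Eqv w w') (hw : P w) : P w' := by
  induction h with
  | refl => exact hw
  | tail _ h ih => exact hP _ _ ih h

theorem HasZ.infix {w : List X} (h : S.HasZ w) (a b : List X) : S.HasZ (a ++ w ++ b) := by
  rcases h with ⟨x, hx, h⟩ | ⟨p, s, x, y, h, rfl⟩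
  · exact Or.inl ⟨x, by simp [hx], h⟩
  · exact Or.inr ⟨a ++ p, s ++ b, x, y, h, by simp⟩

theorem HasZ.zero {w : List X} (h : S.HasZ w) : S.Zero w := ⟨w, Eqv.rfl, h⟩

theorem Zero.of_z1 {w : List X} {x : X} (hx : x ∈ w) (h : S.z1 x) : S.Zero w :=
  HasZ.zero (Or.inl ⟨x, hx, h⟩)

theorem Zero.of_z2 {x y : X} (h : S.z2 x y) (p s : List X) : S.Zero (p ++ x :: y :: s) :=
  HasZ.zero (Or.inr ⟨p, s, x, y, h, rfl⟩)

theorem Zero.of_eqv {w w' : List X} (h : S.Zero w') (e : S.Eqv w w') : S.Zero w := by
  obtain ⟨v, h1, h2⟩ := h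
  exact ⟨v, e.trans h1, h2⟩

theorem Eqv.zero_iff {w w' : List X} (e : S.Eqv w w') : S.Zero w ↔ S.Zero w' :=
  ⟨fun h => h.of_eqv e.symm, fun h => h.of_eqv e⟩

theorem Zero.infix {w : List X} (h : S.Zero w) (a b : List X) : S.Zero (a ++ w ++ b) := by
  obtain ⟨v, h1, h2⟩ := h
  exact ⟨_, h1.infix a b, h2.infix a b⟩

theorem Zero.append_left {w : List X} (h : S.Zero w) (a : List X) : S.Zero (a ++ w) := by
  simpa using h.infix a []

theorem Zero.append_right {w : List X} (h : S.Zero w) (b : List X) : S.Zero (w ++ b) := by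
  simpa using h.infix [] b

theorem Eqv.eq_of_length_le_one {w w' : List X} (h : S.Eqv w w') (hw : w.length ≤ 1) : w' = w := by
  refine h.induction (P := fun v => v = w) ?_ (Eq.refl w)
  rintro v v' hv hs
  subst hv
  obtain ⟨p, s, x, y, x', y', -, h1, -⟩ := sstep_iff.1 hs
  rw [h1] at hw
  simp at hw
  omega

theorem not_zero_nil : ¬ S.Zero [] := by
  rintro ⟨w, h1, h2⟩
  rw [h1.eq_of_length_le_one (by simp)] at h2
  rcases h2 with ⟨x, hx, -⟩ | ⟨p, s, x, y, -, h⟩
  · simp at hx
  · simp at h

theorem not_zero_singleton {x : X} (hx : ¬ S.z1 x) : ¬ S.Zero [x] := by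
  rintro ⟨w, h1, h2⟩
  rw [h1.eq_of_length_le_one (by simp)] at h2
  rcases h2 with ⟨y, hy, h⟩ | ⟨p, s, x, y, -, h⟩
  · rw [List.mem_singleton] at hy
    exact hx (hy ▸ h)
  · have := congrArg List.length h
    simp at this
    omega

/-- the product of two long words whose addresses do not match is zero -/
theorem IsAddr.zero_of_ne {N D : ℕ} {addr : List X → ZMod D} (h : S.IsAddr N D addr)
    {w w' : List X} (hw : N ≤ w.length) (hw' : N ≤ w'.length)
    (hne : addr w' ≠ addr w + (w.length : ZMod D)) : S.Zero (w ++ w') := by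
  by_contra hz
  exact hne (by rw [h.left w w' hw' hz, h.right w w' hw hz])

end RW

end Crest.Agent.R176
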