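import Crest.Agent.R176.Tower

/-!
# R176 — the self-simulating tower: definitions

Parameters: `C` zones per block, radix `B + 1`; `nn B k = (B + 1) ^ k`.

A *cell* has a tag and a value `(a, v)`; small cells (`q`, small `r`) use the code `a` (and `v = 0`), big
cells (tokens, counters, big `r`) use `v < nn B k` (and `a = a0`).  A tag is an edge `src → tgt` between
vertices `(phase, hq, hr)`; phases `3 z, 3 z + 1, 3 z + 2` mean: start of zone `z`, before the counter, after
the counter; `hq, hr` record whether the heads `q, r` of the block are to the left.  A block is a path from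
`bot` to `top`: it has one `q`, one `r`, and each zone has one counter and `nn B k` different tokens.

A level `k + 1` cell `(t, (a, β + (B+1) v))` is represented by a block whose head `q` has the code
`(t, β, ctl)` and whose head `r` has the value `(a, v)`.  Rules of level `k + 1` are simulated by the protocol
lock (`Fr`), set the modes of the heads `r` (`Hr`), commit (a rule between the heads `r`), reset, unlock.
`side = true` means: the left cell of the pair (locked with its right neighbour).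
DO NOT EDIT (owner helper34).
-/

set_option autoImplicit false

namespace Crest.Agent.R176

/-- kinds of operations -/
inductive Op | sw | swi | bbF | bbG | bt | eq
  deriving DecidableEq, Fintype

/-- modes of the head `r` -/
inductive Mode | neu | a0 | act (μ : Op) (side : Bool) | done (inc : Bool) (side : Bool)
  deriving DecidableEq, Fintype

/-- kinds of cells -/
inductive Kind | tok | cnt | q | r (big : Bool) (md : Mode)
  deriving DecidableEq, Fintype

/-- tags -/
@[ext] structure Tag (C : ℕ) where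
  kind : Kind
  φ : Fin (3 * C + 1)
  φ' : Fin (3 * C + 1)
  hq : Bool
  hr : Bool
  deriving DecidableEq, Fintype

/-- the record of a lock -/
@[ext] structure Lk (C B : ℕ) where
  op : Op
  tL : Tag C
  βL : Fin (B + 1)
  tR : Tag C
  βR : Fin (B + 1)
  sL : Tag C
  sR : Tag C
  inc : Bool
  deriving DecidableEq

/-- states of a locked head `q`: mode of `r` unset (before the commit), set, reset (after the commit) -/
inductive St | u | s | p
  deriving DecidableEq, Fintype

/-- control states -/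
inductive Ctl (C B : ℕ) | idle | chk | lock (side : Bool) (lk : Lk C B) (st : St)
  deriving DecidableEq

/-- codes -/
@[ext] structure Code (C B : ℕ) where
  t : Tag C
  β : Fin (B + 1)
  ctl : Ctl C B
  deriving DecidableEq

/-- cells -/
@[ext] structure Cell (C B : ℕ) where
  t : Tag C
  a : Code C B
  v : ℕ
  deriving DecidableEq

/-- vertices -/
abbrev Vtx : Type := ℕ × Bool × Bool

/-- interfaces: no lock, or a lock before (`false`) / after (`true`) the commit -/
abbrev Ifc (C B : ℕ) : Type := Option (Lk C B × Bool)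

variable {C B : ℕ}

/-- the number of values of big cells of level `k` -/
def nn (B k : ℕ) : ℕ := (B + 1) ^ k

/-- the block length -/
def dd (C B k : ℕ) : ℕ := C * (nn B k + 1) + 2

def Kind.isR : Kind → Bool
  | .r _ _ => true
  | _ => false

def Kind.big : Kind → Bool
  | .tok => true
  | .cnt => true
  | .q => false
  | .r g _ => g

def Kind.mode : Kind → Mode
  | .r _ m => m
  | _ => .neu

def Kind.setMode : Kind → Mode → Kind
  | .r g _, m => .r g m
  | k, _ => k

def Op.isSw : Op → Bool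
  | .sw => true
  | .swi => true
  | _ => false

def Mode.isDone : Mode → Bool
  | .done _ _ => true
  | _ => false

namespace Tag

def src (t : Tag C) : Vtx := (t.φ, t.hq, t.hr)

def tgt (t : Tag C) : Vtx := (t.φ', t.hq || decide (t.kind = .q), t.hr || t.kind.isR)

def setMode (t : Tag C) (m : Mode) : Tag C := { t with kind := t.kind.setMode m }

/-- admissible edges -/
def OK (t : Tag C) : Prop :=
  match t.kind with
  | .tok => ((t.φ : ℕ) % 3 = 0 ∧ (t.φ' : ℕ) = t.φ + 1) ∨ ((t.φ : ℕ) % 3 ≠ 0 ∧ t.φ' = t.φ) ∨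
      ((t.φ : ℕ) % 3 = 2 ∧ (t.φ' : ℕ) = t.φ + 1)
  | .cnt => ((t.φ : ℕ) % 3 = 0 ∧ (t.φ' : ℕ) = t.φ + 2) ∨ ((t.φ : ℕ) % 3 = 1 ∧ (t.φ' : ℕ) = t.φ + 1) ∨
      ((t.φ : ℕ) % 3 = 1 ∧ (t.φ' : ℕ) = t.φ + 2)
  | .q => t.φ' = t.φ ∧ t.hq = false
  | .r _ _ => t.φ' = t.φ ∧ t.hr = false

/-- cells whose value has to be `0` -/
def A0 (t : Tag C) : Prop :=
  (t.kind = .cnt ∧ ((t.φ : ℕ) % 3 = 0 ∨ (t.φ' : ℕ) % 3 = 0)) ∨ t.kind = .r true .a0

/-- landmarks: the source is the start of a zone -/
def lm (t : Tag C) : Prop := (t.φ : ℕ) % 3 = 0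

end Tag

def bot : Vtx := (0, false, false)

def top (C : ℕ) : Vtx := (3 * C, true, true)

def inAdj (t t' : Tag C) : Prop := t.tgt = t'.src

def crAdj (t t' : Tag C) : Prop := t.tgt = top C ∧ t'.src = bot

def adj (t t' : Tag C) : Prop := inAdj t t' ∨ crAdj t t'

/-- two adjacent tokens of the same zone -/
def TT (t t' : Tag C) : Prop := inAdj t t' ∧ t.kind = .tok ∧ t'.kind = .tok ∧ (t.φ' : ℕ) % 3 ≠ 0

/-- Exchange rules inside a block: `t t' ↦ s s'`, the values are exchanged (and the value going to the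
right is incremented if `inc`). -/
inductive InSw : Tag C → Tag C → Tag C → Tag C → Bool → Prop
  | head {t t' : Tag C} : inAdj t t' →
      (t.kind = .q ∨ (t.kind.isR = true ∧ (t'.kind = .tok ∨ t'.kind = .cnt))) →
      InSw t t' ⟨t'.kind, t'.φ, t'.φ', t.hq, t.hr⟩
        ⟨t.kind, t'.φ', t'.φ', t.hq, t.hr || t'.kind.isR⟩ false
  | cnt {t t' : Tag C} {ψ : Fin (3 * C + 1)} : inAdj t t' → t.kind = .cnt → t'.kind = .tok →
      (t.φ' : ℕ) % 3 = 2 → (ψ : ℕ) + 1 = t.φ' →
      InSw t t' ⟨.tok, t.φ, ψ, t.hq, t.hr⟩ ⟨.cnt, ψ, t'.φ', t.hq, t.hr⟩ true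
  | tt {t t' : Tag C} : TT t t' → InSw t t' t t' false

/-- the commit of an exchange, across a block boundary -/
def CrSw (t t' s s' : Tag C) (inc : Bool) : Prop :=
  crAdj t t' ∧ ∃ g g' : Bool, (inc = true → g = true) ∧
    t.kind = .r g (.act (if inc then .swi else .sw) true) ∧
    t'.kind = .r g' (.act (if inc then .swi else .sw) false) ∧
    s = { t with kind := .r g' (.done inc true) } ∧ s' = { t' with kind := .r g (.done inc false) }

def SwR (t t' s s' : Tag C) (inc : Bool) : Prop := InSw t t' s s' inc ∨ CrSw t t' s s' inc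

def BBF (t t' : Tag C) : Prop :=
  crAdj t t' ∧ ((t.kind = .q ∧ t'.kind = .q) ∨
    (t.kind = .r false (.act .bbF true) ∧ t'.kind = .r false (.act .bbF false)))

def BBG (t t' : Tag C) : Prop :=
  crAdj t t' ∧ ((t.kind = .r false (.act .bt true) ∧ t'.kind = .q) ∨
    (t.kind = .r false (.act .bbG true) ∧ t'.kind = .r false (.act .bbG false)))

def BT (t t' : Tag C) : Prop := inAdj t t' ∧ t.kind = .q ∧ t'.kind.isR = true

def EQ (t t' : Tag C) : Prop :=
  TT t t' ∨ (crAdj t t' ∧ t.kind = .r true (.act .eq true) ∧ t'.kind = .r true (.act .eq false))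

namespace Lk

/-- the digit of the right cell after an exchange -/
def newβ (lk : Lk C B) : Fin (B + 1) := if lk.inc then lk.βL + 1 else lk.βL

def Valid (lk : Lk C B) : Prop :=
  lk.tL.OK ∧ lk.tR.OK ∧ (lk.tL.kind.big = false → lk.βL = 0) ∧ (lk.tR.kind.big = false → lk.βR = 0) ∧
  match lk.op with
  | .sw => SwR lk.tL lk.tR lk.sL lk.sR lk.inc ∧ lk.sL.OK ∧ lk.sR.OK ∧
      ¬ (lk.inc = true ∧ lk.βL = Fin.last B)
  | .swi => SwR lk.tL lk.tR lk.sL lk.sR lk.inc ∧ lk.sL.OK ∧ lk.sR.OK ∧
      lk.inc = true ∧ lk.βL = Fin.last B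
  | .bbF => BBF lk.tL lk.tR
  | .bbG => BBG lk.tL lk.tR
  | .bt => BT lk.tL lk.tR
  | .eq => EQ lk.tL lk.tR ∧ lk.βL = lk.βR

/-- the tag and digit of a locked cell agree with the record -/
def Cons (lk : Lk C B) (side : Bool) (t : Tag C) (β : Fin (B + 1)) : Prop :=
  if side then t = lk.tL ∧ β = lk.βL
  else β = lk.βR ∧ if lk.op = .bt then t.setMode .neu = lk.tR.setMode .neu else t = lk.tR

/-- the tag of the partner -/
def other (lk : Lk C B) (side : Bool) : Tag C := if side then lk.tR else lk.tL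

end Lk

namespace Code

def OwnOK (a : Code C B) : Prop :=
  a.t.OK ∧ (a.t.kind.big = false → a.β = 0) ∧
  match a.ctl with
  | .idle => True
  | .chk => a.t.A0
  | .lock side lk st => lk.Valid ∧ lk.Cons side a.t a.β ∧ (st = .p → lk.op.isSw = true) ∧
      (side = false → lk.op = .bt → st = .u)

/-- codes which make a small cell zero -/
def bad (a : Code C B) : Prop := ¬ a.OwnOK ∨ (a.ctl = .idle ∧ a.t.A0 ∧ a.β ≠ 0)

/-- the size `g` and the mode `m` of the head `r` agree with the code of the head `q` -/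
def Compat (a : Code C B) (g : Bool) (m : Mode) : Prop :=
  match a.ctl with
  | .idle => m = .neu ∧ g = a.t.kind.big
  | .chk => m = .a0 ∧ g = a.t.kind.big
  | .lock _ _ .u => m = .neu ∧ g = a.t.kind.big
  | .lock side lk .s => (m = .act lk.op side ∧ g = a.t.kind.big) ∨
      (lk.op.isSw = true ∧ m = .done (decide (lk.op = .swi)) side ∧ g = (lk.other side).kind.big)
  | .lock side lk .p => m = .neu ∧ g = (lk.other side).kind.big

end Code

/-- the default code -/
def a0 : Code C B := ⟨⟨.q, 0, 0, false, false⟩, 0, .idle⟩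

/-- the head `q` (code `a ↦ b`) changes the mode of the head `r` (tag `t' ↦ s'`) -/
inductive Hr : Code C B → Tag C → Code C B → Tag C → Prop
  | set {t : Tag C} {β : Fin (B + 1)} {side : Bool} {lk : Lk C B} {t' : Tag C} :
      ¬ (side = false ∧ lk.op = .bt) → t'.kind.mode = .neu →
      Hr ⟨t, β, .lock side lk .u⟩ t' ⟨t, β, .lock side lk .s⟩ (t'.setMode (.act lk.op side))
  | reset {t : Tag C} {β : Fin (B + 1)} {side : Bool} {lk : Lk C B} {t' : Tag C} :
      lk.op.isSw = true → t'.kind.mode = .done (decide (lk.op = .swi)) side →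
      Hr ⟨t, β, .lock side lk .s⟩ t' ⟨t, β, .lock side lk .p⟩ (t'.setMode .neu)
  | chk {t : Tag C} {β : Fin (B + 1)} {t' : Tag C} : t.A0 → t'.kind.mode = .neu →
      Hr ⟨t, β, .idle⟩ t' ⟨t, β, .chk⟩ (t'.setMode .a0)

def H0 (a : Code C B) (t' : Tag C) : Prop := ¬ a.Compat t'.kind.big t'.kind.mode

/-- handshakes between the heads `q` of two adjacent blocks -/
inductive Fr : Code C B → Code C B → Code C B → Code C B → Prop
  | lock {t t' : Tag C} {β β' : Fin (B + 1)} {lk : Lk C B} :
      lk.Valid → lk.Cons true t β → lk.Cons false t' β' →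
      Fr ⟨t, β, .idle⟩ ⟨t', β', .idle⟩ ⟨t, β, .lock true lk .u⟩ ⟨t', β', .lock false lk .u⟩
  | fin {lk : Lk C B} : lk.Valid → lk.op.isSw = true →
      Fr ⟨lk.tL, lk.βL, .lock true lk .p⟩ ⟨lk.tR, lk.βR, .lock false lk .p⟩
        ⟨lk.sL, lk.βR, .idle⟩ ⟨lk.sR, lk.newβ, .idle⟩

def LockOK (c c' : Ctl C B) : Prop :=
  (∀ lk st, c = .lock true lk st →
    ∃ st', c' = .lock false lk st' ∧ ¬ (st = .u ∧ st' = .p) ∧ ¬ (st = .p ∧ st' = .u)) ∧
  (∀ lk st', c' = .lock false lk st' → ∃ st, c = .lock true lk st)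

def F0 (a a' : Code C B) : Prop := ¬ adj a.t a'.t ∨ ¬ LockOK a.ctl a'.ctl

/-- simulation of `Hr` one level down -/
def Gr (a c b c' : Code C B) : Prop :=
  ∃ (t' s' : Tag C) (β' : Fin (B + 1)) (lk : Lk C B), lk.op = .bt ∧ c = ⟨t', β', .lock false lk .u⟩ ∧
    c' = ⟨s', β', .lock false lk .u⟩ ∧ Hr a t' b s'

def G0 (a c : Code C B) : Prop := ∃ lk : Lk C B, lk.op = .bt ∧ c.ctl = .lock false lk .u ∧ H0 a c.t

/-- well-formed cells of level `k` -/
def WFc (k : ℕ) (x : Cell C B) : Prop :=
  x.t.OK ∧ (x.t.kind.big = true → x.a = a0 ∧ x.v < nn B k) ∧ (x.t.kind.big = false → x.v = 0)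

/-- the values after an exchange -/
def SwVal (k : ℕ) (x y x' y' : Cell C B) (inc : Bool) : Prop :=
  x'.a = y.a ∧ x'.v = y.v ∧ y'.a = x.a ∧ y'.v = if inc then (x.v + 1) % nn B k else x.v

/-- the system of level `k` -/
def sysk (C B k : ℕ) : RW (Cell C B) where
  step x y x' y' := WFc k x ∧ WFc k y ∧ WFc k x' ∧ WFc k y' ∧
    ((∃ inc, SwR x.t y.t x'.t y'.t inc ∧ SwVal k x y x' y' inc) ∨
      (BBF x.t y.t ∧ x'.t = x.t ∧ y'.t = y.t ∧ Fr x.a y.a x'.a y'.a) ∨
      (BBG x.t y.t ∧ x'.t = x.t ∧ y'.t = y.t ∧ Gr x.a y.a x'.a y'.a) ∨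
      (BT x.t y.t ∧ x'.t = x.t ∧ y'.a = y.a ∧ y'.v = y.v ∧ Hr x.a y.t x'.a y'.t))
  z2 x y := ¬ adj x.t y.t ∨ (EQ x.t y.t ∧ x.v = y.v) ∨ (BBF x.t y.t ∧ F0 x.a y.a) ∨
    (BBG x.t y.t ∧ G0 x.a y.a) ∨ (BT x.t y.t ∧ H0 x.a y.t)
  z1 x := ¬ WFc k x ∨ (x.t.kind.big = false ∧ x.a.bad) ∨ (x.t.A0 ∧ x.v ≠ 0)

/-- the skeleton system: only the exchanges inside a block, and no zeros -/
def skel (C B k : ℕ) : RW (Cell C B) where
  step x y x' y' := WFc k x ∧ WFc k y ∧ WFc k x' ∧ WFc k y' ∧
    ∃ inc, InSw x.t y.t x'.t y'.t inc ∧ SwVal k x y x' y' inc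
  z2 _ _ := False
  z1 _ := False

/-- the data carried by the two heads of a block: the code of `q`; size, mode and value of `r` -/
@[ext] structure Hd (C B : ℕ) where
  a : Code C B
  g : Bool
  m : Mode
  ra : Code C B
  rv : ℕ

/-- states of the automaton recognising blocks -/
@[ext] structure AS (C B : ℕ) where
  vx : Vtx
  seen : Finset ℕ
  qi : Option (Code C B)
  ri : Option (Bool × Mode × Code C B × ℕ)

/-- one transition of the automaton -/
def Trans (k : ℕ) (s : AS C B) (x : Cell C B) (s' : AS C B) : Prop :=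
  WFc k x ∧ x.t.src = s.vx ∧ s'.vx = x.t.tgt ∧
  match x.t.kind with
  | .tok => x.v ∉ s.seen ∧ s'.qi = s.qi ∧ s'.ri = s.ri ∧
      if (x.t.φ' : ℕ) % 3 = 0 then insert x.v s.seen = Finset.range (nn B k) ∧ s'.seen = ∅
      else s'.seen = insert x.v s.seen
  | .cnt => x.v = s.seen.card % nn B k ∧ s'.qi = s.qi ∧ s'.ri = s.ri ∧
      if (x.t.φ' : ℕ) % 3 = 0 then s.seen = Finset.range (nn B k) ∧ s'.seen = ∅
      else s'.seen = s.seen
  | .q => s'.seen = s.seen ∧ s'.qi = some x.a ∧ s'.ri = s.ri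
  | .r g m => s'.seen = s.seen ∧ s'.qi = s.qi ∧ s'.ri = some (g, m, x.a, x.v)

/-- runs of the automaton -/
inductive Acc (k : ℕ) : AS C B → List (Cell C B) → AS C B → Prop
  | nil (s : AS C B) : Acc k s [] s
  | cons {s s' s'' : AS C B} {x : Cell C B} {u : List (Cell C B)} :
      Trans k s x s' → Acc k s' u s'' → Acc k s (x :: u) s''

/-- `u` is a block with head data `h` -/
def Blk (k : ℕ) (u : List (Cell C B)) (h : Hd C B) : Prop :=
  Acc k ⟨bot, ∅, none, none⟩ u ⟨top C, ∅, some h.a, some (h.g, h.m, h.ra, h.rv)⟩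

/-- the cell of the next level with tag `t`, lowest digit `β`, and the rest of the value in `r` -/
def mkCell (t : Tag C) (β : Fin (B + 1)) (h : Hd C B) : Cell C B := ⟨t, h.ra, β + (B + 1) * h.rv⟩

/-- the commit has taken place -/
def Hd.post (h : Hd C B) (st : St) : Bool := decide (st = .p) || h.m.isDone

/-- the cell and the interfaces represented by a block -/
def Hd.dec (h : Hd C B) : Cell C B × Ifc C B × Ifc C B :=
  match h.a.ctl with
  | .idle => (mkCell h.a.t h.a.β h, none, none)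
  | .chk => (mkCell h.a.t h.a.β h, none, none)
  | .lock true lk st =>
      if h.post st then (mkCell lk.sL lk.βR h, none, some (lk, true))
      else (mkCell h.a.t h.a.β h, none, some (lk, false))
  | .lock false lk st =>
      if h.post st then (mkCell lk.sR lk.newβ h, some (lk, true), none)
      else (mkCell h.a.t h.a.β h, some (lk, false), none)

def Hd.Good (h : Hd C B) : Prop := h.a.OwnOK ∧ h.a.Compat h.g h.m

/-- the head `r` is well-formed -/
def Hd.WF (k : ℕ) (h : Hd C B) : Prop :=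
  (h.g = true → h.ra = a0 ∧ h.rv < nn B k) ∧ (h.g = false → h.rv = 0)

def Formk (k : ℕ) (x : Cell C B) (σ σ' : Ifc C B) (u : List (Cell C B)) : Prop :=
  ∃ h : Hd C B, Blk k u h ∧ h.Good ∧ h.dec = (x, σ, σ')

/-- a phase, as an element of `Fin (3 * C + 1)` (junk if too large) -/
def ph (C j : ℕ) : Fin (3 * C + 1) := Fin.ofNat (3 * C + 1) j

/-- tokens on the right of the counter of zone `z`, the last one closing the zone -/
def tokR (z : ℕ) (hq hr : Bool) : List ℕ → List (Cell C B)
  | [] => []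
  | [v] => [⟨⟨.tok, ph C (3 * z + 2), ph C (3 * z + 3), hq, hr⟩, a0, v⟩]
  | v :: w :: l => ⟨⟨.tok, ph C (3 * z + 2), ph C (3 * z + 2), hq, hr⟩, a0, v⟩ :: tokR z hq hr (w :: l)

/-- zone `z` with the counter (value `cv`) in front, followed by the tokens `tl` -/
def zoneW (z : ℕ) (hq hr : Bool) (cv : ℕ) (tl : List ℕ) : List (Cell C B) :=
  ⟨⟨.cnt, ph C (3 * z), ph C (3 * z + 2), hq, hr⟩, a0, cv⟩ :: tokR z hq hr tl

/-- all the zones in canonical form -/
def zones (C B k : ℕ) (hq hr : Bool) : List (Cell C B) :=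
  (List.range C).flatMap fun z => zoneW z hq hr 0 (List.range (nn B k))

/-- the head `q` at phase `j` -/
def qCell (j : ℕ) (hr : Bool) (h : Hd C B) : Cell C B := ⟨⟨.q, ph C j, ph C j, false, hr⟩, h.a, 0⟩

/-- the head `r` at phase `j` -/
def rCell (j : ℕ) (hq : Bool) (h : Hd C B) : Cell C B :=
  ⟨⟨.r h.g h.m, ph C j, ph C j, hq, false⟩, h.ra, h.rv⟩

/-- the canonical block -/
def canon (k : ℕ) (h : Hd C B) : List (Cell C B) :=
  qCell 0 false h :: rCell 0 true h :: zones C B k true true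

/-- the idle head data of a cell of the next level -/
def encH (x : Cell C B) : Hd C B :=
  ⟨⟨x.t, Fin.ofNat (B + 1) x.v, .idle⟩, x.t.kind.big, .neu, x.a, x.v / (B + 1)⟩

def enck (k : ℕ) (x : Cell C B) : List (Cell C B) := canon k (encH x)

/-- a path of well-formed cells inside a block, from the vertex `a` to the vertex `b` -/
inductive Path (k : ℕ) : Vtx → List (Cell C B) → Vtx → Prop
  | nil (a : Vtx) : Path k a [] a
  | cons {x : Cell C B} {u : List (Cell C B)} {b : Vtx} :
      WFc k x → Path k x.t.tgt u b → Path k x.t.src (x :: u) b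

/-- position in the block of a cell whose source is the start of a zone -/
def idxk (B k : ℕ) (t : Tag C) : ℕ := (t.φ : ℕ) / 3 * (nn B k + 1) + t.hq.toNat + t.hr.toNat

/-- pairs of cells across a boundary with a light interface -/
def LPk (x y : Cell C B) : Prop :=
  crAdj x.t y.t ∧ (∀ μ, x.t.kind.mode = .act μ true → μ = .bbF) ∧ ∀ i, x.t.kind.mode ≠ .done i true

/-- light interfaces -/
def Light (σ : Ifc C B) : Prop :=
  σ = none ∨ ∃ lk : Lk C B, σ = some (lk, false) ∧ lk.op = .bbF ∧ lk.βL = 0 ∧ lk.βR = 0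

/-- realise the equation lemmas here, once -/
theorem realize_eqns : True := by
  have h1 := @tokR.eq_def
  have h2 := @tokR.eq_1
  have h3 := @tokR.eq_2
  have h4 := @tokR.eq_3
  have h5 := @zoneW.eq_1
  have h6 := @dd.eq_1
  trivial

end Crest.Agent.R176
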