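import Crest.Agent.R176.Tower

/-!
# R176 — towers, part 1: concatenation, splitting, uniqueness, canonical words, lifting
-/

set_option autoImplicit false

namespace Crest.Agent.R176

namespace Tower

variable {L I Tg : Type} (T : Tower L I Tg)

theorem ell_zero : T.ell 0 = 1 := by simp [ell]

theorem ell_succ (K : ℕ) : T.ell (K + 1) = T.ell K * T.d K := by simp [ell, Finset.prod_range_succ]

theorem two_pow_le_ell (K : ℕ) : 2 ^ K ≤ T.ell K := by
  induction K with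
  | zero => simp [ell_zero]
  | succ K ih =>
    rw [ell_succ, pow_succ]
    exact Nat.mul_le_mul ih (T.two_le K)

theorem ell_pos (K : ℕ) : 0 < T.ell K := lt_of_lt_of_le (by positivity) (T.two_pow_le_ell K)

variable {T}

theorem dec1_append {K : ℕ} {u u' w w' : List L} {σ τ σ' : I} (h : Dec1 (T.Form K) u w σ τ)
    (h' : Dec1 (T.Form K) u' w' τ σ') : Dec1 (T.Form K) (u ++ u') (w ++ w') σ σ' := by
  induction h with
  | nil σ => simpa using h'
  | cons hF _ ih =>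
    rw [List.append_assoc, List.cons_append]
    exact Dec1.cons hF (ih h')

theorem tow1_dec1_nil {F : L → I → I → List L → Prop} {u : List L} {σ σ' : I}
    (h : Dec1 F u [] σ σ') : u = [] ∧ σ = σ' := by
  cases h
  exact ⟨rfl, rfl⟩

theorem tow1_dec1_cons {F : L → I → I → List L → Prop} {u w : List L} {x : L} {σ σ' : I}
    (h : Dec1 F u (x :: w) σ σ') : ∃ u₁ u₂ τ, u = u₁ ++ u₂ ∧ F x σ τ u₁ ∧ Dec1 F u₂ w τ σ' := by
  cases h with
  | cons hF hD => exact ⟨_, _, _, rfl, hF, hD⟩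

theorem dec1_split {K : ℕ} {u w w' : List L} {σ σ' : I} (h : Dec1 (T.Form K) u (w ++ w') σ σ') :
    ∃ u₁ u₂ τ, u = u₁ ++ u₂ ∧ Dec1 (T.Form K) u₁ w σ τ ∧ Dec1 (T.Form K) u₂ w' τ σ' := by
  induction w generalizing u σ with
  | nil => exact ⟨[], u, σ, rfl, Dec1.nil σ, h⟩
  | cons x w ih =>
    obtain ⟨u₁, u₂, τ, rfl, hF, hD⟩ := tow1_dec1_cons h
    obtain ⟨v₁, v₂, τ', rfl, h1, h2⟩ := ih hD
    exact ⟨u₁ ++ v₁, v₂, τ', by simp, Dec1.cons hF h1, h2⟩

theorem dec1_single {K : ℕ} {u : List L} {x : L} {σ σ' : I} :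
    Dec1 (T.Form K) u [x] σ σ' ↔ T.Form K x σ σ' u := by
  constructor
  · intro h
    obtain ⟨u₁, u₂, τ, rfl, hF, hD⟩ := tow1_dec1_cons h
    obtain ⟨rfl, rfl⟩ := tow1_dec1_nil hD
    simpa using hF
  · intro h
    simpa using Dec1.cons h (Dec1.nil σ')

theorem dec1_length {K : ℕ} {u w : List L} {σ σ' : I} (h : Dec1 (T.Form K) u w σ σ') :
    u.length = w.length * T.d K := by
  induction h with
  | nil σ => simp
  | cons hF _ ih => rw [List.length_append, T.len hF, ih, List.length_cons]; ring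

theorem Dec.length_left {K : ℕ} {u w : List L} {Θ Θ' : List I} (h : T.Dec K u w Θ Θ') :
    Θ.length = K ∧ Θ'.length = K := by
  induction K generalizing w Θ Θ' with
  | zero => obtain ⟨-, rfl, rfl⟩ := h; exact ⟨rfl, rfl⟩
  | succ K ih =>
    obtain ⟨v, σ, σ', Ξ, Ξ', rfl, rfl, h1, -⟩ := h
    simpa using ih h1

theorem Dec.nil {K : ℕ} {Θ : List I} (h : Θ.length = K) : T.Dec K [] [] Θ Θ := by
  induction K generalizing Θ with
  | zero => exact ⟨rfl, List.length_eq_zero_iff.1 h, List.length_eq_zero_iff.1 h⟩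
  | succ K ih =>
    cases Θ with
    | nil => simp at h
    | cons σ Ξ => exact ⟨[], σ, σ, Ξ, Ξ, rfl, rfl, ih (by simpa using h), Dec1.nil σ⟩

theorem Dec.of_nil {K : ℕ} {u : List L} {Θ Θ' : List I} (h : T.Dec K u [] Θ Θ') :
    u = [] ∧ Θ = Θ' := by
  induction K generalizing Θ Θ' with
  | zero => obtain ⟨rfl, rfl, rfl⟩ := h; exact ⟨rfl, rfl⟩
  | succ K ih =>
    obtain ⟨v, σ, σ', Ξ, Ξ', rfl, rfl, h1, h2⟩ := h
    obtain ⟨rfl, rfl⟩ := tow1_dec1_nil h2
    obtain ⟨rfl, rfl⟩ := ih h1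
    exact ⟨rfl, rfl⟩

theorem Dec.append {K : ℕ} {u u' w w' : List L} {Θ Ξ Θ' : List I} (h : T.Dec K u w Θ Ξ)
    (h' : T.Dec K u' w' Ξ Θ') : T.Dec K (u ++ u') (w ++ w') Θ Θ' := by
  induction K generalizing w w' Θ Ξ Θ' with
  | zero =>
    obtain ⟨rfl, rfl, rfl⟩ := h
    obtain ⟨rfl, -, rfl⟩ := h'
    exact ⟨rfl, rfl, rfl⟩
  | succ K ih =>
    obtain ⟨v, σ, σ', Ξ₁, Ξ₁', rfl, rfl, h1, h2⟩ := h
    obtain ⟨v', τ, τ', Ξ₂, Ξ₂', he, rfl, h1', h2'⟩ := h'
    obtain ⟨rfl, rfl⟩ := List.cons.inj he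
    exact ⟨v ++ v', σ, τ', Ξ₁, Ξ₂', rfl, rfl, ih h1 h1', dec1_append h2 h2'⟩

theorem Dec.split {K : ℕ} {u w w' : List L} {Θ Θ' : List I} (h : T.Dec K u (w ++ w') Θ Θ') :
    ∃ u₁ u₂ Ξ, u = u₁ ++ u₂ ∧ T.Dec K u₁ w Θ Ξ ∧ T.Dec K u₂ w' Ξ Θ' := by
  induction K generalizing w w' Θ Θ' with
  | zero =>
    obtain ⟨rfl, rfl, rfl⟩ := h
    exact ⟨w, w', [], rfl, ⟨rfl, rfl, rfl⟩, ⟨rfl, rfl, rfl⟩⟩
  | succ K ih =>
    obtain ⟨v, σ, σ', Ξ, Ξ', rfl, rfl, h1, h2⟩ := h
    obtain ⟨v₁, v₂, τ, rfl, h3, h4⟩ := dec1_split h2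
    obtain ⟨u₁, u₂, Ξ'', rfl, h5, h6⟩ := ih h1
    exact ⟨u₁, u₂, τ :: Ξ'', rfl, ⟨v₁, σ, τ, Ξ, Ξ'', rfl, rfl, h5, h3⟩,
      ⟨v₂, τ, σ', Ξ'', Ξ', rfl, rfl, h6, h4⟩⟩

theorem Dec.length {K : ℕ} {u w : List L} {Θ Θ' : List I} (h : T.Dec K u w Θ Θ') :
    u.length = w.length * T.ell K := by
  induction K generalizing w Θ Θ' with
  | zero => obtain ⟨rfl, -, -⟩ := h; simp [ell_zero]
  | succ K ih =>
    obtain ⟨v, σ, σ', Ξ, Ξ', rfl, rfl, h1, h2⟩ := h
    rw [ih h1, dec1_length h2, ell_succ]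
    ring

theorem tow1_dec1_unique {K : ℕ} {u w w₂ : List L} {σ σ' σ₂ σ₂' : I}
    (h : Dec1 (T.Form K) u w σ σ') (h₂ : Dec1 (T.Form K) u w₂ σ₂ σ₂') :
    w = w₂ ∧ (w ≠ [] → σ = σ₂) ∧ (σ = σ₂ → σ' = σ₂') := by
  have hd := T.two_le K
  induction h generalizing w₂ σ₂ with
  | nil σ =>
    have hl := dec1_length h₂
    have : w₂ = [] := by
      rw [← List.length_eq_zero_iff]
      rcases Nat.mul_eq_zero.1 hl.symm with h | h
      · exact h
      · omega
    subst this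
    exact ⟨rfl, fun h => absurd rfl h, fun h => h.trans (tow1_dec1_nil h₂).2⟩
  | @cons x σ τ σ' u us xs hF hD ih =>
    cases w₂ with
    | nil =>
      have := congrArg List.length (tow1_dec1_nil h₂).1
      rw [List.length_append, T.len hF] at this
      simp at this
      omega
    | cons y ys =>
      obtain ⟨u₁, u₂, τ₂, he, hF₂, hD₂⟩ := tow1_dec1_cons h₂
      obtain ⟨rfl, rfl⟩ := List.append_inj he (by rw [T.len hF, T.len hF₂])
      obtain ⟨rfl, rfl, rfl⟩ := T.func hF hF₂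
      obtain ⟨rfl, -, h3⟩ := ih hD₂
      exact ⟨rfl, fun _ => rfl, fun _ => h3 rfl⟩

/-- decoding is a partial function (blocks have fixed length, and `func`) -/
theorem Dec.unique {K : ℕ} {u w w₂ : List L} {Θ Θ' Θ₂ Θ₂' : List I} (h : T.Dec K u w Θ Θ')
    (h₂ : T.Dec K u w₂ Θ₂ Θ₂') : w = w₂ ∧ (w ≠ [] → Θ = Θ₂ ∧ Θ' = Θ₂') := by
  induction K generalizing w w₂ Θ Θ' Θ₂ Θ₂' with
  | zero =>
    obtain ⟨rfl, rfl, rfl⟩ := h
    obtain ⟨rfl, rfl, rfl⟩ := h₂
    exact ⟨rfl, fun _ => ⟨rfl, rfl⟩⟩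
  | succ K ih =>
    obtain ⟨v, σ, σ', Ξ, Ξ', rfl, rfl, h1, h2⟩ := h
    obtain ⟨v₂, σ₂, σ₂', Ξ₂, Ξ₂', rfl, rfl, h1', h2'⟩ := h₂
    obtain ⟨rfl, h3⟩ := ih h1 h1'
    obtain ⟨rfl, h4, h5⟩ := tow1_dec1_unique h2 h2'
    refine ⟨rfl, fun hw => ?_⟩
    have hv : v ≠ [] := by
      rintro rfl
      have hl := dec1_length h2
      have hd := T.two_le K
      rcases Nat.mul_eq_zero.1 hl.symm with h | h
      · exact hw (List.length_eq_zero_iff.1 h)
      · omega
    obtain ⟨rfl, rfl⟩ := h3 hv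
    rw [h5 (h4 hw), h4 hw]
    exact ⟨rfl, rfl⟩

theorem Dec.wf {K : ℕ} {u w : List L} {Θ Θ' : List I} (h : T.Dec (K + 1) u w Θ Θ') :
    ∀ x ∈ w, T.WF (K + 1) x := by
  obtain ⟨v, σ, σ', Ξ, Ξ', -, -, h1, h2⟩ := h
  clear h1
  induction h2 with
  | nil σ => simp
  | cons hF _ ih =>
    intro y hy
    rcases List.mem_cons.1 hy with rfl | hy
    · exact T.wf_up hF
    · exact ih y hy

theorem encK_append (K : ℕ) (w w' : List L) : T.encK K (w ++ w') = T.encK K w ++ T.encK K w' := by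
  induction K generalizing w w' with
  | zero => rfl
  | succ K ih => simp only [encK, List.flatMap_append, ih]

theorem tow1_wf_flat {K : ℕ} {w : List L} (hw : ∀ x ∈ w, T.WF (K + 1) x) :
    ∀ x ∈ w.flatMap (T.enc K), T.WF K x := by
  intro x hx
  obtain ⟨y, hy, hxy⟩ := List.mem_flatMap.1 hx
  exact T.wf_down (T.form_enc (hw y hy)) x hxy

theorem tow1_dec1_flat {K : ℕ} {w : List L} (hw : ∀ x ∈ w, T.WF (K + 1) x) :
    Dec1 (T.Form K) (w.flatMap (T.enc K)) w T.o T.o := by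
  induction w with
  | nil => exact Dec1.nil _
  | cons x w ih =>
    rw [List.flatMap_cons]
    exact Dec1.cons (T.form_enc (hw x (by simp))) (ih fun y hy => hw y (by simp [hy]))

/-- canonical words decode, with clean interfaces (`form_enc`, `wf_down`) -/
theorem dec_encK {K : ℕ} {w : List L} (hw : ∀ x ∈ w, T.WF K x) :
    T.Dec K (T.encK K w) w (T.cl K) (T.cl K) := by
  induction K generalizing w with
  | zero => exact ⟨rfl, rfl, rfl⟩
  | succ K ih =>
    exact ⟨w.flatMap (T.enc K), T.o, T.o, T.cl K, T.cl K, rfl, rfl, ih (tow1_wf_flat hw),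
      tow1_dec1_flat hw⟩

theorem tow1_lift1_step {K : ℕ} {w w' : List L} (h : (T.sys (K + 1)).Step w w') :
    (T.sys K).Eqv (w.flatMap (T.enc K)) (w'.flatMap (T.enc K)) := by
  obtain ⟨p, s, x, y, x', y', h, rfl, rfl⟩ := h
  have := (T.s4a h).infix (p.flatMap (T.enc K)) (s.flatMap (T.enc K))
  simpa using this

theorem tow1_lift1 {K : ℕ} {w w' : List L} (h : (T.sys (K + 1)).Eqv w w') :
    (T.sys K).Eqv (w.flatMap (T.enc K)) (w'.flatMap (T.enc K)) := by
  induction h with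
  | refl => exact RW.Eqv.rfl
  | tail _ h ih =>
    exact ih.trans (h.elim tow1_lift1_step fun h => (tow1_lift1_step h).symm)

theorem tow1_wf_eqv {K : ℕ} {w w' : List L} (h : (T.sys K).Eqv w w') (hw : ∀ x ∈ w, T.WF K x) :
    ∀ x ∈ w', T.WF K x := by
  refine h.induction (P := fun v => ∀ x ∈ v, T.WF K x) ?_ hw
  intro v v' hv hs
  obtain ⟨p, s, x, y, x', y', h, rfl, rfl⟩ := RW.sstep_iff.1 hs
  have h' : T.WF K x' ∧ T.WF K y' := by
    rcases h with h | h
    · exact (T.wf_step h).2.2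
    · exact ⟨(T.wf_step h).1, (T.wf_step h).2.1⟩
  intro z hz
  simp only [List.mem_append, List.mem_cons] at hz
  rcases hz with hz | rfl | rfl | hz
  · exact hv z (by simp [hz])
  · exact h'.1
  · exact h'.2
  · exact hv z (by simp [hz])

theorem tow1_zero1 {K : ℕ} {w : List L} (hw : ∀ x ∈ w, T.WF (K + 1) x)
    (h : (T.sys (K + 1)).Zero w) : (T.sys K).Zero (w.flatMap (T.enc K)) := by
  obtain ⟨w', h1, h2⟩ := h
  have hw' := tow1_wf_eqv h1 hw
  refine RW.Zero.of_eqv ?_ (tow1_lift1 h1)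
  rcases h2 with ⟨x, hx, hz⟩ | ⟨p, s, x, y, hz, rfl⟩
  · obtain ⟨p, s, rfl⟩ := List.append_of_mem hx
    have := (T.s4c (hw' x hx) hz).infix (p.flatMap (T.enc K)) (s.flatMap (T.enc K))
    simpa using this
  · have := (T.s4b (hw' x (by simp)) (hw' y (by simp)) hz).infix (p.flatMap (T.enc K))
      (s.flatMap (T.enc K))
    simpa using this

/-- one level lifting (`s4a`), iterated -/
theorem lift_eqv {K : ℕ} {w w' : List L} (h : (T.sys K).Eqv w w') :
    (T.sys 0).Eqv (T.encK K w) (T.encK K w') := by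
  induction K generalizing w w' with
  | zero => exact h
  | succ K ih => exact ih (tow1_lift1 h)

/-- `Eqv` preserves well-formedness (`wf_step`); then `s4b`, `s4c` and `lift_eqv`.  Induct on `K`;
`w.flatMap (T.enc K)` is well-formed by `form_enc`, `wf_down`. -/
theorem lift_zero {K : ℕ} {w : List L} (hw : ∀ x ∈ w, T.WF K x) (h : (T.sys K).Zero w) :
    (T.sys 0).Zero (T.encK K w) := by
  induction K generalizing w with
  | zero => exact h
  | succ K ih => exact ih (tow1_wf_flat hw) (tow1_zero1 hw h)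

/-- One level normalisation.  Strong induction on the length of `w`: the first block has interfaces
`o, τ`; if `τ = o` use `s3a`; otherwise there is a second block with interfaces `τ, τ'`, `τ' = o` by
`one_side`, use `s3b`. -/
theorem dec1_norm {K : ℕ} {v w : List L} (h : Dec1 (T.Form K) v w T.o T.o) :
    (T.sys K).Eqv v (w.flatMap (T.enc K)) := by
  induction hn : w.length using Nat.strong_induction_on generalizing v w with
  | _ n ih =>
    cases w with
    | nil => rw [(tow1_dec1_nil h).1]; exact RW.Eqv.rfl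
    | cons x w =>
      obtain ⟨u₁, u₂, τ, rfl, hF, hD⟩ := tow1_dec1_cons h
      by_cases hτ : τ = T.o
      · subst hτ
        rw [List.flatMap_cons]
        exact (T.s3a hF).append (ih w.length (by simp [← hn]) hD rfl)
      · cases w with
        | nil => exact absurd (tow1_dec1_nil hD).2 hτ
        | cons y w =>
          obtain ⟨u₃, u₄, τ', rfl, hF', hD'⟩ := tow1_dec1_cons hD
          have hτ' : τ' = T.o := (T.one_side hF').resolve_left hτ
          subst hτ'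
          rw [List.flatMap_cons, List.flatMap_cons, ← List.append_assoc, ← List.append_assoc]
          exact (T.s3b hF hF').append (ih w.length (by simp [← hn]) hD' rfl)

/-- words with clean interfaces are equivalent to the canonical word -/
theorem Dec.norm {K : ℕ} {u w : List L} (h : T.Dec K u w (T.cl K) (T.cl K)) :
    (T.sys 0).Eqv u (T.encK K w) := by
  induction K generalizing w with
  | zero => obtain ⟨rfl, -, -⟩ := h; exact RW.Eqv.rfl
  | succ K ih =>
    obtain ⟨v, σ, σ', Ξ, Ξ', he, he', h1, h2⟩ := h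
    obtain ⟨rfl, rfl⟩ := List.cons.inj (show T.o :: T.cl K = σ :: Ξ from he)
    obtain ⟨rfl, rfl⟩ := List.cons.inj (show T.o :: T.cl K = σ' :: Ξ' from he')
    exact (ih h1).trans (lift_eqv (dec1_norm h2))

end Tower

end Crest.Agent.R176
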