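import Crest.Agent.R176.Tow1

/-!
# R176 — towers, part 2: cleaning a cut, transfer of non-vanishing, exchange, infinity
-/

set_option autoImplicit false

namespace Crest.Agent.R176

namespace Tower

variable {L I Tg : Type} {T : Tower L I Tg}

/-- One level cleaning of the cut between two blocks: if `τ = o` nothing to do; otherwise
`σ = σ' = o` (`one_side`) and we use `s3b`, `form_enc`, `wf_up`. -/
theorem form_clean {K : ℕ} {x y : L} {σ τ σ' : I} {u u' : List L} (h : T.Form K x σ τ u)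
    (h' : T.Form K y τ σ' u') : ∃ v v', (T.sys K).Eqv (u ++ u') (v ++ v') ∧ T.Form K x σ T.o v ∧
      T.Form K y T.o σ' v' := by
  by_cases hτ : τ = T.o
  · subst hτ
    exact ⟨u, u', RW.Eqv.rfl, h, h'⟩
  · have h1 : σ = T.o := (T.one_side h).resolve_right hτ
    have h2 : σ' = T.o := (T.one_side h').resolve_left hτ
    subst h1 h2
    exact ⟨_, _, T.s3b h h', T.form_enc (T.wf_up h), T.form_enc (T.wf_up h')⟩

/-- Cleaning a cut.  Induction on `K`.  At level `K + 1`: `u` decodes to a level `K` word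
`v = va ++ (v₁ ++ v₂) ++ vb`, where `v₁`, `v₂` are the blocks of the last letter of `w₁` and of the first
letter of `w₂`, and `va`, `vb` have length `≥ d K ≥ 2`.  Clean (induction hypothesis, twice) the level `K`
cuts at both ends of `v₁ ++ v₂`; the middle part is then equivalent to `encK K (v₁ ++ v₂)` (`Dec.norm`),
hence (`form_clean`, `lift_eqv`) to `encK K v₁' ++ encK K v₂'`; finish with `dec_encK`, `wf_down`. -/
theorem Dec.clean {K : ℕ} {u w₁ w₂ : List L} {Θ Θ' : List I} (h : T.Dec K u (w₁ ++ w₂) Θ Θ')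
    (h₁ : 2 ≤ w₁.length) (h₂ : 2 ≤ w₂.length) :
    ∃ u₁ u₂, (T.sys 0).Eqv u (u₁ ++ u₂) ∧ T.Dec K u₁ w₁ Θ (T.cl K) ∧ T.Dec K u₂ w₂ (T.cl K) Θ' := by
  induction K generalizing u w₁ w₂ Θ Θ' with
  | zero =>
    obtain ⟨rfl, rfl, rfl⟩ := h
    exact ⟨w₁, w₂, RW.Eqv.rfl, ⟨rfl, rfl, rfl⟩, ⟨rfl, rfl, rfl⟩⟩
  | succ K ih =>
    obtain ⟨v, σ, σ', Ξ, Ξ', rfl, rfl, hd, h1⟩ := h
    obtain ⟨a, x, rfl⟩ : ∃ a x, w₁ = a ++ [x] := by
      rcases List.eq_nil_or_concat w₁ with rfl | ⟨a, x, rfl⟩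
      · simp at h₁
      · exact ⟨a, x, by simp⟩
    obtain ⟨y, b, rfl⟩ : ∃ y b, w₂ = [y] ++ b := by
      cases w₂ with
      | nil => simp at h₂
      | cons y b => exact ⟨y, b, rfl⟩
    obtain ⟨vl, vr, τ, rfl, hl, hr⟩ := dec1_split h1
    obtain ⟨va, v₁, τ₁, rfl, ha, hx⟩ := dec1_split hl
    obtain ⟨v₂, vb, τ₂, rfl, hy, hb⟩ := dec1_split hr
    rw [dec1_single] at hx hy
    have hd2 := T.two_le K
    have hla : 2 ≤ va.length := by
      rw [dec1_length ha]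
      have : 1 ≤ a.length := by simp at h₁; omega
      nlinarith
    have hlb : 2 ≤ vb.length := by
      rw [dec1_length hb]
      have : 1 ≤ b.length := by simp at h₂; omega
      nlinarith
    have hl1 := T.len hx
    have hl2 := T.len hy
    have e : va ++ v₁ ++ (v₂ ++ vb) = va ++ ((v₁ ++ v₂) ++ vb) := by simp
    rw [e] at hd
    obtain ⟨u₁, u₂, he1, hd1, hd2'⟩ := ih hd hla (by simp; omega)
    obtain ⟨u₃, u₄, he2, hd3, hd4⟩ := ih hd2' (by simp; omega) hlb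
    obtain ⟨v₁', v₂', he3, hx', hy'⟩ := form_clean hx hy
    have he4 : (T.sys 0).Eqv u₃ (T.encK K v₁' ++ T.encK K v₂') := by
      rw [← encK_append]
      exact hd3.norm.trans (lift_eqv he3)
    refine ⟨u₁ ++ T.encK K v₁', T.encK K v₂' ++ u₄, ?_,
      ⟨va ++ v₁', σ, T.o, Ξ, T.cl K, rfl, rfl, hd1.append (dec_encK (T.wf_down hx')),
        dec1_append ha (dec1_single.2 hx')⟩,
      ⟨v₂' ++ vb, T.o, σ', T.cl K, Ξ', rfl, rfl, (dec_encK (T.wf_down hy')).append hd4,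
        dec1_append (dec1_single.2 hy') hb⟩⟩
    refine he1.trans ((he2.append_left u₁).trans ?_)
    have := he4.infix u₁ u₄
    simpa only [List.append_assoc] using this

/-- The inner part of the decoded word of a non-zero word is non-zero (clean both cuts, `Dec.norm`,
`lift_zero`; for `K = 0` it is trivial, for `K + 1` use `Dec.wf`). -/
theorem Dec.inner_nz {K : ℕ} {u wa wm wb : List L} {Θ Θ' : List I}
    (h : T.Dec K u (wa ++ wm ++ wb) Θ Θ') (ha : 2 ≤ wa.length) (hm : 2 ≤ wm.length)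
    (hb : 2 ≤ wb.length) (hu : ¬ (T.sys 0).Zero u) : ¬ (T.sys K).Zero wm := by
  intro hz
  cases K with
  | zero =>
    obtain ⟨rfl, -, -⟩ := h
    exact hu (hz.infix wa wb)
  | succ K =>
    have hwf := h.wf
    rw [List.append_assoc] at h
    obtain ⟨u₁, u₂, he1, -, hd2⟩ := h.clean ha (by simp; omega)
    obtain ⟨u₃, u₄, he2, hd3, -⟩ := hd2.clean hm hb
    have h3 : (T.sys 0).Zero u₃ :=
      (lift_zero (fun x hx => hwf x (by simp [hx])) hz).of_eqv hd3.norm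
    exact hu ((((h3.append_right u₄).of_eqv he2).append_left u₁).of_eqv he1)

/-- Exchange lemma.  Write `wa = wa₁ ++ wa₂`, `wb = wb₁ ++ wb₂` with all parts of length `≥ 2`, clean the
cuts inside `ua` and `ub`; the middle parts have clean interfaces, so they are equivalent to the canonical
words of `wa₂ ++ wm ++ wb₁` and `wa₂ ++ wm' ++ wb₁`; use `lift_eqv`. -/
theorem Dec.exchange {K : ℕ} {ua um um' ub wa wm wm' wb : List L} {Θ₀ Θ₁ Θ₂ Θ₃ : List I}
    (ha : T.Dec K ua wa Θ₀ Θ₁) (hm : T.Dec K um wm Θ₁ Θ₂) (hm' : T.Dec K um' wm' Θ₁ Θ₂)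
    (hb : T.Dec K ub wb Θ₂ Θ₃) (h4a : 4 ≤ wa.length) (h4b : 4 ≤ wb.length)
    (he : (T.sys K).Eqv wm wm') : (T.sys 0).Eqv (ua ++ um ++ ub) (ua ++ um' ++ ub) := by
  rw [← List.take_append_drop 2 wa] at ha
  rw [← List.take_append_drop 2 wb] at hb
  obtain ⟨ua₁, ua₂, hea, -, ha₂⟩ := ha.clean (by simp; omega) (by simp; omega)
  obtain ⟨ub₁, ub₂, heb, hb₁, -⟩ := hb.clean (by simp; omega) (by simp; omega)
  have h1 := ((ha₂.append hm).append hb₁).norm
  have h2 := ((ha₂.append hm').append hb₁).norm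
  have h3 : (T.sys 0).Eqv (ua₂ ++ um ++ ub₁) (ua₂ ++ um' ++ ub₁) :=
    h1.trans ((lift_eqv (he.infix _ _)).trans h2.symm)
  have h4 := h3.infix ua₁ ub₂
  have h5 : ∀ z, (T.sys 0).Eqv (ua ++ z ++ ub) (ua₁ ++ (ua₂ ++ z ++ ub₁) ++ ub₂) := fun z => by
    have := (hea.append (RW.Eqv.refl z)).append heb
    simpa only [List.append_assoc] using this
  exact (h5 um).trans (h4.trans (h5 um').symm)

/-- locating a pair of adjacent letters in a concatenation of blocks -/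
theorem dec1_locate {K : ℕ} {v w : List L} {σ σ' : I} (h : Dec1 (T.Form K) v w σ σ')
    {p s : List L} {c c' : L} (e : v = p ++ c :: c' :: s) :
    (∃ wa x wb va p' s' vb τ τ', w = wa ++ x :: wb ∧ p = va ++ p' ∧ s = s' ++ vb ∧
      Dec1 (T.Form K) va wa σ τ ∧ T.Form K x τ τ' (p' ++ c :: c' :: s') ∧
      Dec1 (T.Form K) vb wb τ' σ') ∨
    (∃ wa x y wb va u u' vb τ₁ τ τ₂, w = wa ++ x :: y :: wb ∧ p = va ++ u ∧ s = u' ++ vb ∧
      Dec1 (T.Form K) va wa σ τ₁ ∧ T.Form K x τ₁ τ (u ++ [c]) ∧ T.Form K y τ τ₂ (c' :: u') ∧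
      Dec1 (T.Form K) vb wb τ₂ σ') := by
  induction h generalizing p with
  | nil σ => simp at e
  | @cons x σ τ σ'' u us xs hf hd ih =>
    have hrec : ∀ a', p = u ++ a' → us = a' ++ c :: c' :: s →
        (∃ wa x' wb va p' s' vb τ τ', x :: xs = wa ++ x' :: wb ∧ p = va ++ p' ∧ s = s' ++ vb ∧
          Dec1 (T.Form K) va wa σ τ ∧ T.Form K x' τ τ' (p' ++ c :: c' :: s') ∧
          Dec1 (T.Form K) vb wb τ' σ'') ∨
        (∃ wa x' y wb va u u' vb τ₁ τ τ₂, x :: xs = wa ++ x' :: y :: wb ∧ p = va ++ u ∧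
          s = u' ++ vb ∧ Dec1 (T.Form K) va wa σ τ₁ ∧ T.Form K x' τ₁ τ (u ++ [c]) ∧
          T.Form K y τ τ₂ (c' :: u') ∧ Dec1 (T.Form K) vb wb τ₂ σ'') := by
      intro a' h1 h2
      rcases ih h2 with ⟨wa, x', wb, va, p', s', vb, τ₁, τ₂, rfl, rfl, rfl, ha, hx, hb⟩ |
        ⟨wa, x', y, wb, va, u₁, u₂, vb, τ₁, τ₂, τ₃, rfl, rfl, rfl, ha, hx, hy, hb⟩
      · exact Or.inl ⟨x :: wa, x', wb, u ++ va, p', s', vb, τ₁, τ₂, rfl, by simp [h1], rfl,
          Dec1.cons hf ha, hx, hb⟩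
      · exact Or.inr ⟨x :: wa, x', y, wb, u ++ va, u₁, u₂, vb, τ₁, τ₂, τ₃, rfl, by simp [h1], rfl,
          Dec1.cons hf ha, hx, hy, hb⟩
    rcases List.append_eq_append_iff.1 e with ⟨a', h1, h2⟩ | ⟨t, h1, h2⟩
    · exact hrec a' h1 h2
    · rcases t with _ | ⟨c₁, _ | ⟨c₂, t⟩⟩
      · exact hrec [] (by simpa using h1.symm) (by simpa using h2.symm)
      · simp only [List.cons_append, List.nil_append, List.cons.injEq] at h2
        obtain ⟨rfl, h2⟩ := h2
        subst h1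
        cases hd with
        | nil => simp at h2
        | @cons y _ τ₂ _ u₂ us₂ ys hy hd₂ =>
          have hl := T.len hy
          have hd2 := T.two_le K
          rcases u₂ with _ | ⟨c₃, u₂⟩
          · simp at hl; omega
          · simp only [List.cons_append, List.cons.injEq] at h2
            obtain ⟨rfl, rfl⟩ := h2
            exact Or.inr ⟨[], x, y, ys, [], p, u₂, us₂, σ, τ, τ₂, rfl, rfl, rfl, Dec1.nil σ, hf, hy,
              hd₂⟩
      · simp only [List.cons_append, List.cons.injEq] at h2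
        obtain ⟨rfl, rfl, rfl⟩ := h2
        subst h1
        exact Or.inl ⟨[], x, xs, [], p, t, us, σ, τ, rfl, rfl, rfl, Dec1.nil σ, hf, hd⟩

theorem dec1_sstep {K : ℕ} {v v' w : List L} {σ σ' : I} (h : Dec1 (T.Form K) v w σ σ')
    (hs : (T.sys K).SStep v v') :
    ∃ w', Dec1 (T.Form K) v' w' σ σ' ∧ (T.sys (K + 1)).Eqv w w' := by
  obtain ⟨p, s, c, c', e, e', hst, hv, rfl⟩ := RW.sstep_iff.1 hs
  rcases dec1_locate h hv with ⟨wa, x, wb, va, p', s', vb, τ, τ', rfl, rfl, rfl, ha, hx, hb⟩ |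
    ⟨wa, x, y, wb, va, u, u', vb, τ₁, τ, τ₂, rfl, rfl, rfl, ha, hx, hy, hb⟩
  · have hx' := T.s1a hx (RW.sstep_iff.2 ⟨p', s', c, c', e, e', hst, rfl, rfl⟩)
    refine ⟨wa ++ x :: wb, ?_, RW.Eqv.rfl⟩
    have := dec1_append ha (Dec1.cons hx' hb)
    simpa only [List.append_assoc, List.cons_append] using this
  · obtain ⟨x', y', τ', hx', hy', hc⟩ := T.s1b hx hy hst
    refine ⟨wa ++ x' :: y' :: wb, ?_, ?_⟩
    · have := dec1_append ha (Dec1.cons hx' (Dec1.cons hy' hb))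
      simpa only [List.append_assoc, List.cons_append, List.nil_append] using this
    · rcases hc with ⟨rfl, rfl⟩ | hc | hc
      · exact RW.Eqv.rfl
      · exact RW.Eqv.rule hc wa wb
      · exact (RW.Eqv.rule hc wa wb).symm

theorem dec1_mem {K : ℕ} {v w : List L} {σ σ' : I} (h : Dec1 (T.Form K) v w σ σ') {c : L}
    (hc : c ∈ v) : ∃ x ∈ w, ∃ τ τ' u, T.Form K x τ τ' u ∧ c ∈ u := by
  induction h with
  | nil σ => simp at hc
  | @cons x σ τ σ'' u us xs hf hd ih =>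
    rcases List.mem_append.1 hc with hc | hc
    · exact ⟨x, by simp, σ, τ, u, hf, hc⟩
    · obtain ⟨y, hy, h'⟩ := ih hc
      exact ⟨y, by simp [hy], h'⟩

theorem dec1_hasZ {K : ℕ} {v w : List L} {σ σ' : I} (h : Dec1 (T.Form K) v w σ σ')
    (hz : (T.sys K).HasZ v) : (T.sys (K + 1)).HasZ w := by
  rcases hz with ⟨c, hc, hz⟩ | ⟨p, s, c, c', hz, hv⟩
  · obtain ⟨x, hx, τ, τ', u, hf, hcu⟩ := dec1_mem h hc
    exact Or.inl ⟨x, hx, T.s2a hf (Or.inl ⟨c, hcu, hz⟩)⟩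
  · rcases dec1_locate h hv with ⟨wa, x, wb, va, p', s', vb, τ, τ', rfl, rfl, rfl, ha, hx, hb⟩ |
      ⟨wa, x, y, wb, va, u, u', vb, τ₁, τ, τ₂, rfl, rfl, rfl, ha, hx, hy, hb⟩
    · exact Or.inl ⟨x, by simp, T.s2a hx (Or.inr ⟨p', s', c, c', hz, rfl⟩)⟩
    · exact Or.inr ⟨wa, wb, x, y, T.s2b hx hy hz, rfl⟩

/-- Soundness of the simulation.  A symmetric step on a concatenation of blocks is inside a block
(`s1a`) or across a boundary (`s1b`) (blocks are non-empty); so the class of `v` consists of words that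
decode to words of the class of `w`; a visible zero gives a visible zero (`s2a`, `s2b`). -/
theorem dec1_nz {K : ℕ} {v w : List L} {σ σ' : I} (h : Dec1 (T.Form K) v w σ σ')
    (hw : ¬ (T.sys (K + 1)).Zero w) : ¬ (T.sys K).Zero v := by
  rintro ⟨v', he, hz⟩
  have key : ∃ w', Dec1 (T.Form K) v' w' σ σ' ∧ (T.sys (K + 1)).Eqv w w' := by
    refine he.induction (P := fun z => ∃ w', Dec1 (T.Form K) z w' σ σ' ∧ (T.sys (K + 1)).Eqv w w')
      ?_ ⟨w, h, RW.Eqv.rfl⟩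
    rintro z z' ⟨w', hd, hw'⟩ hs
    obtain ⟨w'', hd', hw''⟩ := dec1_sstep hd hs
    exact ⟨w'', hd', hw'.trans hw''⟩
  obtain ⟨w', hd, hw'⟩ := key
  exact hw ⟨w', hw', dec1_hasZ hd hz⟩

theorem Dec.nz {K : ℕ} {u w : List L} {Θ Θ' : List I} (h : T.Dec K u w Θ Θ')
    (hw : ¬ (T.sys K).Zero w) : ¬ (T.sys 0).Zero u := by
  induction K generalizing w Θ Θ' with
  | zero =>
    obtain ⟨rfl, -, -⟩ := h
    exact hw
  | succ K ih =>
    obtain ⟨v, σ, σ', Ξ, Ξ', -, -, hd, h1⟩ := h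
    exact ih hd (dec1_nz h1 hw)

/-- `encK K [x]` is non-zero of length `ell K ≥ 2 ^ K` for `x` given by `exists_nz`. -/
theorem inf (T : Tower L I Tg) : (T.sys 0).Inf := by
  intro n
  obtain ⟨x, hx, hz⟩ := T.exists_nz n
  have hd : T.Dec n (T.encK n [x]) [x] (T.cl n) (T.cl n) :=
    dec_encK (by simpa using hx)
  refine ⟨T.encK n [x], ?_, hd.nz (RW.not_zero_singleton hz)⟩
  rw [hd.length]
  have h1 := T.two_pow_le_ell n
  have h2 : n < 2 ^ n := Nat.lt_two_pow_self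
  simp only [List.length_singleton, one_mul]
  omega

end Tower

end Crest.Agent.R176
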