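import Crest.Agent.R176.Tow2

/-!
# R176 — towers, part 3: global parse, alignment, light interfaces
-/

set_option autoImplicit false

namespace Crest.Agent.R176

namespace Tower

variable {L I Tg : Type} {T : Tower L I Tg}

/-- Global parse.  Induction on `K`.  If the level `K` word `y` has length `< 6` take the empty parse
(`Dec.nil`).  Otherwise remove two letters on each side, the inner part is non-zero (`Dec.inner_nz`), apply
`s7` and `Dec.split`; we lose at most `(4 + 40 * d K) * ell K ≤ 42 * ell (K + 1)` letters, and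
`84 * ell K ≤ 42 * ell (K + 1)`. -/
theorem parse (K : ℕ) {u : List L} (hu : ¬ (T.sys 0).Zero u) :
    ∃ p u' s y Θ Θ', u = p ++ u' ++ s ∧ T.Dec K u' y Θ Θ' ∧ p.length + s.length ≤ 84 * T.ell K := by
  induction K with
  | zero => exact ⟨[], u, [], u, [], [], by simp, ⟨rfl, rfl, rfl⟩, by simp⟩
  | succ K ih =>
    obtain ⟨p, u', s, y, Θ, Θ', e, hd, hl⟩ := ih
    have hd2 := T.two_le K
    have hell : 2 * T.ell K ≤ T.ell (K + 1) := by
      rw [ell_succ, mul_comm]; exact Nat.mul_le_mul_left _ hd2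
    by_cases hy : y.length < 6
    · refine ⟨u, [], [], [], T.cl (K + 1), T.cl (K + 1), by simp, Dec.nil (by simp [cl]), ?_⟩
      have h1 := hd.length
      have h2 : y.length * T.ell K ≤ 5 * T.ell K := Nat.mul_le_mul_right _ (by omega)
      have h3 := congrArg List.length e
      simp only [List.length_append, List.length_nil] at h3 ⊢
      omega
    · obtain ⟨wa, wm, wb, rfl, ha, hb⟩ : ∃ wa wm wb, y = wa ++ wm ++ wb ∧ wa.length = 2 ∧
          wb.length = 2 := by
        refine ⟨y.take 2, (y.drop 2).take (y.length - 4), (y.drop 2).drop (y.length - 4), ?_, ?_, ?_⟩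
        · rw [List.append_assoc, List.take_append_drop, List.take_append_drop]
        · simp; omega
        · simp; omega
      simp only [List.length_append] at hy
      have hu' : ¬ (T.sys 0).Zero u' := fun h => hu (e ▸ h.infix p s)
      have hm := hd.inner_nz ha.ge (by omega) hb.ge hu'
      obtain ⟨q, v', r, w, σ, σ', rfl, h1, hq, hr⟩ := T.s7 hm
      have e2 : wa ++ (q ++ v' ++ r) ++ wb = (wa ++ q) ++ (v' ++ (r ++ wb)) := by simp
      rw [e2] at hd
      obtain ⟨u₁, u₂, Ξ, rfl, d1, d2⟩ := hd.split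
      obtain ⟨u₂, u₃, Ξ', rfl, d2, d3⟩ := d2.split
      refine ⟨p ++ u₁, u₂, u₃ ++ s, w, σ :: Ξ, σ' :: Ξ', by simp [e],
        ⟨v', σ, σ', Ξ, Ξ', rfl, rfl, d2, h1⟩, ?_⟩
      have l1 := d1.length
      have l3 := d3.length
      have l4 : (wa ++ q).length * T.ell K ≤ (21 * T.d K) * T.ell K :=
        Nat.mul_le_mul_right _ (by simp only [List.length_append]; omega)
      have l5 : (r ++ wb).length * T.ell K ≤ (21 * T.d K) * T.ell K :=
        Nat.mul_le_mul_right _ (by simp only [List.length_append]; omega)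
      have l6 : (21 * T.d K) * T.ell K = 21 * T.ell (K + 1) := by rw [ell_succ]; ring
      simp only [List.length_append] at l1 l3 l4 l5 ⊢
      omega

theorem tow3_cell {K : ℕ}
    (H : ∀ {p u s p' u' s' : List L} {x y x' : L} {Θ Θ' Ξ Ξ' : List I},
      T.Dec K u [x, y] Θ Θ' → T.Dec K u' [x'] Ξ Ξ' → p ++ u ++ s = p' ++ u' ++ s' →
      p.length ≤ p'.length → p'.length ≤ p.length + T.ell K →
      p'.length = p.length ∨ p'.length = p.length + T.ell K)
    {p u s p' u' s' y : List L} {x' : L} {Θ Θ' Ξ Ξ' : List I}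
    (h : T.Dec K u y Θ Θ') (h' : T.Dec K u' [x'] Ξ Ξ') (e : p ++ u ++ s = p' ++ u' ++ s')
    (h1 : p.length ≤ p'.length) (h2 : p'.length + 2 * T.ell K ≤ p.length + u.length) :
    ∃ ya yb, y = ya ++ x' :: yb ∧ p'.length = p.length + ya.length * T.ell K := by
  have hpos := T.ell_pos K
  obtain ⟨t, ht⟩ : ∃ t, p'.length = p.length + t := ⟨p'.length - p.length, by omega⟩
  have j1 : t / T.ell K * T.ell K ≤ t := Nat.div_mul_le_self _ _
  have j2 : t < t / T.ell K * T.ell K + T.ell K := Nat.lt_div_mul_add hpos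
  generalize t / T.ell K = j at j1 j2
  have hl := h.length
  have j3 : j + 2 ≤ y.length := by
    refine Nat.le_of_mul_le_mul_right ?_ hpos
    rw [add_mul]; omega
  obtain ⟨ya, a, b, yb, rfl, hya⟩ : ∃ ya a b yb, y = ya ++ ([a, b] ++ yb) ∧ ya.length = j := by
    have hd : 2 ≤ (y.drop j).length := by simp; omega
    match hy : y.drop j, hd with
    | a :: b :: yb, _ =>
      refine ⟨y.take j, a, b, yb, ?_, by simp; omega⟩
      rw [show [a, b] ++ yb = a :: b :: yb from rfl, ← hy, List.take_append_drop]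
  obtain ⟨u₁, u₂, Ξ₁, rfl, d1, d2⟩ := h.split
  obtain ⟨u₂, u₃, Ξ₂, rfl, d2, d3⟩ := d2.split
  have l1 := d1.length
  rw [hya] at l1
  have key := H (p := p ++ u₁) (s := u₃ ++ s) d2 h' (by rw [← e]; simp)
    (by simp only [List.length_append]; omega) (by simp only [List.length_append]; omega)
  simp only [List.length_append] at key
  have hp : p'.length = p.length + u₁.length := by omega
  obtain ⟨v₁, v₂, Ξ₃, rfl, d4, -⟩ := Dec.split (w := [a]) (w' := [b]) d2
  have e1 : (p ++ u₁) ++ (v₁ ++ (v₂ ++ u₃ ++ s)) = p' ++ (u' ++ s') := by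
    rw [← List.append_assoc p', ← e]; simp
  have e2 := List.append_inj_right e1 (by simp only [List.length_append]; omega)
  have e3 := List.append_inj_left e2 (by rw [d4.length, h'.length]; rfl)
  subst e3
  have e4 := (d4.unique h').1
  obtain rfl : a = x' := by simpa using e4
  exact ⟨ya, b :: yb, rfl, by rw [hya]; omega⟩

/-- Alignment: a level `K` cell starting inside the first of two consecutive cells (or at the start of
the second) coincides with one of them.  Induction on `K`: the first level `K` cell `c` of the block of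
`x'` satisfies `start c`; it starts in the `j`-th level `K` cell of the two blocks for some `j ≤ d K`,
`j + 1 < 2 * d K`; by induction it starts exactly at a cell `j'`, `j' ≤ d K`, by `Dec.unique` it is that
cell, and `start_iff` gives `j' ∈ {0, d K}`. -/
theorem align {K : ℕ} {p u s p' u' s' : List L} {x y x' : L} {Θ Θ' Ξ Ξ' : List I}
    (h : T.Dec K u [x, y] Θ Θ') (h' : T.Dec K u' [x'] Ξ Ξ') (e : p ++ u ++ s = p' ++ u' ++ s')
    (h1 : p.length ≤ p'.length) (h2 : p'.length ≤ p.length + T.ell K) :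
    p'.length = p.length ∨ p'.length = p.length + T.ell K := by
  induction K generalizing p u s p' u' s' x y x' Θ Θ' Ξ Ξ' with
  | zero => rw [ell_zero] at h2 ⊢; omega
  | succ K ih =>
    have hd2 := T.two_le K
    have hl := h.length
    obtain ⟨v, σ, σ', Θ₀, Θ₀', rfl, rfl, dv, d1⟩ := h
    obtain ⟨v', τ, τ', Ξ₀, Ξ₀', rfl, rfl, dv', d1'⟩ := h'
    rw [dec1_single] at d1'
    obtain ⟨bx, b₂, ρ, rfl, fx, -⟩ := dec1_split (w := [x]) (w' := [y]) d1
    rw [dec1_single] at fx
    have lx := T.len fx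
    have lv' := T.len d1'
    cases v' with
    | nil => simp at lv'; omega
    | cons c rest =>
      have hs : T.start c := (T.start_iff (a := []) d1').2 rfl
      obtain ⟨uc, ur, Ξ₁, rfl, dc, -⟩ := Dec.split (w := [c]) (w' := rest) dv'
      have hell : 2 * T.ell K ≤ T.ell (K + 1) := by
        rw [ell_succ, mul_comm]; exact Nat.mul_le_mul_left _ hd2
      obtain ⟨ya, yb, e1, e2⟩ := tow3_cell (fun a b c d e => ih a b c d e) (s' := ur ++ s') dv dc
        (by rw [e]; simp) h1 (by simp only [List.length_cons, List.length_nil] at hl; omega)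
      have j1 : ya.length ≤ T.d K := by
        refine Nat.le_of_mul_le_mul_right ?_ (T.ell_pos K)
        rw [ell_succ, mul_comm] at h2
        omega
      rcases j1.lt_or_eq with j2 | j2
      · left
        rcases List.append_eq_append_iff.1 e1 with ⟨a', rfl, -⟩ | ⟨c', rfl, e3⟩
        · simp only [List.length_append] at j2; omega
        · cases c' with
          | nil => simp at lx; omega
          | cons c₁ c' =>
            obtain rfl : c = c₁ := by simpa using (List.cons.inj e3).1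
            have := (T.start_iff fx).1 hs
            subst this
            simpa using e2
      · right
        rw [e2, j2, ell_succ, mul_comm]

/-- A cell lying inside a parsed part, not in the last cell, is one of its cells. -/
theorem align_cell {K : ℕ} {p u s p' u' s' y : List L} {x' : L} {Θ Θ' Ξ Ξ' : List I}
    (h : T.Dec K u y Θ Θ') (h' : T.Dec K u' [x'] Ξ Ξ') (e : p ++ u ++ s = p' ++ u' ++ s')
    (h1 : p.length ≤ p'.length) (h2 : p'.length + 2 * T.ell K ≤ p.length + u.length) :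
    ∃ ya yb, y = ya ++ x' :: yb ∧ p'.length = p.length + ya.length * T.ell K :=
  tow3_cell (fun a b c d e => align a b c d e) h h' e h1 h2

theorem tow3_cut {K : ℕ} {v₁ v₂ a b : List L} {x y : L} {σ τ σ' : I}
    (h₁ : Dec1 (T.Form K) v₁ (a ++ [x]) σ τ) (h₂ : Dec1 (T.Form K) v₂ (y :: b) τ σ') :
    ∃ a' c c' b', v₁ = a' ++ [c] ∧ v₂ = c' :: b' ∧ (T.LP x y → τ ∈ T.lt) ∧
      (τ ∈ T.lt → T.LP c c') := by
  have hd2 := T.two_le K
  obtain ⟨va, vx, σ₁, rfl, -, fx⟩ := dec1_split h₁
  obtain ⟨vy, vb, σ₂, rfl, fy, -⟩ := dec1_split (w := [y]) (w' := b) h₂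
  rw [dec1_single] at fx fy
  have lx := T.len fx
  have ly := T.len fy
  rcases List.eq_nil_or_concat vx with rfl | ⟨w, c, rfl⟩
  · simp at lx; omega
  cases vy with
  | nil => simp at ly; omega
  | cons c' w' =>
    rw [List.concat_eq_append] at fx ⊢
    exact ⟨va ++ w, c, c', w' ++ vb, by simp, rfl, fun h => T.lt2 h fx fy, fun h => T.lt1 fx fy h⟩

theorem tow3_light {K : ℕ} {u₁ u₂ a b : List L} {x y : L} {Θ Θ' Ξ : List I}
    (h₁ : T.Dec K u₁ (a ++ [x]) Θ Ξ) (h₂ : T.Dec K u₂ (y :: b) Ξ Θ') (hxy : T.LP x y) :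
    ∀ σ ∈ Ξ, σ ∈ T.lt := by
  induction K generalizing u₁ u₂ a b x y Θ Θ' Ξ with
  | zero => obtain ⟨-, -, rfl⟩ := h₁; simp
  | succ K ih =>
    obtain ⟨v₁, σ₁, τ, Θ₁, Ξ₁, rfl, rfl, d1, f1⟩ := h₁
    obtain ⟨v₂, τ', σ₂, Ξ₂, Θ₂, e, rfl, d2, f2⟩ := h₂
    obtain ⟨rfl, rfl⟩ := List.cons.inj e
    obtain ⟨a', c, c', b', rfl, rfl, k1, k2⟩ := tow3_cut f1 f2
    intro σ hσ
    rcases List.mem_cons.1 hσ with rfl | hσ
    · exact k1 hxy
    · exact ih d1 d2 (k2 (k1 hxy)) σ hσ

/-- If the top interface of a cut is light then so are all the interfaces below it.  Prove by induction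
on `K`: if `Dec K u₁ w₁ Θ Ξ`, `Dec K u₂ w₂ Ξ Θ'`, `w₁ = a ++ [x]`, `w₂ = y :: b` and `LP x y`, then all
entries of `Ξ` are light (`lt2`, then `lt1`). -/
theorem light {K : ℕ} {u₁ u₂ w₁ w₂ : List L} {Θ Θ' Ξ : List I} {τ : I}
    (h₁ : T.Dec (K + 1) u₁ w₁ Θ (τ :: Ξ)) (h₂ : T.Dec (K + 1) u₂ w₂ (τ :: Ξ) Θ')
    (hw₁ : w₁ ≠ []) (hw₂ : w₂ ≠ []) (hτ : τ ∈ T.lt) : ∀ σ ∈ τ :: Ξ, σ ∈ T.lt := by
  rcases List.eq_nil_or_concat w₁ with rfl | ⟨a, x, rfl⟩
  · exact absurd rfl hw₁
  rw [List.concat_eq_append] at h₁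
  obtain ⟨y, b, rfl⟩ := List.exists_cons_of_ne_nil hw₂
  obtain ⟨v₁, σ₁, τ₁, Θ₁, Ξ₁, rfl, e₁, d1, f1⟩ := h₁
  obtain ⟨v₂, τ₂, σ₂, Ξ₂, Θ₂, e₂, rfl, d2, f2⟩ := h₂
  obtain ⟨rfl, rfl⟩ := List.cons.inj e₁
  obtain ⟨rfl, rfl⟩ := List.cons.inj e₂
  obtain ⟨a', c, c', b', rfl, rfl, -, k2⟩ := tow3_cut f1 f2
  intro σ hσ
  rcases List.mem_cons.1 hσ with rfl | hσ
  · exact hτ
  · exact tow3_light d1 d2 (k2 hτ) σ hσ

/-- a single cell has a clean top interface on at least one side -/
theorem Dec.one_side {K : ℕ} {u : List L} {x : L} {σ σ' : I} {Ξ Ξ' : List I}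
    (h : T.Dec (K + 1) u [x] (σ :: Ξ) (σ' :: Ξ')) : σ = T.o ∨ σ' = T.o := by
  obtain ⟨v, τ, τ', Θ, Θ', e₁, e₂, -, f⟩ := h
  obtain ⟨rfl, rfl⟩ := List.cons.inj e₁
  obtain ⟨rfl, rfl⟩ := List.cons.inj e₂
  exact T.one_side (dec1_single.1 f)

end Tower

end Crest.Agent.R176
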