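import Crest.Agent.R176.RW

/-!
# R176 — towers of rewriting systems simulating each other

`T.sys k` is the system of level `k` (all on the same letter type `L`).  A letter `x` of level `k + 1`
is represented by blocks `u` of `T.d k` letters of level `k`: `T.Form k x σ σ' u`, where `σ, σ'` are the
states of the *interfaces* with the left and right neighbours (`T.o` = no lock).
DO NOT EDIT (owner helper34).
-/

set_option autoImplicit false

namespace Crest.Agent.R176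

/-- concatenations of blocks -/
inductive Dec1 {L I : Type} (F : L → I → I → List L → Prop) : List L → List L → I → I → Prop
  | nil (σ : I) : Dec1 F [] [] σ σ
  | cons {x : L} {σ σ' σ'' : I} {u us xs : List L} :
      F x σ σ' u → Dec1 F us xs σ' σ'' → Dec1 F (u ++ us) (x :: xs) σ σ''

/-- a tower of systems -/
structure Tower (L I Tg : Type) where
  sys : ℕ → RW L
  WF : ℕ → L → Prop
  d : ℕ → ℕ
  n : ℕ → ℕ
  o : I
  Form : ℕ → L → I → I → List L → Prop
  enc : ℕ → L → List L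
  start : L → Prop
  lt : Finset I
  LP : L → L → Prop
  tag : L → Tg
  tok : Tg → Prop
  lm : Tg → Prop
  idx : ℕ → Tg → ℕ
  wf_step : ∀ {k x y x' y'}, (sys k).step x y x' y' → WF k x ∧ WF k y ∧ WF k x' ∧ WF k y'
  two_le : ∀ k, 2 ≤ d k
  len : ∀ {k x σ σ' u}, Form k x σ σ' u → u.length = d k
  func : ∀ {k x σ σ' x₂ σ₂ σ₂' u}, Form k x σ σ' u → Form k x₂ σ₂ σ₂' u →
    x = x₂ ∧ σ = σ₂ ∧ σ' = σ₂'
  start_iff : ∀ {k x σ σ' a c b}, Form k x σ σ' (a ++ c :: b) → (start c ↔ a = [])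
  wf_up : ∀ {k x σ σ' u}, Form k x σ σ' u → WF (k + 1) x
  wf_down : ∀ {k x σ σ' u}, Form k x σ σ' u → ∀ c ∈ u, WF k c
  form_enc : ∀ {k x}, WF (k + 1) x → Form k x o o (enc k x)
  one_side : ∀ {k x σ σ' u}, Form k x σ σ' u → σ = o ∨ σ' = o
  /-- moves inside a block do not change the letter or the interfaces -/
  s1a : ∀ {k x σ σ' u u'}, Form k x σ σ' u → (sys k).SStep u u' → Form k x σ σ' u'
  /-- moves across a block boundary simulate at most one move of the next level -/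
  s1b : ∀ {k x y σ τ σ' u c c' u' e e'}, Form k x σ τ (u ++ [c]) → Form k y τ σ' (c' :: u') →
    ((sys k).step c c' e e' ∨ (sys k).step e e' c c') →
    ∃ x' y' τ', Form k x' σ τ' (u ++ [e]) ∧ Form k y' τ' σ' (e' :: u') ∧
      ((x' = x ∧ y' = y) ∨ (sys (k + 1)).step x y x' y' ∨ (sys (k + 1)).step x' y' x y)
  s2a : ∀ {k x σ σ' u}, Form k x σ σ' u → (sys k).HasZ u → (sys (k + 1)).z1 x
  s2b : ∀ {k x y σ τ σ' u c c' u'}, Form k x σ τ (u ++ [c]) → Form k y τ σ' (c' :: u') →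
    (sys k).z2 c c' → (sys (k + 1)).z2 x y
  s3a : ∀ {k x u}, Form k x o o u → (sys k).Eqv u (enc k x)
  s3b : ∀ {k x y τ u u'}, Form k x o τ u → Form k y τ o u' →
    (sys k).Eqv (u ++ u') (enc k x ++ enc k y)
  s4a : ∀ {k x y x' y'}, (sys (k + 1)).step x y x' y' →
    (sys k).Eqv (enc k x ++ enc k y) (enc k x' ++ enc k y')
  s4b : ∀ {k x y}, WF (k + 1) x → WF (k + 1) y → (sys (k + 1)).z2 x y →
    (sys k).Zero (enc k x ++ enc k y)
  s4c : ∀ {k x}, WF (k + 1) x → (sys (k + 1)).z1 x → (sys k).Zero (enc k x)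
  /-- non-zero words are concatenations of blocks up to short ends -/
  s7 : ∀ {k v}, ¬ (sys k).Zero v → ∃ p v' s w σ σ', v = p ++ v' ++ s ∧ Dec1 (Form k) v' w σ σ' ∧
    p.length ≤ 20 * d k ∧ s.length ≤ 20 * d k
  exists_nz : ∀ k, ∃ x, WF k x ∧ ¬ (sys k).z1 x
  lt_o : o ∈ lt
  lt1 : ∀ {k x y σ τ σ' u c c' u'}, Form k x σ τ (u ++ [c]) → Form k y τ σ' (c' :: u') →
    τ ∈ lt → LP c c'
  lt2 : ∀ {k x y σ τ σ' u u'}, LP x y → Form k x σ τ u → Form k y τ σ' u' → τ ∈ lt
  /-- two tokens with the same tag in the same zone are different and can be exchanged -/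
  zswap : ∀ {k x b x'}, ¬ (sys k).Zero (x :: b ++ [x']) → tok (tag x) → tag x' = tag x →
    (∀ y ∈ b ++ [x'], ¬ lm (tag y)) → x ≠ x' ∧ (sys k).Eqv (x :: b ++ [x']) (x' :: b ++ [x])
  /-- long non-zero words contain a full zone -/
  zone : ∀ {k y}, ¬ (sys k).Zero y → 3 * n k + 20 ≤ y.length → ∃ a z c t, y = a ++ z ++ c ∧
    (∀ x ∈ z.tail, ¬ lm (tag x)) ∧ z.length ≤ n k + 3 ∧
    List.Sublist t z ∧ n k ≤ t.length ∧ ∀ x ∈ t, tok (tag x)
  lm_idx : ∀ {k x b x'}, ¬ (sys k).Zero (x :: b ++ [x']) → lm (tag x) → lm (tag x') →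
    idx k (tag x') ≡ idx k (tag x) + 1 + b.length [MOD d k]
  lm_ex : ∀ {k y}, ¬ (sys k).Zero y → n k + 4 ≤ y.length → ∃ x ∈ y, lm (tag x)
  growth : ∀ A : ℕ, ∃ K, 1 ≤ K ∧ A * lt.card ^ (2 * K) ≤ n K
  ratio : ∀ k, 10000000 * (n k + 1) ≤ d k

namespace Tower

variable {L I Tg : Type} (T : Tower L I Tg)

/-- the number of level `0` letters in a letter of level `K` -/
def ell (K : ℕ) : ℕ := ∏ j ∈ Finset.range K, T.d j

/-- `T.Dec K u w Θ Θ'`: the level `0` word `u` represents the level `K` word `w`; the interface lists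
`Θ, Θ'` have length `K`, the head being the interface of the top simulation. -/
def Dec : ℕ → List L → List L → List I → List I → Prop
  | 0, u, w, Θ, Θ' => u = w ∧ Θ = [] ∧ Θ' = []
  | K + 1, u, w, Θ, Θ' => ∃ v σ σ' Ξ Ξ', Θ = σ :: Ξ ∧ Θ' = σ' :: Ξ' ∧ Dec K u v Ξ Ξ' ∧
      Dec1 (T.Form K) v w σ σ'

/-- the clean interface -/
def cl (K : ℕ) : List I := List.replicate K T.o

/-- the canonical level `0` word representing a level `K` word -/
def encK : ℕ → List L → List L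
  | 0, w => w
  | K + 1, w => encK K (w.flatMap (T.enc K))

end Tower

end Crest.Agent.R176
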