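import Crest.Agent.R176.Mv

/-!
# R176 — moving heads, normal form of a zone
-/

set_option autoImplicit false

namespace Crest.Agent.R176

variable {C B k : ℕ}

/-- record that the head `q` is now on the left -/
def Cell.setQ (x : Cell C B) : Cell C B := { x with t := { x.t with hq := true } }

/-- record that the head `r` is now on the left -/
def Cell.setR (x : Cell C B) : Cell C B := { x with t := { x.t with hr := true } }

theorem zone_wf_setQ {y : Cell C B} (h : WFc k y) (hy : y.t.kind ≠ .q) : WFc k y.setQ := by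
  obtain ⟨⟨kd, φ, φ', hq, hr⟩, a, v⟩ := y
  cases kd
  · exact h
  · exact h
  · exact absurd rfl hy
  · exact h

theorem zone_wf_setR {y : Cell C B} (h : WFc k y) (hy : y.t.kind.isR = false) : WFc k y.setR := by
  obtain ⟨⟨kd, φ, φ', hq, hr⟩, a, v⟩ := y
  cases kd
  · exact h
  · exact h
  · exact h
  · exact absurd hy (by simp [Kind.isR])

theorem zone_wf_q {x : Cell C B} (h : WFc k x) (hx : x.t.kind = .q) (j : Fin (3 * C + 1)) (g : Bool) :
    WFc k (⟨⟨.q, j, j, false, g⟩, x.a, x.v⟩ : Cell C B) := by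
  refine ⟨⟨rfl, rfl⟩, ?_, ?_⟩
  · rw [← hx]; exact h.2.1
  · rw [← hx]; exact h.2.2

theorem zone_wf_r {x : Cell C B} (h : WFc k x) (hx : x.t.kind.isR = true) (j : Fin (3 * C + 1))
    (f : Bool) : WFc k (⟨⟨x.t.kind, j, j, f, false⟩, x.a, x.v⟩ : Cell C B) := by
  obtain ⟨⟨kd, φ, φ', hq, hr⟩, a, v⟩ := x
  cases kd
  · exact absurd hx (by simp [Kind.isR])
  · exact absurd hx (by simp [Kind.isR])
  · exact absurd hx (by simp [Kind.isR])
  · exact ⟨⟨rfl, rfl⟩, h.2.1, h.2.2⟩

/-- The head `q` moves to the front of a path (induction on `u` from the right, `InSw.head` backwards; no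
cell of `u` is a `q`, and all have `hq = false`, by `Path.mono`). -/
theorem q_left {j : Fin (3 * C + 1)} {f g : Bool} {b : Vtx} {u : List (Cell C B)} {x : Cell C B}
    (h : Path k (j, f, g) (u ++ [x]) b) (hx : x.t.kind = .q) :
    f = false ∧ (skel C B k).Eqv (u ++ [x]) (⟨⟨.q, j, j, false, g⟩, x.a, x.v⟩ :: u.map Cell.setQ) := by
  have hxw : WFc k x := h.wf x (by simp)
  induction u generalizing j f g with
  | nil =>
    obtain ⟨-, hs, -⟩ := path_cons_iff.1 h
    obtain ⟨⟨kd, φ, φ', hq, hr⟩, a, v⟩ := x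
    obtain rfl : kd = .q := hx
    obtain ⟨h1, h2⟩ : φ' = φ ∧ hq = false := hxw.1
    simp only [Tag.src, Prod.mk.injEq] at hs
    obtain ⟨h3, h4, h5⟩ := hs
    obtain rfl : φ = j := Fin.ext h3
    subst h1 h2 h4 h5
    exact ⟨rfl, RW.Eqv.rfl⟩
  | cons y u ih =>
    obtain ⟨hy, hs, hp⟩ := path_cons_iff.1 h
    obtain ⟨h1, h2⟩ := ih hp
    rw [Bool.or_eq_false_iff, decide_eq_false_iff_not] at h1
    have hQ := zone_wf_setQ hy h1.2
    obtain ⟨⟨kd, φ, φ', hq, hr⟩, a, v⟩ := y
    simp only [Tag.src, Prod.mk.injEq] at hs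
    obtain ⟨h3, h4, h5⟩ := hs
    obtain rfl : φ = j := Fin.ext h3
    obtain rfl : hq = false := h1.1
    subst h4 h5
    refine ⟨rfl, (h2.cons _).trans (RW.Eqv.symm ?_)⟩
    refine RW.Eqv.rule (S := skel C B k) ?_ [] _
    refine ⟨zone_wf_q hxw hx _ _, hQ, hy, zone_wf_q hxw hx _ _, false, ?_, rfl, rfl, rfl, rfl⟩
    exact InSw.head (t := ⟨.q, φ, φ, false, hr⟩) (t' := ⟨kd, φ, φ', true, hr⟩)
      (by simp [inAdj, Tag.tgt, Tag.src, Kind.isR]) (Or.inl rfl)

/-- The head `r` moves to the front of a path (`InSw.head` backwards over tokens and counters, forwards over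
`q`). -/
theorem r_left {j : Fin (3 * C + 1)} {f g : Bool} {b : Vtx} {u : List (Cell C B)} {x : Cell C B}
    (h : Path k (j, f, g) (u ++ [x]) b) (hx : x.t.kind.isR = true) :
    g = false ∧
      (skel C B k).Eqv (u ++ [x]) (⟨⟨x.t.kind, j, j, f, false⟩, x.a, x.v⟩ :: u.map Cell.setR) := by
  have hxw : WFc k x := h.wf x (by simp)
  have hxq : x.t.kind ≠ .q := fun e => by rw [e] at hx; exact absurd hx (by simp [Kind.isR])
  induction u generalizing j f g with
  | nil =>
    obtain ⟨-, hs, -⟩ := path_cons_iff.1 h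
    obtain ⟨⟨kd, φ, φ', hq, hr⟩, a, v⟩ := x
    simp only [Tag.src, Prod.mk.injEq] at hs
    obtain ⟨h3, h4, h5⟩ := hs
    obtain rfl : φ = j := Fin.ext h3
    subst h4 h5
    cases kd
    · exact absurd hx (by simp [Kind.isR])
    · exact absurd hx (by simp [Kind.isR])
    · exact absurd hx (by simp [Kind.isR])
    · obtain ⟨h1, h2⟩ : φ' = φ ∧ hr = false := hxw.1
      subst h1 h2
      exact ⟨rfl, RW.Eqv.rfl⟩
  | cons y u ih =>
    obtain ⟨hy, hs, hp⟩ := path_cons_iff.1 h
    obtain ⟨h1, h2⟩ := ih hp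
    rw [Bool.or_eq_false_iff] at h1
    have hR := zone_wf_setR hy h1.2
    obtain ⟨⟨kd, φ, φ', hq, hr⟩, a, v⟩ := y
    simp only [Tag.src, Prod.mk.injEq] at hs
    obtain ⟨h3, h4, h5⟩ := hs
    obtain rfl : φ = j := Fin.ext h3
    obtain rfl : hr = false := h1.1
    subst h4 h5
    refine ⟨rfl, (h2.cons _).trans ?_⟩
    by_cases hk : kd = .q
    · subst hk
      obtain ⟨h6, h7⟩ : φ' = φ ∧ hq = false := hy.1
      subst h6 h7
      refine RW.Eqv.rule (S := skel C B k) ?_ [] _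
      refine ⟨hy, zone_wf_r hxw hx _ _, zone_wf_r hxw hx _ _, hR, false, ?_, rfl, rfl, rfl, rfl⟩
      have := InSw.head (t := ⟨.q, φ', φ', false, false⟩) (t' := ⟨x.t.kind, φ', φ', true, false⟩)
        (by simp [inAdj, Tag.tgt, Tag.src, Kind.isR]) (Or.inl rfl)
      simpa [hx, Cell.setR] using this
    · have hk' : kd = .tok ∨ kd = .cnt := by
        cases kd
        · exact Or.inl rfl
        · exact Or.inr rfl
        · exact absurd rfl hk
        · exact absurd h1.2 (by simp [Kind.isR])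
      refine RW.Eqv.symm (RW.Eqv.rule (S := skel C B k) ?_ [] _)
      refine ⟨zone_wf_r hxw hx _ _, hR, hy, zone_wf_r hxw hx _ _, false, ?_, rfl, rfl, rfl, rfl⟩
      have := InSw.head (t := ⟨x.t.kind, φ, φ, hq, false⟩) (t' := ⟨kd, φ, φ', hq, true⟩)
        (by simp [inAdj, Tag.tgt, Tag.src, hx, hxq]) (Or.inr ⟨hx, hk'⟩)
      have h8 : kd.isR = false := h1.2
      simpa [hk, h8, Cell.setR] using this

theorem zone_ph {j : ℕ} (h : j ≤ 3 * C) : (ph C j : ℕ) = j := by
  simp only [ph, Fin.ofNat]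
  exact Nat.mod_eq_of_lt (by omega)

/-- a big cell of a zone -/
def zoneC (kd : Kind) (i j : ℕ) (f g : Bool) (v : ℕ) : Cell C B := ⟨⟨kd, ph C i, ph C j, f, g⟩, a0, v⟩

/-- the phase after a cell followed by the tokens `tl` -/
def zoneE (z : ℕ) (tl : List ℕ) : ℕ := if tl = [] then 3 * z + 3 else 3 * z + 2

theorem zoneE_cases (z : ℕ) (tl : List ℕ) : zoneE z tl = 3 * z + 2 ∨ zoneE z tl = 3 * z + 3 := by
  unfold zoneE
  split_ifs <;> simp

theorem zoneE_cons (z v : ℕ) (tl : List ℕ) : zoneE z (v :: tl) = 3 * z + 2 := by simp [zoneE]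

theorem zoneE_nil (z : ℕ) : zoneE z [] = 3 * z + 3 := by simp [zoneE]

theorem zone_tokR_cons (z : ℕ) (f g : Bool) (v : ℕ) (tl : List ℕ) :
    (tokR z f g (v :: tl) : List (Cell C B)) =
      zoneC .tok (3 * z + 2) (zoneE z tl) f g v :: tokR z f g tl := by
  cases tl with
  | nil => rfl
  | cons w l => rfl

theorem zone_tokR_length (z : ℕ) (f g : Bool) (tl : List ℕ) :
    (tokR z f g tl : List (Cell C B)).length = tl.length := by
  induction tl with
  | nil => rfl
  | cons v tl ih => rw [zone_tokR_cons, List.length_cons, ih, List.length_cons]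

theorem zone_tokR_kind (z : ℕ) (f g : Bool) (tl : List ℕ) :
    ∀ x ∈ (tokR z f g tl : List (Cell C B)), x.t.kind = .tok := by
  induction tl with
  | nil => simp [tokR]
  | cons v tl ih =>
    rw [zone_tokR_cons]
    intro x hx
    rcases List.mem_cons.1 hx with rfl | hx
    · rfl
    · exact ih x hx

theorem zone_wf_tok {z i j : ℕ} (hz : z < C) (f g : Bool) {v : ℕ} (hv : v < nn B k)
    (h : ((i = 3 * z ∨ i = 3 * z + 1) ∧ j = 3 * z + 1) ∨
      (i = 3 * z + 2 ∧ (j = 3 * z + 2 ∨ j = 3 * z + 3))) :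
    WFc k (zoneC .tok i j f g v : Cell C B) := by
  refine ⟨?_, fun _ => ⟨rfl, hv⟩, fun h => absurd h (by simp [zoneC, Kind.big])⟩
  simp only [zoneC, Tag.OK, Fin.ext_iff]
  rw [zone_ph (by omega), zone_ph (by omega)]
  omega

theorem zone_wf_cnt {z i j : ℕ} (hz : z < C) (f g : Bool) {v : ℕ} (hv : v < nn B k)
    (h : (i = 3 * z ∧ j = 3 * z + 2) ∨ (i = 3 * z + 1 ∧ (j = 3 * z + 2 ∨ j = 3 * z + 3))) :
    WFc k (zoneC .cnt i j f g v : Cell C B) := by
  refine ⟨?_, fun _ => ⟨rfl, hv⟩, fun h => absurd h (by simp [zoneC, Kind.big])⟩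
  simp only [zoneC, Tag.OK]
  rw [zone_ph (by omega), zone_ph (by omega)]
  omega

/-- the counter crosses a token -/
theorem zone_cnt_step {z i e : ℕ} (hz : z < C) (f g : Bool) {cv v : ℕ} (hc : cv < nn B k)
    (hv : v < nn B k) (hi : i = 3 * z ∨ i = 3 * z + 1) (he : e = 3 * z + 2 ∨ e = 3 * z + 3) :
    (skel C B k).step (zoneC .cnt i (3 * z + 2) f g cv) (zoneC .tok (3 * z + 2) e f g v)
      (zoneC .tok i (3 * z + 1) f g v) (zoneC .cnt (3 * z + 1) e f g ((cv + 1) % nn B k)) := by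
  refine ⟨zone_wf_cnt hz f g hc (by omega), zone_wf_tok hz f g hv (by omega),
    zone_wf_tok hz f g hv (by omega), zone_wf_cnt hz f g (Nat.mod_lt _ (nn_pos B k)) (by omega),
    true, ?_, rfl, rfl, rfl, rfl⟩
  refine InSw.cnt (t := ⟨.cnt, ph C i, ph C (3 * z + 2), f, g⟩)
    (t' := ⟨.tok, ph C (3 * z + 2), ph C e, f, g⟩) (ψ := ph C (3 * z + 1))
    (by simp [inAdj, Tag.tgt, Tag.src, Kind.isR]) rfl rfl ?_ ?_
  · change (ph C (3 * z + 2) : ℕ) % 3 = 2
    rw [zone_ph (by omega)]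
    omega
  · change (ph C (3 * z + 1) : ℕ) + 1 = (ph C (3 * z + 2) : ℕ)
    rw [zone_ph (by omega), zone_ph (by omega)]

theorem zone_TT {z e : ℕ} (hz : z < C) (f g : Bool) (v w : ℕ) :
    TT (zoneC .tok (3 * z + 2) (3 * z + 2) f g v : Cell C B).t
      (zoneC .tok (3 * z + 2) e f g w : Cell C B).t := by
  refine ⟨by simp [zoneC, inAdj, Tag.tgt, Tag.src, Kind.isR], rfl, rfl, ?_⟩
  change (ph C (3 * z + 2) : ℕ) % 3 ≠ 0
  rw [zone_ph (by omega)]
  omega

/-- the first cell of a path of tokens and counters -/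
theorem zone_head {i : ℕ} {f g : Bool} {b : Vtx} {y : Cell C B} {u : List (Cell C B)}
    (h : Path k (i, f, g) (y :: u) b) (hy : y.t.kind = .tok ∨ y.t.kind = .cnt) :
    ∃ j, y = zoneC y.t.kind i j f g y.v ∧ y.v < nn B k ∧ Path k (j, f, g) u b ∧
      (y.t.kind = .tok → (i % 3 = 0 ∧ j = i + 1) ∨ (i % 3 ≠ 0 ∧ j = i) ∨ (i % 3 = 2 ∧ j = i + 1)) ∧
      (y.t.kind = .cnt →
        (i % 3 = 0 ∧ j = i + 2) ∨ (i % 3 = 1 ∧ j = i + 1) ∨ (i % 3 = 1 ∧ j = i + 2)) := by
  obtain ⟨hw, hs, hp⟩ := path_cons_iff.1 h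
  obtain ⟨⟨kd, φ, φ', hq, hr⟩, a, v⟩ := y
  simp only [Tag.src, Prod.mk.injEq] at hs
  obtain ⟨rfl, rfl, rfl⟩ := hs
  have e : ∀ ψ : Fin (3 * C + 1), ph C ψ = ψ := fun ψ =>
    Fin.ext (zone_ph (Nat.lt_succ_iff.1 ψ.2))
  rcases hy with hy | hy
  · obtain rfl : kd = .tok := hy
    obtain ⟨rfl, hv⟩ : a = a0 ∧ v < nn B k := hw.2.1 rfl
    refine ⟨φ', by simp only [zoneC, e], hv, by simpa [Tag.tgt, Kind.isR] using hp, fun _ => ?_,
      fun h => absurd h (by simp)⟩
    have := hw.1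
    simp only [Tag.OK, Fin.ext_iff] at this
    exact this
  · obtain rfl : kd = .cnt := hy
    obtain ⟨rfl, hv⟩ : a = a0 ∧ v < nn B k := hw.2.1 rfl
    exact ⟨φ', by simp only [zoneC, e], hv, by simpa [Tag.tgt, Kind.isR] using hp,
      fun h => absurd h (by simp), fun _ => hw.1⟩

theorem zone_end {z : ℕ} {f g : Bool} {u : List (Cell C B)}
    (h : Path k (3 * z + 3, f, g) u (3 * z + 3, f, g))
    (hu : ∀ x ∈ u, x.t.kind = .tok ∨ x.t.kind = .cnt) : u = [] := by
  cases u with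
  | nil => rfl
  | cons y u =>
    obtain ⟨j, -, -, hp, h1, h2⟩ := zone_head h (hu y (by simp))
    have := hp.mono.1
    simp only at this
    rcases hu y (by simp) with hy | hy
    · have := h1 hy
      omega
    · have := h2 hy
      omega

theorem zone_right {z : ℕ} {f g : Bool} {u : List (Cell C B)}
    (h : Path k (3 * z + 2, f, g) u (3 * z + 3, f, g))
    (hu : ∀ x ∈ u, x.t.kind = .tok ∨ x.t.kind = .cnt) :
    ∃ tl, u = tokR z f g tl ∧ tl ≠ [] ∧ ∀ v ∈ tl, v < nn B k := by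
  induction u with
  | nil =>
    have := path_nil_iff.1 h
    simp at this
  | cons y u ih =>
    obtain ⟨j, e, hv, hp, h1, h2⟩ := zone_head h (hu y (by simp))
    have hu' : ∀ x ∈ u, x.t.kind = .tok ∨ x.t.kind = .cnt := fun x hx => hu x (by simp [hx])
    rcases hu y (by simp) with hy | hy
    · rw [hy] at e
      obtain rfl | rfl : j = 3 * z + 2 ∨ j = 3 * z + 3 := by
        have := h1 hy
        omega
      · obtain ⟨tl, rfl, h0, htl⟩ := ih hp hu'
        refine ⟨y.v :: tl, ?_, by simp, by simpa [hv] using htl⟩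
        rw [zone_tokR_cons, zoneE, if_neg h0, ← e]
      · obtain rfl := zone_end hp hu'
        refine ⟨[y.v], ?_, by simp, by simpa using hv⟩
        rw [zone_tokR_cons, zoneE_nil, ← e]
        rfl
    · have := h2 hy
      omega

theorem zone_nf_aux {z : ℕ} (hz : z < C) {f g : Bool} {u : List (Cell C B)} {i : ℕ}
    (hi : i = 3 * z ∨ i = 3 * z + 1) (h : Path k (i, f, g) u (3 * z + 3, f, g))
    (hu : ∀ x ∈ u, x.t.kind = .tok ∨ x.t.kind = .cnt) :
    ∃ cv tl, (skel C B k).Eqv u (zoneC .cnt i (zoneE z tl) f g cv :: tokR z f g tl) ∧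
      (tl = [] → i = 3 * z + 1) ∧ cv < nn B k ∧ (∀ v ∈ tl, v < nn B k) ∧
      ∃ t, List.Sublist t u ∧ t.length = tl.length ∧ ∀ x ∈ t, x.t.kind = .tok := by
  induction u generalizing i with
  | nil =>
    have := path_nil_iff.1 h
    simp only [Prod.mk.injEq] at this
    omega
  | cons y u ih =>
    obtain ⟨j, e, hv, hp, h1, h2⟩ := zone_head h (hu y (by simp))
    have hu' : ∀ x ∈ u, x.t.kind = .tok ∨ x.t.kind = .cnt := fun x hx => hu x (by simp [hx])
    rcases hu y (by simp) with hy | hy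
    · rw [hy] at e
      obtain rfl : j = 3 * z + 1 := by
        have := h1 hy
        omega
      obtain ⟨cv, tl, he, -, hc, htl, t, ht1, ht2, ht3⟩ := ih (Or.inr rfl) hp hu'
      have hn := nn_pos B k
      have hc' : (cv + nn B k - 1) % nn B k < nn B k := Nat.mod_lt _ hn
      have hc'' : ((cv + nn B k - 1) % nn B k + 1) % nn B k = cv := by
        rw [Nat.mod_add_mod, show cv + nn B k - 1 + 1 = cv + nn B k by omega, Nat.add_mod_right,
          Nat.mod_eq_of_lt hc]
      refine ⟨(cv + nn B k - 1) % nn B k, y.v :: tl, (he.cons y).trans ?_, by simp, hc',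
        by simpa [hv] using htl, y :: t, ht1.cons_cons y, by simp [ht2], by simpa [hy] using ht3⟩
      have := RW.Eqv.rule (zone_cnt_step (C := C) hz f g hc' hv hi (zoneE_cases z tl)) []
        (tokR z f g tl)
      rw [hc'', ← e] at this
      rw [zone_tokR_cons, zoneE_cons]
      exact this.symm
    · rw [hy] at e
      obtain rfl | ⟨rfl, rfl⟩ : j = 3 * z + 2 ∨ (j = 3 * z + 3 ∧ i = 3 * z + 1) := by
        have := h2 hy
        omega
      · obtain ⟨tl, rfl, h0, htl⟩ := zone_right hp hu'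
        refine ⟨y.v, tl, RW.Eqv.of_eq ?_, fun h => absurd h h0, hv, htl, tokR z f g tl,
          List.sublist_cons_self _ _, zone_tokR_length _ _ _ _, zone_tokR_kind _ _ _ _⟩
        rw [zoneE, if_neg h0, ← e]
      · obtain rfl := zone_end hp hu'
        refine ⟨y.v, [], RW.Eqv.of_eq ?_, fun _ => rfl, hv, by simp, [], by simp, rfl, by simp⟩
        rw [zoneE_nil, ← e]
        rfl

/-- Normal form of a zone without heads: it consists of tokens, one counter, tokens; move the counter to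
the front (`InSw.cnt` backwards). -/
theorem zone_nf {z : ℕ} (hz : z < C) {f g : Bool} {u : List (Cell C B)}
    (h : Path k (3 * z, f, g) u (3 * z + 3, f, g))
    (hu : ∀ x ∈ u, x.t.kind = .tok ∨ x.t.kind = .cnt) :
    ∃ cv tl, (skel C B k).Eqv u (zoneW z f g cv tl) ∧ tl ≠ [] ∧ cv < nn B k ∧ (∀ v ∈ tl, v < nn B k) ∧
      ∃ t, List.Sublist t u ∧ t.length = tl.length ∧ ∀ x ∈ t, x.t.kind = .tok := by
  obtain ⟨cv, tl, he, h0, hc, htl, ht⟩ := zone_nf_aux hz (Or.inl rfl) h hu
  have h0' : tl ≠ [] := fun h => by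
    have := h0 h
    omega
  rw [zoneE, if_neg h0'] at he
  exact ⟨cv, tl, he, h0', hc, htl, ht⟩

theorem zoneW_length (z : ℕ) (f g : Bool) (cv : ℕ) (tl : List ℕ) :
    (zoneW z f g cv tl : List (Cell C B)).length = tl.length + 1 := by
  rw [zoneW, List.length_cons, zone_tokR_length]

theorem zone_path_cons {kd : Kind} (hk : kd = .tok ∨ kd = .cnt) {i j : ℕ} (hi : i ≤ 3 * C)
    (hj : j ≤ 3 * C) {f g : Bool} {v : ℕ} {u : List (Cell C B)} {b : Vtx}
    (hw : WFc k (zoneC kd i j f g v : Cell C B)) (h : Path k (j, f, g) u b) :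
    Path k (i, f, g) (zoneC kd i j f g v :: u) b := by
  refine path_cons_iff.2 ⟨hw, ?_, ?_⟩
  · simp only [zoneC, Tag.src, zone_ph hi]
  · rcases hk with rfl | rfl <;> simpa [zoneC, Tag.tgt, zone_ph hj, Kind.isR] using h

theorem zone_tokR_path {z : ℕ} (hz : z < C) (f g : Bool) {tl : List ℕ}
    (ht : ∀ v ∈ tl, v < nn B k) :
    Path k (zoneE z tl, f, g) (tokR z f g tl : List (Cell C B)) (3 * z + 3, f, g) := by
  induction tl with
  | nil => rw [zoneE_nil]; exact Path.nil _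
  | cons v tl ih =>
    rw [zoneE_cons, zone_tokR_cons]
    have := zoneE_cases z tl
    exact zone_path_cons (Or.inl rfl) (by omega) (by omega)
      (zone_wf_tok hz f g (ht v (by simp)) (by omega)) (ih fun w hw => ht w (by simp [hw]))

theorem zoneW_path {z : ℕ} (hz : z < C) (f g : Bool) {cv : ℕ} {tl : List ℕ} (h0 : tl ≠ [])
    (hc : cv < nn B k) (ht : ∀ v ∈ tl, v < nn B k) :
    Path k (3 * z, f, g) (zoneW z f g cv tl : List (Cell C B)) (3 * z + 3, f, g) := by
  have h := zone_tokR_path (C := C) hz f g ht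
  rw [zoneE, if_neg h0] at h
  exact zone_path_cons (Or.inr rfl) (by omega) (by omega) (zone_wf_cnt hz f g hc (by omega)) h

theorem zone_tokR_perm {z : ℕ} (hz : z < C) (f g : Bool) {tl tl' : List ℕ}
    (ht : ∀ v ∈ tl, v < nn B k) (hp : tl.Perm tl') :
    (skel C B k).Eqv (tokR z f g tl) (tokR z f g tl') := by
  induction hp with
  | nil => exact RW.Eqv.rfl
  | @cons v l l' hp ih =>
    have e : zoneE z l = zoneE z l' := by
      have : l = [] ↔ l' = [] := by
        rw [← List.length_eq_zero_iff, ← List.length_eq_zero_iff, hp.length_eq]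
      simp only [zoneE, this]
    rw [zone_tokR_cons, zone_tokR_cons, e]
    exact (ih fun w hw => ht w (by simp [hw])).cons _
  | swap v w l =>
    simp only [zone_tokR_cons, zoneE_cons]
    have he := zoneE_cases z l
    have hv : v < nn B k := ht v (by simp)
    have hw : w < nn B k := ht w (by simp)
    refine RW.Eqv.rule (S := skel C B k) ?_ [] _
    exact ⟨zone_wf_tok hz f g hw (by omega), zone_wf_tok hz f g hv (by omega),
      zone_wf_tok hz f g hv (by omega), zone_wf_tok hz f g hw (by omega), false,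
      InSw.tt (zone_TT hz f g w v), rfl, rfl, rfl, rfl⟩
  | trans h₁ _ ih₁ ih₂ => exact (ih₁ ht).trans (ih₂ fun v hv => ht v (h₁.mem_iff.2 hv))

/-- the tokens can be permuted (`List.Perm` induction, `InSw.tt`) -/
theorem zoneW_perm {z : ℕ} (hz : z < C) (f g : Bool) (cv : ℕ) {tl tl' : List ℕ}
    (ht : ∀ v ∈ tl, v < nn B k) (hp : tl.Perm tl') :
    (skel C B k).Eqv (zoneW z f g cv tl) (zoneW z f g cv tl') := by
  exact (zone_tokR_perm hz f g ht hp).cons _

/-- move the counter to the end of the zone -/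
theorem zone_cnt_end {z : ℕ} (hz : z < C) (f g : Bool) {tl : List ℕ} (h0 : tl ≠ [])
    (ht : ∀ v ∈ tl, v < nn B k) {i cv : ℕ} (hi : i = 3 * z ∨ i = 3 * z + 1) (hc : cv < nn B k) :
    ∃ p : List (Cell C B), (skel C B k).Eqv (zoneC .cnt i (3 * z + 2) f g cv :: tokR z f g tl)
      (p ++ [zoneC .cnt (3 * z + 1) (3 * z + 3) f g ((cv + tl.length) % nn B k)]) := by
  induction tl generalizing i cv with
  | nil => exact absurd rfl h0
  | cons v tl ih =>
    have h1 := RW.Eqv.rule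
      (zone_cnt_step (C := C) hz f g hc (ht v (by simp)) hi (zoneE_cases z tl)) [] (tokR z f g tl)
    rw [zone_tokR_cons]
    by_cases h : tl = []
    · subst h
      rw [zoneE_nil] at h1 ⊢
      exact ⟨[_], h1⟩
    · obtain ⟨p, hp⟩ := ih h (fun w hw => ht w (by simp [hw])) (Or.inr rfl)
        (Nat.mod_lt (cv + 1) (nn_pos B k))
      rw [Nat.mod_add_mod, show cv + 1 + tl.length = cv + (v :: tl).length by simp; omega] at hp
      rw [zoneE, if_neg h] at h1 ⊢
      exact ⟨_ :: p, h1.trans (hp.cons _)⟩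

theorem zone_tokR_mem (z : ℕ) (f g : Bool) {tl : List ℕ} {v : ℕ} (hv : v ∈ tl) :
    ∃ x ∈ (tokR z f g tl : List (Cell C B)), x.v = v := by
  induction tl with
  | nil => simp at hv
  | cons w tl ih =>
    rw [zone_tokR_cons]
    rcases List.mem_cons.1 hv with rfl | hv
    · exact ⟨_, List.mem_cons_self, rfl⟩
    · obtain ⟨x, hx, e⟩ := ih hv
      exact ⟨x, List.mem_cons_of_mem _ hx, e⟩

/-- In a non-zero zone the counter is `0` in front (`A0`), the tokens are different (`tok_swap`), and after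
moving the counter to the end its value `tl.length % n` is `0` (`A0`); so `tl.length = n`. -/
theorem zoneW_nz {z : ℕ} (hz : z < C) {f g : Bool} {cv : ℕ} {tl : List ℕ} (h0 : tl ≠ [])
    (h : ¬ (sysk C B k).Zero (zoneW z f g cv tl)) : cv = 0 ∧ tl.Perm (List.range (nn B k)) := by
  have hn := nn_pos B k
  have hcv : cv = 0 := by
    by_contra hc
    refine h (RW.Zero.of_z1 (x := zoneC .cnt (3 * z) (3 * z + 2) f g cv) List.mem_cons_self
      (Or.inr (Or.inr ⟨Or.inl ⟨rfl, Or.inl ?_⟩, hc⟩)))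
    change (ph C (3 * z) : ℕ) % 3 = 0
    rw [zone_ph (by omega)]
    omega
  subst hcv
  have ht : ∀ v ∈ tl, v < nn B k := fun v hv => by
    obtain ⟨x, hx, rfl⟩ := zone_tokR_mem (C := C) (B := B) z f g hv
    have hw := nz_wf h x (List.mem_cons_of_mem _ hx)
    exact (hw.2.1 (by rw [zone_tokR_kind z f g tl x hx]; rfl)).2
  have hnd : tl.Nodup := by
    by_contra hd
    obtain ⟨v, hv⟩ := List.exists_duplicate_iff_not_nodup.2 hd
    obtain ⟨l, hl⟩ := (List.duplicate_iff_sublist.1 hv).exists_perm_append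
    refine h (RW.Zero.of_eqv ?_ (skel_le (zoneW_perm hz f g 0 ht hl)))
    simp only [zoneW, List.cons_append, List.nil_append, zone_tokR_cons, zoneE_cons]
    refine RW.Zero.of_z2 (S := sysk C B k) ?_ [_] _
    exact Or.inr (Or.inl ⟨Or.inl (zone_TT hz f g v v), rfl⟩)
  have hsub : tl.Subperm (List.range (nn B k)) :=
    hnd.subperm fun v hv => List.mem_range.2 (ht v hv)
  have hlen : tl.length % nn B k = 0 := by
    by_contra hc
    obtain ⟨p, hp⟩ := zone_cnt_end (C := C) hz f g h0 ht (Or.inl rfl) hn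
    refine h (RW.Zero.of_eqv ?_ (skel_le hp))
    refine RW.Zero.of_z1 (x := zoneC .cnt (3 * z + 1) (3 * z + 3) f g ((0 + tl.length) % nn B k))
      (by simp) (Or.inr (Or.inr ⟨Or.inl ⟨rfl, Or.inr ?_⟩, by rwa [zero_add]⟩))
    change (ph C (3 * z + 3) : ℕ) % 3 = 0
    rw [zone_ph (by omega)]
    omega
  refine ⟨rfl, hsub.perm_of_length_le ?_⟩
  rw [List.length_range]
  exact Nat.le_of_dvd (List.length_pos_iff.2 h0) (Nat.dvd_of_mod_eq_zero hlen)

end Crest.Agent.R176
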